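import Vale.Agent.P032.H416.Top2
import Vale.Agent.P032.H416.TopA
import Vale.Agent.P032.H471.Net22

/-!
# P032: the blocks `NoCompB`, `Sil6N` in the world where the four coloured points at distance one
from two-pair points have the palette of the two-pair point (helper987)

`exists_pair_of` (H416/TopA) only needs the top in this world; there the rule W0 (points of order at
least four of the circle of a two-pair point have its palette) is a hypothesis.

`NoCompJ`, `Sil6J` : the blocks with this hypothesis.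
`OnlyJT.w0`, `OnlyJT.onlyJC`, `OnlyJT.onlyJ22` : W0 in the forms used by the files on complementary
ends.
`exists_pair4J` : the statement in the plane from `NoCompJ` and `Sil6J`.
-/

open Set Filter Topology Metric

noncomputable section

namespace Vale.Agent.P032.H987

open Vale.Agent.P032.Six Vale.Agent.P032.S5.H843 Vale.Agent.P032.S5.H926 Vale.Agent.P032.Words6
  Vale.Agent.P032.S5.H138 Vale.Agent.P032.H471 Vale.Agent.P032.S5.H450 Vale.Agent.P032.H838

variable {U : Fin 6 → Set ℂ} {T : ℂ → Set (Fin 6)}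

/-- four coloured points at distance one from two-pair points have the palette of the two-pair
point -/
def OnlyJT (T : ℂ → Set (Fin 6)) : Prop :=
  ∀ z v, (∃ a b c d, DPt T z a b c d) → dist v z = 1 → (T v).ncard = 4 → T v = T z

/-- block: complementary plain ends, under `OnlyJT` -/
def NoCompJ : Prop := ∀ (U : Fin 6 → Set ℂ) (T : ℂ → Set (Fin 6)), Irr U T → Mn U T →
  NoPair5 T → OnlyJT T → NoComp T

/-- block: silent colours at points with six colours, under `OnlyJT` -/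
def Sil6J : Prop := ∀ (U : Fin 6 → Set ℂ) (T : ℂ → Set (Fin 6)), Irr U T → Mn U T →
  NoPair5 T → OnlyJT T → NoComp T → (∀ z, (T z).ncard ≠ 5) →
  ∀ z, (T z).ncard = 6 → (∀ y, dist y z = 1 → (T y).ncard ≤ 3) →
    ∀ i, (∀ q, dist q z = 1 → i ∈ T q → (T q).ncard ≠ 2) → False

theorem NoCompB.toJ (NC : NoCompB) : NoCompJ := fun U T h hmin h5 _ => NC U T h hmin h5

theorem Sil6N.toJ (HS : Sil6N) : Sil6J := fun U T h hmin h5 _ => HS U T h hmin h5

/-- W0 -/
theorem OnlyJT.w0 (hJ : OnlyJT T) (h5 : NoPair5 T) {z y : ℂ} (hz : ∃ a b c d, DPt T z a b c d)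
    (hy : dist y z = 1) : (T y).ncard ≤ 3 ∨ T y = T z := by
  by_contra hcon
  push Not at hcon
  have h1 : (T y).ncard ≠ 4 := fun h2 => hcon.2 (hJ z y hz hy h2)
  obtain ⟨a, b, c, d, hz⟩ := hz
  exact h5 y z hy (by omega) (ncard_DPt hz)

theorem OnlyJT.onlyJC (hJ : OnlyJT T) (h : Irr U T) (h5 : NoPair5 T) : OnlyJC T := by
  intro z v q y hv hq hc hy
  obtain ⟨a, b, c, d, e, f, C⟩ := cfg_of_nd h (nd_of_ee h hv hq hc) hv.card_z
  exact hJ.w0 h5 ⟨a, b, c, d, C.dp⟩ hy

theorem OnlyJT.onlyJ22 (hJ : OnlyJT T) (h : Irr U T) (h5 : NoPair5 T) : OnlyJ22 T :=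
  (hJ.onlyJC h h5).only22

/-- at most four colours -/
theorem le4_of_j (htab : ∀ L ∈ H122.Lets35, H358.TreeOK L) (HS : Sil6J)
    (h : Irr U T) (hmin : Mn U T) (h5 : NoPair5 T) (hJ : OnlyJT T)
    (hN : NoComp T) (z : ℂ) : (T z).ncard ≤ 4 := by
  have hn := no5_of_nc h hmin h5 hN
  by_contra hcon
  have h6 : (T z).ncard = 6 := by
    have h1 := ncard_le_six (T z)
    have h2 := hn z
    omega
  have hcl : ∀ y, dist y z = 1 → (T y).ncard ≤ 3 := by
    intro y hy
    by_contra hcon'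
    exact h5 z y (by rw [dist_comm]; exact hy) (by omega) (by omega)
  refine no_six_rs htab h hmin h6 hcl
    (fun X hX v q hv hq hTv hTq => rs_of_nc h hN hn h6 hX hv hq hTv hTq) fun i => ?_
  by_contra hc
  push Not at hc
  exact HS U T h hmin h5 hJ hN hn z h6 hcl i fun q h1 h2 => hc q h1 h2

/-- the frame `DF` -/
theorem df_of_j (htab : ∀ L ∈ H122.Lets35, H358.TreeOK L) (HS : Sil6J)
    (h : Irr U T) (hmin : Mn U T) (h5 : NoPair5 T) (hJ : OnlyJT T)
    (hN : NoComp T) : DF U T :=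
  have h4 := le4_of_j htab HS h hmin h5 hJ hN
  ⟨h, hmin, h4, fun c R => (h.finite_D hmin h4 c R).subset fun _ hz => ⟨hz.2, mem_closedBall.2 hz.1⟩⟩

/-- no frame `DF` in this world -/
theorem no_df_j (h : DF U T) (hN : NoComp T) (hJ : OnlyJT T) : False := by
  have hF : ∀ z, (∃ a b c d, DPt T z a b c d) → FullP T z := fun z hz =>
    fullP_of_same h.irr hN hz fun y hy hy4 => hJ z y hz hy (le_antisymm (h.le4 y) hy4)
  obtain ⟨z, a, b, c, d, hD, y, hy, hy4⟩ := h.irr.exists_dpair' h.mn h.le4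
  obtain ⟨V, ρ, S, C, -, J⟩ := exists_JCh h.irr (fun z hz _ => (hF z hz).1)
    ⟨a, b, c, d, hD⟩ hy hy4.ge
  exact chainB U T h hN hF (H695.parB U T h hN hF) V ρ S C J

/-- **no frame in this world**, from the two blocks -/
theorem no_frame_j (htab : ∀ L ∈ H122.Lets35, H358.TreeOK L) (NC : NoCompJ) (HS : Sil6J)
    (h : Irr U T) (hmin : Mn U T) (h5 : NoPair5 T) (hJ : OnlyJT T) : False :=
  have hN := NC U T h hmin h5 hJ
  no_df_j (df_of_j htab HS h hmin h5 hJ hN) hN hJ

/-- **unit pairs in maximal families**, from the two blocks -/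
theorem exists_pair4J (htab : ∀ L ∈ H122.Lets35, H358.TreeOK L) (NC : NoCompJ) (HS : Sil6J)
    {U : Fin 6 → Set (EuclideanSpace ℝ (Fin 2))}
    (hU : ∀ i, Maximal (fun W : Set (EuclideanSpace ℝ (Fin 2)) =>
      IsOpen W ∧ ∀ x ∈ W, ∀ y ∈ W, dist x y ≠ 1) (U i))
    (hd : Dense (⋃ i, U i)) :
    ∃ z z', dist z z' = 1 ∧ ((z ∈ XU U 4 ∧ z' ∈ XU U 3) ∨
      ∃ S S' : Set (Fin 6), S ≠ S' ∧ DSU U S z ∧ MSU U S' z') :=
  exists_pair_of hU hd fun _ _ h hmin h5 hJ => no_frame_j htab NC HS h hmin h5 hJ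

end Vale.Agent.P032.H987
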