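import Vale.Agent.P032.H987.Lab
import Vale.Agent.P032.H824.JJ
import Vale.Agent.P032.H824.ZoneEx
import Vale.Agent.P032.H471.Two

/-!
# P032: the class theorem at a comp centre (helper987)

`czE_of` : a two-pair point `z` with two complementary points `v`, `q` of `S(z)`, not antipodal, all
points of `S(z)` of order at least four with the palette of `z`, no unit pair of order `(≥ 5, ≥ 4)`:
`CzE`, and the labelled points of `S(z)` are finite in number.
`exists_zn` : the zones, after naming the colours in the two pairs.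
-/

open Set Filter Topology Metric

noncomputable section

namespace Vale.Agent.P032.H987

open Vale.Agent.P032.Six Vale.Agent.P032.S5.H767 Vale.Agent.P032.S5.H122 Vale.Agent.P032.Sweep
  Vale.Agent.P032.S5.H349 Vale.Agent.P032.S5.H450

variable {U : Fin 6 → Set ℂ} {T : ℂ → Set (Fin 6)} {z v q : ℂ} {a b c d e f : Fin 6}

theorem compl987 (S : Cz U T z a b c d e f) : ({a, b, e} : Set (Fin 6))ᶜ = {c, d, f} := by
  obtain ⟨⟨ab, ac, ad, ae, af⟩, ⟨bc, bd, be, bf⟩, ⟨cd, ce, cf⟩, ⟨de, df⟩, ef⟩ := S.nd'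
  ext i
  simp only [mem_compl_iff, mem_insert_iff, mem_singleton_iff, not_or]
  constructor
  · rintro ⟨h1, h2, h3⟩
    rcases S.ctr.all i with h | h | h | h | h | h
    exacts [absurd h h1, absurd h h2, Or.inl h, Or.inr (Or.inl h), absurd h h3,
      Or.inr (Or.inr h)]
  · rintro (rfl | rfl | rfl)
    exacts [⟨ac.symm, bc.symm, ce⟩, ⟨ad.symm, bd.symm, de⟩, ⟨af.symm, bf.symm, ef.symm⟩]

/-- **the class theorem applies at a comp centre** -/
theorem czE_of (h : Irr U T) (hz : DPt T z a b c d) (nd : [a, b, c, d, e, f].Nodup)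
    (w0 : ∀ y, dist y z = 1 → (T y).ncard ≤ 3 ∨ T y = T z)
    (h5 : ∀ x y, dist x y = 1 → 5 ≤ (T x).ncard → 4 ≤ (T y).ncard → False)
    (hv : dist v z = 1) (Tv : T v = {a, b, e}) (hq : dist q z = 1) (Tq : T q = {c, d, f})
    (hop : v + q ≠ 2 * z) :
    CzE U T z a b c d e f ∧ {y | dist y z = 1 ∧ lb T z a b c d e f y ≠ 0}.Finite := by
  have S : Cz U T z a b c d e f := ⟨h, hz, nd, w0⟩
  obtain ⟨⟨ab, ac, ad, ae, af⟩, ⟨bc, bd, be, bf⟩, ⟨cd, ce, cf⟩, ⟨de, df⟩, ef⟩ := S.nd'
  have he : e ∉ T z := by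
    rw [hz.pal]
    simp only [mem_insert_iff, mem_singleton_iff, not_or]
    exact ⟨ae.symm, be.symm, ce.symm, de.symm⟩
  have hf : f ∉ T z := by
    rw [hz.pal]
    simp only [mem_insert_iff, mem_singleton_iff, not_or]
    exact ⟨af.symm, bf.symm, cf.symm, df.symm⟩
  have cX : ({a, b, e} : Set (Fin 6))ᶜ = {c, d, f} := compl987 S
  have nX : ({a, b, e} : Set (Fin 6)).ncard = 3 := ncard_three ab ae be
  have heX : e ∈ ({a, b, e} : Set (Fin 6)) := by simp
  have hfX : f ∈ ({a, b, e} : Set (Fin 6))ᶜ := by rw [cX]; simp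
  have heX' : e ∈ ({a, b, e} : Set (Fin 6))ᶜᶜ := by rw [compl_compl]; exact heX
  have N : Nd T {a, b, e} z v q :=
    ⟨nX, by rw [dist_comm]; exact hv, by rw [dist_comm]; exact hq, Tv, by rw [Tq, cX], hop⟩
  have clX : ∀ m, dist m z = 1 → T m = {a, b, e} → Cln T z m := fun m hm Tm =>
    N.cln471 h hfX hf (N.node_x h hfX hf hm Tm) heX he
  have clXc : ∀ m, dist m z = 1 → T m = {c, d, f} → Cln T z m := fun m hm Tm =>
    N.swap.cln471 h heX' he (N.node_y h heX he hm (by rw [Tm, cX])).swap hfX hf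
  refine ⟨⟨S, fun y hy hT => hT.elim (clX y hy) (clXc y hy), fun s h1 h2 => ?_⟩, ?_⟩
  · refine h.no_JJ824 hz (dist_pt z s) (dist_pt z (s + 1)) (dist_pt_one z s) h1 h2 ?_
    by_contra hcon
    refine h5 (pt z s + pt z (s + 1) - z) (pt z s) ?_ (by omega) ?_
    · rw [dist_eq_norm, show pt z s + pt z (s + 1) - z - pt z s = pt z (s + 1) - z by ring,
        ← dist_eq_norm]
      exact dist_pt z (s + 1)
    · rw [h1, S.four]
  · -- finiteness
    have f1 : {y | dist y z = 1 ∧ T y = {a, b, e}}.Finite := by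
      have h1 := N.pts_finite471 h hfX hf (c' := z) (by rw [dist_comm]; exact hq)
      refine (h1.union (Set.finite_singleton (2 * z - q))).subset ?_
      rintro y ⟨hy, hT⟩
      by_cases h2 : y + q = 2 * z
      · right
        rw [mem_singleton_iff]
        linear_combination h2
      · exact Or.inl ⟨hy, hT, h2⟩
    have f2 : {y | dist y z = 1 ∧ T y = {c, d, f}}.Finite := by
      have h1 := N.swap.pts_finite471 h heX' he (c' := z) (by rw [dist_comm]; exact hv)
      refine (h1.union (Set.finite_singleton (2 * z - v))).subset ?_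
      rintro y ⟨hy, hT⟩
      by_cases h2 : y + v = 2 * z
      · right
        rw [mem_singleton_iff]
        linear_combination h2
      · exact Or.inl ⟨hy, by rw [hT, cX], h2⟩
    have f3 : {y | dist y z = 1 ∧ T y = T z}.Finite := by
      by_contra hinf
      have hinf : {y | dist y z = 1 ∧ T y = T z}.Infinite := hinf
      obtain ⟨t, ht, hc⟩ := hinf.exists_subset_card_eq 3
      obtain ⟨x, y, w, hxy, hxw, hyw, rfl⟩ := Finset.card_eq_three.1 hc
      have hx := ht (show x ∈ ((({x, y, w} : Finset ℂ)) : Set ℂ) by simp)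
      have hy := ht (show y ∈ ((({x, y, w} : Finset ℂ)) : Set ℂ) by simp)
      have hw := ht (show w ∈ ((({x, y, w} : Finset ℂ)) : Set ℂ) by simp)
      exact h.no_three_J hz hx.1 hy.1 hw.1 hx.2 hy.2 hw.2 hxy hxw hyw
    refine ((f1.union f2).union f3).subset ?_
    rintro y ⟨hy, hl⟩
    unfold lb at hl
    by_cases h3 : T y = T z
    · exact Or.inr ⟨hy, h3⟩
    rw [if_neg h3] at hl
    by_cases h1 : T y = {a, b, e}
    · exact Or.inl (Or.inl ⟨hy, h1⟩)
    rw [if_neg h1] at hl
    by_cases h2 : T y = {c, d, f}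
    · exact Or.inl (Or.inr ⟨hy, h2⟩)
    rw [if_neg h2] at hl
    exact absurd rfl hl

/-- the zones of `ZnP824` in the form `Zn` -/
theorem zn_of {p p' q q' : ℝ} (Z : ZnP824 U T z a b c d p p' q q') : Zn T z a b c d p q := by
  obtain ⟨h1, h2, h3, h4, -, -⟩ := Z.two
  refine ⟨h1, h2, fun u hu => ?_, fun u hu => ?_⟩
  · obtain ⟨n, hn⟩ := h3 u hu
    exact ⟨n, hn.1, hn.2⟩
  · obtain ⟨n, hn⟩ := h4 u hu
    exact ⟨n, hn.1, hn.2⟩

end Vale.Agent.P032.H987
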