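import Vale.Agent.P032.H987.ExcD

/-!
# P032: the changes of the phase, check of all pairs of columns (helper987)
-/

set_option linter.style.longLine false

namespace Vale.Agent.P032.H987

theorem mr0 : ckM (zn 1) (zn 0) (lfT CL1 CL0 MR0) = true := by decide +kernel

theorem mr1 : ckM (zn 2) (zn 1) (lfT CL2 CL1 MR1) = true := by decide +kernel

theorem mr2 : ckM (zn 3) (zn 2) (lfT CL3 CL2 MR2) = true := by decide +kernel

theorem sr0 : ckM (zr 0) (zn 1) (lfS CL0 CL1 SR0) = true := by decide +kernel

theorem sr1 : ckM (zr 1) (zn 2) (lfS CL1 CL2 SR1) = true := by decide +kernel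

theorem sr2 : ckM (zr 2) (zn 3) (lfS CL2 CL3 SR2) = true := by decide +kernel

theorem zr1 : ckM (zr 1) (zn 1) (lfS CL1 CL1 ZR1) = true := by decide +kernel

theorem zr2 : ckM (zr 2) (zn 2) (lfS CL2 CL2 ZR2) = true := by decide +kernel


end Vale.Agent.P032.H987
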