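import Vale.Agent.P032.H987.ExcW
import Vale.Agent.P032.H987.ExcTA
import Vale.Agent.P032.H987.ExcTB

/-!
# P032: one circle in the mode `e` with at most two points of order at least four (helper987)

`exc_list` : both points exist, and the letter `f` is on exactly one side of each of them.
-/

open Set Filter Topology Metric

noncomputable section

namespace Vale.Agent.P032.H987

open Vale.Agent.P032.Six Vale.Agent.P032.S5.H767 Vale.Agent.P032.S5.H122 Vale.Agent.P032.Sweep

theorem tabS : ∀ k < 3, ∃ C0 C1 T0 T1 M S P Q, TabS k C0 C1 T0 T1 M S P Q := by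
  intro k hk
  interval_cases k
  · exact ⟨CL0, CL1, TR0, TR1, MR0, SR0, PR0, QR0, tr0, tr1, mr0, sr0, id0, id1, sp0, pp0, pq0, qq0,
      fq0⟩
  · exact ⟨CL1, CL2, TR1, TR2, MR1, SR1, PR1, QR1, tr1, tr2, mr1, sr1, id1, id2, sp1, pp1, pq1, qq1,
      fq1⟩
  · exact ⟨CL2, CL3, TR2, TR3, MR2, SR2, PR2, QR2, tr2, tr3, mr2, sr2, id2, id3, sp2, pp2, pq2, qq2,
      fq2⟩

theorem tabZ : ∀ k < 3, 0 < k → ∃ C T Z W, TabZ k C T Z W := by
  intro k hk h0
  interval_cases k
  · exact ⟨CL1, TR1, ZR1, WR1, tr1, zr1, id1, sw1, ww1, fw1⟩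
  · exact ⟨CL2, TR2, ZR2, WR2, tr2, zr2, id2, sw2, ww2, fw2⟩

theorem nX_one (x : Fin 6 → Bool) (h : ∀ i j, x i = true → x j = true → i = j) : nX x ≤ 1 := by
  have key : ∀ i j : Fin 6, i ≠ j → (x i).toNat + (x j).toNat ≤ 1 := by
    intro i j hij
    cases hi : x i <;> cases hj : x j
    · decide
    · decide
    · decide
    · exact absurd (h i j hi hj) hij
  by_cases h1 : ∃ j, x j = true
  · obtain ⟨j, hj⟩ := h1
    have h2 : ∀ i, i ≠ j → (x i).toNat = 0 := fun i hij => by
      have := key i j hij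
      rw [hj] at this
      have h3 : true.toNat = 1 := rfl
      omega
    have h3 : ∀ i, (x i).toNat ≤ 1 := fun i => by cases x i <;> decide
    unfold nX
    have g0 := h3 0
    have g1 := h3 1
    have g2 := h3 2
    have g3 := h3 3
    have g4 := h3 4
    have g5 := h3 5
    have c6 : ∀ j : Fin 6, j = 0 ∨ j = 1 ∨ j = 2 ∨ j = 3 ∨ j = 4 ∨ j = 5 := by decide
    rcases c6 j with rfl | rfl | rfl | rfl | rfl | rfl
    · have k1 := h2 1 (by decide)
      have k2 := h2 2 (by decide)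
      have k3 := h2 3 (by decide)
      have k4 := h2 4 (by decide)
      have k5 := h2 5 (by decide)
      omega
    · have k1 := h2 0 (by decide)
      have k2 := h2 2 (by decide)
      have k3 := h2 3 (by decide)
      have k4 := h2 4 (by decide)
      have k5 := h2 5 (by decide)
      omega
    · have k1 := h2 0 (by decide)
      have k2 := h2 1 (by decide)
      have k3 := h2 3 (by decide)
      have k4 := h2 4 (by decide)
      have k5 := h2 5 (by decide)
      omega
    · have k1 := h2 0 (by decide)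
      have k2 := h2 1 (by decide)
      have k3 := h2 2 (by decide)
      have k4 := h2 4 (by decide)
      have k5 := h2 5 (by decide)
      omega
    · have k1 := h2 0 (by decide)
      have k2 := h2 1 (by decide)
      have k3 := h2 2 (by decide)
      have k4 := h2 3 (by decide)
      have k5 := h2 5 (by decide)
      omega
    · have k1 := h2 0 (by decide)
      have k2 := h2 1 (by decide)
      have k3 := h2 2 (by decide)
      have k4 := h2 3 (by decide)
      have k5 := h2 4 (by decide)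
      omega
  · have h2 : ∀ i, (x i).toNat = 0 := fun i => by
      cases hi : x i
      · rfl
      · exact absurd ⟨i, hi⟩ h1
    unfold nX
    rw [h2 0, h2 1, h2 2, h2 3, h2 4, h2 5]
    omega

theorem nX_zero (x : Fin 6 → Bool) (h : ∀ i, x i ≠ true) : nX x = 0 := by
  have h2 : ∀ i, (x i).toNat = 0 := fun i => by
    cases hi : x i
    · rfl
    · exact absurd hi (h i)
  unfold nX
  rw [h2 0, h2 1, h2 2, h2 3, h2 4, h2 5]

theorem nX_add (x y w : Fin 6 → Bool) (h : ∀ i, x i = true → y i = true ∨ w i = true) :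
    nX x ≤ nX y + nX w := by
  have h2 : ∀ i, (x i).toNat ≤ (y i).toNat + (w i).toNat := fun i => by
    cases hi : x i
    · exact Nat.zero_le _
    · rcases h i hi with h3 | h3
      · rw [h3]; exact Nat.le_add_right _ _
      · rw [h3]; exact Nat.le_add_left _ _
  have k0 := h2 0
  have k1 := h2 1
  have k2 := h2 2
  have k3 := h2 3
  have k4 := h2 4
  have k5 := h2 5
  unfold nX
  omega

variable {U : Fin 6 → Set ℂ} {T : ℂ → Set (Fin 6)} {z : ℂ} {a b c d e f : Fin 6} {p q : ℝ}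

/-- a point is in one slot at one time -/
theorem slot_inj {φ u u' : ℝ} {j j' : Fin 6} (hu : u ∈ Ico (0 : ℝ) 1) (hu' : u' ∈ Ico (0 : ℝ) 1)
    (h : qj z φ u j = qj z φ u' j') : u = u' ∧ j = j' := by
  obtain ⟨n, hn⟩ := pt_eq_iff (show pt z (φ + u + (j.val : ℝ)) = pt z (φ + u' + (j'.val : ℝ)) from h)
  have h1 : u - u' = ((j'.val : ℤ) - (j.val : ℤ) + 6 * n : ℤ) := by push_cast; linarith
  have h2 : ((j'.val : ℤ) - (j.val : ℤ) + 6 * n : ℤ) = 0 := by
    have h3 : (((j'.val : ℤ) - (j.val : ℤ) + 6 * n : ℤ) : ℝ) < 1 := by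
      rw [← h1]; linarith [hu.2, hu'.1]
    have h4 : (-1 : ℝ) < (((j'.val : ℤ) - (j.val : ℤ) + 6 * n : ℤ) : ℝ) := by
      rw [← h1]; linarith [hu.1, hu'.2]
    have h5 : ((j'.val : ℤ) - (j.val : ℤ) + 6 * n : ℤ) < 1 := by exact_mod_cast h3
    have h6 : (-1 : ℤ) < ((j'.val : ℤ) - (j.val : ℤ) + 6 * n : ℤ) := by exact_mod_cast h4
    omega
  rw [h2] at h1
  push_cast at h1
  refine ⟨by linarith, ?_⟩
  have h7 := j.isLt
  have h8 := j'.isLt
  apply Fin.ext
  omega

open Classical in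
/-- the slots with the point `y` -/
def cY (z : ℂ) (φ : ℝ) (y : ℂ) (u : ℝ) (j : Fin 6) : Bool := decide (qj z φ u j = y)

theorem cY_sum (φ : ℝ) (y : ℂ) : ∀ L : List ℝ, L.Pairwise (· < ·) → (∀ u ∈ L, u ∈ Ico (0 : ℝ) 1) →
    sX (cY z φ y) L ≤ 1 := by
  classical
  have hd : ∀ u j, cY z φ y u j = true ↔ qj z φ u j = y := fun u j => by
    unfold cY; exact decide_eq_true_iff
  intro L
  induction L with
  | nil => intro _ _; exact Nat.zero_le _
  | cons s l ih =>
    intro hL hI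
    have h1 := List.pairwise_cons.1 hL
    have hsI := hI s List.mem_cons_self
    have ih' := ih h1.2 (fun u hu => hI u (List.mem_cons_of_mem _ hu))
    rw [sX_cons]
    by_cases h2 : ∃ j, cY z φ y s j = true
    · obtain ⟨j, hj⟩ := h2
      rw [hd] at hj
      have h3 : sX (cY z φ y) l = 0 := by
        unfold sX
        rw [List.sum_eq_zero_iff]
        intro n hn
        obtain ⟨t, ht, rfl⟩ := List.mem_map.1 hn
        refine nX_zero _ fun i hi => ?_
        rw [hd] at hi
        have h4 := slot_inj hsI (hI t (List.mem_cons_of_mem _ ht)) (hj.trans hi.symm)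
        exact absurd h4.1 (h1.1 t ht).ne
      have h4 : nX (cY z φ y s) ≤ 1 := nX_one _ fun i i' hi hi' => by
        rw [hd] at hi hi'
        exact (slot_inj hsI hsI (hi.trans hi'.symm)).2
      omega
    · rw [nX_zero _ fun i hi => h2 ⟨i, hi⟩]
      omega

theorem fl_dist {φ u : ℝ} {j : Fin 6} (h : CzM.fl T z φ u j = true) :
    dist (qj z φ u j) z = 1 ∧ 4 ≤ (T (qj z φ u j)).ncard :=
  ⟨dist_qj z φ u j, of_decide_eq_true h⟩

theorem sX_le {fx gx : ℝ → Fin 6 → Bool} (h : ∀ u j, fx u j = true → gx u j = true) (L : List ℝ) :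
    sX fx L ≤ sX gx L := by
  induction L with
  | nil => exact le_rfl
  | cons s l ih =>
    rw [sX_cons, sX_cons]
    have := nX_add (fx s) (gx s) (fun _ => false) fun i hi => Or.inl (h s i hi)
    rw [nX_zero (fun _ => false) fun _ hi => Bool.noConfusion hi] at this
    omega

theorem sX_le2 {fx gx hx : ℝ → Fin 6 → Bool}
    (h : ∀ u j, fx u j = true → gx u j = true ∨ hx u j = true) (L : List ℝ) :
    sX fx L ≤ sX gx L + sX hx L := by
  induction L with
  | nil => exact Nat.zero_le _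
  | cons s l ih =>
    rw [sX_cons, sX_cons, sX_cons]
    have := nX_add (fx s) (gx s) (hx s) fun i hi => h s i hi
    omega

/-- a letter which occurs frequently is the letter of a limit column -/
theorem CzM.lc_of (S : CzM U T z a b c d e f) {φ t : ℝ} {j : Fin 6} {l : Fin 4}
    (h : ∃ᶠ v in 𝓝[<] t, φ + v + (j.val : ℝ) ∈ Oc T z (lt98 a b e f) l) :
    ∃ g ∈ LC (XX T z a b e f φ) t, g ((), j) = l := by
  have w := S.sw φ
  obtain ⟨r, hr, hsub⟩ := mem_nhdsLT_iff_exists_Ioo_subset.1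
    (Sw.near_left (X := XX T z a b e f φ) t)
  obtain ⟨v, hv, hvI⟩ := (Frequently.and_eventually h (Ioo_mem_nhdsLT hr)).exists
  have hc : Continuous fun v : ℝ => φ + v + (j.val : ℝ) := by fun_prop
  have hO : IsOpen ({v : ℝ | φ + v + (j.val : ℝ) ∈ Oc T z (lt98 a b e f) l} ∩ Ioo r t) :=
    ((Oc_open z (lt98 a b e f) l).preimage hc).inter isOpen_Ioo
  obtain ⟨v', hv1, hv2⟩ := w.dense_Gn.exists_mem_open hO ⟨v, hv, hvI⟩
  obtain ⟨g, hg⟩ := w.exists_av v'
  refine ⟨g, hsub hv2.2 hv1 g hg, ?_⟩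
  have h1 := (Xl_Lc (T := T) (z := fun _ : Unit => z) (φ := φ) (lt := fun _ => lt98 a b e f)
    (s := ((), j)) (l := g ((), j)) (u := v') hv2.1.1).1 (hg ((), j))
  rw [← h1]
  exact hv2.1.2

theorem CzM.rc_of (S : CzM U T z a b c d e f) {φ t : ℝ} {j : Fin 6} {l : Fin 4}
    (h : ∃ᶠ v in 𝓝[>] t, φ + v + (j.val : ℝ) ∈ Oc T z (lt98 a b e f) l) :
    ∃ g ∈ RC (XX T z a b e f φ) t, g ((), j) = l := by
  have w := S.sw φ
  obtain ⟨r, hr, hsub⟩ := mem_nhdsGT_iff_exists_Ioo_subset.1
    (Sw.near_right (X := XX T z a b e f φ) t)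
  obtain ⟨v, hv, hvI⟩ := (Frequently.and_eventually h (Ioo_mem_nhdsGT hr)).exists
  have hc : Continuous fun v : ℝ => φ + v + (j.val : ℝ) := by fun_prop
  have hO : IsOpen ({v : ℝ | φ + v + (j.val : ℝ) ∈ Oc T z (lt98 a b e f) l} ∩ Ioo t r) :=
    ((Oc_open z (lt98 a b e f) l).preimage hc).inter isOpen_Ioo
  obtain ⟨v', hv1, hv2⟩ := w.dense_Gn.exists_mem_open hO ⟨v, hv, hvI⟩
  obtain ⟨g, hg⟩ := w.exists_av v'
  refine ⟨g, hsub hv2.2 hv1 g hg, ?_⟩
  have h1 := (Xl_Lc (T := T) (z := fun _ : Unit => z) (φ := φ) (lt := fun _ => lt98 a b e f)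
    (s := ((), j)) (l := g ((), j)) (u := v') hv2.1.1).1 (hg ((), j))
  rw [← h1]
  exact hv2.1.2

theorem pt_per6 (w : ℝ) (n : ℤ) : pt z (w + 6 * (n : ℝ)) = pt z w := by
  have h : Function.Periodic (pt z) 6 := fun v => pt_six z v
  have h1 := h.int_mul n w
  rwa [mul_comm] at h1

/-- the exact letters have the period `6` -/
theorem Oc_per6 {g : Set (Fin 6) → Fin 4} {l : Fin 4} {v : ℝ} (n : ℤ) (h : v ∈ Oc T z g l) :
    v - 6 * (n : ℝ) ∈ Oc T z g l := by
  have hp : ∀ w : ℝ, pt z (w + 6 * (n : ℝ)) = pt z w := fun w => pt_per6 w n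
  have hp' : ∀ w : ℝ, pt z (w - 6 * (n : ℝ)) = pt z w := fun w => by
    rw [← hp (w - 6 * (n : ℝ)), sub_add_cancel]
  refine ⟨?_, ?_⟩
  · show ∀ᶠ w in 𝓝 (v - 6 * (n : ℝ)), T (pt z w) = T (pt z (v - 6 * (n : ℝ)))
    have h1 : Tendsto (fun w : ℝ => w + 6 * (n : ℝ)) (𝓝 (v - 6 * (n : ℝ))) (𝓝 v) := by
      have h2 : Continuous fun w : ℝ => w + 6 * (n : ℝ) := by fun_prop
      have h3 := h2.tendsto (v - 6 * (n : ℝ))
      rwa [sub_add_cancel] at h3
    have h4 : ∀ᶠ w in 𝓝 v, T (pt z w) = T (pt z v) := h.1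
    filter_upwards [h1.eventually h4] with w hw
    rw [hp] at hw
    rw [hw, hp']
  · rw [hp']; exact h.2

theorem tsl (c t u : ℝ) (h : u = t + c) : Tendsto (fun v : ℝ => v - c) (𝓝[<] u) (𝓝[<] t) := by
  refine tendsto_nhdsWithin_of_tendsto_nhds_of_eventually_within _ ?_ ?_
  · have h2 : Continuous fun w : ℝ => w - c := by fun_prop
    have h3 := h2.tendsto u
    have e : u - c = t := by rw [h]; ring
    rw [e] at h3
    exact h3.mono_left nhdsWithin_le_nhds
  · filter_upwards [self_mem_nhdsWithin] with v hv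
    have hv : v < u := hv
    show v - c < t
    linarith

theorem tsr (c t u : ℝ) (h : u = t + c) : Tendsto (fun v : ℝ => v - c) (𝓝[>] u) (𝓝[>] t) := by
  refine tendsto_nhdsWithin_of_tendsto_nhds_of_eventually_within _ ?_ ?_
  · have h2 : Continuous fun w : ℝ => w - c := by fun_prop
    have h3 := h2.tendsto u
    have e : u - c = t := by rw [h]; ring
    rw [e] at h3
    exact h3.mono_left nhdsWithin_le_nhds
  · filter_upwards [self_mem_nhdsWithin] with v hv
    have hv : u < v := hv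
    show t < v - c
    linarith

/-- **One circle in the mode `e` with at most two points of order at least four**: both exist, and
`f` is the letter of exactly one side of each of them. -/
theorem exc_list (S : CzM U T z a b c d e f) (Z : Zn T z a b c d p q) {y1 y2 : ℂ}
    (h2 : ∀ y, dist y z = 1 → 4 ≤ (T y).ncard → y = y1 ∨ y = y2) :
    y1 ≠ y2 ∧ (dist y1 z = 1 ∧ 4 ≤ (T y1).ncard) ∧ (dist y2 z = 1 ∧ 4 ≤ (T y2).ncard) ∧
    ∀ u : ℝ, 4 ≤ (T (pt z u)).ncard → ∀ l m : Fin 4,
      (∃ᶠ v in 𝓝[<] u, v ∈ Oc T z (lt98 a b e f) l) →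
      (∃ᶠ v in 𝓝[>] u, v ∈ Oc T z (lt98 a b e f) m) → (l = 1 ∧ m ≠ 1) ∨ (l ≠ 1 ∧ m = 1) := by
  classical
  have w := S.sw p
  have hfin : {y | dist y z = 1 ∧ 4 ≤ (T y).ncard}.Finite :=
    (Set.toFinite ({y1, y2} : Set ℂ)).subset fun y hy => by
      rcases h2 y hy.1 hy.2 with h | h
      · exact Or.inl h
      · exact Or.inr h
  have hcY : ∀ y u j, qj z p u j = y → cY z p y u j = true := fun y u j h => by
    unfold cY; exact decide_eq_true h
  have hsum : ∀ L : List ℝ, L.Pairwise (· < ·) → (∀ u ∈ L, u ∈ Ico (0 : ℝ) 1) →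
      sX (CzM.fl T z p) L ≤ 2 := by
    intro L h3 h4
    have h5 := cY_sum (z := z) p y1 L h3 h4
    have h6 := cY_sum (z := z) p y2 L h3 h4
    have h7 := sX_le2 (fx := CzM.fl T z p) (gx := cY z p y1) (hx := cY z p y2) (fun u j h => by
      obtain ⟨h8, h9⟩ := fl_dist h
      exact (h2 _ h8 h9).imp (hcY _ _ _) (hcY _ _ _)) L
    omega
  have one : ∀ y : ℂ, (∀ u j, CzM.fl T z p u j = true → qj z p u j = y) →
      ∀ L : List ℝ, L.Pairwise (· < ·) → (∀ u ∈ L, u ∈ Ico (0 : ℝ) 1) → sX (CzM.fl T z p) L = 2 →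
      False := by
    intro y h3 L h4 h5 h6
    have h7 := sX_le (fx := CzM.fl T z p) (gx := cY z p y) (fun u j h => hcY _ _ _ (h3 u j h)) L
    have h8 := cY_sum (z := z) p y L h4 h5
    omega
  choose G0 hG0 using fun s => w.LC_ne s
  choose G1 hG1 using fun s => w.RC_ne s
  obtain ⟨L, k1, k2, k3, -, -⟩ := S.turn Z hfin tabS tabZ hG0 hG1 hsum
  refine ⟨?_, ?_, ?_, ?_⟩
  · rintro rfl
    refine one y1 (fun u j h => ?_) L k1 k2 k3
    obtain ⟨h8, h9⟩ := fl_dist h
    exact (h2 _ h8 h9).elim id id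
  · by_contra hcon
    refine one y2 (fun u j h => ?_) L k1 k2 k3
    obtain ⟨h8, h9⟩ := fl_dist h
    rcases h2 _ h8 h9 with h10 | h10
    · rw [h10] at h8 h9
      exact absurd ⟨h8, h9⟩ hcon
    · exact h10
  · by_contra hcon
    refine one y1 (fun u j h => ?_) L k1 k2 k3
    obtain ⟨h8, h9⟩ := fl_dist h
    rcases h2 _ h8 h9 with h10 | h10
    · exact h10
    · rw [h10] at h8 h9
      exact absurd ⟨h8, h9⟩ hcon
  · intro u hu l m hl hm
    set t := Int.fract (u - p) with ht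
    set N := ⌊u - p⌋ with hN
    have h3 : (N : ℝ) + t = u - p := Int.floor_add_fract _
    set n := N / 6 with hn
    have h4 : N = (N % 6) + 6 * n := by omega
    have h5 : 0 ≤ N % 6 := Int.emod_nonneg _ (by norm_num)
    have h6 : N % 6 < 6 := Int.emod_lt_of_pos _ (by norm_num)
    set j : Fin 6 := ⟨(N % 6).toNat, by omega⟩ with hj
    have hjv : ((j.val : ℤ)) = N % 6 := by
      show (((N % 6).toNat : ℕ) : ℤ) = N % 6
      exact Int.toNat_of_nonneg h5
    have hjr : (j.val : ℝ) = (N : ℝ) - 6 * (n : ℝ) := by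
      have h7 : ((j.val : ℤ) : ℝ) = ((N - 6 * n : ℤ) : ℝ) := by
        rw [hjv]; congr 1; omega
      push_cast at h7
      exact h7
    have htI : t ∈ Ico (0 : ℝ) 1 := ⟨Int.fract_nonneg _, Int.fract_lt_one _⟩
    have hu1 : u = p + t + (j.val : ℝ) + 6 * (n : ℝ) := by rw [hjr]; linarith
    have hpt : pt z u = qj z p t j := by
      show pt z u = pt z (p + t + (j.val : ℝ))
      rw [hu1]
      exact pt_per6 _ n
    have hfl : CzM.fl T z p t j = true := by
      unfold CzM.fl
      rw [← hpt]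
      exact decide_eq_true hu
    obtain ⟨g, hg, hgl⟩ := S.lc_of (φ := p) (t := t) (j := j) (l := l) (by
      refine (tsl (p + (j.val : ℝ) + 6 * (n : ℝ)) t u (by rw [hu1]; ring)).frequently ?_
      refine hl.mono fun v hv => ?_
      have h8 := Oc_per6 n hv
      have e : p + (v - (p + (j.val : ℝ) + 6 * (n : ℝ))) + (j.val : ℝ) = v - 6 * (n : ℝ) := by ring
      rw [e]; exact h8)
    obtain ⟨g', hg', hgm⟩ := S.rc_of (φ := p) (t := t) (j := j) (l := m) (by
      refine (tsr (p + (j.val : ℝ) + 6 * (n : ℝ)) t u (by rw [hu1]; ring)).frequently ?_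
      refine hm.mono fun v hv => ?_
      have h8 := Oc_per6 n hv
      have e : p + (v - (p + (j.val : ℝ) + 6 * (n : ℝ))) + (j.val : ℝ) = v - 6 * (n : ℝ) := by ring
      rw [e]; exact h8)
    have hGu : ∀ s, Function.update G0 t g s ∈ LC (XX T z a b e f p) s := fun s => by
      by_cases hs : s = t
      · subst hs; rw [Function.update_self]; exact hg
      · rw [Function.update_of_ne hs]; exact hG0 s
    have hGu' : ∀ s, Function.update G1 t g' s ∈ RC (XX T z a b e f p) s := fun s => by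
      by_cases hs : s = t
      · subst hs; rw [Function.update_self]; exact hg'
      · rw [Function.update_of_ne hs]; exact hG1 s
    obtain ⟨L', -, -, -, m4, m5⟩ := S.turn Z hfin tabS tabZ hGu hGu' hsum
    have h8 := m5 t (m4 t htI ⟨j, hfl⟩)
    rw [Function.update_self, Function.update_self] at h8
    unfold bX at h8
    rw [decide_eq_false_iff_not] at h8
    have h9 : ¬ (l = 1 ↔ m = 1) := fun h10 => h8 ⟨j, hfl, by
      show g ((), j) = 1 ↔ g' ((), j) = 1
      rw [hgl, hgm]; exact h10⟩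
    by_cases hl1 : l = 1
    · exact Or.inl ⟨hl1, fun hm1 => h9 ⟨fun _ => hm1, fun _ => hl1⟩⟩
    · refine Or.inr ⟨hl1, ?_⟩
      by_contra hm1
      exact h9 ⟨fun h => absurd h hl1, fun h => absurd h hm1⟩

end Vale.Agent.P032.H987
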