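import Mathlib

/-!
# P032: the sweep engine (helper987)

A family of slots `k : K` (for example the `6 m` places of `m` circles) carries letters.  The letter
`l` is available in slot `k` at time `u` if `u ∈ X k l`; the sets `X k l` are closed and cover.  At
the generic times every slot has exactly one letter, and the column of letters is legal.  An
invariant which survives every passage from a legal selection of the palettes at `u` to a legal
selection of the palettes at `u` holds at all generic times.  Marks are counted.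
-/

open Set Filter Topology

namespace Vale.Agent.P032.H987

/-! ## Abstract transport on an interval -/

open Classical in
/-- which marks are at `u` -/
noncomputable def ind {ι : Type*} (M : ι → Set ℝ) (u : ℝ) (τ : ι) : ℕ := if u ∈ M τ then 1 else 0

/-- the number of marks in `(a, v)` -/
noncomputable def cnt {ι : Type*} (M : ι → Set ℝ) (a v : ℝ) (τ : ι) : ℕ := (M τ ∩ Ioo a v).ncard

section
variable {σ ι : Type*} {a b : ℝ} {M : ι → Set ℝ}

theorem cnt_step (hfin : ∀ τ, (M τ ∩ Ioo a b).Finite) {v u v' : ℝ} (hav : a < v) (hvu : v < u)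
    (huv : u < v') (hvb : v' < b) (h1 : ∀ τ, ∀ x ∈ Ico v u, x ∉ M τ)
    (h2 : ∀ τ, ∀ x ∈ Ioo u v', x ∉ M τ) : cnt M a v' = cnt M a v + ind M u := by
  classical
  funext τ
  have hf : (M τ ∩ Ioo a v).Finite :=
    (hfin τ).subset (inter_subset_inter_right _ (Ioo_subset_Ioo_right (by linarith)))
  show (M τ ∩ Ioo a v').ncard = (M τ ∩ Ioo a v).ncard + ind M u τ
  by_cases hu : u ∈ M τ
  · have e : M τ ∩ Ioo a v' = insert u (M τ ∩ Ioo a v) := by
      ext x
      constructor
      · rintro ⟨hx, hx1, hx2⟩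
        rcases lt_trichotomy x u with h | h | h
        · rcases lt_or_ge x v with h' | h'
          · exact Or.inr ⟨hx, hx1, h'⟩
          · exact absurd hx (h1 τ x ⟨h', h⟩)
        · exact Or.inl h
        · exact absurd hx (h2 τ x ⟨h, hx2⟩)
      · rintro (rfl | ⟨hx, hx1, hx2⟩)
        · exact ⟨hu, by linarith, huv⟩
        · exact ⟨hx, hx1, by linarith⟩
    rw [e, ncard_insert_of_notMem (fun h => by have := h.2.2; linarith) hf, ind, if_pos hu]
  · have e : M τ ∩ Ioo a v' = M τ ∩ Ioo a v := by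
      ext x
      constructor
      · rintro ⟨hx, hx1, hx2⟩
        rcases lt_trichotomy x u with h | h | h
        · rcases lt_or_ge x v with h' | h'
          · exact ⟨hx, hx1, h'⟩
          · exact absurd hx (h1 τ x ⟨h', h⟩)
        · exact absurd (h ▸ hx) hu
        · exact absurd hx (h2 τ x ⟨h, hx2⟩)
      · rintro ⟨hx, hx1, hx2⟩
        exact ⟨hx, hx1, by linarith⟩
    rw [e, ind, if_neg hu, add_zero]

theorem cnt_eq {v v' : ℝ} (hvv : v ≤ v')
    (h1 : ∀ τ, ∀ x ∈ Ico v v', x ∉ M τ) : cnt M a v' = cnt M a v := by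
  funext τ
  have e : M τ ∩ Ioo a v' = M τ ∩ Ioo a v := by
    ext x
    constructor
    · rintro ⟨hx, hx1, hx2⟩
      rcases lt_or_ge x v with h' | h'
      · exact ⟨hx, hx1, h'⟩
      · exact absurd hx (h1 τ x ⟨h', hx2⟩)
    · rintro ⟨hx, hx1, hx2⟩
      exact ⟨hx, hx1, by linarith⟩
  show (M τ ∩ Ioo a v').ncard = (M τ ∩ Ioo a v).ncard
  rw [e]

/-- marks do not accumulate -/
theorem no_acc (hfin : ∀ τ, (M τ ∩ Ioo a b).Finite) [Finite ι] (u : ℝ) :
    ∃ ε > 0, ∀ τ, ∀ x ∈ M τ ∩ Ioo a b, x ≠ u → ε ≤ |x - u| := by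
  have hf : (⋃ τ, M τ ∩ Ioo a b).Finite := finite_iUnion hfin
  have h1 : ((⋃ τ, M τ ∩ Ioo a b) \ {u}).Finite := hf.subset sdiff_subset
  have h2 : ((⋃ τ, M τ ∩ Ioo a b) \ {u})ᶜ ∈ 𝓝 u :=
    h1.isClosed.isOpen_compl.mem_nhds fun h => h.2 rfl
  obtain ⟨ε, hε, hb⟩ := Metric.mem_nhds_iff.1 h2
  refine ⟨ε, hε, fun τ x hx hxu => ?_⟩
  by_contra hcon
  push Not at hcon
  have : x ∈ Metric.ball u ε := by rw [Metric.mem_ball, Real.dist_eq]; exact hcon
  exact hb this ⟨mem_iUnion.2 ⟨τ, hx⟩, hxu⟩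

/-- **Transport**: real induction with counted marks. -/
theorem transport [Finite ι] (hfin : ∀ τ, (M τ ∩ Ioo a b).Finite) {G : Set ℝ} (hG : Dense G)
    {st : ℝ → σ}
    (hst : ∀ u ∈ G, u ∈ Ioo a b → ∀ᶠ v in 𝓝 u, v ∈ G → st v = st u) {I : (ι → ℕ) → σ → Prop}
    (start : ∀ᶠ v in 𝓝[>] a, v ∈ G → I 0 (st v))
    (step : ∀ u ∈ Ioo a b, ∀ᶠ v in 𝓝[<] u, v ∈ G → ∀ᶠ v' in 𝓝[>] u, v' ∈ G →
      ∀ n, I n (st v) → I (n + ind M u) (st v')) :
    ∀ v ∈ Ioo a b, v ∈ G → I (cnt M a v) (st v) := by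
  intro v₀ hv₀ hv₀G
  have hab : a < b := hv₀.1.trans hv₀.2
  set A : Set ℝ := {x | ∀ v, a < v → v < x → v < b → v ∈ G → I (cnt M a v) (st v)} with hA
  have hclosed : IsClosed (A ∩ Icc a b) := by
    refine IsClosed.inter ?_ isClosed_Icc
    have : A = ⋂ v ∈ {v | a < v ∧ v < b ∧ v ∈ G ∧ ¬ I (cnt M a v) (st v)}, Iic v := by
      ext x
      simp only [hA, mem_ofPred_eq, mem_iInter, mem_Iic]
      constructor
      · rintro h v ⟨h1, h2, h3, h4⟩
        by_contra hcon
        push Not at hcon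
        exact h4 (h v h1 hcon h2 h3)
      · intro h v h1 h2 h3 h4
        by_contra hcon
        have := h v ⟨h1, h3, h4, hcon⟩
        linarith
    rw [this]
    exact isClosed_biInter fun _ _ => isClosed_Iic
  have ha : a ∈ A := fun v h1 h2 => absurd h2 (by linarith)
  have key : Icc a b ⊆ A := by
    refine hclosed.Icc_subset_of_forall_exists_gt ha ?_
    rintro x ⟨hxA, hxa, hxb⟩ y hxy
    have hxy : x < y := hxy
    obtain ⟨ε, hε, hacc⟩ := no_acc hfin x
    rcases eq_or_lt_of_le hxa with rfl | hax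
    · -- start
      obtain ⟨c, hc, hsub⟩ := mem_nhdsGT_iff_exists_Ioo_subset.1 start
      have hc : a < c := hc
      refine ⟨min y (min c (a + ε)), ?_, ?_, min_le_left _ _⟩
      · intro v h1 h2 h3 h4
        have h5 : v < c := lt_of_lt_of_le h2 ((min_le_right _ _).trans (min_le_left _ _))
        have h6 : v < a + ε := lt_of_lt_of_le h2 ((min_le_right _ _).trans (min_le_right _ _))
        have h7 : cnt M a v = 0 := by
          funext τ
          have e : M τ ∩ Ioo a v = ∅ := by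
            rw [eq_empty_iff_forall_notMem]
            rintro x ⟨hx, hx1, hx2⟩
            have := hacc τ x ⟨hx, hx1, by linarith⟩ (by linarith)
            rw [abs_of_pos (by linarith)] at this
            linarith
          show (M τ ∩ Ioo a v).ncard = 0
          rw [e, ncard_empty]
        rw [h7]
        exact hsub ⟨h1, h5⟩ h4
      · exact lt_min hxy (lt_min hc (by linarith))
    · -- step
      have hst1 := step x ⟨hax, hxb⟩
      obtain ⟨c, hc, hsub⟩ := mem_nhdsLT_iff_exists_Ioo_subset.1 hst1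
      have hc : c < x := hc
      have hmx : max (max a c) (x - ε) < x := max_lt (max_lt hax hc) (by linarith)
      obtain ⟨v, hvG, hv⟩ := hG.exists_mem_open isOpen_Ioo (nonempty_Ioo.2 hmx)
      have hva : a < v := lt_of_le_of_lt ((le_max_left _ _).trans (le_max_left _ _)) hv.1
      have hvc : c < v := lt_of_le_of_lt ((le_max_right _ _).trans (le_max_left _ _)) hv.1
      have hvε : x - ε < v := lt_of_le_of_lt (le_max_right _ _) hv.1
      have hIv := hxA v hva hv.2 (hv.2.trans hxb) hvG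
      have h1 := hsub ⟨hvc, hv.2⟩ hvG
      obtain ⟨d, hd, hsub'⟩ := mem_nhdsGT_iff_exists_Ioo_subset.1 h1
      have hd : x < d := hd
      have hleft : ∀ τ, ∀ w ∈ Ico v x, w ∉ M τ := by
        rintro τ w ⟨hw1, hw2⟩ hwM
        have := hacc τ w ⟨hwM, by linarith, by linarith⟩ (by linarith)
        rw [abs_of_neg (by linarith)] at this
        linarith
      refine ⟨min (min y b) (min d (x + ε)), ?_, ?_, (min_le_left _ _).trans (min_le_left _ _)⟩
      · intro v' g1 g2 g3 g4
        have g5 : v' < d := lt_of_lt_of_le g2 ((min_le_right _ _).trans (min_le_left _ _))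
        have g6 : v' < x + ε := lt_of_lt_of_le g2 ((min_le_right _ _).trans (min_le_right _ _))
        rcases lt_trichotomy v' x with h | h | h
        · exact hxA v' g1 h g3 g4
        · -- `x` itself is generic
          subst h
          have h5 := hst v' g4 ⟨hax, hxb⟩
          obtain ⟨δ, hδ, hb⟩ := Metric.eventually_nhds_iff.1 h5
          have hmx2 : max (max a (v' - ε)) (v' - δ) < v' :=
            max_lt (max_lt hax (by linarith)) (by linarith)
          obtain ⟨w, hwG, hw⟩ := hG.exists_mem_open isOpen_Ioo (nonempty_Ioo.2 hmx2)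
          have hwa : a < w := lt_of_le_of_lt ((le_max_left _ _).trans (le_max_left _ _)) hw.1
          have hwε : v' - ε < w := lt_of_le_of_lt ((le_max_right _ _).trans (le_max_left _ _)) hw.1
          have hwδ : v' - δ < w := lt_of_le_of_lt (le_max_right _ _) hw.1
          have h6 := hxA w hwa hw.2 (by linarith [hw.2]) hwG
          have h7 : st w = st v' := by
            refine hb ?_ hwG
            rw [Real.dist_eq, abs_of_neg (by linarith [hw.2])]
            linarith
          have h8 : cnt M a v' = cnt M a w := by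
            refine cnt_eq hw.2.le ?_
            rintro τ t ⟨ht1, ht2⟩ htM
            have := hacc τ t ⟨htM, by linarith, by linarith⟩ (by linarith)
            rw [abs_of_neg (by linarith)] at this
            linarith
          rw [h8, ← h7]
          exact h6
        · have h2 : cnt M a v' = cnt M a v + ind M x := by
            refine cnt_step hfin hva hv.2 h g3 hleft ?_
            rintro τ t ⟨ht1, ht2⟩ htM
            have := hacc τ t ⟨htM, by linarith, by linarith⟩ (by linarith)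
            rw [abs_of_pos (by linarith)] at this
            linarith
          rw [h2]
          exact hsub' ⟨h, g5⟩ g4 _ hIv
      · exact lt_min (lt_min hxy hxb) (lt_min hd (by linarith))
  exact key ⟨hab.le, le_rfl⟩ v₀ hv₀.1 hv₀.2 hv₀.2 hv₀G

end

/-! ## Columns -/

section col
variable {K Λ ι : Type*}

/-- the generic times: one letter in every slot -/
def Gen (X : K → Λ → Set ℝ) : Set ℝ := {u | ∀ k, ∃ l, ∀ m, u ∈ X k m → m = l}

/-- several slots with closed covers of the line; the columns at generic times in `(a, b)` are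
legal -/
structure MW (X : K → Λ → Set ℝ) (Leg : (K → Λ) → Prop) (a b : ℝ) : Prop where
  closed : ∀ k l, IsClosed (X k l)
  cover : ∀ k u, ∃ l, u ∈ X k l
  gen : ∀ k, Dense {u | ∃ l, ∀ m, u ∈ X k m → m = l}
  leg : ∀ u ∈ Ioo a b, u ∈ Gen X → ∀ h : K → Λ, (∀ k, u ∈ X k (h k)) → Leg h

/-- limit columns from the left -/
def LC (X : K → Λ → Set ℝ) (u : ℝ) : Set (K → Λ) :=
  {h | ∃ᶠ v in 𝓝[<] u, v ∈ Gen X ∧ ∀ k, v ∈ X k (h k)}

/-- limit columns from the right -/
def RC (X : K → Λ → Set ℝ) (u : ℝ) : Set (K → Λ) :=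
  {h | ∃ᶠ v in 𝓝[>] u, v ∈ Gen X ∧ ∀ k, v ∈ X k (h k)}

/-- a letter available in slot `k` at `u` -/
noncomputable def let' (X : K → Λ → Set ℝ) (hX : ∀ k u, ∃ l, u ∈ X k l) (u : ℝ) (k : K) : Λ :=
  (hX k u).choose

variable {X : K → Λ → Set ℝ} {Leg : (K → Λ) → Prop} {a b : ℝ}

theorem let_mem (hX : ∀ k u, ∃ l, u ∈ X k l) (u : ℝ) (k : K) : u ∈ X k (let' X hX u k) :=
  (hX k u).choose_spec

namespace MW

theorem near [Finite K] [Finite Λ] (w : MW X Leg a b) (u : ℝ) :
    ∀ᶠ v in 𝓝 u, ∀ k l, v ∈ X k l → u ∈ X k l := by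
  rw [eventually_all]; intro k
  rw [eventually_all]; intro l
  by_cases h : u ∈ X k l
  · exact Eventually.of_forall fun v _ => h
  · filter_upwards [(w.closed k l).isOpen_compl.mem_nhds h] with v hv hv'
    exact absurd hv' hv

theorem isOpen_single [Finite K] [Finite Λ] (w : MW X Leg a b) (k : K) :
    IsOpen {u | ∃ l, ∀ m, u ∈ X k m → m = l} := by
  rw [isOpen_iff_mem_nhds]
  rintro u ⟨l, hl⟩
  filter_upwards [w.near u] with v hv
  exact ⟨l, fun m hm => hl m (hv k m hm)⟩

theorem dense [Finite K] [Finite Λ] (w : MW X Leg a b) : Dense (Gen X) := by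
  classical
  have key : ∀ s : Set K, s.Finite → IsOpen {u | ∀ k ∈ s, ∃ l, ∀ m, u ∈ X k m → m = l} ∧
      Dense {u | ∀ k ∈ s, ∃ l, ∀ m, u ∈ X k m → m = l} := by
    intro s hs
    induction s, hs using Set.Finite.induction_on with
    | empty =>
      have : {u : ℝ | ∀ k ∈ (∅ : Set K), ∃ l, ∀ m, u ∈ X k m → m = l} = univ := by ext u; simp
      rw [this]; exact ⟨isOpen_univ, dense_univ⟩
    | @insert k s _ _ ih =>
      have e : {u : ℝ | ∀ j ∈ insert k s, ∃ l, ∀ m, u ∈ X j m → m = l}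
          = {u | ∀ j ∈ s, ∃ l, ∀ m, u ∈ X j m → m = l} ∩ {u | ∃ l, ∀ m, u ∈ X k m → m = l} := by
        ext u
        constructor
        · intro h
          exact ⟨fun j hj => h j (Or.inr hj), h k (Or.inl rfl)⟩
        · rintro ⟨h1, h2⟩ j (rfl | hj)
          · exact h2
          · exact h1 j hj
      rw [e]
      exact ⟨ih.1.inter (w.isOpen_single k), ih.2.inter_of_isOpen_left (w.gen k) ih.1⟩
  have := (key univ finite_univ).2
  have e : Gen X = {u | ∀ k ∈ (univ : Set K), ∃ l, ∀ m, u ∈ X k m → m = l} := by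
    ext u
    exact ⟨fun h k _ => h k, fun h k => h k (mem_univ k)⟩
  rw [e]; exact this

theorem gen_eq (w : MW X Leg a b) {u : ℝ} (hu : u ∈ Gen X) {h : K → Λ}
    (hh : ∀ k, u ∈ X k (h k)) : let' X w.cover u = h := by
  funext k
  obtain ⟨l, hl⟩ := hu k
  rw [hl _ (let_mem w.cover u k), hl _ (hh k)]

theorem gen_const [Finite K] [Finite Λ] (w : MW X Leg a b) {u : ℝ} (hu : u ∈ Gen X) :
    ∀ᶠ v in 𝓝 u, v ∈ Gen X → let' X w.cover v = let' X w.cover u := by
  filter_upwards [w.near u] with v hv _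
  exact (w.gen_eq hu fun k => hv k _ (let_mem w.cover v k)).symm

/-- legal selections available from the left at `u`: limit columns -/
theorem of_LC [Finite K] [Finite Λ] (w : MW X Leg a b) {u : ℝ} (hu : u ∈ Ioc a b) {h : K → Λ}
    (hh : h ∈ LC X u) : Leg h ∧ ∀ k, u ∈ X k (h k) := by
  have h9 : ∀ᶠ v in 𝓝[<] u, (∀ k l, v ∈ X k l → u ∈ X k l) ∧ v ∈ Ioo a u :=
    Eventually.and (mem_nhdsWithin_of_mem_nhds (w.near u)) (Ioo_mem_nhdsLT hu.1)
  obtain ⟨v, ⟨h4, h5⟩, h6, h7⟩ := (Frequently.and_eventually hh h9).exists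
  exact ⟨w.leg v ⟨h7.1, lt_of_lt_of_le h7.2 hu.2⟩ h4 h h5, fun k => h6 k _ (h5 k)⟩

/-- limit columns from the right -/
theorem of_RC [Finite K] [Finite Λ] (w : MW X Leg a b) {u : ℝ} (hu : u ∈ Ico a b) {h : K → Λ}
    (hh : h ∈ RC X u) : Leg h ∧ ∀ k, u ∈ X k (h k) := by
  have h9 : ∀ᶠ v in 𝓝[>] u, (∀ k l, v ∈ X k l → u ∈ X k l) ∧ v ∈ Ioo u b :=
    Eventually.and (mem_nhdsWithin_of_mem_nhds (w.near u)) (Ioo_mem_nhdsGT hu.2)
  obtain ⟨v, ⟨h4, h5⟩, h6, h7⟩ := (Frequently.and_eventually hh h9).exists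
  exact ⟨w.leg v ⟨lt_of_le_of_lt hu.1 h7.1, h7.2⟩ h4 h h5, fun k => h6 k _ (h5 k)⟩

/-- near `u` from the left every generic column is a limit column -/
theorem ev_LC [Finite K] [Finite Λ] (w : MW X Leg a b) (u : ℝ) :
    ∀ᶠ v in 𝓝[<] u, v ∈ Gen X → let' X w.cover v ∈ LC X u := by
  have h1 : ∀ h : K → Λ, ∀ᶠ v in 𝓝[<] u, (v ∈ Gen X ∧ ∀ k, v ∈ X k (h k)) → h ∈ LC X u := by
    intro h
    by_cases hf : h ∈ LC X u
    · exact Eventually.of_forall fun _ _ => hf
    · filter_upwards [not_frequently.1 hf] with v hv hv'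
      exact absurd hv' hv
  filter_upwards [eventually_all.2 h1] with v hv hvG
  exact hv _ ⟨hvG, let_mem w.cover v⟩

theorem ev_RC [Finite K] [Finite Λ] (w : MW X Leg a b) (u : ℝ) :
    ∀ᶠ v in 𝓝[>] u, v ∈ Gen X → let' X w.cover v ∈ RC X u := by
  have h1 : ∀ h : K → Λ, ∀ᶠ v in 𝓝[>] u, (v ∈ Gen X ∧ ∀ k, v ∈ X k (h k)) → h ∈ RC X u := by
    intro h
    by_cases hf : h ∈ RC X u
    · exact Eventually.of_forall fun _ _ => hf
    · filter_upwards [not_frequently.1 hf] with v hv hv'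
      exact absurd hv' hv
  filter_upwards [eventually_all.2 h1] with v hv hvG
  exact hv _ ⟨hvG, let_mem w.cover v⟩

theorem LC_nonempty [Finite K] [Finite Λ] (w : MW X Leg a b) (u : ℝ) : (LC X u).Nonempty := by
  have hf : ∃ᶠ v in 𝓝[<] u, v ∈ Gen X := by
    rw [frequently_iff]
    intro V hV
    obtain ⟨c, hc, hsub⟩ := mem_nhdsLT_iff_exists_Ioo_subset.1 hV
    obtain ⟨v, hv, hv2⟩ := w.dense.exists_mem_open isOpen_Ioo (nonempty_Ioo.2 hc)
    exact ⟨v, hsub hv2, hv⟩
  obtain ⟨v, hv, hv2⟩ := (hf.and_eventually (w.ev_LC u)).exists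
  exact ⟨_, hv2 hv⟩

theorem RC_nonempty [Finite K] [Finite Λ] (w : MW X Leg a b) (u : ℝ) : (RC X u).Nonempty := by
  have hf : ∃ᶠ v in 𝓝[>] u, v ∈ Gen X := by
    rw [frequently_iff]
    intro V hV
    obtain ⟨c, hc, hsub⟩ := mem_nhdsGT_iff_exists_Ioo_subset.1 hV
    obtain ⟨v, hv, hv2⟩ := w.dense.exists_mem_open isOpen_Ioo (nonempty_Ioo.2 hc)
    exact ⟨v, hsub hv2, hv⟩
  obtain ⟨v, hv, hv2⟩ := (hf.and_eventually (w.ev_RC u)).exists
  exact ⟨_, hv2 hv⟩

/-- **The sweep theorem.**  `I` is preserved by every passage from a left limit column at `u` to a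
right limit column at `u` (both are legal selections of the palettes at `u`: `of_LC`, `of_RC`). -/
theorem sweep [Finite K] [Finite Λ] [Finite ι] (w : MW X Leg a b) {M : ι → Set ℝ}
    (hfin : ∀ τ, (M τ ∩ Ioo a b).Finite) {I : (ι → ℕ) → (K → Λ) → Prop}
    (start : ∀ h ∈ RC X a, I 0 h)
    (step : ∀ u ∈ Ioo a b, ∀ h ∈ LC X u, ∀ h' ∈ RC X u, ∀ n, I n h → I (n + ind M u) h') :
    ∀ v ∈ Ioo a b, v ∈ Gen X → ∀ h : K → Λ, (∀ k, v ∈ X k (h k)) → I (cnt M a v) h := by
  intro v hv hvG h hh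
  rw [← w.gen_eq hvG hh]
  refine transport hfin w.dense (fun u hu _ => w.gen_const hu) ?_ ?_ v hv hvG
  · filter_upwards [w.ev_RC a] with v hv hvG
    exact start _ (hv hvG)
  · intro u hu
    filter_upwards [w.ev_LC u] with v hv hvG
    filter_upwards [w.ev_RC u] with v' hv' hvG' n hI
    exact step u hu _ (hv hvG) _ (hv' hvG') n hI

/-- the sweep theorem up to the left limit columns at `b` -/
theorem sweep_end [Finite K] [Finite Λ] [Finite ι] (w : MW X Leg a b) (hab : a < b)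
    {M : ι → Set ℝ} (hfin : ∀ τ, (M τ ∩ Ioo a b).Finite) {I : (ι → ℕ) → (K → Λ) → Prop}
    (start : ∀ h ∈ RC X a, I 0 h)
    (step : ∀ u ∈ Ioo a b, ∀ h ∈ LC X u, ∀ h' ∈ RC X u, ∀ n, I n h → I (n + ind M u) h') :
    ∀ h ∈ LC X b, I (cnt M a b) h := by
  intro h hh
  obtain ⟨ε, hε, hacc⟩ := no_acc hfin b
  have h9 : ∀ᶠ v in 𝓝[<] b, v ∈ Ioo (max a (b - ε)) b :=
    Ioo_mem_nhdsLT (max_lt hab (by linarith))
  obtain ⟨v, ⟨h4, h5⟩, h6, h7⟩ := (Frequently.and_eventually hh h9).exists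
  have h8 : a < v := lt_of_le_of_lt (le_max_left _ _) h6
  have h10 : b - ε < v := lt_of_le_of_lt (le_max_right _ _) h6
  have h11 : cnt M a b = cnt M a v := by
    funext τ
    have e : M τ ∩ Ioo a b = M τ ∩ Ioo a v := by
      ext x
      constructor
      · rintro ⟨hx, hx1, hx2⟩
        rcases lt_or_ge x v with h' | h'
        · exact ⟨hx, hx1, h'⟩
        · have := hacc τ x ⟨hx, hx1, hx2⟩ (by linarith)
          rw [abs_of_neg (by linarith)] at this
          linarith
      · rintro ⟨hx, hx1, hx2⟩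
        exact ⟨hx, hx1, by linarith⟩
    show (M τ ∩ Ioo a b).ncard = (M τ ∩ Ioo a v).ncard
    rw [e]
  rw [h11]
  exact w.sweep hfin start step v ⟨h8, h7⟩ h4 h h5

/-- the sweep theorem without marks: a transitive relation -/
theorem sweep_rel [Finite K] [Finite Λ] (w : MW X Leg a b) (hab : a < b)
    {R : (K → Λ) → (K → Λ) → Prop} (htr : ∀ x y z, R x y → R y z → R x z)
    (hRC : ∀ h ∈ RC X a, ∀ h' ∈ RC X a, R h h')
    (step : ∀ u ∈ Ioo a b, ∀ h ∈ LC X u, ∀ h' ∈ RC X u, R h h') :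
    ∀ h ∈ RC X a, ∀ h' ∈ LC X b, R h h' := by
  intro h hh h' hh'
  exact w.sweep_end (ι := Empty) (M := fun x => x.elim) hab (fun x => x.elim)
    (I := fun _ g => R h g) (fun g hg => hRC h hh g hg)
    (fun u hu g hg g' hg' _ hI => htr _ _ _ hI (step u hu g hg g' hg')) h' hh'

end MW

end col

end Vale.Agent.P032.H987
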