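import Vale.Agent.P032.H987.LabF

/-!
# P032: the arcs between the labelled points of a centre (helper987)

`Stt T z a b c d k y` : status of a point: `k = 1`: on an exact `ab`-arc, `k = 2`: on an exact
`cd`-arc, `k = 0`: not in the closures of these arcs.
`aft x`, `bef x` : the statuses after and before a point with the label `x`.
`CzF.side_aft`, `side_bef`; `CzF.mid` : the status between two consecutive labelled points.
-/

open Set Filter Topology Metric

noncomputable section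

namespace Vale.Agent.P032.H987

open Vale.Agent.P032.Six Vale.Agent.P032.S5.H767 Vale.Agent.P032.S5.H122 Vale.Agent.P032.Sweep
  Vale.Agent.P032.S5.H349

variable {U : Fin 6 → Set ℂ} {T : ℂ → Set (Fin 6)} {z : ℂ} {a b c d e f : Fin 6}

/-- a colour of `z` at a point of order three with a pair of `z` is a colour of the pair -/
theorem Cz.third (S : Cz U T z a b c d e f) {w : ℂ} (hwz : dist w z = 1) (h3 : (T w).ncard ≤ 3)
    (hab : ({a, b} : Set (Fin 6)) ⊆ T w) {g : Fin 6} (hgw : g ∈ T w) (hgz : g ∈ T z) :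
    g = a ∨ g = b := by
  have h := S.irr
  have hz := S.dpt
  by_contra hgP
  push Not at hgP
  have hgP' : g ∉ ({a, b} : Set (Fin 6)) := by
    rintro (h1 | h1)
    · exact hgP.1 h1
    · exact hgP.2 h1
  have hT : T w = insert g {a, b} := by
    symm
    refine Set.eq_of_subset_of_ncard_le (insert_subset hgw hab) ?_ (Set.toFinite _)
    rw [Set.ncard_insert_of_notMem hgP' (Set.toFinite _), Set.ncard_pair hz.ab]
    exact h3
  obtain ⟨m, hm, hcov⟩ : ∃ m ∈ ({c, d} : Set (Fin 6)), T z ⊆ insert m (T w) := by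
    rw [hz.pal] at hgz
    rcases hgz with h4 | h4 | h4 | h4
    · exact absurd (Or.inl h4) hgP'
    · exact absurd (Or.inr h4) hgP'
    · refine ⟨d, by simp, ?_⟩
      rw [hz.pal, hT, h4]
      rintro i (rfl | rfl | rfl | rfl) <;> simp
    · rw [mem_singleton_iff] at h4
      refine ⟨c, by simp, ?_⟩
      rw [hz.pal, hT, h4]
      rintro i (rfl | rfl | rfl | rfl) <;> simp
  obtain ⟨p2, hp2⟩ := hz.arc2
  obtain ⟨q2, hq2, hne, hop⟩ := hp2.exists_off_line (y := p2)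
  have m1 : m ∈ T q2 := by rw [hq2.mem]; exact hm
  have m2 : m ∈ T p2 := by rw [hp2.mem]; exact hm
  by_cases h1 : q2 ≠ w ∧ q2 + w ≠ 2 * z
  · exact h.third_notMem hwz h3 hcov hq2.1 (h.sub _ m1) h1.1 h1.2
  · refine h.third_notMem hwz h3 hcov hp2.1 (h.sub _ m2) (fun h5 => ?_) fun h5 => ?_
    · by_cases h6 : q2 = w
      · exact hne (h6.trans h5.symm)
      · push Not at h1
        exact hop (by rw [h5]; exact h1 h6)
    · by_cases h6 : q2 = w
      · exact hop (by rw [h6, add_comm]; exact h5)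
      · push Not at h1
        exact hne (by linear_combination (h1 h6) - h5)

/-- the other naming of the pairs -/
theorem Cz.swapP (S : Cz U T z a b c d e f) : Cz U T z c d a b e f where
  irr := S.irr
  dpt := S.dpt.swap
  nd := by
    have h := S.nd
    simp only [List.nodup_cons, List.mem_cons, List.not_mem_nil, or_false, not_or, List.nodup_nil,
      and_true, not_false_eq_true] at h ⊢
    obtain ⟨⟨ab, ac, ad, ae, af⟩, ⟨bc, bd, be, bf⟩, ⟨cd, ce, cf⟩, ⟨de, df⟩, ef⟩ := h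
    exact ⟨⟨cd, Ne.symm ac, Ne.symm bc, ce, cf⟩, ⟨Ne.symm ad, Ne.symm bd, de, df⟩, ⟨ab, ae, af⟩,
      ⟨be, bf⟩, ef⟩
  hJ := S.hJ

/-- a point of the closure of the `ab`-arcs: exact, or `J`, or an end -/
theorem Cz.cl_cases (S : Cz U T z a b c d e f) {y : ℂ} (hcl : y ∈ closure (Ex T z {a, b})) :
    y ∈ Ex T z {a, b} ∨ T y = T z ∨ T y = {a, b, e} ∨ T y = {a, b, f} := by
  obtain ⟨⟨ab, ac, ad, ae, af⟩, ⟨bc, bd, be, bf⟩, ⟨cd, ce, cf⟩, ⟨de, df⟩, ef⟩ := S.nd'
  have h := S.irr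
  have hy : dist y z = 1 := dist_of_closure hcl
  have hab : ({a, b} : Set (Fin 6)) ⊆ T y := sub_of_closure h hcl
  rcases S.hJ y hy with h3 | h3
  swap
  · exact Or.inr (Or.inl h3)
  have end3 : ∀ g, g ∉ T z → g ∈ T y → T y = {a, b, g} := by
    intro g hg hgy
    have ga : a ≠ g := fun h1 => hg (by rw [← h1, S.dpt.pal]; simp)
    have gb : b ≠ g := fun h1 => hg (by rw [← h1, S.dpt.pal]; simp)
    refine (Set.eq_of_subset_of_ncard_le (s := {a, b, g}) ?_ ?_ (Set.toFinite _)).symm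
    · rintro i (rfl | rfl | rfl)
      · exact hab (by simp)
      · exact hab (by simp)
      · exact hgy
    · rw [ncard_three ab ga gb]; exact h3
  by_cases he : e ∈ T y
  · refine Or.inr (Or.inr (Or.inl (end3 e ?_ he)))
    rw [S.dpt.pal]
    simp only [mem_insert_iff, mem_singleton_iff, not_or]
    exact ⟨ae.symm, be.symm, ce.symm, de.symm⟩
  by_cases hf : f ∈ T y
  · refine Or.inr (Or.inr (Or.inr (end3 f ?_ hf)))
    rw [S.dpt.pal]
    simp only [mem_insert_iff, mem_singleton_iff, not_or]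
    exact ⟨af.symm, bf.symm, cf.symm, df.symm⟩
  left
  have hsub : T y ⊆ {a, b} := by
    intro i hi
    have hiz : i ∈ T z := by
      by_contra hcon
      rcases S.ctr.miss hcon with rfl | rfl
      · exact he hi
      · exact hf hi
    exact S.third hy h3 hab hi hiz
  exact ⟨hy, h.pair_open (Set.ncard_pair ab) (by rw [S.dpt.pal]; rintro i (rfl | rfl) <;> simp) hsub⟩

/-- status of a point -/
def Stt (T : ℂ → Set (Fin 6)) (z : ℂ) (a b c d : Fin 6) (k : ℕ) (y : ℂ) : Prop :=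
  match k with
  | 0 => y ∉ closure (Ex T z {a, b}) ∧ y ∉ closure (Ex T z {c, d})
  | 1 => y ∈ Ex T z {a, b}
  | _ => y ∈ Ex T z {c, d}

/-- the status after a label -/
def aft (x : Fin 11) : ℕ :=
  match x with
  | 2 => 1 | 6 => 1 | 8 => 1 | 4 => 2 | 5 => 2 | 10 => 2 | _ => 0

/-- the status before a label -/
def bef (x : Fin 11) : ℕ :=
  match x with
  | 1 => 1 | 5 => 1 | 7 => 1 | 3 => 2 | 6 => 2 | 9 => 2 | _ => 0

theorem isOpen_ex (z : ℂ) (P : Set (Fin 6)) : IsOpen {t : ℝ | pt z t ∈ Ex T z P} := by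
  rw [isOpen_iff_mem_nhds]
  intro t ht
  have h1 : ∀ᶠ v in 𝓝 t, T (pt z v) = P := ev_pt z ht.2
  filter_upwards [eventually_eventually_nhds.2 h1] with v hv
  exact ⟨dist_pt z v, ev_circle z (p := fun q => T q = P) hv⟩

theorem isOpen_ncl (z : ℂ) (P : Set (Fin 6)) : IsOpen {t : ℝ | pt z t ∉ closure (Ex T z P)} := by
  have h1 : IsClosed {t : ℝ | pt z t ∈ closure (Ex T z P)} :=
    isClosed_closure.preimage (continuous_pt z)
  exact h1.isOpen_compl

/-- **the status is constant between labelled points** -/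
theorem Cz.const987 (S : Cz U T z a b c d e f) {α β : ℝ}
    (h0 : ∀ t ∈ Ioo α β, lbF true true T z a b c d e f (pt z t) = 0) :
    ∃ k : ℕ, k < 3 ∧ ∀ t ∈ Ioo α β, Stt T z a b c d k (pt z t) := by
  have key : ∀ t ∈ Ioo α β, T (pt z t) ≠ T z ∧ T (pt z t) ≠ {a, b, e} ∧
      T (pt z t) ≠ {c, d, f} ∧ (T (pt z t) = {a, b, f} → pt z t ∉ closure (Ex T z {a, b})) ∧
      (T (pt z t) = {c, d, e} → pt z t ∉ closure (Ex T z {c, d})) := by
    intro t ht
    have h1 := h0 t ht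
    unfold lbF at h1
    by_cases k1 : T (pt z t) = T z
    · rw [if_pos k1] at h1; split_ifs at h1 <;> exact absurd h1 (by decide)
    rw [if_neg k1] at h1
    by_cases k2 : T (pt z t) = {a, b, e}
    · rw [if_pos k2] at h1; split_ifs at h1 <;> exact absurd h1 (by decide)
    rw [if_neg k2] at h1
    by_cases k3 : T (pt z t) = {c, d, f}
    · rw [if_pos k3] at h1; split_ifs at h1 <;> exact absurd h1 (by decide)
    rw [if_neg k3] at h1
    refine ⟨k1, k2, k3, fun k4 k5 => ?_, fun k4 k5 => ?_⟩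
    · rw [if_pos ⟨rfl, k4, k5⟩] at h1; split_ifs at h1 <;> exact absurd h1 (by decide)
    · by_cases k6 : (true = true) ∧ T (pt z t) = {a, b, f} ∧ pt z t ∈ closure (Ex T z {a, b})
      · rw [if_pos k6] at h1; split_ifs at h1 <;> exact absurd h1 (by decide)
      rw [if_neg k6, if_pos ⟨rfl, k4, k5⟩] at h1
      split_ifs at h1 <;> exact absurd h1 (by decide)
  have hA : ∀ t ∈ Ioo α β, pt z t ∈ closure (Ex T z {a, b}) → pt z t ∈ Ex T z {a, b} := by
    intro t ht hcl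
    obtain ⟨k1, k2, k3, k4, k5⟩ := key t ht
    rcases S.cl_cases hcl with h1 | h1 | h1 | h1
    · exact h1
    · exact absurd h1 k1
    · exact absurd h1 k2
    · exact absurd hcl (k4 h1)
  have hC : ∀ t ∈ Ioo α β, pt z t ∈ closure (Ex T z {c, d}) → pt z t ∈ Ex T z {c, d} := by
    intro t ht hcl
    obtain ⟨k1, k2, k3, k4, k5⟩ := key t ht
    rcases S.swapP.cl_cases hcl with h1 | h1 | h1 | h1
    · exact h1
    · exact absurd h1 k1
    · exact absurd hcl (k5 h1)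
    · exact absurd h1 k3
  have dis : ∀ P : Set (Fin 6), Disjoint {t : ℝ | pt z t ∈ Ex T z P}
      {t : ℝ | pt z t ∉ closure (Ex T z P)} := by
    intro P
    rw [Set.disjoint_left]
    intro t h1 h2
    exact h2 (subset_closure h1)
  rcases (isPreconnected_Ioo (a := α) (b := β)).subset_or_subset (isOpen_ex (T := T) z {a, b})
    (isOpen_ncl z {a, b}) (dis _) (fun t ht => by
      by_cases h1 : pt z t ∈ closure (Ex T z {a, b})
      · exact Or.inl (hA t ht h1)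
      · exact Or.inr h1) with h1 | h1
  · exact ⟨1, by norm_num, fun t ht => h1 ht⟩
  rcases (isPreconnected_Ioo (a := α) (b := β)).subset_or_subset (isOpen_ex (T := T) z {c, d})
    (isOpen_ncl z {c, d}) (dis _) (fun t ht => by
      by_cases h1 : pt z t ∈ closure (Ex T z {c, d})
      · exact Or.inl (hC t ht h1)
      · exact Or.inr h1) with h2 | h2
  · exact ⟨2, by norm_num, fun t ht => h2 ht⟩
  · exact ⟨0, by norm_num, fun t ht => ⟨h1 ht, h2 ht⟩⟩

/-! ### Sides -/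

theorem aft_of {P : ℂ → Prop} {u : ℝ}
    (h : ∃ ε > 0, ∀ t ∈ Ioo (0 : ℝ) ε, P (z + (pt z u - z) * cis t)) :
    ∃ β > u, ∀ v ∈ Ioo u β, P (pt z v) := by
  obtain ⟨ε, hε, h⟩ := h
  have hpi := Real.pi_pos
  have hpos : 0 < ε * (3 / Real.pi) := by positivity
  refine ⟨u + ε * (3 / Real.pi), by linarith, fun v hv => ?_⟩
  have h2 : v - u < ε * (3 / Real.pi) := by linarith [hv.2]
  have h1 := h ((v - u) * (Real.pi / 3)) ⟨by have := sub_pos.2 hv.1; positivity, by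
    calc (v - u) * (Real.pi / 3) < ε * (3 / Real.pi) * (Real.pi / 3) :=
          mul_lt_mul_of_pos_right h2 (by positivity)
      _ = ε := by field_simp⟩
  rw [pt_rot] at h1
  rwa [show u + (v - u) * (Real.pi / 3) * (3 / Real.pi) = v by field_simp; ring] at h1

theorem bef_of {P : ℂ → Prop} {u : ℝ}
    (h : ∃ ε > 0, ∀ t ∈ Ioo (0 : ℝ) ε, P (z + (pt z u - z) * cis (-t))) :
    ∃ α < u, ∀ v ∈ Ioo α u, P (pt z v) := by
  obtain ⟨ε, hε, h⟩ := h
  have hpi := Real.pi_pos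
  have hpos : 0 < ε * (3 / Real.pi) := by positivity
  refine ⟨u - ε * (3 / Real.pi), by linarith, fun v hv => ?_⟩
  have h2 : u - v < ε * (3 / Real.pi) := by linarith [hv.1]
  have h1 := h ((u - v) * (Real.pi / 3)) ⟨by have := sub_pos.2 hv.2; positivity, by
    calc (u - v) * (Real.pi / 3) < ε * (3 / Real.pi) * (Real.pi / 3) :=
          mul_lt_mul_of_pos_right h2 (by positivity)
      _ = ε := by field_simp⟩
  rw [pt_rot] at h1
  rwa [show u + -((u - v) * (Real.pi / 3)) * (3 / Real.pi) = v by field_simp; ring] at h1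

theorem ex_of_Ioo {P : Set (Fin 6)} {α β : ℝ} (h : ∀ v ∈ Ioo α β, T (pt z v) = P) :
    ∀ v ∈ Ioo α β, pt z v ∈ Ex T z P := fun v hv =>
  ⟨dist_pt z v, ev_circle z (p := fun q => T q = P) (by
    filter_upwards [Ioo_mem_nhds hv.1 hv.2] with w hw using h w hw)⟩

/-- a free point with the letter `g`, without the colour `g'` -/
def Fr (T : ℂ → Set (Fin 6)) (z : ℂ) (a b c d g g' : Fin 6) (y : ℂ) : Prop :=
  (y ∉ closure (Ex T z {a, b}) ∧ y ∉ closure (Ex T z {c, d})) ∧ g ∈ T y ∧ g' ∉ T y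

theorem Cz.end_sides (S : Cz U T z a b c d e f) {u : ℝ} (hT : T (pt z u) = {a, b, e})
    (hc : Cln T z (pt z u)) :
    (OEnd T z (pt z u) 1 ∧ (∃ α < u, ∀ v ∈ Ioo α u, pt z v ∈ Ex T z {a, b}) ∧
        ∃ β > u, ∀ v ∈ Ioo u β, Fr T z a b c d e f (pt z v)) ∨
      (¬ OEnd T z (pt z u) 1 ∧ (∃ β > u, ∀ v ∈ Ioo u β, pt z v ∈ Ex T z {a, b}) ∧
        ∃ α < u, ∀ v ∈ Ioo α u, Fr T z a b c d e f (pt z v)) := by
  obtain ⟨⟨ab, ac, ad, ae, af⟩, ⟨bc, bd, be, bf⟩, ⟨cd, ce, cf⟩, ⟨de, df⟩, ef⟩ := S.nd'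
  have h := S.irr
  have nb1 : ∃ ε > 0, ∀ t ∈ Ioo (0 : ℝ) ε, T (z + (pt z u - z) * cis (1 * t)) ⊆ T (pt z u) :=
    ev_Ioo (ev_sub h z (pt z u) 1)
  have nb2 : ∃ ε > 0, ∀ t ∈ Ioo (0 : ℝ) ε, T (z + (pt z u - z) * cis ((-1) * t)) ⊆ T (pt z u) :=
    ev_Ioo (ev_sub h z (pt z u) (-1))
  simp only [one_mul] at nb1
  simp only [neg_one_mul] at nb2
  rw [hT] at nb1 nb2
  have fr : ∀ y, dist y z = 1 → ¬ {a, b} ⊆ T y ∧ T y ⊆ {a, b, e} → Fr T z a b c d e f y := by
    rintro y hy ⟨h1, h2⟩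
    refine ⟨⟨fun h3 => h1 (sub_of_closure h h3), fun h3 => ?_⟩, ?_, fun h3 => ?_⟩
    · rcases h2 (sub_of_closure h h3 (show c ∈ ({c, d} : Set (Fin 6)) by simp)) with h4 | h4 | h4
      · exact ac h4.symm
      · exact bc h4.symm
      · exact ce h4
    · by_contra he
      have h3 : T y ⊆ {a, b} := by
        intro i hi
        rcases h2 hi with h4 | h4 | h4
        · exact Or.inl h4
        · exact Or.inr h4
        · rw [h4] at hi; exact absurd hi he
      have h4 := h.pair_open (z := z) (Set.ncard_pair ab)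
        (by rw [S.dpt.pal]; rintro i (rfl | rfl) <;> simp) h3
      have h5 : T y = {a, b} := h4.self_of_nhdsWithin (show y ∈ sphere z 1 from hy)
      exact h1 h5.ge
    · rcases h2 h3 with h4 | h4 | h4
      · exact af h4.symm
      · exact bf h4.symm
      · exact ef h4.symm
  rcases S.cln_V (dist_pt z u) hT hc with ⟨ho, k1, k2⟩ | ⟨ho, k1, k2⟩
  · left
    refine ⟨ho, ?_, ?_⟩
    · obtain ⟨α, hα, h1⟩ := bef_of (P := fun y => T y = {a, b}) k1
      exact ⟨α, hα, ex_of_Ioo h1⟩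
    · obtain ⟨β, hβ, h1⟩ := aft_of (P := fun y => ¬ {a, b} ⊆ T y ∧ T y ⊆ {a, b, e})
        (and_side k2 nb1)
      exact ⟨β, hβ, fun v hv => fr _ (dist_pt z v) (h1 v hv)⟩
  · right
    refine ⟨ho, ?_, ?_⟩
    · obtain ⟨β, hβ, h1⟩ := aft_of (P := fun y => T y = {a, b}) k1
      exact ⟨β, hβ, ex_of_Ioo h1⟩
    · obtain ⟨α, hα, h1⟩ := bef_of (P := fun y => ¬ {a, b} ⊆ T y ∧ T y ⊆ {a, b, e})
        (and_side k2 nb2)
      exact ⟨α, hα, fun v hv => fr _ (dist_pt z v) (h1 v hv)⟩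

/-- the points after a label -/
def aftP (T : ℂ → Set (Fin 6)) (z : ℂ) (a b c d e f : Fin 6) (x : Fin 11) (y : ℂ) : Prop :=
  match x with
  | 0 => True
  | 1 => Fr T z a b c d e f y
  | 2 => y ∈ Ex T z {a, b}
  | 3 => Fr T z a b c d f e y
  | 4 => y ∈ Ex T z {c, d}
  | 5 => y ∈ Ex T z {c, d}
  | 6 => y ∈ Ex T z {a, b}
  | 7 => Fr T z a b c d f e y
  | 8 => y ∈ Ex T z {a, b}
  | 9 => Fr T z a b c d e f y
  | 10 => y ∈ Ex T z {c, d}

/-- the points before a label -/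
def befP (T : ℂ → Set (Fin 6)) (z : ℂ) (a b c d e f : Fin 6) (x : Fin 11) (y : ℂ) : Prop :=
  match x with
  | 0 => True
  | 1 => y ∈ Ex T z {a, b}
  | 2 => Fr T z a b c d e f y
  | 3 => y ∈ Ex T z {c, d}
  | 4 => Fr T z a b c d f e y
  | 5 => y ∈ Ex T z {a, b}
  | 6 => y ∈ Ex T z {c, d}
  | 7 => y ∈ Ex T z {a, b}
  | 8 => Fr T z a b c d f e y
  | 9 => y ∈ Ex T z {c, d}
  | 10 => Fr T z a b c d e f y

theorem Fr.swap {g g' : Fin 6} {y : ℂ} (h : Fr T z c d a b g g' y) : Fr T z a b c d g g' y :=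
  ⟨⟨h.1.2, h.1.1⟩, h.2⟩

/-- **the two sides of a labelled point** -/
theorem CzF.sides {g1 g2 : Bool} (S : CzF g1 g2 U T z a b c d e f) (u : ℝ) :
    (∃ β > u, ∀ v ∈ Ioo u β,
      aftP T z a b c d e f (lbF g1 g2 T z a b c d e f (pt z u)) (pt z v)) ∧
    ∃ α < u, ∀ v ∈ Ioo α u,
      befP T z a b c d e f (lbF g1 g2 T z a b c d e f (pt z u)) (pt z v) := by
  have C := S.toCz
  have h := C.irr
  have hy := dist_pt z u
  unfold lbF
  by_cases h3 : T (pt z u) = T z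
  · rw [if_pos h3]
    obtain ⟨τ, hτ, h1, h2⟩ := h.j_sides C.dpt hy h3
    rcases hτ with rfl | rfl
    · have hn : ¬ ∀ᶠ t in 𝓝[>] (0 : ℝ), T (hb z (pt z u) (-1) t) = {a, b} := by
        intro h5
        obtain ⟨t, ht1, ht2⟩ := (h5.and h2).exists
        have : a ∈ ({c, d} : Set (Fin 6)) := by rw [← ht2, ht1]; simp
        rcases this with h6 | h6
        · exact C.dpt.ac h6
        · exact C.dpt.ad h6
      rw [if_neg hn]
      obtain ⟨β, hβ, k1⟩ := aft_of (P := fun y => T y = {a, b}) (z := z) (u := u)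
        (by have := ev_Ioo h1; simpa only [hb, one_mul] using this)
      obtain ⟨α, hα, k2⟩ := bef_of (P := fun y => T y = {c, d}) (z := z) (u := u)
        (by have := ev_Ioo h2; simpa only [hb, neg_one_mul] using this)
      exact ⟨⟨β, hβ, ex_of_Ioo k1⟩, ⟨α, hα, ex_of_Ioo k2⟩⟩
    · rw [neg_neg] at h2
      rw [if_pos h1]
      obtain ⟨β, hβ, k1⟩ := aft_of (P := fun y => T y = {c, d}) (z := z) (u := u)
        (by have := ev_Ioo h2; simpa only [hb, one_mul] using this)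
      obtain ⟨α, hα, k2⟩ := bef_of (P := fun y => T y = {a, b}) (z := z) (u := u)
        (by have := ev_Ioo h1; simpa only [hb, neg_one_mul] using this)
      exact ⟨⟨β, hβ, ex_of_Ioo k1⟩, ⟨α, hα, ex_of_Ioo k2⟩⟩
  rw [if_neg h3]
  by_cases h1 : T (pt z u) = {a, b, e}
  · rw [if_pos h1]
    rcases C.end_sides h1 (S.cln _ hy (Or.inl h1)) with ⟨ho, k1, k2⟩ | ⟨ho, k1, k2⟩
    · rw [if_pos ho]; exact ⟨k2, k1⟩
    · rw [if_neg ho]; exact ⟨k1, k2⟩
  rw [if_neg h1]
  by_cases h2 : T (pt z u) = {c, d, f}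
  · rw [if_pos h2]
    rcases C.swapP.swapEF.end_sides h2 (S.cln _ hy (Or.inr h2)) with ⟨ho, k1, ⟨β, hβ, k2⟩⟩ |
      ⟨ho, k1, ⟨α, hα, k2⟩⟩
    · rw [if_pos ho]; exact ⟨⟨β, hβ, fun v hv => (k2 v hv).swap⟩, k1⟩
    · rw [if_neg ho]; exact ⟨k1, ⟨α, hα, fun v hv => (k2 v hv).swap⟩⟩
  rw [if_neg h2]
  by_cases h4 : g1 = true ∧ T (pt z u) = {a, b, f} ∧ pt z u ∈ closure (Ex T z {a, b})
  · rw [if_pos h4]
    rcases C.swapEF.end_sides h4.2.1 (S.cln1 h4.1 _ hy h4.2.1 h4.2.2) with ⟨ho, k1, k2⟩ |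
      ⟨ho, k1, k2⟩
    · rw [if_pos ho]; exact ⟨k2, k1⟩
    · rw [if_neg ho]; exact ⟨k1, k2⟩
  rw [if_neg h4]
  by_cases h5 : g2 = true ∧ T (pt z u) = {c, d, e} ∧ pt z u ∈ closure (Ex T z {c, d})
  · rw [if_pos h5]
    rcases C.swapP.end_sides h5.2.1 (S.cln2 h5.1 _ hy h5.2.1 h5.2.2) with
      ⟨ho, k1, ⟨β, hβ, k2⟩⟩ | ⟨ho, k1, ⟨α, hα, k2⟩⟩
    · rw [if_pos ho]; exact ⟨⟨β, hβ, fun v hv => (k2 v hv).swap⟩, k1⟩
    · rw [if_neg ho]; exact ⟨k1, ⟨α, hα, fun v hv => (k2 v hv).swap⟩⟩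
  rw [if_neg h5]
  exact ⟨⟨u + 1, by linarith, fun _ _ => trivial⟩, ⟨u - 1, by linarith, fun _ _ => trivial⟩⟩

/-- the status between two consecutive labelled points, read from the first one -/
theorem CzF.mid (S : CzF true true U T z a b c d e f) {t1 t2 : ℝ} (h12 : t1 < t2)
    (h0 : ∀ t ∈ Ioo t1 t2, lbF true true T z a b c d e f (pt z t) = 0)
    (hx : lbF true true T z a b c d e f (pt z t1) ≠ 0) :
    ∀ t ∈ Ioo t1 t2, Stt T z a b c d (aft (lbF true true T z a b c d e f (pt z t1))) (pt z t) := by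
  obtain ⟨k, hk, hS⟩ := S.toCz.const987 h0
  obtain ⟨β, hβ, h1⟩ := (S.sides t1).1
  obtain ⟨v, hv1, hv2⟩ := exists_between (lt_min h12 hβ)
  have hvI : v ∈ Ioo t1 t2 := ⟨hv1, lt_of_lt_of_le hv2 (min_le_left _ _)⟩
  have a1 := hS v hvI
  have a2 := h1 v ⟨hv1, lt_of_lt_of_le hv2 (min_le_right _ _)⟩
  have dis : pt z v ∈ Ex T z {a, b} → pt z v ∈ Ex T z {c, d} → False := by
    intro k1 k2
    have h5 : a ∈ ({c, d} : Set (Fin 6)) := by rw [← ex_self k2, ex_self k1]; simp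
    rcases h5 with h6 | h6
    · exact S.dpt.ac h6
    · exact S.dpt.ad h6
  have fA : pt z v ∈ Ex T z {a, b} → k = 1 := by
    intro k1
    rcases (by omega : k = 0 ∨ k = 1 ∨ k = 2) with rfl | rfl | rfl
    · exact absurd (subset_closure k1) a1.1
    · rfl
    · exact (dis k1 a1).elim
  have fC : pt z v ∈ Ex T z {c, d} → k = 2 := by
    intro k1
    rcases (by omega : k = 0 ∨ k = 1 ∨ k = 2) with rfl | rfl | rfl
    · exact absurd (subset_closure k1) a1.2
    · exact (dis a1 k1).elim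
    · rfl
  have fF : ∀ g g', Fr T z a b c d g g' (pt z v) → k = 0 := by
    intro g g' k1
    rcases (by omega : k = 0 ∨ k = 1 ∨ k = 2) with rfl | rfl | rfl
    · rfl
    · exact absurd (subset_closure a1) k1.1.1
    · exact absurd (subset_closure a1) k1.1.2
  suffices hh : k = aft (lbF true true T z a b c d e f (pt z t1)) by
    rw [← hh]; exact hS
  revert hx a2
  generalize lbF true true T z a b c d e f (pt z t1) = x
  intro hx a2
  have h11 : x = 0 ∨ x = 1 ∨ x = 2 ∨ x = 3 ∨ x = 4 ∨ x = 5 ∨ x = 6 ∨ x = 7 ∨ x = 8 ∨ x = 9 ∨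
      x = 10 := by clear a2 hx; revert x; decide
  rcases h11 with rfl | rfl | rfl | rfl | rfl | rfl | rfl | rfl | rfl | rfl | rfl
  · exact absurd rfl hx
  · exact fF _ _ a2
  · exact fA a2
  · exact fF _ _ a2
  · exact fC a2
  · exact fC a2
  · exact fA a2
  · exact fF _ _ a2
  · exact fA a2
  · exact fF _ _ a2
  · exact fC a2

end Vale.Agent.P032.H987
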