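import Vale.Agent.P032.H987.LabF
import Vale.Agent.P032.H987.Inst

/-!
# P032: the class theorem with all labels at a comp centre (helper987)

`CzE.full` : a `CzE` centre (first network `{a,b,e}`, `{c,d,f}`): either all four types are labelled
and finite in number, or there is no point `{a, b, f}` and `{c, d, e}` are free moves, or there is no
point `{c, d, e}` and `{a, b, f}` are free moves.
-/

open Set Filter Topology Metric

noncomputable section

namespace Vale.Agent.P032.H987

open Vale.Agent.P032.Six Vale.Agent.P032.S5.H767 Vale.Agent.P032.S5.H122 Vale.Agent.P032.Sweep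
  Vale.Agent.P032.S5.H349 Vale.Agent.P032.S5.H450

variable {U : Fin 6 → Set ℂ} {T : ℂ → Set (Fin 6)} {z v q : ℂ} {a b c d e f : Fin 6}

/-- an unlabelled network: the labels are those of the first one -/
theorem finite_lbF {g1 g2 : Bool}
    (hfin : {y | dist y z = 1 ∧ lb T z a b c d e f y ≠ 0}.Finite)
    (h1 : {y | dist y z = 1 ∧ g1 = true ∧ T y = {a, b, f} ∧ y ∈ closure (Ex T z {a, b})}.Finite)
    (h2 : {y | dist y z = 1 ∧ g2 = true ∧ T y = {c, d, e} ∧ y ∈ closure (Ex T z {c, d})}.Finite) :
    {y | dist y z = 1 ∧ lbF g1 g2 T z a b c d e f y ≠ 0}.Finite := by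
  refine ((hfin.union h1).union h2).subset ?_
  rintro y ⟨hy, hl⟩
  rcases lbF_ne hl with h | h | h | ⟨k1, k2, k3⟩ | ⟨k1, k2, k3⟩
  · refine Or.inl (Or.inl ⟨hy, fun h0 => ?_⟩)
    unfold lb at h0
    rw [if_pos h] at h0
    split_ifs at h0
    · exact absurd h0 (by decide)
    · exact absurd h0 (by decide)
  · refine Or.inl (Or.inl ⟨hy, fun h0 => ?_⟩)
    unfold lb at h0
    by_cases h3 : T y = T z
    · rw [if_pos h3] at h0
      split_ifs at h0
      · exact absurd h0 (by decide)
      · exact absurd h0 (by decide)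
    rw [if_neg h3, if_pos h] at h0
    split_ifs at h0
    · exact absurd h0 (by decide)
    · exact absurd h0 (by decide)
  · refine Or.inl (Or.inl ⟨hy, fun h0 => ?_⟩)
    unfold lb at h0
    by_cases h3 : T y = T z
    · rw [if_pos h3] at h0
      split_ifs at h0
      · exact absurd h0 (by decide)
      · exact absurd h0 (by decide)
    by_cases h4 : T y = {a, b, e}
    · rw [if_neg h3, if_pos h4] at h0
      split_ifs at h0
      · exact absurd h0 (by decide)
      · exact absurd h0 (by decide)
    rw [if_neg h3, if_neg h4, if_pos h] at h0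
    split_ifs at h0
    · exact absurd h0 (by decide)
    · exact absurd h0 (by decide)
  · exact Or.inl (Or.inr ⟨hy, k1, k2, k3⟩)
  · exact Or.inr ⟨hy, k1, k2, k3⟩

/-- **the three cases of the second network** -/
theorem CzE.full (S : CzE U T z a b c d e f)
    (h5 : ∀ x y, dist x y = 1 → 5 ≤ (T x).ncard → 4 ≤ (T y).ncard → False)
    (hfin : {y | dist y z = 1 ∧ lb T z a b c d e f y ≠ 0}.Finite) :
    (CzF true true U T z a b c d e f ∧
        {y | dist y z = 1 ∧ lbF true true T z a b c d e f y ≠ 0}.Finite ∧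
        ((∃ v' q', dist v' z = 1 ∧ dist q' z = 1 ∧ T v' = {a, b, f} ∧ T q' = {c, d, e} ∧
            v' + q' ≠ 2 * z ∧ CzE U T z a b c d f e ∧
            {y | dist y z = 1 ∧ lb T z a b c d f e y ≠ 0}.Finite) ∨
          ∀ y, dist y z = 1 → (T y = {a, b, f} → y ∉ closure (Ex T z {a, b})) ∧
            (T y = {c, d, e} → y ∉ closure (Ex T z {c, d})))) ∨
      (CzF true false U T z a b c d e f ∧
        {y | dist y z = 1 ∧ lbF true false T z a b c d e f y ≠ 0}.Finite ∧
        ∀ y, dist y z = 1 → T y ≠ {a, b, f}) ∨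
      (CzF false true U T z a b c d e f ∧
        {y | dist y z = 1 ∧ lbF false true T z a b c d e f y ≠ 0}.Finite ∧
        ∀ y, dist y z = 1 → T y ≠ {c, d, e}) := by
  have C := S.toCz
  have h := C.irr
  by_cases hA : ∃ v', dist v' z = 1 ∧ T v' = {a, b, f}
  swap
  · right; left
    push Not at hA
    refine ⟨⟨S, fun _ y hy hT => absurd hT (hA y hy), fun hh => absurd hh (by decide)⟩,
      finite_lbF hfin ?_ ?_, hA⟩
    · exact Set.finite_empty.subset fun y hy => hA y hy.1 hy.2.2.1
    · exact Set.finite_empty.subset fun y hy => absurd hy.2.1 (by decide)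
  by_cases hB : ∃ q', dist q' z = 1 ∧ T q' = {c, d, e}
  swap
  · right; right
    push Not at hB
    refine ⟨⟨S, fun hh => absurd hh (by decide), fun _ y hy hT => absurd hT (hB y hy)⟩,
      finite_lbF hfin ?_ ?_, hB⟩
    · exact Set.finite_empty.subset fun y hy => absurd hy.2.1 (by decide)
    · exact Set.finite_empty.subset fun y hy => hB y hy.1 hy.2.2.1
  left
  by_cases hAB : ∃ v' q', dist v' z = 1 ∧ dist q' z = 1 ∧ T v' = {a, b, f} ∧ T q' = {c, d, e} ∧
      v' + q' ≠ 2 * z
  · obtain ⟨v', q', hv', hq', Tv', Tq', hop⟩ := hAB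
    obtain ⟨S', hfin'⟩ := czE_of h C.dpt C.swapEF.nd C.hJ h5 hv' Tv' hq' Tq' hop
    refine ⟨⟨S, fun _ y hy hT _ => S'.cln y hy (Or.inl hT),
      fun _ y hy hT _ => S'.cln y hy (Or.inr hT)⟩, finite_lbF hfin ?_ ?_,
      Or.inl ⟨v', q', hv', hq', Tv', Tq', hop, S', hfin'⟩⟩
    · refine hfin'.subset ?_
      rintro y ⟨hy, -, hT, -⟩
      refine ⟨hy, fun h0 => ?_⟩
      unfold lb at h0
      by_cases h3 : T y = T z
      · rw [if_pos h3] at h0
        split_ifs at h0
        · exact absurd h0 (by decide)
        · exact absurd h0 (by decide)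
      rw [if_neg h3, if_pos hT] at h0
      split_ifs at h0
      · exact absurd h0 (by decide)
      · exact absurd h0 (by decide)
    · refine hfin'.subset ?_
      rintro y ⟨hy, -, hT, -⟩
      refine ⟨hy, fun h0 => ?_⟩
      unfold lb at h0
      by_cases h3 : T y = T z
      · rw [if_pos h3] at h0
        split_ifs at h0
        · exact absurd h0 (by decide)
        · exact absurd h0 (by decide)
      by_cases h4 : T y = {a, b, f}
      · rw [if_neg h3, if_pos h4] at h0
        split_ifs at h0
        · exact absurd h0 (by decide)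
        · exact absurd h0 (by decide)
      rw [if_neg h3, if_neg h4, if_pos hT] at h0
      split_ifs at h0
      · exact absurd h0 (by decide)
      · exact absurd h0 (by decide)
  · -- all pairs are antipodal
    push Not at hAB
    obtain ⟨v', hv', Tv'⟩ := hA
    obtain ⟨q', hq', Tq'⟩ := hB
    have nA : ∀ y, dist y z = 1 → T y = {a, b, f} → y ∉ closure (Ex T z {a, b}) := by
      intro y hy hT hcl
      have h1 := hAB y q' hy hq' hT Tq'
      refine h.anti_clo C.dpt hq' (by rw [Tq']; simp) (by rw [Tq']; simp) ?_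
      rw [show 2 * z - q' = y by linear_combination -h1]
      exact hcl
    have nB : ∀ y, dist y z = 1 → T y = {c, d, e} → y ∉ closure (Ex T z {c, d}) := by
      intro y hy hT hcl
      have h1 := hAB v' y hv' hy Tv' hT
      refine h.anti_clo C.dpt.swap hv' (by rw [Tv']; simp) (by rw [Tv']; simp) ?_
      rw [show 2 * z - v' = y by linear_combination -h1]
      exact hcl
    refine ⟨⟨S, fun _ y hy hT hcl => absurd hcl (nA y hy hT),
      fun _ y hy hT hcl => absurd hcl (nB y hy hT)⟩, finite_lbF hfin ?_ ?_,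
      Or.inr fun y hy => ⟨nA y hy, nB y hy⟩⟩
    · exact Set.finite_empty.subset fun y hy => nA y hy.1 hy.2.2.1 hy.2.2.2
    · exact Set.finite_empty.subset fun y hy => nB y hy.1 hy.2.2.1 hy.2.2.2

end Vale.Agent.P032.H987
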