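import Vale.Agent.P032.H987.Lab

/-!
# P032: one circle with zones, labels of all four types of ends (helper987)

Labels `0 .. 6` as in `Lab`; `7`, `8` : `T y = {a, b, f}`, `y` in the closure of the exact arcs,
the exact `ab`-arc before / after `y`; `9`, `10` : `T y = {c, d, e}`, the exact `cd`-arc before /
after `y`.
`g1` / `g2` : Bool, the points with the palette `{a, b, f}` / `{c, d, e}` are labelled (`true`) or
free moves (`false`).

* `CtF`, `EvF g1 g2 lam h h'` : the columns before and after a time with the label vector `lam`;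
* `lbF`, `lamF`; `CzF` : `CzE` and clean ends for the labelled types;
* `ZChF`, `CzF.zpath` : the class theorem.
-/

open Set Filter Topology Metric

noncomputable section

namespace Vale.Agent.P032.H987

open Vale.Agent.P032.Six Vale.Agent.P032.S5.H767 Vale.Agent.P032.S5.H122 Vale.Agent.P032.Sweep
  Vale.Agent.P032.S5.H349

open Cz (tau finite_times)

/-- letters before and after a point with the label -/
def CtF (g1 g2 : Bool) (x : Fin 11) (l m : Fin 4) : Prop :=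
  match x with
  | 0 => l = m ∨ (l = 0 ∧ m = 1) ∨ (l = 1 ∧ m = 0) ∨
      (g1 = false ∧ ((l = 2 ∧ m = 1) ∨ (l = 1 ∧ m = 2))) ∨
      (g2 = false ∧ ((l = 3 ∧ m = 0) ∨ (l = 0 ∧ m = 3)))
  | 1 => l = 2 ∧ m = 0
  | 2 => l = 0 ∧ m = 2
  | 3 => l = 3 ∧ m = 1
  | 4 => l = 1 ∧ m = 3
  | 5 => l = 2 ∧ m = 3
  | 6 => l = 3 ∧ m = 2
  | 7 => l = 2 ∧ m = 1
  | 8 => l = 1 ∧ m = 2
  | 9 => l = 3 ∧ m = 0
  | 10 => l = 0 ∧ m = 3

instance (g1 g2 : Bool) (x : Fin 11) (l m : Fin 4) : Decidable (CtF g1 g2 x l m) := by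
  unfold CtF; split <;> infer_instance

/-- the columns before and after a time with the label vector `lam` -/
structure EvF (g1 g2 : Bool) (lam : Fin 6 → Fin 11) (h h' : Fin 6 → Fin 4) : Prop where
  ct : ∀ j, CtF g1 g2 (lam j) (h j) (h' j)
  adj : ∀ j, h j ≠ h (j + 1)
  adj' : ∀ j, h' j ≠ h' (j + 1)
  noswap : ∀ j, h j ≠ h' j → h j = h' (j + 1) → h' j ≠ h (j + 1)
  opp : ∀ j, (h j = 2 ∨ h' j = 2) → (h (j + 3) = 3 ∨ h' (j + 3) = 3) → False

instance (g1 g2 : Bool) (lam : Fin 6 → Fin 11) (h h' : Fin 6 → Fin 4) :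
    Decidable (EvF g1 g2 lam h h') :=
  decidable_of_iff ((∀ j, CtF g1 g2 (lam j) (h j) (h' j)) ∧ (∀ j, h j ≠ h (j + 1)) ∧
      (∀ j, h' j ≠ h' (j + 1)) ∧ (∀ j, h j ≠ h' j → h j = h' (j + 1) → h' j ≠ h (j + 1)) ∧
      ∀ j, (h j = 2 ∨ h' j = 2) → (h (j + 3) = 3 ∨ h' (j + 3) = 3) → False)
    ⟨fun ⟨h1, h2, h3, h4, h5⟩ => ⟨h1, h2, h3, h4, h5⟩,
      fun h => ⟨h.ct, h.adj, h.adj', h.noswap, h.opp⟩⟩

/-- chain of classes with label vectors in the phase `k` -/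
def ZChF (g1 g2 : Bool) {σ : Type} (k : ℕ) (cl : (Fin 6 → Fin 4) → σ) :
    List (Fin 6 → Fin 11) → (Fin 6 → Fin 4) → (Fin 6 → Fin 4) → Prop
  | [], h, h' => Zok k h ∧ Zok k h' ∧ cl h = cl h'
  | τ :: l, h, h' => ∃ g g', (Zok k h ∧ Zok k g ∧ cl h = cl g) ∧ EvF g1 g2 τ g g' ∧
      ZChF g1 g2 k cl l g' h'

variable {U : Fin 6 → Set ℂ} {T : ℂ → Set (Fin 6)} {z : ℂ} {a b c d e f : Fin 6} {p q : ℝ}
  {g1 g2 : Bool}

open Classical in
/-- the label of a point -/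
def lbF (g1 g2 : Bool) (T : ℂ → Set (Fin 6)) (z : ℂ) (a b c d e f : Fin 6) (y : ℂ) : Fin 11 :=
  if T y = T z then (if ∀ᶠ t in 𝓝[>] (0 : ℝ), T (hb z y (-1) t) = {a, b} then 5 else 6)
  else if T y = {a, b, e} then (if OEnd T z y 1 then 1 else 2)
  else if T y = {c, d, f} then (if OEnd T z y 1 then 3 else 4)
  else if g1 = true ∧ T y = {a, b, f} ∧ y ∈ closure (Ex T z {a, b}) then
    (if OEnd T z y 1 then 7 else 8)
  else if g2 = true ∧ T y = {c, d, e} ∧ y ∈ closure (Ex T z {c, d}) then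
    (if OEnd T z y 1 then 9 else 10) else 0

/-- a labelled point has the palette of `z` or of an end -/
theorem lbF_ne {y : ℂ} (h : lbF g1 g2 T z a b c d e f y ≠ 0) : T y = T z ∨ T y = {a, b, e} ∨
    T y = {c, d, f} ∨ (g1 = true ∧ T y = {a, b, f} ∧ y ∈ closure (Ex T z {a, b})) ∨
    (g2 = true ∧ T y = {c, d, e} ∧ y ∈ closure (Ex T z {c, d})) := by
  unfold lbF at h
  by_cases h1 : T y = T z
  · exact Or.inl h1
  by_cases h2 : T y = {a, b, e}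
  · exact Or.inr (Or.inl h2)
  by_cases h3 : T y = {c, d, f}
  · exact Or.inr (Or.inr (Or.inl h3))
  by_cases h4 : g1 = true ∧ T y = {a, b, f} ∧ y ∈ closure (Ex T z {a, b})
  · exact Or.inr (Or.inr (Or.inr (Or.inl h4)))
  by_cases h5 : g2 = true ∧ T y = {c, d, e} ∧ y ∈ closure (Ex T z {c, d})
  · exact Or.inr (Or.inr (Or.inr (Or.inr h5)))
  rw [if_neg h1, if_neg h2, if_neg h3, if_neg h4, if_neg h5] at h
  exact absurd rfl h

/-- the label vector at the time `u` -/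
def lamF (g1 g2 : Bool) (T : ℂ → Set (Fin 6)) (z : ℂ) (a b c d e f : Fin 6) (φ u : ℝ) :
    Fin 6 → Fin 11 := fun j => lbF g1 g2 T z a b c d e f (qj z φ u j)

/-- a `CzE` centre with clean ends of the labelled types of the other network -/
structure CzF (g1 g2 : Bool) (U : Fin 6 → Set ℂ) (T : ℂ → Set (Fin 6)) (z : ℂ)
    (a b c d e f : Fin 6) : Prop extends CzE U T z a b c d e f where
  cln1 : g1 = true → ∀ y, dist y z = 1 → T y = {a, b, f} → y ∈ closure (Ex T z {a, b}) → Cln T z y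
  cln2 : g2 = true → ∀ y, dist y z = 1 → T y = {c, d, e} → y ∈ closure (Ex T z {c, d}) → Cln T z y

theorem Cz.swapEF (S : Cz U T z a b c d e f) : Cz U T z a b c d f e where
  irr := S.irr
  dpt := S.dpt
  nd := by
    have h := S.nd
    simp only [List.nodup_cons, List.mem_cons, List.not_mem_nil, or_false, not_or, List.nodup_nil,
      and_true, not_false_eq_true] at h ⊢
    obtain ⟨⟨ab, ac, ad, ae, af⟩, ⟨bc, bd, be, bf⟩, ⟨cd, ce, cf⟩, ⟨de, df⟩, ef⟩ := h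
    exact ⟨⟨ab, ac, ad, af, ae⟩, ⟨bc, bd, bf, be⟩, ⟨cd, cf, ce⟩, ⟨df, de⟩, Ne.symm ef⟩
  hJ := S.hJ

/-- letters with `e`, `f` exchanged -/
def swl (l : Fin 4) : Fin 4 := match l with | 0 => 1 | 1 => 0 | 2 => 2 | 3 => 3

theorem lt_swap {y : ℂ} {l : Fin 4} (h : y ∈ Lt T z a b c d e f l) :
    y ∈ Lt T z a b c d f e (swl l) := by
  have h4 : l = 0 ∨ l = 1 ∨ l = 2 ∨ l = 3 := by fin_cases l <;> decide
  rcases h4 with rfl | rfl | rfl | rfl
  · exact h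
  · exact h
  · exact h
  · exact h

theorem swl0 {l : Fin 4} (h : swl l = 0) : l = 1 := by revert h; revert l; decide
theorem swl1 {l : Fin 4} (h : swl l = 1) : l = 0 := by revert h; revert l; decide

theorem Cz.let_Vf (S : Cz U T z a b c d e f) {y : ℂ} (hs : T y ⊆ {a, b, f})
    (hn : ¬ {a, b} ⊆ T y) {l : Fin 4} (hl : y ∈ Lt T z a b c d e f l) : l = 1 :=
  swl0 (S.swapEF.let_V' hs hn (lt_swap hl))

theorem Cz.let_Qe (S : Cz U T z a b c d e f) {y : ℂ} (hs : T y ⊆ {c, d, e})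
    (hn : ¬ {c, d} ⊆ T y) {l : Fin 4} (hl : y ∈ Lt T z a b c d e f l) : l = 0 :=
  swl1 (S.swapEF.let_Q' hs hn (lt_swap hl))

/-- the letters at an unlabelled point -/
theorem Cz.ct0 (S : Cz U T z a b c d e f) {y : ℂ} (hy : dist y z = 1) {l m : Fin 4}
    (h0 : lbF g1 g2 T z a b c d e f y = 0)
    (hl : y ∈ Lt T z a b c d e f l) (hm : y ∈ Lt T z a b c d e f m) : CtF g1 g2 0 l m := by
  unfold lbF at h0
  by_cases h3 : T y = T z
  · rw [if_pos h3] at h0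
    split_ifs at h0
    · exact absurd h0 (by decide)
    · exact absurd h0 (by decide)
  rw [if_neg h3] at h0
  by_cases h1 : T y = {a, b, e}
  · rw [if_pos h1] at h0
    split_ifs at h0
    · exact absurd h0 (by decide)
    · exact absurd h0 (by decide)
  rw [if_neg h1] at h0
  by_cases h2 : T y = {c, d, f}
  · rw [if_pos h2] at h0
    split_ifs at h0
    · exact absurd h0 (by decide)
    · exact absurd h0 (by decide)
  rw [if_neg h2] at h0
  by_cases h5 : g1 = true ∧ T y = {a, b, f} ∧ y ∈ closure (Ex T z {a, b})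
  · rw [if_pos h5] at h0
    split_ifs at h0
    · exact absurd h0 (by decide)
    · exact absurd h0 (by decide)
  rw [if_neg h5] at h0
  by_cases h6 : g2 = true ∧ T y = {c, d, e} ∧ y ∈ closure (Ex T z {c, d})
  · rw [if_pos h6] at h0
    split_ifs at h0
    · exact absurd h0 (by decide)
    · exact absurd h0 (by decide)
  have h4 : (T y).ncard ≤ 3 := (S.hJ y hy).resolve_right h3
  obtain ⟨u, rfl⟩ := S5.H349.exists_pt hy
  have kV : pt z u ∈ Lt T z a b c d e f 0 → pt z u ∈ Lt T z a b c d e f 2 → False :=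
    fun k0 k2 => h1 (S.ctr.pal_eA h4 k0 k2)
  have kQ : pt z u ∈ Lt T z a b c d e f 1 → pt z u ∈ Lt T z a b c d e f 3 → False := by
    intro k0 k2
    have C' := S.ctr.swapAC.swapEF
    exact h2 (C'.pal_eA h4 (by exact k0) (by exact k2))
  have kJ : pt z u ∈ Lt T z a b c d e f 2 → pt z u ∈ Lt T z a b c d e f 3 → False :=
    fun k0 k2 => S.ctr.noAC h4 k0 k2
  have kV' : pt z u ∈ Lt T z a b c d e f 1 → pt z u ∈ Lt T z a b c d e f 2 → g1 = false := by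
    intro k0 k2
    have C' := S.ctr.swapEF
    have h7 : T (pt z u) = {a, b, f} := C'.pal_eA h4 (by exact k0) (by exact k2)
    by_contra h8
    exact h5 ⟨by simpa using h8, h7, k2⟩
  have kQ' : pt z u ∈ Lt T z a b c d e f 0 → pt z u ∈ Lt T z a b c d e f 3 → g2 = false := by
    intro k0 k2
    have C' := S.ctr.swapAC
    have h7 : T (pt z u) = {c, d, e} := C'.pal_eA h4 (by exact k0) (by exact k2)
    by_contra h8
    exact h6 ⟨by simpa using h8, h7, k2⟩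
  have hl4 : l = 0 ∨ l = 1 ∨ l = 2 ∨ l = 3 := by fin_cases l <;> decide
  have hm4 : m = 0 ∨ m = 1 ∨ m = 2 ∨ m = 3 := by fin_cases m <;> decide
  show l = m ∨ (l = 0 ∧ m = 1) ∨ (l = 1 ∧ m = 0) ∨
      (g1 = false ∧ ((l = 2 ∧ m = 1) ∨ (l = 1 ∧ m = 2))) ∨
      (g2 = false ∧ ((l = 3 ∧ m = 0) ∨ (l = 0 ∧ m = 3)))
  rcases hl4 with rfl | rfl | rfl | rfl <;> rcases hm4 with rfl | rfl | rfl | rfl
  · exact Or.inl rfl
  · exact Or.inr (Or.inl ⟨rfl, rfl⟩)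
  · exact (kV hl hm).elim
  · exact Or.inr (Or.inr (Or.inr (Or.inr ⟨kQ' hl hm, Or.inr ⟨rfl, rfl⟩⟩)))
  · exact Or.inr (Or.inr (Or.inl ⟨rfl, rfl⟩))
  · exact Or.inl rfl
  · exact Or.inr (Or.inr (Or.inr (Or.inl ⟨kV' hl hm, Or.inr ⟨rfl, rfl⟩⟩)))
  · exact (kQ hl hm).elim
  · exact (kV hm hl).elim
  · exact Or.inr (Or.inr (Or.inr (Or.inl ⟨kV' hm hl, Or.inl ⟨rfl, rfl⟩⟩)))
  · exact Or.inl rfl
  · exact (kJ hl hm).elim
  · exact Or.inr (Or.inr (Or.inr (Or.inr ⟨kQ' hm hl, Or.inl ⟨rfl, rfl⟩⟩)))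
  · exact (kQ hm hl).elim
  · exact (kJ hm hl).elim
  · exact Or.inl rfl

namespace CzF

/-- the letters before and after at one slot -/
theorem ctF (S : CzF g1 g2 U T z a b c d e f) {φ u : ℝ} {g g' : Unit × Fin 6 → Fin 4}
    (hg : g ∈ LC (XX T z a b e f φ) u) (hg' : g' ∈ RC (XX T z a b e f φ) u) (j : Fin 6) :
    CtF g1 g2 (lamF g1 g2 T z a b c d e f φ u j) (g ((), j)) (g' ((), j)) := by
  have C := S.toCz
  have hd := dist_qj z φ u j
  have hL := S.toCzE.ctL hg hg' j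
  have w := C.sw φ
  have hal : qj z φ u j ∈ Lt T z a b c d e f (g ((), j)) :=
    C.mem_Lt (w.av_of_LC hg ((), j))
  have har : qj z φ u j ∈ Lt T z a b c d e f (g' ((), j)) :=
    C.mem_Lt (w.av_of_RC hg' ((), j))
  set y := qj z φ u j with hy
  have nb1 : ∃ ε > 0, ∀ t ∈ Ioo (0 : ℝ) ε, T (z + (y - z) * cis (1 * t)) ⊆ T y :=
    ev_Ioo (ev_sub C.irr z y 1)
  have nb2 : ∃ ε > 0, ∀ t ∈ Ioo (0 : ℝ) ε, T (z + (y - z) * cis ((-1) * t)) ⊆ T y :=
    ev_Ioo (ev_sub C.irr z y (-1))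
  simp only [one_mul] at nb1
  simp only [neg_one_mul] at nb2
  by_cases h0 : lbF g1 g2 T z a b c d e f y = 0
  · show CtF g1 g2 (lbF g1 g2 T z a b c d e f y) _ _
    rw [h0]
    exact C.ct0 hd h0 hal har
  have hL : CtL (lb T z a b c d e f y) (g ((), j)) (g' ((), j)) := hL
  show CtF g1 g2 (lbF g1 g2 T z a b c d e f y) _ _
  unfold lbF at h0 ⊢
  unfold lb at hL
  by_cases h3 : T y = T z
  · rw [if_pos h3] at hL ⊢
    split_ifs at hL ⊢
    · exact hL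
    · exact hL
  rw [if_neg h3] at hL h0 ⊢
  by_cases h1 : T y = {a, b, e}
  · rw [if_pos h1] at hL ⊢
    split_ifs at hL ⊢
    · exact hL
    · exact hL
  rw [if_neg h1] at hL h0 ⊢
  by_cases h2 : T y = {c, d, f}
  · rw [if_pos h2] at hL ⊢
    split_ifs at hL ⊢
    · exact hL
    · exact hL
  rw [if_neg h2] at hL h0 ⊢
  by_cases h5 : g1 = true ∧ T y = {a, b, f} ∧ y ∈ closure (Ex T z {a, b})
  · rw [if_pos h5]
    rw [h5.2.1] at nb1 nb2
    rcases C.swapEF.cln_V hd h5.2.1 (S.cln1 h5.1 y hd h5.2.1 h5.2.2) with ⟨ho, k1, k2⟩ | ⟨ho, k1, k2⟩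
    · rw [if_pos ho]
      obtain ⟨y1, k3, k4⟩ := C.lc_side hg j (Q := fun y => T y = {a, b}) k1
      obtain ⟨y2, k5, k6⟩ := C.rc_side hg' j
        (Q := fun y => ¬ {a, b} ⊆ T y ∧ T y ⊆ {a, b, f}) (and_side k2 nb1)
      exact ⟨C.let_ab k3 k4, C.let_Vf k5.2 k5.1 k6⟩
    · rw [if_neg ho]
      obtain ⟨y1, k3, k4⟩ := C.rc_side hg' j (Q := fun y => T y = {a, b}) k1
      obtain ⟨y2, k5, k6⟩ := C.lc_side hg j
        (Q := fun y => ¬ {a, b} ⊆ T y ∧ T y ⊆ {a, b, f}) (and_side k2 nb2)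
      exact ⟨C.let_Vf k5.2 k5.1 k6, C.let_ab k3 k4⟩
  rw [if_neg h5] at h0 ⊢
  by_cases h6 : g2 = true ∧ T y = {c, d, e} ∧ y ∈ closure (Ex T z {c, d})
  · rw [if_pos h6]
    rw [h6.2.1] at nb1 nb2
    rcases C.swapEF.cln_Q hd h6.2.1 (S.cln2 h6.1 y hd h6.2.1 h6.2.2) with ⟨ho, k1, k2⟩ | ⟨ho, k1, k2⟩
    · rw [if_pos ho]
      obtain ⟨y1, k3, k4⟩ := C.lc_side hg j (Q := fun y => T y = {c, d}) k1
      obtain ⟨y2, k5, k6⟩ := C.rc_side hg' j
        (Q := fun y => ¬ {c, d} ⊆ T y ∧ T y ⊆ {c, d, e}) (and_side k2 nb1)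
      exact ⟨C.let_cd k3 k4, C.let_Qe k5.2 k5.1 k6⟩
    · rw [if_neg ho]
      obtain ⟨y1, k3, k4⟩ := C.rc_side hg' j (Q := fun y => T y = {c, d}) k1
      obtain ⟨y2, k5, k6⟩ := C.lc_side hg j
        (Q := fun y => ¬ {c, d} ⊆ T y ∧ T y ⊆ {c, d, e}) (and_side k2 nb2)
      exact ⟨C.let_Qe k5.2 k5.1 k6, C.let_cd k3 k4⟩
  rw [if_neg h6] at h0
  exact absurd rfl h0

/-- **the columns before and after any time** -/
theorem evF (S : CzF g1 g2 U T z a b c d e f) {φ u : ℝ} {g g' : Unit × Fin 6 → Fin 4}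
    (hg : g ∈ LC (XX T z a b e f φ) u) (hg' : g' ∈ RC (XX T z a b e f φ) u) :
    EvF g1 g2 (lamF g1 g2 T z a b c d e f φ u) (fun j => g ((), j)) (fun j => g' ((), j)) := by
  have t := S.toCzE.evL hg hg'
  exact ⟨S.ctF hg hg', t.adj, t.adj', t.noswap, t.opp⟩

/-- two columns at an unlabelled time -/
theorem ev0 (S : CzF g1 g2 U T z a b c d e f) {φ u : ℝ} {g g' : Unit × Fin 6 → Fin 4}
    (h0 : ∀ j, lamF g1 g2 T z a b c d e f φ u j = 0)
    (hg : g ∈ LC (XX T z a b e f φ) u ∪ RC (XX T z a b e f φ) u)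
    (hg' : g' ∈ LC (XX T z a b e f φ) u ∪ RC (XX T z a b e f φ) u) :
    EvF g1 g2 (fun _ => 0) (fun j => g ((), j)) (fun j => g' ((), j)) := by
  have C := S.toCz
  have w := C.sw φ
  have t := C.tie hg hg'
  have key : ∀ h ∈ LC (XX T z a b e f φ) u ∪ RC (XX T z a b e f φ) u,
      Av (XX T z a b e f φ) u h := by
    rintro h (hh | hh)
    · exact w.av_of_LC hh
    · exact w.av_of_RC hh
  refine ⟨fun j => C.ct0 (dist_qj z φ u j) (h0 j) (C.mem_Lt (key g hg ((), j)))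
    (C.mem_Lt (key g' hg' ((), j))), t.adj, t.adj', fun j h1 h2 h3 => ?_, t.opp⟩
  obtain ⟨k1, -⟩ := t.noswap j h1 h2 h3
  have h4 : T (qj z φ u j) = T z := by
    by_contra hcon
    unfold tau ty at k1
    rw [if_neg hcon] at k1
    split_ifs at k1
    · exact absurd k1 (by decide)
    · exact absurd k1 (by decide)
    · exact absurd k1 (by decide)
  have h5 : lbF g1 g2 T z a b c d e f (qj z φ u j) = 0 := h0 j
  unfold lbF at h5
  rw [if_pos h4] at h5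
  split_ifs at h5
  · exact absurd h5 (by decide)
  · exact absurd h5 (by decide)

end CzF

theorem zchF_of_cmp {σ : Type} {k : ℕ} {cl : (Fin 6 → Fin 4) → σ} {E : ℝ → Fin 6 → Fin 11} :
    ∀ {l : List ℝ} {h h' : Unit × Fin 6 → Fin 4},
    Cmp (fun g g' => Zok k (fun j => g ((), j)) ∧ Zok k (fun j => g' ((), j)) ∧
        cl (fun j => g ((), j)) = cl (fun j => g' ((), j)))
      (fun s g g' => EvF g1 g2 (E s) (fun j => g ((), j)) (fun j => g' ((), j))) l h h' →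
    ZChF g1 g2 k cl (l.map E) (fun j => h ((), j)) (fun j => h' ((), j)) := by
  intro l
  induction l with
  | nil => intro h h' hc; exact hc
  | cons s l ih =>
    rintro h h' ⟨g, g', h1, h2, h3⟩
    exact ⟨_, _, h1, h2, ih h3⟩

/-- the labelled times are finite in number -/
theorem finite_timesF (hfin : {y | dist y z = 1 ∧ lbF g1 g2 T z a b c d e f y ≠ 0}.Finite)
    (φ α β : ℝ) (hα : 0 ≤ α) (hβ : β ≤ 1) :
    {u | u ∈ Ioo α β ∧ ∃ j, lamF g1 g2 T z a b c d e f φ u j ≠ 0}.Finite := by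
  have h1 : {u | u ∈ Ioo α β ∧ ∃ j, lamF g1 g2 T z a b c d e f φ u j ≠ 0} ⊆
      ⋃ j : Fin 6, ⋃ y ∈ {y | dist y z = 1 ∧ lbF g1 g2 T z a b c d e f y ≠ 0},
        {u | u ∈ Ioo (0 : ℝ) 1 ∧ qj z φ u j = y} := by
    rintro u ⟨hu, j, hj⟩
    exact mem_iUnion.2 ⟨j, mem_iUnion₂.2 ⟨qj z φ u j, ⟨dist_qj z φ u j, hj⟩,
      ⟨lt_of_le_of_lt hα hu.1, lt_of_lt_of_le hu.2 hβ⟩, rfl⟩⟩
  refine Finite.subset (finite_iUnion fun j => hfin.biUnion fun y _ => ?_) h1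
  refine Set.Subsingleton.finite ?_
  rintro u ⟨hu, h1⟩ u' ⟨hu', h2⟩
  obtain ⟨n, hn⟩ := pt_eq_iff (show pt z (φ + u + (j.val : ℝ)) = pt z (φ + u' + (j.val : ℝ)) from
    h1.trans h2.symm)
  have h3 : u = u' + 6 * n := by linarith
  have h4 : (n : ℝ) < 1 := by linarith [hu.2, hu'.1]
  have h5 : (-1 : ℝ) < (n : ℝ) := by linarith [hu.1, hu'.2]
  have h6 : n < 1 := by exact_mod_cast h4
  have h7 : -1 < n := by exact_mod_cast h5
  have h8 : n = 0 := by omega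
  rw [h3, h8]; push_cast; ring

/-- one phase -/
theorem CzF.phase (S : CzF g1 g2 U T z a b c d e f) (Z : Zn T z a b c d p q)
    (hfin : {y | dist y z = 1 ∧ lbF g1 g2 T z a b c d e f y ≠ 0}.Finite) {σ : Type} {k : ℕ}
    {cl : (Fin 6 → Fin 4) → σ}
    (hcl : ∀ h h', Zok k h → Zok k h' → EvF g1 g2 (fun _ => 0) h h' → cl h = cl h') {α β : ℝ}
    (hα : 0 ≤ α) (hβ : β ≤ 1) (hαβ : α < β) (hp : ∀ v ∈ Ioo α β, Ph (q - p) k v)
    {h h' : Unit × Fin 6 → Fin 4} (hh : h ∈ RC (XX T z a b e f p) α)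
    (hh' : h' ∈ LC (XX T z a b e f p) β) :
    ∃ l : List ℝ, l.Pairwise (· < ·) ∧
      (∀ u, u ∈ l ↔ u ∈ Ioo α β ∧ ∃ j, lamF g1 g2 T z a b c d e f p u j ≠ 0) ∧
      ZChF g1 g2 k cl (l.map (lamF g1 g2 T z a b c d e f p)) (fun j => h ((), j))
        (fun j => h' ((), j)) := by
  have C := S.toCz
  have w := C.sw p
  have hfin2 := finite_timesF hfin p α β hα hβ
  set F := hfin2.toFinset with hF
  have hmem : ∀ u, u ∈ F ↔ u ∈ Ioo α β ∧ ∃ j, lamF g1 g2 T z a b c d e f p u j ≠ 0 := fun u => by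
    rw [hF, Set.Finite.mem_toFinset]; exact Iff.rfl
  refine ⟨F.sort (· ≤ ·), (Finset.sortedLT_sort F).pairwise, fun u => by
    rw [Finset.mem_sort]; exact hmem u, ?_⟩
  have hz : ∀ u ∈ Ioo α β, ∀ g ∈ LC (XX T z a b e f p) u ∪ RC (XX T z a b e f p) u,
      Zok k (fun j => g ((), j)) := by
    rintro u hu g (hg | hg)
    · exact Z.zok_LC C hu.1 (fun v hv => hp v ⟨hv.1, hv.2.trans hu.2⟩) hg
    · exact Z.zok_RC C hu.2 (fun v hv => hp v ⟨hu.1.trans hv.1, hv.2⟩) hg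
  have h1 := w.sweep_finset
    (R := fun g g' => Zok k (fun j => g ((), j)) ∧ Zok k (fun j => g' ((), j)) ∧
        cl (fun j => g ((), j)) = cl (fun j => g' ((), j)))
    (fun _ _ _ h1 h2 => ⟨h1.1, h2.2.1, h1.2.2.trans h2.2.2⟩)
    (E := fun s g g' => EvF g1 g2 (lamF g1 g2 T z a b c d e f p s) (fun j => g ((), j))
      (fun j => g' ((), j)))
    hαβ F (fun s hs => ((hmem s).1 hs).1)
    (fun s _ h hh h' hh' => S.evF hh hh')
    (fun u hu hnot h hh h' hh' => by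
      have h3 : ∀ j, lamF g1 g2 T z a b c d e f p u j = 0 := by
        intro j
        by_contra hne
        exact hnot ((hmem u).2 ⟨hu, j, hne⟩)
      have h2 := S.ev0 h3 hh hh'
      exact ⟨hz u hu _ hh, hz u hu _ hh', hcl _ _ (hz u hu _ hh) (hz u hu _ hh') h2⟩)
    h hh h' hh'
  exact zchF_of_cmp h1

/-- **The class theorem with zones and labels of all types.**  `j0 + s = q - p`; base angle `p`. -/
theorem CzF.zpath (S : CzF g1 g2 U T z a b c d e f) (Z : Zn T z a b c d p q)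
    (hfin : {y | dist y z = 1 ∧ lbF g1 g2 T z a b c d e f y ≠ 0}.Finite) {σ : Type}
    {cl : ℕ → (Fin 6 → Fin 4) → σ}
    (hcl : ∀ k h h', Zok k h → Zok k h' → EvF g1 g2 (fun _ => 0) h h' → cl k h = cl k h') :
    ∃ (j0 : ℕ) (s : ℝ), j0 < 3 ∧ 0 ≤ s ∧ s < 1 ∧ q = p + j0 + s ∧
      ((s = 0 ∧ 0 < j0 ∧ ∃ (l : List ℝ) (h h' : Fin 6 → Fin 4), l.Pairwise (· < ·) ∧
        (∀ u, u ∈ l ↔ u ∈ Ioo (0 : ℝ) 1 ∧ ∃ j, lamF g1 g2 T z a b c d e f p u j ≠ 0) ∧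
        EvF g1 g2 (lamF g1 g2 T z a b c d e f p 0) h h' ∧
        ZChF g1 g2 j0 (cl j0) (l.map (lamF g1 g2 T z a b c d e f p)) h' (fun j => h (j + 1))) ∨
       (0 < s ∧ ∃ (l l' : List ℝ) (h h' g g' : Fin 6 → Fin 4), l.Pairwise (· < ·) ∧
        l'.Pairwise (· < ·) ∧
        (∀ u, u ∈ l ↔ u ∈ Ioo (0 : ℝ) s ∧ ∃ j, lamF g1 g2 T z a b c d e f p u j ≠ 0) ∧
        (∀ u, u ∈ l' ↔ u ∈ Ioo s 1 ∧ ∃ j, lamF g1 g2 T z a b c d e f p u j ≠ 0) ∧
        EvF g1 g2 (lamF g1 g2 T z a b c d e f p 0) h h' ∧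
        ZChF g1 g2 (j0 + 1) (cl (j0 + 1)) (l.map (lamF g1 g2 T z a b c d e f p)) h' g ∧
        EvF g1 g2 (lamF g1 g2 T z a b c d e f p s) g g' ∧
        ZChF g1 g2 j0 (cl j0) (l'.map (lamF g1 g2 T z a b c d e f p)) g'
          (fun j => h (j + 1)))) := by
  have w := S.toCz.sw p
  have hlt := Z.lt
  have hlt' := Z.lt'
  obtain ⟨j0, s, hj0, hs0, hs1, hq⟩ : ∃ (j0 : ℕ) (s : ℝ), j0 < 3 ∧ 0 ≤ s ∧ s < 1 ∧
      q = p + j0 + s := by
    refine ⟨⌊q - p⌋₊, Int.fract (q - p), ?_, Int.fract_nonneg _, Int.fract_lt_one _, ?_⟩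
    · rw [Nat.floor_lt (by linarith)]
      push_cast; linarith
    · have h1 := Int.floor_add_fract (q - p)
      have h2 : ((⌊q - p⌋₊ : ℕ) : ℝ) = ((⌊q - p⌋ : ℤ) : ℝ) := by
        rw [← natCast_floor_eq_intCast_floor (by linarith)]
      rw [h2]; linarith
  refine ⟨j0, s, hj0, hs0, hs1, hq, ?_⟩
  have hQ : q - p = j0 + s := by rw [hq]; ring
  have ph2 : ∀ v ∈ Ioo s 1, Ph (q - p) j0 v := by
    intro v hv
    refine ⟨lt_of_le_of_lt hs0 hv.1, hv.2, fun i _ h2 => ?_, fun i _ h2 => ?_⟩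
    · have h3 : (i : ℝ) + 1 ≤ (j0 : ℝ) := by exact_mod_cast h2
      rw [hQ]; linarith [hv.2]
    · have h3 : (j0 : ℝ) ≤ (i : ℝ) := by exact_mod_cast h2
      rw [hQ]; linarith [hv.1]
  have ph1 : ∀ v ∈ Ioo 0 s, Ph (q - p) (j0 + 1) v := by
    intro v hv
    refine ⟨hv.1, hv.2.trans hs1, fun i _ h2 => ?_, fun i _ h2 => ?_⟩
    · have h3 : (i : ℝ) ≤ (j0 : ℝ) := by exact_mod_cast (by omega : i ≤ j0)
      rw [hQ]; linarith [hv.2]
    · have h3 : (j0 : ℝ) + 1 ≤ (i : ℝ) := by exact_mod_cast h2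
      rw [hQ]; linarith [hv.1]
  obtain ⟨g0, hg0⟩ := w.LC_ne 0
  obtain ⟨g0', hg0'⟩ := w.RC_ne 0
  have hrot : g0 ∘ rt Unit ∈ LC (XX T z a b e f p) 1 := by
    have := LC_shift (X := XX T z a b e f p) (σ := rt Unit) (fun s l u => Xl_per s l u) hg0
    rwa [zero_add] at this
  rcases hs0.eq_or_lt with hs | hs
  · left
    subst hs
    refine ⟨rfl, ?_, ?_⟩
    · rcases Nat.eq_zero_or_pos j0 with h0 | h0
      · subst h0; push_cast at hQ; linarith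
      · exact h0
    · obtain ⟨l, h1, h2, h3⟩ := S.phase Z hfin (hcl j0) le_rfl le_rfl one_pos ph2 hg0' hrot
      exact ⟨l, fun j => g0 ((), j), fun j => g0' ((), j), h1, h2, S.evF hg0 hg0', h3⟩
  · right
    refine ⟨hs, ?_⟩
    obtain ⟨g1, hg1⟩ := w.LC_ne s
    obtain ⟨g1', hg1'⟩ := w.RC_ne s
    obtain ⟨l, h1, h2, h3⟩ := S.phase Z hfin (hcl (j0 + 1)) le_rfl hs1.le hs ph1 hg0' hg1
    obtain ⟨l', h1', h2', h3'⟩ := S.phase Z hfin (hcl j0) hs0 le_rfl hs1 ph2 hg1' hrot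
    exact ⟨l, l', fun j => g0 ((), j), fun j => g0' ((), j), fun j => g1 ((), j),
      fun j => g1' ((), j), h1, h1', h2, h2', S.evF hg0 hg0', h3, S.evF hg1 hg1', h3'⟩

end Vale.Agent.P032.H987
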