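import Vale.Agent.P032.H383.Letters
import Vale.Agent.P032.S5.H767.RawT
import Vale.Agent.P032.S5.H349.Bridge
import Vale.Agent.P032.S5.H122.Cnt5

/-!
# P032: the sign function of a four coloured centre

`C : Ctr U T z a b c d e f`: `T z = {a, b, c, d}` with the pairs `ab | cd`; letters of the circle
`0 = e`, `1 = f`, `2 = A` (exact `ab`-arcs), `3 = C` (exact `cd`-arcs), angles in units of 60 degrees.
Heights `C < e < f < A`.  All changes of letter except `A|e`, `C|f` and `A|C` are between neighbours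
in this order, and the letters of two points of the circle at distance one are different; so the sign
of (height at `u + 1`) - (height at `u`) is constant in `u` except at

* points `u` or `u + 1` of order at least four, and
* points `u` or `u + 1` with the palette `{a, b, e}` or `{c, d, f}` (the ends of one network).

No local finiteness, no counting; any number of changes at the same time.

* `Pos`, `Neg` : closed, period 6, cover the line;
* `flip_cases`, `flip_end` : what happens at a point of `Pos ∩ Neg`;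
* `no_run` : an open interval without `Neg` (or without `Pos`) has length at most 2 (120 degrees):
  on a longer one there are four increasing heights `C, e, f, A` and the pairs are antipodal;
* `exists_flip` : every closed interval of length 2 contains a flip;
* `two_special` : if the special points of the circle are contained in `{v, q}` then `v + q = 2 z`.
-/

open Set Filter Topology Metric

noncomputable section

namespace Vale.Agent.P032.H987

open Vale.Agent.P032.Six Vale.Agent.P032.S5.H767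

variable {U : Fin 6 → Set ℂ} {T : ℂ → Set (Fin 6)} {z : ℂ} {a b c d e f : Fin 6}

/-- heights of the letters: `C = 0`, `e = 1`, `f = 2`, `A = 3` -/
def ht : Fin 4 → ℕ := ![1, 2, 3, 0]

theorem ht_inj : ∀ l m : Fin 4, ht l = ht m → l = m := by decide

/-- the height increases from `u` to `u + 1` -/
def Pos (T : ℂ → Set (Fin 6)) (z : ℂ) (a b c d e f : Fin 6) : Set ℝ :=
  {u | ∃ l m, ht l < ht m ∧ u ∈ Xs T z a b c d e f l ∧ u + 1 ∈ Xs T z a b c d e f m}

/-- the height decreases from `u` to `u + 1` -/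
def Neg (T : ℂ → Set (Fin 6)) (z : ℂ) (a b c d e f : Fin 6) : Set ℝ :=
  {u | ∃ l m, ht m < ht l ∧ u ∈ Xs T z a b c d e f l ∧ u + 1 ∈ Xs T z a b c d e f m}

/-- the set of the flips -/
def Flip (T : ℂ → Set (Fin 6)) (z : ℂ) (a b c d e f : Fin 6) : Set ℝ :=
  Pos T z a b c d e f ∩ Neg T z a b c d e f

theorem Pos_closed (C : Ctr U T z a b c d e f) : IsClosed (Pos T z a b c d e f) := by
  have e1 : Pos T z a b c d e f = ⋃ l : Fin 4, ⋃ m : Fin 4, ⋃ _ : ht l < ht m,
      (Xs T z a b c d e f l ∩ (fun u : ℝ => u + 1) ⁻¹' Xs T z a b c d e f m) := by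
    ext u; simp only [Pos, mem_ofPred_eq, mem_iUnion, mem_inter_iff, mem_preimage, exists_prop]
  rw [e1]
  refine isClosed_iUnion_of_finite fun l => isClosed_iUnion_of_finite fun m =>
    isClosed_iUnion_of_finite fun _ => (C.x_closed l).inter ((C.x_closed m).preimage ?_)
  fun_prop

theorem Neg_closed (C : Ctr U T z a b c d e f) : IsClosed (Neg T z a b c d e f) := by
  have e1 : Neg T z a b c d e f = ⋃ l : Fin 4, ⋃ m : Fin 4, ⋃ _ : ht m < ht l,
      (Xs T z a b c d e f l ∩ (fun u : ℝ => u + 1) ⁻¹' Xs T z a b c d e f m) := by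
    ext u; simp only [Neg, mem_ofPred_eq, mem_iUnion, mem_inter_iff, mem_preimage, exists_prop]
  rw [e1]
  refine isClosed_iUnion_of_finite fun l => isClosed_iUnion_of_finite fun m =>
    isClosed_iUnion_of_finite fun _ => (C.x_closed l).inter ((C.x_closed m).preimage ?_)
  fun_prop

theorem Flip_closed (C : Ctr U T z a b c d e f) : IsClosed (Flip T z a b c d e f) :=
  (Pos_closed C).inter (Neg_closed C)

theorem Pos_per (C : Ctr U T z a b c d e f) (u : ℝ) :
    u + 6 ∈ Pos T z a b c d e f ↔ u ∈ Pos T z a b c d e f := by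
  have h1 : ∀ m, u + 6 + 1 ∈ Xs T z a b c d e f m ↔ u + 1 ∈ Xs T z a b c d e f m := fun m => by
    rw [show u + 6 + 1 = u + 1 + 6 by ring]; exact C.x_per m (u + 1)
  simp only [Pos, mem_ofPred_eq, C.x_per, h1]

theorem Neg_per (C : Ctr U T z a b c d e f) (u : ℝ) :
    u + 6 ∈ Neg T z a b c d e f ↔ u ∈ Neg T z a b c d e f := by
  have h1 : ∀ m, u + 6 + 1 ∈ Xs T z a b c d e f m ↔ u + 1 ∈ Xs T z a b c d e f m := fun m => by
    rw [show u + 6 + 1 = u + 1 + 6 by ring]; exact C.x_per m (u + 1)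
  simp only [Neg, mem_ofPred_eq, C.x_per, h1]

theorem Flip_per (C : Ctr U T z a b c d e f) (u : ℝ) :
    u + 6 ∈ Flip T z a b c d e f ↔ u ∈ Flip T z a b c d e f :=
  and_congr (Pos_per C u) (Neg_per C u)

/-- every time has a sign -/
theorem pos_or_neg (C : Ctr U T z a b c d e f) (u : ℝ) :
    u ∈ Pos T z a b c d e f ∨ u ∈ Neg T z a b c d e f := by
  obtain ⟨l, hl⟩ := C.x_cover u
  obtain ⟨m, hm⟩ := C.x_cover (u + 1)
  have key : ∀ l m, l ≠ m → u ∈ Xs T z a b c d e f l → u + 1 ∈ Xs T z a b c d e f m →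
      u ∈ Pos T z a b c d e f ∨ u ∈ Neg T z a b c d e f := by
    intro l m hlm hl hm
    rcases lt_trichotomy (ht l) (ht m) with h | h | h
    · exact Or.inl ⟨l, m, h, hl, hm⟩
    · exact absurd (ht_inj l m h) hlm
    · exact Or.inr ⟨l, m, h, hl, hm⟩
  by_cases hlm : l = m
  · subst hlm
    obtain ⟨m', hm', hu⟩ := C.x_own hl hm
    exact key m' l hm' hu hm
  · exact key l m hlm hl hm

/-! ### Flips -/

/-- an `A|e` or `C|f` end of the network at `u`, and the letter `l` at `v`: the heights of the letters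
of `u` are on both sides of the height of `l` -/
def NA (T : ℂ → Set (Fin 6)) (z : ℂ) (a b c d e f : Fin 6) (u : ℝ) : Prop :=
  u ∈ Xs T z a b c d e f 2 ∧ u ∈ Xs T z a b c d e f 0

def NC (T : ℂ → Set (Fin 6)) (z : ℂ) (a b c d e f : Fin 6) (u : ℝ) : Prop :=
  u ∈ Xs T z a b c d e f 3 ∧ u ∈ Xs T z a b c d e f 1

/-- `{l, l'} = {p, q}` -/
def pr (p q l l' : Fin 4) : Bool := (l == p && l' == q) || (l == q && l' == p)

theorem pr_iff {p q l l' : Fin 4} (h : pr p q l l' = true) : (l = p ∧ l' = q) ∨ (l = q ∧ l' = p) := by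
  simpa [pr] using h

theorem comb : ∀ l m l' m' : Fin 4, ht l < ht m → ht m' < ht l' →
    pr 2 3 l l' = true ∨ pr 2 3 m m' = true ∨
    (l ≠ l' ∧ ((l = m ∧ l' = m') ∨ (l = m' ∧ l' = m))) ∨
    (pr 2 0 l l' = true ∧ (m = 1 ∨ m' = 1)) ∨ (pr 3 1 l l' = true ∧ (m = 0 ∨ m' = 0)) ∨
    (pr 2 0 m m' = true ∧ (l = 1 ∨ l' = 1)) ∨ (pr 3 1 m m' = true ∧ (l = 0 ∨ l' = 0)) := by
  decide

/-- **Flips.**  If `u` and `u + 1` have order at most three and the sign flips at `u` then one of the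
two points is an end of the network and the other point carries the letter between. -/
theorem flip_cases (C : Ctr U T z a b c d e f) {u : ℝ} (h3 : (T (pt z u)).ncard ≤ 3)
    (h3' : (T (pt z (u + 1))).ncard ≤ 3) (hu : u ∈ Flip T z a b c d e f) :
    (NA T z a b c d e f u ∧ u + 1 ∈ Xs T z a b c d e f 1) ∨
    (NC T z a b c d e f u ∧ u + 1 ∈ Xs T z a b c d e f 0) ∨
    (NA T z a b c d e f (u + 1) ∧ u ∈ Xs T z a b c d e f 1) ∨
    (NC T z a b c d e f (u + 1) ∧ u ∈ Xs T z a b c d e f 0) := by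
  obtain ⟨⟨l, m, h1, hl, hm⟩, ⟨l', m', h2, hl', hm'⟩⟩ := hu
  have ac : ∀ {v : ℝ}, (T (pt z v)).ncard ≤ 3 → v ∈ Xs T z a b c d e f 2 →
      v ∈ Xs T z a b c d e f 3 → False := fun h k1 k2 => C.x_ac h k1 k2
  rcases comb l m l' m' h1 h2 with h | h | ⟨hne, h⟩ | ⟨h, k⟩ | ⟨h, k⟩ | ⟨h, k⟩ | ⟨h, k⟩
  · exfalso
    rcases pr_iff h with ⟨rfl, rfl⟩ | ⟨rfl, rfl⟩
    exacts [ac h3 hl hl', ac h3 hl' hl]
  · exfalso
    rcases pr_iff h with ⟨rfl, rfl⟩ | ⟨rfl, rfl⟩
    exacts [ac h3' hm hm', ac h3' hm' hm]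
  · exfalso
    rcases h with ⟨rfl, rfl⟩ | ⟨rfl, rfl⟩
    · exact hne (C.x_swap h3 h3' hl hm hl' hm')
    · exact hne (C.x_swap h3 h3' hl hm' hl' hm)
  · left
    refine ⟨?_, ?_⟩
    · rcases pr_iff h with ⟨rfl, rfl⟩ | ⟨rfl, rfl⟩
      exacts [⟨hl, hl'⟩, ⟨hl', hl⟩]
    · rcases k with rfl | rfl
      exacts [hm, hm']
  · right; left
    refine ⟨?_, ?_⟩
    · rcases pr_iff h with ⟨rfl, rfl⟩ | ⟨rfl, rfl⟩
      exacts [⟨hl, hl'⟩, ⟨hl', hl⟩]
    · rcases k with rfl | rfl
      exacts [hm, hm']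
  · right; right; left
    refine ⟨?_, ?_⟩
    · rcases pr_iff h with ⟨rfl, rfl⟩ | ⟨rfl, rfl⟩
      exacts [⟨hm, hm'⟩, ⟨hm', hm⟩]
    · rcases k with rfl | rfl
      exacts [hl, hl']
  · right; right; right
    refine ⟨?_, ?_⟩
    · rcases pr_iff h with ⟨rfl, rfl⟩ | ⟨rfl, rfl⟩
      exacts [⟨hm, hm'⟩, ⟨hm', hm⟩]
    · rcases k with rfl | rfl
      exacts [hl, hl']

theorem NA.pal (C : Ctr U T z a b c d e f) {u : ℝ} (h3 : (T (pt z u)).ncard ≤ 3)
    (h : NA T z a b c d e f u) : T (pt z u) = {a, b, e} := C.pal_eA h3 h.2 h.1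

theorem NC.pal (C : Ctr U T z a b c d e f) {u : ℝ} (h3 : (T (pt z u)).ncard ≤ 3)
    (h : NC T z a b c d e f u) : T (pt z u) = {c, d, f} := by
  have C' := C.swapAC.swapEF
  have h1 := h.1
  have h2 := h.2
  exact C'.pal_eA h3 (by exact h2) (by exact h1)

/-- special points: order at least four or an end of the network `{a, b, e} | {c, d, f}` -/
def Spec (T : ℂ → Set (Fin 6)) (a b c d e f : Fin 6) (y : ℂ) : Prop :=
  4 ≤ (T y).ncard ∨ T y = {a, b, e} ∨ T y = {c, d, f}

/-- **the sign flips only at special points** -/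
theorem flip_spec (C : Ctr U T z a b c d e f) {u : ℝ} (hu : u ∈ Flip T z a b c d e f) :
    Spec T a b c d e f (pt z u) ∨ Spec T a b c d e f (pt z (u + 1)) := by
  by_cases h3 : (T (pt z u)).ncard ≤ 3
  · by_cases h3' : (T (pt z (u + 1))).ncard ≤ 3
    · rcases flip_cases C h3 h3' hu with ⟨h, -⟩ | ⟨h, -⟩ | ⟨h, -⟩ | ⟨h, -⟩
      · exact Or.inl (Or.inr (Or.inl (h.pal C h3)))
      · exact Or.inl (Or.inr (Or.inr (h.pal C h3)))
      · exact Or.inr (Or.inr (Or.inl (h.pal C h3')))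
      · exact Or.inr (Or.inr (Or.inr (h.pal C h3')))
    · exact Or.inr (Or.inl (by omega))
  · exact Or.inl (Or.inl (by omega))

/-! ### Long intervals of constant sign -/

theorem pal_of_Lc {u : ℝ} (hu : u ∈ Sweep.Lc T z) {P : Set (Fin 6)}
    (h : pt z u ∈ closure (Ex T z P)) : T (pt z u) = P := by
  have h1 := Sweep.Lc_circle hu
  rw [eventually_nhdsWithin_iff] at h1
  obtain ⟨q, hq1, hq2⟩ := mem_closure_iff_nhds.1 h _ h1
  rw [← hq1 (mem_sphere.2 hq2.1)]
  exact ex_self hq2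

/-- letters of neighbours at constant angles are different -/
theorem ne_of_Lc (C : Ctr U T z a b c d e f) {u : ℝ} (hu : u ∈ Sweep.Lc T z) {l m : Fin 4}
    (hl : u ∈ Xs T z a b c d e f l) (hm : u + 1 ∈ Xs T z a b c d e f m) : l ≠ m := by
  rintro rfl
  obtain ⟨t, ht⟩ := col_nonempty (a := a) (b := b) (c := c) (d := d) (e := e) (f := f) l
  exact Set.disjoint_left.1 (Sweep.dj_sixty C.irr hu) (Lt_col C.irr hl ht) (Lt_col C.irr hm ht)

/-- the generic times: four consecutive slots with constant palettes -/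
theorem dense_four (C : Ctr U T z a b c d e f) :
    Dense {u : ℝ | u ∈ Sweep.Lc T z ∧ u + 1 ∈ Sweep.Lc T z ∧ u + 2 ∈ Sweep.Lc T z ∧
      u + 3 ∈ Sweep.Lc T z} := by
  have hd : ∀ x : ℝ, Dense {u : ℝ | u + x ∈ Sweep.Lc T z} := fun x =>
    (Sweep.Lc_dense C.irr z).preimage (Homeomorph.addRight x).isOpenMap
  have ho : ∀ x : ℝ, IsOpen {u : ℝ | u + x ∈ Sweep.Lc T z} := fun x =>
    (Sweep.Lc_open z).preimage (by fun_prop)
  have h1 := ((hd 0).inter_of_isOpen_left (hd 1) (ho 0))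
  have h2 := h1.inter_of_isOpen_left (hd 2) ((ho 0).inter (ho 1))
  have h3 := h2.inter_of_isOpen_left (hd 3) (((ho 0).inter (ho 1)).inter (ho 2))
  refine h3.mono fun u hu => ?_
  obtain ⟨⟨⟨k0, k1⟩, k2⟩, k3⟩ := hu
  have k0 : u + 0 ∈ Sweep.Lc T z := k0
  rw [add_zero] at k0
  exact ⟨k0, k1, k2, k3⟩

theorem ht_four {l0 l1 l2 l3 : Fin 4} (h1 : ht l0 < ht l1) (h2 : ht l1 < ht l2)
    (h3 : ht l2 < ht l3) : l0 = 3 ∧ l3 = 2 := by
  revert l0 l1 l2 l3; decide

/-- **no long interval without `Neg`** -/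
theorem no_run_neg (C : Ctr U T z a b c d e f) {s t : ℝ} (hst : s + 2 < t)
    (h : ∀ u ∈ Ioo s t, u ∉ Neg T z a b c d e f) : False := by
  obtain ⟨u, ⟨hu1, hu2⟩, k0, k1, k2, k3⟩ := (dense_four C).inter_open_nonempty (Ioo s (t - 2))
    isOpen_Ioo (nonempty_Ioo.2 (by linarith))
  have hN0 := h u ⟨hu1, by linarith⟩
  have hN1 := h (u + 1) ⟨by linarith, by linarith⟩
  have hN2 := h (u + 2) ⟨by linarith, by linarith⟩
  obtain ⟨l0, h0⟩ := C.x_cover u
  obtain ⟨l1, h1⟩ := C.x_cover (u + 1)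
  obtain ⟨l2, h2⟩ := C.x_cover (u + 2)
  obtain ⟨l3, h3⟩ := C.x_cover (u + 3)
  have e2 : u + 1 + 1 = u + 2 := by ring
  have e3 : u + 2 + 1 = u + 3 := by ring
  have step : ∀ {v : ℝ} {l m : Fin 4}, v ∈ Sweep.Lc T z → v ∉ Neg T z a b c d e f →
      v ∈ Xs T z a b c d e f l → v + 1 ∈ Xs T z a b c d e f m → ht l < ht m := by
    intro v l m hv hN hl hm
    have hlm := ne_of_Lc C hv hl hm
    rcases lt_trichotomy (ht l) (ht m) with h | h | h
    · exact h
    · exact absurd (ht_inj l m h) hlm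
    · exact absurd ⟨l, m, h, hl, hm⟩ hN
  have g1 := step k0 hN0 h0 h1
  have g2 := step k1 hN1 h1 (by rw [e2]; exact h2)
  have g3 := step k2 hN2 h2 (by rw [e3]; exact h3)
  obtain ⟨rfl, rfl⟩ := ht_four g1 g2 g3
  have hT : T (pt z u) = {c, d} := pal_of_Lc k0 h0
  have h4 : ({c, d} : Set (Fin 6)).ncard ≤ 3 := by
    have := Set.ncard_insert_le c {d}
    rw [Set.ncard_singleton] at this
    omega
  exact C.x_anti' (by rw [hT]; exact h4) h0 h3

theorem ht_four' {l0 l1 l2 l3 : Fin 4} (h1 : ht l1 < ht l0) (h2 : ht l2 < ht l1)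
    (h3 : ht l3 < ht l2) : l0 = 2 ∧ l3 = 3 := by
  revert l0 l1 l2 l3; decide

/-- **no long interval without `Pos`** -/
theorem no_run_pos (C : Ctr U T z a b c d e f) {s t : ℝ} (hst : s + 2 < t)
    (h : ∀ u ∈ Ioo s t, u ∉ Pos T z a b c d e f) : False := by
  obtain ⟨u, ⟨hu1, hu2⟩, k0, k1, k2, k3⟩ := (dense_four C).inter_open_nonempty (Ioo s (t - 2))
    isOpen_Ioo (nonempty_Ioo.2 (by linarith))
  have hN0 := h u ⟨hu1, by linarith⟩
  have hN1 := h (u + 1) ⟨by linarith, by linarith⟩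
  have hN2 := h (u + 2) ⟨by linarith, by linarith⟩
  obtain ⟨l0, h0⟩ := C.x_cover u
  obtain ⟨l1, h1⟩ := C.x_cover (u + 1)
  obtain ⟨l2, h2⟩ := C.x_cover (u + 2)
  obtain ⟨l3, h3⟩ := C.x_cover (u + 3)
  have e2 : u + 1 + 1 = u + 2 := by ring
  have e3 : u + 2 + 1 = u + 3 := by ring
  have step : ∀ {v : ℝ} {l m : Fin 4}, v ∈ Sweep.Lc T z → v ∉ Pos T z a b c d e f →
      v ∈ Xs T z a b c d e f l → v + 1 ∈ Xs T z a b c d e f m → ht m < ht l := by
    intro v l m hv hN hl hm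
    have hlm := ne_of_Lc C hv hl hm
    rcases lt_trichotomy (ht m) (ht l) with h | h | h
    · exact h
    · exact absurd (ht_inj l m h.symm) hlm
    · exact absurd ⟨l, m, h, hl, hm⟩ hN
  have g1 := step k0 hN0 h0 h1
  have g2 := step k1 hN1 h1 (by rw [e2]; exact h2)
  have g3 := step k2 hN2 h2 (by rw [e3]; exact h3)
  obtain ⟨rfl, rfl⟩ := ht_four' g1 g2 g3
  have hT : T (pt z u) = {a, b} := pal_of_Lc k0 h0
  have h4 : ({a, b} : Set (Fin 6)).ncard ≤ 3 := by
    have := Set.ncard_insert_le a {b}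
    rw [Set.ncard_singleton] at this
    omega
  exact C.x_anti (by rw [hT]; exact h4) h0 h3

/-- without flips a closed interval has one sign -/
theorem const_sign (C : Ctr U T z a b c d e f) {s t : ℝ}
    (h : ∀ u ∈ Icc s t, u ∉ Flip T z a b c d e f) :
    (∀ u ∈ Icc s t, u ∉ Neg T z a b c d e f) ∨ (∀ u ∈ Icc s t, u ∉ Pos T z a b c d e f) := by
  by_contra hcon
  push Not at hcon
  obtain ⟨⟨u, hu, hu'⟩, v, hv, hv'⟩ := hcon
  have hpre := (isPreconnected_Icc (a := s) (b := t))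
  rw [isPreconnected_closed_iff] at hpre
  obtain ⟨w, hw1, hw2⟩ := hpre _ _ (Pos_closed C) (Neg_closed C)
    (fun x _ => pos_or_neg C x) ⟨v, hv, hv'⟩ ⟨u, hu, hu'⟩
  exact h w hw1 hw2

/-- **Every closed interval of length 2 (120 degrees) contains a flip.** -/
theorem exists_flip (C : Ctr U T z a b c d e f) (s : ℝ) :
    ∃ u ∈ Icc s (s + 2), u ∈ Flip T z a b c d e f := by
  by_contra hcon
  push Not at hcon
  have hss : s ≤ s + 2 := by linarith
  have key : ∀ (S : Set ℝ), IsClosed S → (∀ u ∈ Icc s (s + 2), u ∉ S) →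
      ∃ s' t' : ℝ, s' + 2 < t' ∧ ∀ u ∈ Ioo s' t', u ∉ S := by
    intro S hS h
    obtain ⟨ε, hε, h1⟩ := Metric.mem_nhds_iff.1
      (hS.isOpen_compl.mem_nhds (h s (left_mem_Icc.2 hss)))
    obtain ⟨δ, hδ, h2⟩ := Metric.mem_nhds_iff.1
      (hS.isOpen_compl.mem_nhds (h (s + 2) (right_mem_Icc.2 hss)))
    refine ⟨s - ε, s + 2 + δ, by linarith, fun u hu => ?_⟩
    rcases lt_or_ge u s with hus | hus
    · refine h1 (mem_ball.2 ?_)
      rw [Real.dist_eq, abs_lt]
      exact ⟨by linarith [hu.1], by linarith⟩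
    · rcases le_or_gt u (s + 2) with hus' | hus'
      · exact h u ⟨hus, hus'⟩
      · refine h2 (mem_ball.2 ?_)
        rw [Real.dist_eq, abs_lt]
        exact ⟨by linarith, by linarith [hu.2]⟩
  rcases const_sign C hcon with h | h
  · obtain ⟨s', t', h1, h2⟩ := key _ (Neg_closed C) h
    exact no_run_neg C h1 h2
  · obtain ⟨s', t', h1, h2⟩ := key _ (Pos_closed C) h
    exact no_run_pos C h1 h2

/-! ### Spanning -/

/-- **Spanning.**  An open arc of `S(z)` without special points has length at most 3 (180 degrees). -/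
theorem spanning (C : Ctr U T z a b c d e f) {x x' : ℝ}
    (h : ∀ u ∈ Ioo x x', ¬ Spec T a b c d e f (pt z u)) : x' - x ≤ 3 := by
  by_contra hcon
  push Not at hcon
  obtain ⟨u, hu, hf⟩ := exists_flip C (x + (x' - x - 3) / 2)
  rcases flip_spec C hf with h1 | h1
  · exact h u ⟨by linarith [hu.1], by linarith [hu.2]⟩ h1
  · exact h (u + 1) ⟨by linarith [hu.1], by linarith [hu.2]⟩ h1

/-- every closed half circle contains a special point -/
theorem spanning_half (C : Ctr U T z a b c d e f) (x : ℝ) :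
    ∃ u ∈ Icc x (x + 3), Spec T a b c d e f (pt z u) := by
  obtain ⟨u, hu, hf⟩ := exists_flip C x
  rcases flip_spec C hf with h1 | h1
  · exact ⟨u, ⟨hu.1, by linarith [hu.2]⟩, h1⟩
  · exact ⟨u + 1, ⟨by linarith [hu.1], by linarith [hu.2]⟩, h1⟩

theorem pt_int (z : ℂ) (u : ℝ) (n : ℤ) : pt z (u + n * 6) = pt z u :=
  (show Function.Periodic (pt z) 6 from pt_six z).int_mul n u

theorem exists_pt_Ico {v : ℂ} (hv : dist v z = 1) (x : ℝ) : ∃ s ∈ Ico x (x + 6), v = pt z s := by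
  obtain ⟨V, rfl⟩ := S5.H349.exists_pt hv
  refine ⟨V + (-⌊(V - x) / 6⌋ : ℤ) * 6, ⟨?_, ?_⟩, (pt_int z V _).symm⟩
  · have h1 := Int.floor_le ((V - x) / 6)
    push_cast
    linarith
  · have h1 := Int.lt_floor_add_one ((V - x) / 6)
    push_cast
    linarith

/-- **Two special points are antipodal.** -/
theorem two_special (C : Ctr U T z a b c d e f) {v q : ℂ} (hv : dist v z = 1) (hq : dist q z = 1)
    (h : ∀ y, dist y z = 1 → Spec T a b c d e f y → y = v ∨ y = q) : v + q = 2 * z := by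
  obtain ⟨al, rfl⟩ := S5.H349.exists_pt hv
  obtain ⟨be, hbe, rfl⟩ := exists_pt_Ico hq al
  have cast : ∀ n : ℤ, (n : ℝ) < 0 → (n : ℝ) ≤ -1 := fun n hn => by
    have h1 : n < 0 := by exact_mod_cast hn
    have h2 : n ≤ -1 := by omega
    exact_mod_cast h2
  have cast' : ∀ n : ℤ, 0 < (n : ℝ) → 1 ≤ (n : ℝ) := fun n hn => by
    have h1 : 0 < n := by exact_mod_cast hn
    have h2 : 1 ≤ n := by omega
    exact_mod_cast h2
  have k1 : be - al ≤ 3 := by
    refine spanning C fun u hu hS => ?_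
    rcases h _ (dist_pt z u) hS with h1 | h1
    · obtain ⟨n, hn⟩ := S5.H122.pt_eq_iff h1
      have h2 := cast' n (by linarith [hu.1])
      linarith [hu.2, hbe.2]
    · obtain ⟨n, hn⟩ := S5.H122.pt_eq_iff h1
      have h2 := cast n (by linarith [hu.2])
      linarith [hu.1, hbe.2]
  have k2 : (al + 6) - be ≤ 3 := by
    refine spanning C fun u hu hS => ?_
    rcases h _ (dist_pt z u) hS with h1 | h1
    · obtain ⟨n, hn⟩ := S5.H122.pt_eq_iff h1
      have h2 := cast' n (by linarith [hu.1, hbe.1])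
      linarith [hu.2]
    · obtain ⟨n, hn⟩ := S5.H122.pt_eq_iff h1
      have h2 := cast' n (by linarith [hu.1])
      linarith [hu.2, hbe.1]
  have k3 : be = al + 3 := by linarith
  rw [k3, pt_three]
  ring

end Vale.Agent.P032.H987
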