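import Vale.Agent.P032.H383.Letters
import Vale.Agent.P032.H492.TwoJ
import Vale.Agent.P032.H187.Swap

/-!
# P032: no unit triangle of two-pair points with the same palette (helper987)

`z 0, z 1, z 2` pairwise at distance one, two-pair points with the same palette, every point of the
three circles has at most three colours or this palette.  Near every direction exactly one of the
three circles shows a pair, one shows `e`, one shows `f` (pairs of different centres always meet).  The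
order in which the three circles show `pair, e, f` is a sign; it never changes (two columns with
different signs differ by an exchange of two letters, excluded by the swap rule).  But at the
directions of `z 1` and `z 2` from `z 0` it is different by the 60-rule on `S(z 1)`.
-/

open Set Filter Topology Metric

noncomputable section

namespace Vale.Agent.P032.H987

open Vale.Agent.P032.Six Vale.Agent.P032.S5.H767 Vale.Agent.P032.S5.H122 Vale.Agent.P032.Sweep

variable {U : Fin 6 → Set ℂ} {T : ℂ → Set (Fin 6)} {a b c d e f : Fin 6}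

/-- the pairs of two two-pair points of the same palette at distance one are crossed -/
theorem cross987 (h : Irr U T) {z v : ℂ} (hz : DPt T z a b c d) (hv : dist v z = 1)
    (hT : T v = T z) : DPt T v a c b d ∨ DPt T v a d b c := by
  have hzv : dist z v = 1 := by rw [dist_comm]; exact hv
  have key : ∀ x y x' y' : Fin 6, T z = {x, y, x', y'} → x ≠ x' → x ≠ y' → y ≠ x' → y ≠ y' →
      x ≠ y → x' ≠ y' → Gm T v z x y x' y' → DPt T v x y x' y' := by
    intro x y x' y' hP h1 h2 h3 h4 h5 h6 hG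
    have hx : x ∈ Pal U v := h.sub v (by rw [hT, hP]; simp)
    have hy : y ∈ Pal U v := h.sub v (by rw [hT, hP]; simp)
    have hx' : x' ∈ Pal U v := h.sub v (by rw [hT, hP]; simp)
    have hy' : y' ∈ Pal U v := h.sub v (by rw [hT, hP]; simp)
    obtain ⟨q, hq, hqT⟩ := hb_exists hzv (h.hb_exact hzv hG.1 hx hy)
    obtain ⟨q', hq', hqT'⟩ := hb_exists hzv (h.hb_exact hzv hG.2 hx' hy')
    exact ⟨by rw [hT, hP], h1, h2, h3, h4, h5, h6,
      ⟨q, h.arc_of_eq h5 (by rw [hT, hP]; simp) (by rw [hT, hP]; simp) hq hqT⟩,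
      ⟨q', h.arc_of_eq h6 (by rw [hT, hP]; simp) (by rw [hT, hP]; simp) hq' hqT'⟩⟩
  have hp := hz.pal
  rcases h.germ_branch hz hzv with hG | hG | hG | hG
  · left
    refine key a c b d ?_ hz.ab hz.ad hz.bc.symm hz.cd hz.ac hz.bd hG
    rw [hp]; ext x; simp only [mem_insert_iff, mem_singleton_iff]; tauto
  · right
    refine key a d b c ?_ hz.ab hz.ac hz.bd.symm hz.cd.symm hz.ad hz.bc hG
    rw [hp]; ext x; simp only [mem_insert_iff, mem_singleton_iff]; tauto
  · right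
    refine (key b c a d ?_ hz.ab.symm hz.bd hz.ac.symm hz.cd hz.bc hz.ad hG).swap
    rw [hp]; ext x; simp only [mem_insert_iff, mem_singleton_iff]; tauto
  · left
    refine (key b d a c ?_ hz.ab.symm hz.bc hz.ad.symm hz.cd.symm hz.bd hz.ac hG).swap
    rw [hp]; ext x; simp only [mem_insert_iff, mem_singleton_iff]; tauto

theorem ncard_dpt {z : ℂ} (hz : DPt T z a b c d) : (T z).ncard = 4 := by
  rw [hz.pal, Set.ncard_insert_of_notMem, Set.ncard_insert_of_notMem,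
    Set.ncard_pair hz.cd]
  · simp only [mem_insert_iff, mem_singleton_iff, not_or]
    exact ⟨hz.bc, hz.bd⟩
  · simp only [mem_insert_iff, mem_singleton_iff, not_or]
    exact ⟨hz.ab, hz.ac, hz.ad⟩

/-- `P` is a pair letter of `S(z)` -/
def PL (T : ℂ → Set (Fin 6)) (z : ℂ) (P : Set (Fin 6)) : Prop :=
  P ⊆ T z ∧ P.ncard = 2 ∧ ∃ q, dist q z = 1 ∧ T q = P

theorem PL.eq (h : Irr U T) {z : ℂ} {P : Set (Fin 6)} (hz : DPt T z a b c d) (hP : PL T z P) :
    P = {a, b} ∨ P = {c, d} := by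
  obtain ⟨h1, h2, q, hq, hT⟩ := hP
  obtain ⟨x, y, hxy, rfl⟩ := Set.ncard_eq_two.1 h2
  have := h.pair_eq492 hz hq hxy (h1 (by simp)) (h1 (by simp)) hT
  rwa [hT] at this

/-- pair letters of two such points meet -/
theorem PL.meet (h : Irr U T) {z v : ℂ} {P P' : Set (Fin 6)} (hz : ∃ a b c d, DPt T z a b c d)
    (hv : dist v z = 1) (hT : T v = T z) (hP : PL T z P) (hP' : PL T v P') : ¬ Disjoint P P' := by
  obtain ⟨a, b, c, d, hz⟩ := hz
  rw [Set.not_disjoint_iff]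
  rcases cross987 h hz hv hT with hc | hc <;> rcases hP.eq h hz with rfl | rfl <;>
    rcases hP'.eq h hc with rfl | rfl
  · exact ⟨a, by simp, by simp⟩
  · exact ⟨b, by simp, by simp⟩
  · exact ⟨c, by simp, by simp⟩
  · exact ⟨d, by simp, by simp⟩
  · exact ⟨a, by simp, by simp⟩
  · exact ⟨b, by simp, by simp⟩
  · exact ⟨d, by simp, by simp⟩
  · exact ⟨c, by simp, by simp⟩

open Classical in
/-- letters `0 = e`, `1 = f`, `2` = pair -/
def lt3 (e f : Fin 6) (P : Set (Fin 6)) : Fin 3 := if e ∈ P then 0 else if f ∈ P then 1 else 2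

/-- three two-pair points at distance one with the palette `S` -/
structure Tri3 (U : Fin 6 → Set ℂ) (T : ℂ → Set (Fin 6)) (z : Fin 3 → ℂ) (S : Set (Fin 6))
    (e f : Fin 6) : Prop where
  irr : Irr U T
  d1 : ∀ i j, i ≠ j → dist (z i) (z j) = 1
  pal : ∀ i, T (z i) = S
  four : S.ncard = 4
  dp : ∀ i, ∃ a b c d, DPt T (z i) a b c d
  he : e ∉ S
  hf : f ∉ S
  hef : e ≠ f
  cov : ∀ i, i ∈ S ∨ i = e ∨ i = f
  w0 : ∀ i y, dist y (z i) = 1 → (T y).ncard ≤ 3 ∨ T y = S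

/-- the letter sets -/
def X3 (T : ℂ → Set (Fin 6)) (z : Fin 3 → ℂ) (e f : Fin 6) (φ : ℝ) :
    Fin 3 × Fin 6 → Fin 3 → Set ℝ := Xl T z φ (fun _ => lt3 e f)

/-- legal columns -/
def Leg3 (g : Fin 3 × Fin 6 → Fin 3) : Prop :=
  (∀ i i' j, i ≠ i' → g (i, j) ≠ g (i', j)) ∧ ∀ i j, g (i, j) = 2 ∨ g (i, j) ≠ g (i, j + 1)

namespace Tri3

variable {z : Fin 3 → ℂ} {S : Set (Fin 6)}

theorem sub_of (D : Tri3 U T z S e f) {P : Set (Fin 6)} (h : lt3 e f P = 2) : P ⊆ S := by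
  intro i hi
  unfold lt3 at h
  by_cases h1 : e ∈ P
  · rw [if_pos h1] at h; exact absurd h (by decide)
  rw [if_neg h1] at h
  by_cases h2 : f ∈ P
  · rw [if_pos h2] at h; exact absurd h (by decide)
  rcases D.cov i with h3 | rfl | rfl
  · exact h3
  · exact absurd hi h1
  · exact absurd hi h2

theorem mem_of0 {P : Set (Fin 6)} (h : lt3 e f P = 0) : e ∈ P := by
  unfold lt3 at h
  by_contra h1
  rw [if_neg h1] at h
  split_ifs at h
  · exact absurd h (by decide)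
  · exact absurd h (by decide)

theorem mem_of1 {P : Set (Fin 6)} (h : lt3 e f P = 1) : f ∈ P := by
  unfold lt3 at h
  by_contra h1
  split_ifs at h
  · exact absurd h (by decide)
  · exact absurd h (by decide)

/-- constant palettes with the letter `2` -/
theorem pl_of (D : Tri3 U T z S e f) {i : Fin 3} {s : ℝ} (hs : s ∈ Lc T (z i))
    (h2 : lt3 e f (T (pt (z i) s)) = 2) : PL T (z i) (T (pt (z i) s)) := by
  have h3 : T (pt (z i) s) ⊆ T (z i) := by rw [D.pal i]; exact D.sub_of h2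
  exact ⟨h3, (pair_four D.irr (by rw [D.pal i]; exact D.four) hs h3).1, _, dist_pt _ _, rfl⟩

theorem meet (D : Tri3 U T z S e f) {i j : Fin 3} (hij : i ≠ j) {P P' : Set (Fin 6)}
    (hP : PL T (z i) P) (hP' : PL T (z j) P') : ¬ Disjoint P P' :=
  PL.meet D.irr (D.dp i) (D.d1 j i hij.symm) ((D.pal j).trans (D.pal i).symm) hP hP'

/-- the point of the slot -/
def pp (z : Fin 3 → ℂ) (φ u : ℝ) (i : Fin 3) (j : Fin 6) : ℂ := pt (z i) (φ + u + (j.val : ℝ))

theorem pp_shift (φ u : ℝ) (i i' : Fin 3) (j : Fin 6) :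
    pp z φ u i' j = z i' + (pp z φ u i j - z i) := by
  unfold pp pt; ring

theorem av0 (D : Tri3 U T z S e f) {φ u : ℝ} {i : Fin 3} {j : Fin 6}
    (h : u ∈ X3 T z e f φ (i, j) 0) : e ∈ T (pp z φ u i j) := by
  obtain ⟨P, h1, h2⟩ := Xl_sub D.irr h
  exact h2 (mem_of0 h1)

theorem av1 (D : Tri3 U T z S e f) {φ u : ℝ} {i : Fin 3} {j : Fin 6}
    (h : u ∈ X3 T z e f φ (i, j) 1) : f ∈ T (pp z φ u i j) := by
  obtain ⟨P, h1, h2⟩ := Xl_sub D.irr h
  exact h2 (mem_of1 h1)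

theorem av2 (D : Tri3 U T z S e f) {φ u : ℝ} {i : Fin 3} {j : Fin 6}
    (h : u ∈ X3 T z e f φ (i, j) 2) : ∃ P, PL T (z i) P ∧ P ⊆ T (pp z φ u i j) := by
  obtain ⟨P, h1, h2, h3⟩ := Xl_pal h
  obtain ⟨v, hv1, hv2⟩ : ({v | v ∈ Lc T (z i) ∧ T (pt (z i) v) = P} : Set ℝ).Nonempty :=
    closure_nonempty_iff.1 ⟨_, h2⟩
  refine ⟨P, ?_, sub_of_closure D.irr h3⟩
  have := D.pl_of hv1 (by rw [hv2]; exact h1)
  rwa [hv2] at this

/-- the set which stands for an available letter: `{e}`, `{f}` or a pair -/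
theorem rep (D : Tri3 U T z S e f) {φ u : ℝ} {i : Fin 3} {j : Fin 6} {l : Fin 3}
    (h : u ∈ X3 T z e f φ (i, j) l) : ∃ P, P ⊆ T (pp z φ u i j) ∧
      ((l = 0 ∧ P = {e}) ∨ (l = 1 ∧ P = {f}) ∨ (l = 2 ∧ PL T (z i) P)) := by
  have h3 : l = 0 ∨ l = 1 ∨ l = 2 := by fin_cases l <;> decide
  rcases h3 with rfl | rfl | rfl
  · exact ⟨{e}, singleton_subset_iff.2 (D.av0 h), Or.inl ⟨rfl, rfl⟩⟩
  · exact ⟨{f}, singleton_subset_iff.2 (D.av1 h), Or.inr (Or.inl ⟨rfl, rfl⟩)⟩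
  · obtain ⟨P, h1, h2⟩ := D.av2 h
    exact ⟨P, h2, Or.inr (Or.inr ⟨rfl, h1⟩)⟩

/-- **no exchange of two letters on two of the circles** -/
theorem noswap (D : Tri3 U T z S e f) {φ u : ℝ} {i i' : Fin 3} (hii : i ≠ i') {j : Fin 6}
    {l m : Fin 3} (hlm : l ≠ m) (h1 : u ∈ X3 T z e f φ (i, j) l) (h2 : u ∈ X3 T z e f φ (i, j) m)
    (h3 : u ∈ X3 T z e f φ (i', j) l) (h4 : u ∈ X3 T z e f φ (i', j) m) : False := by
  obtain ⟨L, hL, hL'⟩ := D.rep h1
  obtain ⟨M, hM, hM'⟩ := D.rep h2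
  obtain ⟨L', hL2, hL2'⟩ := D.rep h3
  obtain ⟨M', hM2, hM2'⟩ := D.rep h4
  set p := pp z φ u i j with hp
  set q := pp z φ u i' j with hq
  -- one of the letters is `e` or `f`, so both points have at most three colours
  have hlow : ∀ {i : Fin 3}, u ∈ X3 T z e f φ (i, j) l → u ∈ X3 T z e f φ (i, j) m →
      (T (pp z φ u i j)).ncard ≤ 3 ∧ T (pp z φ u i j) ≠ S := by
    intro i k1 k2
    have hne : T (pp z φ u i j) ≠ S := by
      intro hS
      have k0 : ∀ {l : Fin 3}, u ∈ X3 T z e f φ (i, j) l → l = 2 := by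
        intro l k
        have h3 : l = 0 ∨ l = 1 ∨ l = 2 := by fin_cases l <;> decide
        rcases h3 with rfl | rfl | rfl
        · exact absurd (hS ▸ D.av0 k) D.he
        · exact absurd (hS ▸ D.av1 k) D.hf
        · rfl
      exact hlm ((k0 k1).trans (k0 k2).symm)
    exact ⟨(D.w0 i _ (dist_pt _ _)).resolve_right hne, hne⟩
  obtain ⟨p3, pS⟩ := hlow h1 h2
  obtain ⟨q3, qS⟩ := hlow h3 h4
  rw [← hp] at p3 pS
  rw [← hq] at q3 qS
  have hqp : q = z i' + (p - z i) := by rw [hq, hp]; exact pp_shift φ u i i' j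
  have hpz : dist p (z i) = 1 := dist_pt _ _
  have hpq : dist p q = 1 := by
    rw [hqp, dist_eq_norm, show p - (z i' + (p - z i)) = z i - z i' by ring, ← dist_eq_norm]
    exact D.d1 i i' hii
  have hzq : z i ≠ q := fun h5 => qS (by rw [← h5]; exact D.pal i)
  have hzq2 : z i + q ≠ 2 * p := by
    intro h5
    refine pS ?_
    have : p = z i' := by rw [hqp] at h5; linear_combination -h5
    rw [this]; exact D.pal i'
  have hz4 : 4 ≤ (T (z i)).ncard := by rw [D.pal i, D.four]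
  -- the letters of the first circle
  have isl : ∀ {l : Fin 3} {P : Set (Fin 6)},
      ((l = 0 ∧ P = {e}) ∨ (l = 1 ∧ P = {f}) ∨ (l = 2 ∧ PL T (z i) P)) → H187.IsLt T (z i) P := by
    rintro l P (⟨-, rfl⟩ | ⟨-, rfl⟩ | ⟨-, h5⟩)
    · exact Or.inl ⟨e, by rw [D.pal i]; exact D.he, rfl⟩
    · exact Or.inl ⟨f, by rw [D.pal i]; exact D.hf, rfl⟩
    · exact Or.inr ⟨h5.1, h5.2.1.ge⟩
  have dis : ∀ {l m : Fin 3} {P Q : Set (Fin 6)}, l ≠ m →
      ((l = 0 ∧ P = {e}) ∨ (l = 1 ∧ P = {f}) ∨ (l = 2 ∧ PL T (z i) P)) →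
      ((m = 0 ∧ Q = {e}) ∨ (m = 1 ∧ Q = {f}) ∨ (m = 2 ∧ PL T (z i') Q)) → Disjoint P Q := by
    intro l m P Q hlm h5 h6
    rcases h5 with ⟨rfl, rfl⟩ | ⟨rfl, rfl⟩ | ⟨rfl, h5⟩ <;>
      rcases h6 with ⟨rfl, rfl⟩ | ⟨rfl, rfl⟩ | ⟨rfl, h6⟩
    · exact absurd rfl hlm
    · rw [Set.disjoint_singleton]; exact D.hef
    · rw [Set.disjoint_singleton_left]
      exact fun h7 => D.he (by rw [← D.pal i']; exact h6.1 h7)
    · rw [Set.disjoint_singleton]; exact D.hef.symm
    · exact absurd rfl hlm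
    · rw [Set.disjoint_singleton_left]
      exact fun h7 => D.hf (by rw [← D.pal i']; exact h6.1 h7)
    · rw [Set.disjoint_singleton_right]
      exact fun h7 => D.he (by rw [← D.pal i]; exact h5.1 h7)
    · rw [Set.disjoint_singleton_right]
      exact fun h7 => D.hf (by rw [← D.pal i]; exact h5.1 h7)
    · exact absurd rfl hlm
  have ndis : ∀ {l : Fin 3} {P Q : Set (Fin 6)},
      ((l = 0 ∧ P = {e}) ∨ (l = 1 ∧ P = {f}) ∨ (l = 2 ∧ PL T (z i) P)) →
      ((l = 0 ∧ Q = {e}) ∨ (l = 1 ∧ Q = {f}) ∨ (l = 2 ∧ PL T (z i') Q)) → ¬ Disjoint P Q := by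
    intro l P Q h5 h6
    rcases h5 with ⟨rfl, rfl⟩ | ⟨rfl, rfl⟩ | ⟨rfl, h5⟩ <;>
      rcases h6 with ⟨h7, rfl⟩ | ⟨h7, rfl⟩ | ⟨h7, h6⟩
    · simp
    · exact absurd h7 (by decide)
    · exact absurd h7 (by decide)
    · exact absurd h7 (by decide)
    · simp
    · exact absurd h7 (by decide)
    · exact absurd h7 (by decide)
    · exact absurd h7 (by decide)
    · exact D.meet hii h5 h6
  -- `L, M` on the first circle, `M', L'` on the second
  exact H187.noswap187 D.irr hpz hpq hzq hzq2 hz4 p3 q3 hL hM hM2 hL2 (isl hL') (isl hM')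
    (dis hlm hL' hM2') (dis hlm.symm hM' hL2') (ndis hL' hL2') (ndis hM' hM2')

theorem sw (D : Tri3 U T z S e f) (φ : ℝ) : Sw (X3 T z e f φ) Leg3 := by
  refine sw_of D.irr (Dir_dense z φ) fun u hd hu => ?_
  have hb := bas_of D.irr hu hd
  refine ⟨fun i i' j hii h5 => ?_, fun i j => ?_⟩
  · have hdj := hb.prod i i' (D.d1 i i' hii) j
    have h5 : lt3 e f (pals T z φ u (i, j)) = lt3 e f (pals T z φ u (i', j)) := h5
    have h3 : lt3 e f (pals T z φ u (i, j)) = 0 ∨ lt3 e f (pals T z φ u (i, j)) = 1 ∨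
        lt3 e f (pals T z φ u (i, j)) = 2 := by
      generalize lt3 e f (pals T z φ u (i, j)) = l; fin_cases l <;> decide
    rcases h3 with h3 | h3 | h3
    · exact Set.disjoint_left.1 hdj (mem_of0 h3) (mem_of0 (h5 ▸ h3))
    · exact Set.disjoint_left.1 hdj (mem_of1 h3) (mem_of1 (h5 ▸ h3))
    · exact D.meet hii (D.pl_of (hu (i, j)) h3) (D.pl_of (hu (i', j)) (h5 ▸ h3)) hdj
  · have hdj := hb.sixty i j
    show lt3 e f (pals T z φ u (i, j)) = 2 ∨
      lt3 e f (pals T z φ u (i, j)) ≠ lt3 e f (pals T z φ u (i, j + 1))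
    have h3 : lt3 e f (pals T z φ u (i, j)) = 0 ∨ lt3 e f (pals T z φ u (i, j)) = 1 ∨
        lt3 e f (pals T z φ u (i, j)) = 2 := by
      generalize lt3 e f (pals T z φ u (i, j)) = l; fin_cases l <;> decide
    rcases h3 with h3 | h3 | h3
    · right
      intro h5
      exact Set.disjoint_left.1 hdj (mem_of0 h3) (mem_of0 (h5 ▸ h3))
    · right
      intro h5
      exact Set.disjoint_left.1 hdj (mem_of1 h3) (mem_of1 (h5 ▸ h3))
    · exact Or.inl h3

/-- the sign of a column at a slot -/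
def Pos3 (g : Fin 3 × Fin 6 → Fin 3) (j : Fin 6) : Prop := g (1, j) = g (0, j) + 1

theorem finite_part : ∀ x y z x' y' z' : Fin 3, x ≠ y → x ≠ z → y ≠ z → x' ≠ y' → x' ≠ z' →
    y' ≠ z' → ¬ (y = x + 1 ↔ y' = x' + 1) →
    (x ≠ y ∧ x' = y ∧ y' = x) ∨ (x ≠ z ∧ x' = z ∧ z' = x) ∨ (y ≠ z ∧ y' = z ∧ z' = y) := by
  decide

/-- the sign is the same for all limit columns at one time -/
theorem loc (D : Tri3 U T z S e f) {φ u : ℝ} {g g' : Fin 3 × Fin 6 → Fin 3}
    (hg : g ∈ LC (X3 T z e f φ) u ∪ RC (X3 T z e f φ) u)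
    (hg' : g' ∈ LC (X3 T z e f φ) u ∪ RC (X3 T z e f φ) u) (j : Fin 6) :
    Pos3 g j ↔ Pos3 g' j := by
  have w := D.sw φ
  have key : ∀ h ∈ LC (X3 T z e f φ) u ∪ RC (X3 T z e f φ) u,
      Leg3 h ∧ Av (X3 T z e f φ) u h := by
    rintro h (hh | hh)
    · exact ⟨w.leg_of_LC hh, w.av_of_LC hh⟩
    · exact ⟨w.leg_of_RC hh, w.av_of_RC hh⟩
  obtain ⟨l1, ha⟩ := key g hg
  obtain ⟨l2, ha'⟩ := key g' hg'
  by_contra hcon
  have h1 := finite_part (g (0, j)) (g (1, j)) (g (2, j)) (g' (0, j)) (g' (1, j)) (g' (2, j))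
    (l1.1 0 1 j (by decide)) (l1.1 0 2 j (by decide)) (l1.1 1 2 j (by decide))
    (l2.1 0 1 j (by decide)) (l2.1 0 2 j (by decide)) (l2.1 1 2 j (by decide)) hcon
  rcases h1 with ⟨h1, h2, h3⟩ | ⟨h1, h2, h3⟩ | ⟨h1, h2, h3⟩
  · exact D.noswap (i := 0) (i' := 1) (by decide) h1 (ha (0, j)) (h2 ▸ ha' (0, j))
      (h3 ▸ ha' (1, j)) (ha (1, j))
  · exact D.noswap (i := 0) (i' := 2) (by decide) h1 (ha (0, j)) (h2 ▸ ha' (0, j))
      (h3 ▸ ha' (2, j)) (ha (2, j))
  · exact D.noswap (i := 1) (i' := 2) (by decide) h1 (ha (1, j)) (h2 ▸ ha' (1, j))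
      (h3 ▸ ha' (2, j)) (ha (2, j))

theorem finite_part' : ∀ x y z x' y' z' : Fin 3, x = 2 → x' = 2 → x ≠ y → x ≠ z → y ≠ z →
    x' ≠ y' → x' ≠ z' → y' ≠ z' → y ≠ y' → (y = x + 1 ↔ y' = x' + 1) → False := by
  decide

/-- **no unit triangle** with `z 1`, `z 2` at the angles `φ`, `φ + 1` from `z 0` -/
theorem false_of (D : Tri3 U T z S e f) {φ : ℝ} (h1 : z 1 = pt (z 0) φ) (h2 : z 2 = pt (z 0) (φ + 1)) :
    False := by
  have w := D.sw φ
  obtain ⟨g, hg⟩ := w.LC_ne 0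
  obtain ⟨g', hg'⟩ := w.RC_ne 0
  have h3 := w.turn (σ := rt (Fin 3)) (fun s l u => Xl_per s l u)
    (R := fun g g' => ∀ j, Pos3 g j ↔ Pos3 g' j) (fun _ _ _ h1 h2 j => (h1 j).trans (h2 j)) 0
    (fun u _ h hh h' hh' j => D.loc hh hh' j) g hg g' hg' 0
  have h4 := D.loc (Or.inl hg) (Or.inr hg') 0
  have h5 : Pos3 (g ∘ rt (Fin 3)) 0 ↔ Pos3 g 1 := Iff.rfl
  have h6 : Pos3 g 0 ↔ Pos3 g 1 := h4.trans (h3.trans h5)
  have ha := w.av_of_LC hg
  have hl := w.leg_of_LC hg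
  -- the pair letters at `z 1` and `z 2`
  have k : ∀ j : Fin 6, T (pp z φ 0 0 j) = S → g (0, j) = 2 := by
    intro j hS
    have h3 : g (0, j) = 0 ∨ g (0, j) = 1 ∨ g (0, j) = 2 := by
      generalize g (0, j) = l; fin_cases l <;> decide
    have h7 := ha (0, j)
    rcases h3 with h3 | h3 | h3
    · rw [h3] at h7; exact absurd (hS ▸ D.av0 h7) D.he
    · rw [h3] at h7; exact absurd (hS ▸ D.av1 h7) D.hf
    · exact h3
  have k0 : g (0, 0) = 2 := k 0 (by
    have : pp z φ 0 0 0 = z 1 := by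
      rw [h1]; unfold pp
      congr 1
      simp
    rw [this]; exact D.pal 1)
  have k1 : g (0, 1) = 2 := k 1 (by
    have : pp z φ 0 0 1 = z 2 := by
      rw [h2]; unfold pp
      congr 1
      simp
    rw [this]; exact D.pal 2)
  have k2 : g (1, 0) ≠ 2 := by rw [← k0]; exact hl.1 1 0 0 (by decide)
  exact finite_part' (g (0, 0)) (g (1, 0)) (g (2, 0)) (g (0, 1)) (g (1, 1)) (g (2, 1)) k0 k1
    (hl.1 0 1 0 (by decide)) (hl.1 0 2 0 (by decide)) (hl.1 1 2 0 (by decide))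
    (hl.1 0 1 1 (by decide)) (hl.1 0 2 1 (by decide)) (hl.1 1 2 1 (by decide))
    ((hl.2 1 0).resolve_left k2) h6

end Tri3

/-- **No unit triangle of two-pair points with the same palette.** -/
theorem no_tri (h : Irr U T) {z : ℂ} (hz : ∃ a b c d, DPt T z a b c d) {φ : ℝ}
    (h1 : T (pt z φ) = T z) (h2 : T (pt z (φ + 1)) = T z)
    (w0 : ∀ y, dist y z = 1 → (T y).ncard ≤ 3 ∨ T y = T z)
    (w1 : ∀ y, dist y (pt z φ) = 1 → (T y).ncard ≤ 3 ∨ T y = T z)
    (w2 : ∀ y, dist y (pt z (φ + 1)) = 1 → (T y).ncard ≤ 3 ∨ T y = T z) : False := by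
  have hz' := hz
  obtain ⟨a, b, c, d, hD⟩ := hz'
  have h4 : (T z).ncard = 4 := ncard_dpt hD
  obtain ⟨e, f, hef, he⟩ : ∃ e f, e ≠ f ∧ (T z)ᶜ = {e, f} := by
    refine Set.ncard_eq_two.1 ?_
    have := Set.ncard_add_ncard_compl (T z)
    rw [Nat.card_eq_fintype_card, Fintype.card_fin] at this
    omega
  have he1 : e ∉ T z := by
    have : e ∈ (T z)ᶜ := by rw [he]; simp
    exact this
  have hf1 : f ∉ T z := by
    have : f ∈ (T z)ᶜ := by rw [he]; simp
    exact this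
  have D : Tri3 U T ![z, pt z φ, pt z (φ + 1)] (T z) e f := by
    refine ⟨h, ?_, ?_, h4, ?_, he1, hf1, hef, ?_, ?_⟩
    · have k1 : dist (pt z φ) z = 1 := dist_pt _ _
      have k2 : dist (pt z (φ + 1)) z = 1 := dist_pt _ _
      have k3 : dist (pt z φ) (pt z (φ + 1)) = 1 := dist_pt_one _ _
      intro i j hij
      fin_cases i <;> fin_cases j
      · exact absurd rfl hij
      · show dist z (pt z φ) = 1
        rw [dist_comm]; exact k1
      · show dist z (pt z (φ + 1)) = 1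
        rw [dist_comm]; exact k2
      · exact k1
      · exact absurd rfl hij
      · exact k3
      · exact k2
      · show dist (pt z (φ + 1)) (pt z φ) = 1
        rw [dist_comm]; exact k3
      · exact absurd rfl hij
    · intro i; fin_cases i
      · rfl
      · exact h1
      · exact h2
    · intro i; fin_cases i
      · exact hz
      · exact h.dpt_of_eq169 hz (dist_pt _ _) h1
      · exact h.dpt_of_eq169 hz (dist_pt _ _) h2
    · intro i
      by_cases hi : i ∈ T z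
      · exact Or.inl hi
      · right
        have : i ∈ (T z)ᶜ := hi
        rw [he] at this
        exact this
    · intro i; fin_cases i
      · exact w0
      · exact w1
      · exact w2
  exact D.false_of (φ := φ) rfl rfl

end Vale.Agent.P032.H987
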