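import Vale.Agent.P032.H98.Star

/-!
# P032: one circle with ends and partners, the class theorem (frame)

`Cz U T z a b c d e f` : `z` is a two-pair point with the pairs `ab | cd`, free colours `e, f`, and
every point of `S(z)` has at most three colours or the palette of `z`.  Letters of the slots
`0 = e`, `1 = f`, `2 = A` (exact `ab`), `3 = C` (exact `cd`); angles in units of 60 degrees; the slot
`j : Fin 6` at the time `u` is the point `pt z (φ + u + j)`.

Types of points: `3` if `T y = T z`, `1` if `T y = {a, b, e}`, `2` if `T y = {c, d, f}`, `0` otherwise.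

* `Tie τ h h'` : two limit columns `h, h'` at the same time, `τ` = types of the six points:
  `ct` (letters at one slot), `adj`, `adj'` (neighbours different), `noswap`, `opp` (closed antipodal
  rule).  All conditions are decidable.
* `Cz.tie` : any two limit columns (left or right) at any time satisfy `Tie`.
* `Cz.path` : if the points of type `≠ 0` are finite in number: the columns before and after the time
  `0`, and the chain of the classes through the special times in `(0, 1)` up to the rotated column.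
-/

open Set Filter Topology Metric

noncomputable section

namespace Vale.Agent.P032.H987

open Vale.Agent.P032.Six Vale.Agent.P032.S5.H767 Vale.Agent.P032.S5.H122 Vale.Agent.P032.Sweep

/-! ### The finite part -/

/-- possible pairs of letters at one slot of type `τ` -/
def Ct (τ l m : Fin 4) : Prop :=
  match τ with
  | 0 => ¬ (l = 0 ∧ m = 2) ∧ ¬ (l = 2 ∧ m = 0) ∧ ¬ (l = 1 ∧ m = 3) ∧ ¬ (l = 3 ∧ m = 1) ∧
      ¬ (l = 2 ∧ m = 3) ∧ ¬ (l = 3 ∧ m = 2)
  | 1 => (l = 0 ∨ l = 2) ∧ (m = 0 ∨ m = 2)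
  | 2 => (l = 1 ∨ l = 3) ∧ (m = 1 ∨ m = 3)
  | 3 => (l = 2 ∨ l = 3) ∧ (m = 2 ∨ m = 3)

instance (τ l m : Fin 4) : Decidable (Ct τ l m) := by
  unfold Ct; split <;> infer_instance

/-- two limit columns at the same time, with the types of the points -/
structure Tie (τ : Fin 6 → Fin 4) (h h' : Fin 6 → Fin 4) : Prop where
  ct : ∀ j, Ct (τ j) (h j) (h' j)
  adj : ∀ j, h j ≠ h (j + 1)
  adj' : ∀ j, h' j ≠ h' (j + 1)
  noswap : ∀ j, h j ≠ h' j → h j = h' (j + 1) → h' j = h (j + 1) → τ j = 3 ∧ τ (j + 1) = 3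
  opp : ∀ j, (h j = 2 ∨ h' j = 2) → (h (j + 3) = 3 ∨ h' (j + 3) = 3) → False

theorem Tie.symm {τ h h' : Fin 6 → Fin 4} (t : Tie τ h h') : Tie τ h' h where
  ct := fun j => by
    have h1 := t.ct j
    revert h1
    generalize τ j = x; generalize h j = l; generalize h' j = m
    revert x l m; decide
  adj := t.adj'
  adj' := t.adj
  noswap := fun j h1 h2 h3 => t.noswap j h1.symm h3 h2
  opp := fun j h1 h2 => t.opp j h1.symm h2.symm

/-! ### The geometric part -/

variable {U : Fin 6 → Set ℂ} {T : ℂ → Set (Fin 6)} {z : ℂ} {a b c d e f : Fin 6}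

/-- a two-pair point; the points of order at least four on its circle have its palette -/
structure Cz (U : Fin 6 → Set ℂ) (T : ℂ → Set (Fin 6)) (z : ℂ) (a b c d e f : Fin 6) : Prop where
  irr : Irr U T
  dpt : DPt T z a b c d
  nd : [a, b, c, d, e, f].Nodup
  hJ : ∀ y, dist y z = 1 → (T y).ncard ≤ 3 ∨ T y = T z

open Classical in
/-- the type of a point -/
def ty (T : ℂ → Set (Fin 6)) (z : ℂ) (a b c d e f : Fin 6) (y : ℂ) : Fin 4 :=
  if T y = T z then 3 else if T y = {a, b, e} then 1 else if T y = {c, d, f} then 2 else 0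

/-- the letter sets, base angle `φ` -/
def XX (T : ℂ → Set (Fin 6)) (z : ℂ) (a b e f : Fin 6) (φ : ℝ) : Unit × Fin 6 → Fin 4 → Set ℝ :=
  Xl T (fun _ : Unit => z) φ (fun _ => lt98 a b e f)

/-- the point of the slot `j` at the time `u` -/
def qj (z : ℂ) (φ u : ℝ) (j : Fin 6) : ℂ := pt z (φ + u + (j.val : ℝ))

theorem qj_succ (z : ℂ) (φ u : ℝ) (j : Fin 6) :
    qj z φ u (j + 1) = pt z (φ + u + (j.val : ℝ) + 1) := pt_succ z φ u j

theorem qj_add3 (z : ℂ) (φ u : ℝ) (j : Fin 6) : qj z φ u (j + 3) = 2 * z - qj z φ u j := by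
  show pt z (φ + u + ((j + 3 : Fin 6).val : ℝ)) = _
  rw [pt_add3, pt_three]; rfl

theorem dist_qj (z : ℂ) (φ u : ℝ) (j : Fin 6) : dist (qj z φ u j) z = 1 := dist_pt _ _

theorem dist_qj_succ (z : ℂ) (φ u : ℝ) (j : Fin 6) :
    dist (qj z φ u j) (qj z φ u (j + 1)) = 1 := by
  rw [qj_succ]; exact dist_pt_one _ _

namespace Cz

theorem ctr (S : Cz U T z a b c d e f) : Ctr U T z a b c d e f where
  irr := S.irr
  pal := S.dpt.pal
  nd := S.nd
  pairs := fun y hy hloc hsub => S.irr.twoPairs S.dpt y hy hloc hsub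

/-- the old letter sets contain the new ones -/
theorem mem_Lt (S : Cz U T z a b c d e f) {φ : ℝ} {j : Fin 6} {l : Fin 4} {u : ℝ}
    (hu : u ∈ XX T z a b e f φ ((), j) l) : qj z φ u j ∈ Lt T z a b c d e f l := by
  obtain ⟨P, hP, h1, h2⟩ := Xl_pal hu
  have hsub : P ⊆ T (qj z φ u j) := sub_of_closure S.irr h2
  have hP : lt98 a b e f P = l := hP
  unfold lt98 at hP
  by_cases he : e ∈ P
  · rw [if_pos he] at hP
    subst hP
    exact ⟨dist_qj z φ u j, hsub he⟩
  rw [if_neg he] at hP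
  by_cases hf : f ∈ P
  · rw [if_pos hf] at hP
    subst hP
    exact ⟨dist_qj z φ u j, hsub hf⟩
  rw [if_neg hf] at hP
  by_cases hab : P = {a, b}
  · rw [if_pos hab] at hP
    subst hP
    subst hab
    exact h2
  rw [if_neg hab] at hP
  subst hP
  -- `P` is a constant palette inside `T z`
  have hPz : P ⊆ T z := by
    intro i hi
    by_contra hcon
    rcases S.ctr.miss hcon with rfl | rfl
    · exact he hi
    · exact hf hi
  obtain ⟨v, hv1, hv2⟩ : ({v | v ∈ Lc T z ∧ T (pt z v) = P} : Set ℝ).Nonempty :=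
    closure_nonempty_iff.1 ⟨_, h1⟩
  have hcd : P = {c, d} := by
    rcases S.ctr.pairs (pt z v) (dist_pt z v) (Lc_circle hv1) (by rw [hv2]; exact hPz) with h3 | h3
    · exact absurd (hv2.symm.trans h3) hab
    · exact hv2.symm.trans h3
  rw [hcd] at h2
  exact h2

/-- legal columns -/
def Leg (g : Unit × Fin 6 → Fin 4) : Prop := ∀ j, g ((), j) ≠ g ((), j + 1)

/-- `A` and `C` are not available at opposite slots (closed form, any order) -/
theorem opp (S : Cz U T z a b c d e f) {φ : ℝ} {j : Fin 6} {u : ℝ}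
    (h2 : u ∈ XX T z a b e f φ ((), j) 2) (h3 : u ∈ XX T z a b e f φ ((), j + 3) 3) : False := by
  have k2 : qj z φ u j ∈ closure (Ex T z {a, b}) := S.mem_Lt h2
  have k3 : qj z φ u (j + 3) ∈ closure (Ex T z {c, d}) := S.mem_Lt h3
  have hsub : ({c, d} : Set (Fin 6)) ⊆ T (qj z φ u (j + 3)) := sub_of_closure S.irr k3
  refine S.irr.anti_clo S.dpt (dist_qj z φ u (j + 3)) (hsub (by simp)) (hsub (by simp)) ?_
  rw [qj_add3, sub_sub_cancel]
  exact k2

theorem sw (S : Cz U T z a b c d e f) (φ : ℝ) : Sw (XX T z a b e f φ) Leg := by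
  refine sw_of S.irr dense_univ fun u _ hu => ?_
  have hav : ∀ j : Fin 6, u ∈ XX T z a b e f φ ((), j) (lt98 a b e f (T (qj z φ u j))) := fun j =>
    (Xl_Lc (hu ((), j))).2 rfl
  intro j hj
  have hj : lt98 a b e f (T (qj z φ u j)) = lt98 a b e f (T (qj z φ u (j + 1))) := hj
  have hdis : Disjoint (T (qj z φ u j)) (T (qj z φ u (j + 1))) := by
    rw [qj_succ]; exact dj_sixty S.irr (hu ((), j))
  obtain ⟨t, ht⟩ := col_nonempty (a := a) (b := b) (c := c) (d := d) (e := e) (f := f)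
    (lt98 a b e f (T (qj z φ u j)))
  have h1 := Lt_col S.irr (S.mem_Lt (hav j)) ht
  have h2 := Lt_col S.irr (S.mem_Lt (hav (j + 1))) (hj ▸ ht)
  exact Set.disjoint_left.1 hdis h1 h2

theorem nd' (S : Cz U T z a b c d e f) :
    (a ≠ b ∧ a ≠ c ∧ a ≠ d ∧ a ≠ e ∧ a ≠ f) ∧ (b ≠ c ∧ b ≠ d ∧ b ≠ e ∧ b ≠ f) ∧
      (c ≠ d ∧ c ≠ e ∧ c ≠ f) ∧ (d ≠ e ∧ d ≠ f) ∧ e ≠ f := by
  have hn := S.nd
  simp only [List.nodup_cons, List.mem_cons, List.not_mem_nil, or_false, not_or, List.nodup_nil,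
    and_true, not_false_eq_true] at hn
  exact hn

/-- the letters of a point with the palette of `z` -/
theorem let_J (S : Cz U T z a b c d e f) {y : ℂ} (hy : T y = T z) {l : Fin 4}
    (hl : y ∈ Lt T z a b c d e f l) : l = 2 ∨ l = 3 := by
  obtain ⟨⟨ab, ac, ad, ae, af⟩, ⟨bc, bd, be, bf⟩, ⟨cd, ce, cf⟩, ⟨de, df⟩, ef⟩ := S.nd'
  have he : e ∉ T y := by
    rw [hy, S.dpt.pal]
    simp only [mem_insert_iff, mem_singleton_iff, not_or]
    exact ⟨Ne.symm ae, Ne.symm be, Ne.symm ce, Ne.symm de⟩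
  have hf : f ∉ T y := by
    rw [hy, S.dpt.pal]
    simp only [mem_insert_iff, mem_singleton_iff, not_or]
    exact ⟨Ne.symm af, Ne.symm bf, Ne.symm cf, Ne.symm df⟩
  have h4 : l = 0 ∨ l = 1 ∨ l = 2 ∨ l = 3 := by fin_cases l <;> decide
  rcases h4 with rfl | rfl | h4 | h4
  · exact absurd hl.2 he
  · exact absurd hl.2 hf
  · exact Or.inl h4
  · exact Or.inr h4

/-- the letters of a point with the palette `{a, b, e}` -/
theorem let_V (S : Cz U T z a b c d e f) {y : ℂ} (hy : T y = {a, b, e}) {l : Fin 4}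
    (hl : y ∈ Lt T z a b c d e f l) : l = 0 ∨ l = 2 := by
  obtain ⟨⟨ab, ac, ad, ae, af⟩, ⟨bc, bd, be, bf⟩, ⟨cd, ce, cf⟩, ⟨de, df⟩, ef⟩ := S.nd'
  have hf : f ∉ T y := by
    rw [hy]
    simp only [mem_insert_iff, mem_singleton_iff, not_or]
    exact ⟨Ne.symm af, Ne.symm bf, Ne.symm ef⟩
  have hc : c ∉ T y := by
    rw [hy]
    simp only [mem_insert_iff, mem_singleton_iff, not_or]
    exact ⟨Ne.symm ac, Ne.symm bc, ce⟩
  have h4 : l = 0 ∨ l = 1 ∨ l = 2 ∨ l = 3 := by fin_cases l <;> decide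
  rcases h4 with h4 | rfl | h4 | rfl
  · exact Or.inl h4
  · exact absurd hl.2 hf
  · exact Or.inr h4
  · exact absurd (Lt_col S.irr hl (show c ∈ ({c, d} : Set (Fin 6)) from Or.inl rfl)) hc

/-- the letters of a point with the palette `{c, d, f}` -/
theorem let_Q (S : Cz U T z a b c d e f) {y : ℂ} (hy : T y = {c, d, f}) {l : Fin 4}
    (hl : y ∈ Lt T z a b c d e f l) : l = 1 ∨ l = 3 := by
  obtain ⟨⟨ab, ac, ad, ae, af⟩, ⟨bc, bd, be, bf⟩, ⟨cd, ce, cf⟩, ⟨de, df⟩, ef⟩ := S.nd'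
  have he : e ∉ T y := by
    rw [hy]
    simp only [mem_insert_iff, mem_singleton_iff, not_or]
    exact ⟨Ne.symm ce, Ne.symm de, ef⟩
  have ha : a ∉ T y := by
    rw [hy]
    simp only [mem_insert_iff, mem_singleton_iff, not_or]
    exact ⟨ac, ad, af⟩
  have h4 : l = 0 ∨ l = 1 ∨ l = 2 ∨ l = 3 := by fin_cases l <;> decide
  rcases h4 with rfl | h4 | rfl | h4
  · exact absurd hl.2 he
  · exact Or.inl h4
  · exact absurd (Lt_col S.irr hl (show a ∈ ({a, b} : Set (Fin 6)) from Or.inl rfl)) ha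
  · exact Or.inr h4

/-- the letters of one point -/
theorem ct (S : Cz U T z a b c d e f) {y : ℂ} (hy : dist y z = 1) {l m : Fin 4}
    (hl : y ∈ Lt T z a b c d e f l) (hm : y ∈ Lt T z a b c d e f m) :
    Ct (ty T z a b c d e f y) l m := by
  unfold ty
  split_ifs with h3 h1 h2
  · exact ⟨S.let_J h3 hl, S.let_J h3 hm⟩
  · exact ⟨S.let_V h1 hl, S.let_V h1 hm⟩
  · exact ⟨S.let_Q h2 hl, S.let_Q h2 hm⟩
  · have h4 : (T y).ncard ≤ 3 := (S.hJ y hy).resolve_right h3
    have sw := S.ctr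
    -- the palettes of the mixed points
    have kV : y ∈ Lt T z a b c d e f 0 → y ∈ Lt T z a b c d e f 2 → False := by
      intro k0 k2
      refine h1 ?_
      obtain ⟨u, rfl⟩ := S5.H349.exists_pt hy
      exact S.ctr.pal_eA h4 k0 k2
    have kQ : y ∈ Lt T z a b c d e f 1 → y ∈ Lt T z a b c d e f 3 → False := by
      intro k0 k2
      refine h2 ?_
      obtain ⟨u, rfl⟩ := S5.H349.exists_pt hy
      have C' := S.ctr.swapAC.swapEF
      exact C'.pal_eA h4 (by exact k0) (by exact k2)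
    have kJ : y ∈ Lt T z a b c d e f 2 → y ∈ Lt T z a b c d e f 3 → False :=
      fun k0 k2 => S.ctr.noAC h4 k0 k2
    refine ⟨?_, ?_, ?_, ?_, ?_, ?_⟩
    · rintro ⟨rfl, rfl⟩; exact kV hl hm
    · rintro ⟨rfl, rfl⟩; exact kV hm hl
    · rintro ⟨rfl, rfl⟩; exact kQ hl hm
    · rintro ⟨rfl, rfl⟩; exact kQ hm hl
    · rintro ⟨rfl, rfl⟩; exact kJ hl hm
    · rintro ⟨rfl, rfl⟩; exact kJ hm hl

theorem ty_J {y : ℂ} (hy : T y = T z) : ty T z a b c d e f y = 3 := by
  unfold ty; rw [if_pos hy]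

/-- no swap of neighbours, except at two points with the palette of `z` -/
theorem noswap (S : Cz U T z a b c d e f) {φ : ℝ} {j : Fin 6} {l m : Fin 4} {u : ℝ} (hlm : l ≠ m)
    (hl : u ∈ XX T z a b e f φ ((), j) l) (hm : u ∈ XX T z a b e f φ ((), j) m)
    (hl' : u ∈ XX T z a b e f φ ((), j + 1) l) (hm' : u ∈ XX T z a b e f φ ((), j + 1) m) :
    T (qj z φ u j) = T z ∧ T (qj z φ u (j + 1)) = T z := by
  have kl := S.mem_Lt hl
  have km := S.mem_Lt hm
  have kl' := S.mem_Lt hl'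
  have km' := S.mem_Lt hm'
  -- if one of the points has the palette of `z` then the letters are `A`, `C` and so has the other
  have key : (l = 2 ∨ l = 3) → (m = 2 ∨ m = 3) → ∀ {y : ℂ}, dist y z = 1 →
      y ∈ Lt T z a b c d e f l → y ∈ Lt T z a b c d e f m → T y = T z := by
    intro h1 h2 y hy g1 g2
    refine (S.hJ y hy).resolve_left fun h3 => ?_
    rcases h1 with rfl | rfl <;> rcases h2 with rfl | rfl
    · exact hlm rfl
    · exact S.ctr.noAC h3 g1 g2
    · exact S.ctr.noAC h3 g2 g1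
    · exact hlm rfl
  rcases S.hJ _ (dist_qj z φ u j) with h3 | hz
  · rcases S.hJ _ (dist_qj z φ u (j + 1)) with h3' | hz'
    · exact (S.ctr.noswap hlm (dist_qj_succ z φ u j) h3 h3' kl km kl' km').elim
    · exact ⟨key (S.let_J hz' kl') (S.let_J hz' km') (dist_qj z φ u j) kl km, hz'⟩
  · exact ⟨hz, key (S.let_J hz kl) (S.let_J hz km) (dist_qj z φ u (j + 1)) kl' km'⟩

/-- the types of the slots at the time `u` -/
def tau (T : ℂ → Set (Fin 6)) (z : ℂ) (a b c d e f : Fin 6) (φ u : ℝ) : Fin 6 → Fin 4 :=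
  fun j => ty T z a b c d e f (qj z φ u j)

/-- **two limit columns at the same time** -/
theorem tie (S : Cz U T z a b c d e f) {φ u : ℝ} {g g' : Unit × Fin 6 → Fin 4}
    (hg : g ∈ LC (XX T z a b e f φ) u ∪ RC (XX T z a b e f φ) u)
    (hg' : g' ∈ LC (XX T z a b e f φ) u ∪ RC (XX T z a b e f φ) u) :
    Tie (tau T z a b c d e f φ u) (fun j => g ((), j)) (fun j => g' ((), j)) := by
  have w := S.sw φ
  have key : ∀ h ∈ LC (XX T z a b e f φ) u ∪ RC (XX T z a b e f φ) u,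
      Leg h ∧ Av (XX T z a b e f φ) u h := by
    rintro h (hh | hh)
    · exact ⟨w.leg_of_LC hh, w.av_of_LC hh⟩
    · exact ⟨w.leg_of_RC hh, w.av_of_RC hh⟩
  obtain ⟨l1, ha⟩ := key g hg
  obtain ⟨l2, ha'⟩ := key g' hg'
  refine ⟨fun j => S.ct (dist_qj z φ u j) (S.mem_Lt (ha ((), j))) (S.mem_Lt (ha' ((), j))), l1, l2,
    fun j h1 h2 h3 => ?_, fun j h1 h2 => ?_⟩
  · have h2 : g ((), j) = g' ((), j + 1) := h2
    have h3 : g' ((), j) = g ((), j + 1) := h3
    obtain ⟨k1, k2⟩ := S.noswap h1 (ha ((), j)) (ha' ((), j)) (h2 ▸ ha' ((), j + 1))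
      (h3 ▸ ha ((), j + 1))
    exact ⟨ty_J k1, ty_J k2⟩
  · have k1 : u ∈ XX T z a b e f φ ((), j) 2 := by
      rcases h1 with h1 | h1
      · rw [← show g ((), j) = 2 from h1]; exact ha ((), j)
      · rw [← show g' ((), j) = 2 from h1]; exact ha' ((), j)
    have k2 : u ∈ XX T z a b e f φ ((), j + 3) 3 := by
      rcases h2 with h2 | h2
      · rw [← show g ((), j + 3) = 3 from h2]; exact ha ((), j + 3)
      · rw [← show g' ((), j + 3) = 3 from h2]; exact ha' ((), j + 3)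
    exact S.opp k1 k2

/-- the special times in `(0, 1)` are finite in number -/
theorem finite_times (hfin : {y | dist y z = 1 ∧ ty T z a b c d e f y ≠ 0}.Finite) (φ : ℝ) :
    {u | u ∈ Ioo (0 : ℝ) 1 ∧ ∃ j, tau T z a b c d e f φ u j ≠ 0}.Finite := by
  have h1 : {u | u ∈ Ioo (0 : ℝ) 1 ∧ ∃ j, tau T z a b c d e f φ u j ≠ 0} ⊆
      ⋃ j : Fin 6, ⋃ y ∈ {y | dist y z = 1 ∧ ty T z a b c d e f y ≠ 0},
        {u | u ∈ Ioo (0 : ℝ) 1 ∧ qj z φ u j = y} := by
    rintro u ⟨hu, j, hj⟩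
    exact mem_iUnion.2 ⟨j, mem_iUnion₂.2 ⟨qj z φ u j, ⟨dist_qj z φ u j, hj⟩, hu, rfl⟩⟩
  refine Finite.subset (finite_iUnion fun j => hfin.biUnion fun y _ => ?_) h1
  refine Set.Subsingleton.finite ?_
  rintro u ⟨hu, h1⟩ u' ⟨hu', h2⟩
  obtain ⟨n, hn⟩ := pt_eq_iff (show pt z (φ + u + (j.val : ℝ)) = pt z (φ + u' + (j.val : ℝ)) from
    h1.trans h2.symm)
  have h3 : u = u' + 6 * (n : ℝ) := by linarith
  have h4 : n = 0 := by
    by_contra hne
    rcases lt_or_gt_of_ne hne with h5 | h5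
    · have h6 : n ≤ -1 := by omega
      have h7 : (n : ℝ) ≤ -1 := by exact_mod_cast h6
      linarith [hu.1, hu'.2]
    · have h6 : 1 ≤ n := by omega
      have h7 : (1 : ℝ) ≤ n := by exact_mod_cast h6
      linarith [hu.2, hu'.1]
  rw [h3, h4]; simp

/-- the chain of classes: `R`-steps (same class) and event steps -/
def Chain {σ : Type} (cl : (Fin 6 → Fin 4) → σ) (E : ℝ → Fin 6 → Fin 4) :
    List ℝ → (Fin 6 → Fin 4) → (Fin 6 → Fin 4) → Prop
  | [], h, h' => cl h = cl h'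
  | s :: l, h, h' => ∃ g g', cl h = cl g ∧ Tie (E s) g g' ∧ Chain cl E l g' h'

theorem chain_of_cmp {σ : Type} {cl : (Fin 6 → Fin 4) → σ} {E : ℝ → Fin 6 → Fin 4} :
    ∀ {l : List ℝ} {h h' : Unit × Fin 6 → Fin 4},
    Cmp (fun g g' => cl (fun j => g ((), j)) = cl (fun j => g' ((), j)))
      (fun s g g' => Tie (E s) (fun j => g ((), j)) (fun j => g' ((), j))) l h h' →
    Chain cl E l (fun j => h ((), j)) (fun j => h' ((), j)) := by
  intro l
  induction l with
  | nil => intro h h' hc; exact hc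
  | cons s l ih =>
    rintro h h' ⟨g, g', h1, h2, h3⟩
    exact ⟨_, _, h1, h2, ih h3⟩

/-- **The class theorem (frame).**  `cl` is constant under ties without special points.  Then there
are columns `h` before and `h'` after the time `0`, and the chain of classes through the special times
`l` (sorted, all of them in `(0, 1)`) from `h'` to the rotated column `h`. -/
theorem path (S : Cz U T z a b c d e f)
    (hfin : {y | dist y z = 1 ∧ ty T z a b c d e f y ≠ 0}.Finite) (φ : ℝ) {σ : Type}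
    {cl : (Fin 6 → Fin 4) → σ} (hcl : ∀ h h', Tie (fun _ => 0) h h' → cl h = cl h') :
    ∃ (l : List ℝ) (h h' : Fin 6 → Fin 4), l.Pairwise (· < ·) ∧
      (∀ u, u ∈ l ↔ u ∈ Ioo (0 : ℝ) 1 ∧ ∃ j, tau T z a b c d e f φ u j ≠ 0) ∧
      Tie (tau T z a b c d e f φ 0) h h' ∧
      Chain cl (tau T z a b c d e f φ) l h' (fun j => h (j + 1)) := by
  have w := S.sw φ
  set F := (finite_times hfin φ).toFinset with hF
  have hmem : ∀ u, u ∈ F ↔ u ∈ Ioo (0 : ℝ) 1 ∧ ∃ j, tau T z a b c d e f φ u j ≠ 0 := fun u => by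
    rw [hF, Set.Finite.mem_toFinset]; exact Iff.rfl
  obtain ⟨g, hg⟩ := w.LC_ne 0
  obtain ⟨g', hg'⟩ := w.RC_ne 0
  refine ⟨F.sort (· ≤ ·), fun j => g ((), j), fun j => g' ((), j),
    (Finset.sortedLT_sort F).pairwise, fun u => ?_, S.tie (Or.inl hg) (Or.inr hg'), ?_⟩
  · rw [Finset.mem_sort]; exact hmem u
  have h1 := w.turn_finset (σ := rt Unit) (fun s l u => Xl_per s l u)
    (R := fun g g' => cl (fun j => g ((), j)) = cl (fun j => g' ((), j)))
    (fun _ _ _ h1 h2 => h1.trans h2)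
    (E := fun s g g' => Tie (tau T z a b c d e f φ s) (fun j => g ((), j)) (fun j => g' ((), j)))
    0 F (fun s hs => by rw [zero_add]; exact ((hmem s).1 hs).1)
    (fun s _ h hh h' hh' => S.tie (Or.inl hh) (Or.inr hh'))
    (fun u hu hnot h hh h' hh' => by
      refine hcl _ _ ?_
      have h2 := S.tie hh hh'
      have h3 : tau T z a b c d e f φ u = fun _ => 0 := by
        funext j
        by_contra hne
        rw [zero_add] at hu
        exact hnot ((hmem u).2 ⟨hu, j, hne⟩)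
      rw [h3] at h2
      exact h2) g hg g' hg'
  exact chain_of_cmp h1

end Cz

end Vale.Agent.P032.H987
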