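import Vale.Agent.P032.H987.Zone

/-!
# P032: one circle in the mode `e`, at most two points of order at least four (helper987)

`CzM U T z a b c d e f` : `z` is a two-pair point with the pairs `ab | cd` in the mode `e` (no point
with the palette `{a, b, f}` in the closure of the exact set of `ab`, none with `{c, d, f}` in that of
`cd`).  Letters of the slots `0 = e`, `1 = f`, `2 = A`, `3 = C`.

* `EvM x h g` : two limit columns at the same time, `x` = flags of the slots with points of order at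
  least four (all conditions decidable); `CzM.ev`.
* `ChM` : chain of prescribed columns through the special times.
* `CzM.zpath` : the turn with the zones.
-/

open Set Filter Topology Metric

noncomputable section

namespace Vale.Agent.P032.H987

open Vale.Agent.P032.Six Vale.Agent.P032.S5.H767 Vale.Agent.P032.S5.H122 Vale.Agent.P032.Sweep

/-- two limit columns at the same time, `x` the flags of the exceptional slots -/
structure EvM (x : Fin 6 → Bool) (h g : Fin 6 → Fin 4) : Prop where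
  pl : ∀ j, x j = false → h j = g j ∨ h j = 0 ∨ g j = 0
  adj : ∀ j, h j ≠ h (j + 1)
  adj' : ∀ j, g j ≠ g (j + 1)
  sw : ∀ j, h j ≠ g j → h j = g (j + 1) → g j = h (j + 1) → (x j = true ∧ x (j + 1) = true) ∨
    ((x j = true ∨ x (j + 1) = true) ∧ (h j = 0 ∨ g j = 0) ∧ (h j = 1 ∨ g j = 1))
  opp : ∀ j, (h j = 2 ∨ g j = 2) → (h (j + 3) = 3 ∨ g (j + 3) = 3) → False

variable {U : Fin 6 → Set ℂ} {T : ℂ → Set (Fin 6)} {z : ℂ} {a b c d e f : Fin 6} {p q : ℝ}

/-- a two-pair point in the mode `e` -/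
structure CzM (U : Fin 6 → Set ℂ) (T : ℂ → Set (Fin 6)) (z : ℂ) (a b c d e f : Fin 6) : Prop where
  irr : Irr U T
  dpt : DPt T z a b c d
  nd : [a, b, c, d, e, f].Nodup
  nA : ∀ y, dist y z = 1 → T y = {a, b, f} → y ∉ closure (Ex T z {a, b})
  nC : ∀ y, dist y z = 1 → T y = {c, d, f} → y ∉ closure (Ex T z {c, d})
  sA : ∀ y X, dist y z = 1 → 4 ≤ (T y).ncard → dist X z = 1 → dist X y = 1 → T X = {a, b, e} →
    ¬ ({a, b, e} : Set (Fin 6)) ⊆ T y
  sC : ∀ y X, dist y z = 1 → 4 ≤ (T y).ncard → dist X z = 1 → dist X y = 1 → T X = {c, d, e} →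
    ¬ ({c, d, e} : Set (Fin 6)) ⊆ T y

namespace CzM

theorem ctr (S : CzM U T z a b c d e f) : Ctr U T z a b c d e f where
  irr := S.irr
  pal := S.dpt.pal
  nd := S.nd
  pairs := fun y hy hloc hsub => S.irr.twoPairs S.dpt y hy hloc hsub

theorem mem_Lt (S : CzM U T z a b c d e f) {φ : ℝ} {j : Fin 6} {l : Fin 4} {u : ℝ}
    (hu : u ∈ XX T z a b e f φ ((), j) l) : qj z φ u j ∈ Lt T z a b c d e f l := by
  obtain ⟨P, hP, h1, h2⟩ := Xl_pal hu
  have hsub : P ⊆ T (qj z φ u j) := sub_of_closure S.irr h2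
  have hP : lt98 a b e f P = l := hP
  unfold lt98 at hP
  by_cases he : e ∈ P
  · rw [if_pos he] at hP
    subst hP
    exact ⟨dist_qj z φ u j, hsub he⟩
  rw [if_neg he] at hP
  by_cases hf : f ∈ P
  · rw [if_pos hf] at hP
    subst hP
    exact ⟨dist_qj z φ u j, hsub hf⟩
  rw [if_neg hf] at hP
  by_cases hab : P = {a, b}
  · rw [if_pos hab] at hP
    subst hP
    subst hab
    exact h2
  rw [if_neg hab] at hP
  subst hP
  -- `P` is a constant palette inside `T z`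
  have hPz : P ⊆ T z := by
    intro i hi
    by_contra hcon
    rcases S.ctr.miss hcon with rfl | rfl
    · exact he hi
    · exact hf hi
  obtain ⟨v, hv1, hv2⟩ : ({v | v ∈ Lc T z ∧ T (pt z v) = P} : Set ℝ).Nonempty :=
    closure_nonempty_iff.1 ⟨_, h1⟩
  have hcd : P = {c, d} := by
    rcases S.ctr.pairs (pt z v) (dist_pt z v) (Lc_circle hv1) (by rw [hv2]; exact hPz) with h3 | h3
    · exact absurd (hv2.symm.trans h3) hab
    · exact hv2.symm.trans h3
  rw [hcd] at h2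
  exact h2

theorem opp (S : CzM U T z a b c d e f) {φ : ℝ} {j : Fin 6} {u : ℝ}
    (h2 : u ∈ XX T z a b e f φ ((), j) 2) (h3 : u ∈ XX T z a b e f φ ((), j + 3) 3) : False := by
  have k2 : qj z φ u j ∈ closure (Ex T z {a, b}) := S.mem_Lt h2
  have k3 : qj z φ u (j + 3) ∈ closure (Ex T z {c, d}) := S.mem_Lt h3
  have hsub : ({c, d} : Set (Fin 6)) ⊆ T (qj z φ u (j + 3)) := sub_of_closure S.irr k3
  refine S.irr.anti_clo S.dpt (dist_qj z φ u (j + 3)) (hsub (by simp)) (hsub (by simp)) ?_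
  rw [qj_add3, sub_sub_cancel]
  exact k2

theorem sw (S : CzM U T z a b c d e f) (φ : ℝ) : Sw (XX T z a b e f φ) Cz.Leg := by
  refine sw_of S.irr dense_univ fun u _ hu => ?_
  have hav : ∀ j : Fin 6, u ∈ XX T z a b e f φ ((), j) (lt98 a b e f (T (qj z φ u j))) := fun j =>
    (Xl_Lc (hu ((), j))).2 rfl
  intro j hj
  have hj : lt98 a b e f (T (qj z φ u j)) = lt98 a b e f (T (qj z φ u (j + 1))) := hj
  have hdis : Disjoint (T (qj z φ u j)) (T (qj z φ u (j + 1))) := by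
    rw [qj_succ]; exact dj_sixty S.irr (hu ((), j))
  obtain ⟨t, ht⟩ := col_nonempty (a := a) (b := b) (c := c) (d := d) (e := e) (f := f)
    (lt98 a b e f (T (qj z φ u j)))
  have h1 := Lt_col S.irr (S.mem_Lt (hav j)) ht
  have h2 := Lt_col S.irr (S.mem_Lt (hav (j + 1))) (hj ▸ ht)
  exact Set.disjoint_left.1 hdis h1 h2

theorem nd' (S : CzM U T z a b c d e f) :
    (a ≠ b ∧ a ≠ c ∧ a ≠ d ∧ a ≠ e ∧ a ≠ f) ∧ (b ≠ c ∧ b ≠ d ∧ b ≠ e ∧ b ≠ f) ∧
      (c ≠ d ∧ c ≠ e ∧ c ≠ f) ∧ (d ≠ e ∧ d ≠ f) ∧ e ≠ f := by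
  have hn := S.nd
  simp only [List.nodup_cons, List.mem_cons, List.not_mem_nil, or_false, not_or, List.nodup_nil,
    and_true, not_false_eq_true] at hn
  exact hn

/-- the flags -/
def fl (T : ℂ → Set (Fin 6)) (z : ℂ) (φ u : ℝ) (j : Fin 6) : Bool :=
  decide (4 ≤ (T (qj z φ u j)).ncard)

theorem eq3 {s : Set (Fin 6)} {i j k : Fin 6} (hi : i ∈ s) (hj : j ∈ s) (hk : k ∈ s) (hij : i ≠ j)
    (hik : i ≠ k) (hjk : j ≠ k) (h3 : s.ncard ≤ 3) : s = {i, j, k} := by
  have hsub : ({i, j, k} : Set (Fin 6)) ⊆ s := by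
    rintro x (rfl | rfl | rfl)
    · exact hi
    · exact hj
    · exact hk
  have h1 : ({i, j, k} : Set (Fin 6)).ncard = 3 :=
    Set.ncard_eq_three.2 ⟨i, j, k, hij, hik, hjk, rfl⟩
  exact (Set.eq_of_subset_of_ncard_le hsub (by rw [h1]; exact h3) (Set.toFinite s)).symm

/-- the letters at a point of order at most three -/
theorem plain (S : CzM U T z a b c d e f) {y : ℂ} (hy : dist y z = 1) (h3 : (T y).ncard ≤ 3)
    {l m : Fin 4} (hl : y ∈ Lt T z a b c d e f l) (hm : y ∈ Lt T z a b c d e f m) :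
    l = m ∨ l = 0 ∨ m = 0 := by
  obtain ⟨⟨ab, ac, ad, ae, af⟩, ⟨bc, bd, be, bf⟩, ⟨cd, ce, cf⟩, ⟨de, df⟩, ef⟩ := S.nd'
  have h2A : y ∈ Lt T z a b c d e f 2 → y ∈ closure (Ex T z {a, b}) := fun h => h
  have h3C : y ∈ Lt T z a b c d e f 3 → y ∈ closure (Ex T z {c, d}) := fun h => h
  have h1f : y ∈ Lt T z a b c d e f 1 → f ∈ T y := fun h => h.2
  have sab : y ∈ closure (Ex T z {a, b}) → a ∈ T y ∧ b ∈ T y := fun h => by
    have := sub_of_closure S.irr h
    exact ⟨this (by simp), this (by simp)⟩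
  have scd : y ∈ closure (Ex T z {c, d}) → c ∈ T y ∧ d ∈ T y := fun h => by
    have := sub_of_closure S.irr h
    exact ⟨this (by simp), this (by simp)⟩
  have k12 : y ∈ Lt T z a b c d e f 1 → y ∈ Lt T z a b c d e f 2 → False := fun g1 g2 =>
    S.nA y hy (eq3 (sab (h2A g2)).1 (sab (h2A g2)).2 (h1f g1) ab af bf h3) (h2A g2)
  have k13 : y ∈ Lt T z a b c d e f 1 → y ∈ Lt T z a b c d e f 3 → False := fun g1 g3 =>
    S.nC y hy (eq3 (scd (h3C g3)).1 (scd (h3C g3)).2 (h1f g1) cd cf df h3) (h3C g3)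
  have k23 : y ∈ Lt T z a b c d e f 2 → y ∈ Lt T z a b c d e f 3 → False := fun g2 g3 =>
    S.ctr.noAC h3 g2 g3
  have c4 : ∀ l : Fin 4, l = 0 ∨ l = 1 ∨ l = 2 ∨ l = 3 := by decide
  rcases c4 l with rfl | rfl | rfl | rfl <;> rcases c4 m with rfl | rfl | rfl | rfl
  · exact Or.inl rfl
  · exact Or.inr (Or.inl rfl)
  · exact Or.inr (Or.inl rfl)
  · exact Or.inr (Or.inl rfl)
  · exact Or.inr (Or.inr rfl)
  · exact Or.inl rfl
  · exact (k12 hl hm).elim
  · exact (k13 hl hm).elim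
  · exact Or.inr (Or.inr rfl)
  · exact (k12 hm hl).elim
  · exact Or.inl rfl
  · exact (k23 hl hm).elim
  · exact Or.inr (Or.inr rfl)
  · exact (k13 hm hl).elim
  · exact (k23 hm hl).elim
  · exact Or.inl rfl

/-- two neighbours, one of order at least four, with the same two letters -/
theorem mixed (S : CzM U T z a b c d e f) {y X : ℂ} (hy : dist y z = 1) (h4 : 4 ≤ (T y).ncard)
    (hX : dist X z = 1) (h3 : (T X).ncard ≤ 3) (hXy : dist X y = 1) {l m : Fin 4} (hlm : l ≠ m)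
    (hl : y ∈ Lt T z a b c d e f l) (hm : y ∈ Lt T z a b c d e f m)
    (hl' : X ∈ Lt T z a b c d e f l) (hm' : X ∈ Lt T z a b c d e f m) :
    (l = 0 ∨ m = 0) ∧ (l = 1 ∨ m = 1) := by
  obtain ⟨⟨ab, ac, ad, ae, af⟩, ⟨bc, bd, be, bf⟩, ⟨cd, ce, cf⟩, ⟨de, df⟩, ef⟩ := S.nd'
  have l0 : ∀ {w : ℂ}, w ∈ Lt T z a b c d e f 0 → e ∈ T w := fun h => h.2
  have l2 : ∀ {w : ℂ}, w ∈ Lt T z a b c d e f 2 → a ∈ T w ∧ b ∈ T w := fun {w} h => by
    have h : w ∈ closure (Ex T z {a, b}) := h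
    have := sub_of_closure S.irr h
    exact ⟨this (by simp), this (by simp)⟩
  have l3 : ∀ {w : ℂ}, w ∈ Lt T z a b c d e f 3 → c ∈ T w ∧ d ∈ T w := fun {w} h => by
    have h : w ∈ closure (Ex T z {c, d}) := h
    have := sub_of_closure S.irr h
    exact ⟨this (by simp), this (by simp)⟩
  have k02 : y ∈ Lt T z a b c d e f 0 → y ∈ Lt T z a b c d e f 2 → X ∈ Lt T z a b c d e f 0 →
      X ∈ Lt T z a b c d e f 2 → False := fun g0 g2 g0' g2' => by
    refine S.sA y X hy h4 hX hXy (eq3 (l2 g2').1 (l2 g2').2 (l0 g0') ab ae be h3) ?_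
    rintro x (rfl | rfl | rfl)
    · exact (l2 g2).1
    · exact (l2 g2).2
    · exact l0 g0
  have k03 : y ∈ Lt T z a b c d e f 0 → y ∈ Lt T z a b c d e f 3 → X ∈ Lt T z a b c d e f 0 →
      X ∈ Lt T z a b c d e f 3 → False := fun g0 g3 g0' g3' => by
    refine S.sC y X hy h4 hX hXy (eq3 (l3 g3').1 (l3 g3').2 (l0 g0') cd ce de h3) ?_
    rintro x (rfl | rfl | rfl)
    · exact (l3 g3).1
    · exact (l3 g3).2
    · exact l0 g0
  have c4 : ∀ l : Fin 4, l = 0 ∨ l = 1 ∨ l = 2 ∨ l = 3 := by decide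
  rcases S.plain hX h3 hl' hm' with h | rfl | rfl
  · exact absurd h hlm
  · rcases c4 m with rfl | rfl | rfl | rfl
    · exact absurd rfl hlm
    · exact ⟨Or.inl rfl, Or.inr rfl⟩
    · exact (k02 hl hm hl' hm').elim
    · exact (k03 hl hm hl' hm').elim
  · rcases c4 l with rfl | rfl | rfl | rfl
    · exact absurd rfl hlm
    · exact ⟨Or.inr rfl, Or.inl rfl⟩
    · exact (k02 hm hl hm' hl').elim
    · exact (k03 hm hl hm' hl').elim

/-- **two limit columns at the same time** -/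
theorem ev (S : CzM U T z a b c d e f) {φ u : ℝ} {g g' : Unit × Fin 6 → Fin 4}
    (hg : g ∈ LC (XX T z a b e f φ) u ∪ RC (XX T z a b e f φ) u)
    (hg' : g' ∈ LC (XX T z a b e f φ) u ∪ RC (XX T z a b e f φ) u) :
    EvM (fl T z φ u) (fun j => g ((), j)) (fun j => g' ((), j)) := by
  have w := S.sw φ
  have key : ∀ h ∈ LC (XX T z a b e f φ) u ∪ RC (XX T z a b e f φ) u,
      Cz.Leg h ∧ Av (XX T z a b e f φ) u h := by
    rintro h (hh | hh)
    · exact ⟨w.leg_of_LC hh, w.av_of_LC hh⟩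
    · exact ⟨w.leg_of_RC hh, w.av_of_RC hh⟩
  obtain ⟨l1, ha⟩ := key g hg
  obtain ⟨l2, ha'⟩ := key g' hg'
  have lo : ∀ j, fl T z φ u j = false → (T (qj z φ u j)).ncard ≤ 3 := fun j hj => by
    unfold fl at hj
    rw [decide_eq_false_iff_not] at hj
    omega
  have hi : ∀ j, fl T z φ u j = true → 4 ≤ (T (qj z φ u j)).ncard := fun j hj => by
    unfold fl at hj
    exact of_decide_eq_true hj
  refine ⟨fun j hj => S.plain (dist_qj z φ u j) (lo j hj) (S.mem_Lt (ha ((), j)))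
    (S.mem_Lt (ha' ((), j))), l1, l2, fun j h1 h2 h3 => ?_, fun j h1 h2 => ?_⟩
  · have h2 : g ((), j) = g' ((), j + 1) := h2
    have h3 : g' ((), j) = g ((), j + 1) := h3
    have m1 := S.mem_Lt (ha ((), j))
    have m2 := S.mem_Lt (ha' ((), j))
    have m3 : qj z φ u (j + 1) ∈ Lt T z a b c d e f (g ((), j)) := by
      rw [h2]; exact S.mem_Lt (ha' ((), j + 1))
    have m4 : qj z φ u (j + 1) ∈ Lt T z a b c d e f (g' ((), j)) := by
      rw [h3]; exact S.mem_Lt (ha ((), j + 1))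
    have dd := dist_qj_succ z φ u j
    cases hx : fl T z φ u j <;> cases hx' : fl T z φ u (j + 1)
    · exact (S.ctr.noswap h1 dd (lo j hx) (lo (j + 1) hx') m1 m2 m3 m4).elim
    · exact Or.inr ⟨Or.inr rfl, S.mixed (dist_qj z φ u (j + 1)) (hi (j + 1) hx')
        (dist_qj z φ u j) (lo j hx) dd h1 m3 m4 m1 m2⟩
    · exact Or.inr ⟨Or.inl rfl, S.mixed (dist_qj z φ u j) (hi j hx)
        (dist_qj z φ u (j + 1)) (lo (j + 1) hx') (by rw [dist_comm]; exact dd) h1 m1 m2 m3 m4⟩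
    · exact Or.inl ⟨rfl, rfl⟩
  · have k1 : u ∈ XX T z a b e f φ ((), j) 2 := by
      rcases h1 with h1 | h1
      · rw [← show g ((), j) = 2 from h1]; exact ha ((), j)
      · rw [← show g' ((), j) = 2 from h1]; exact ha' ((), j)
    have k2 : u ∈ XX T z a b e f φ ((), j + 3) 3 := by
      rcases h2 with h2 | h2
      · rw [← show g ((), j + 3) = 3 from h2]; exact ha ((), j + 3)
      · rw [← show g' ((), j + 3) = 3 from h2]; exact ha' ((), j + 3)
    exact S.opp k1 k2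

end CzM

theorem CzM.zok (Z : Zn T z a b c d p q) (S : CzM U T z a b c d e f) {k : ℕ} {u : ℝ}
    (hp : Ph (q - p) k u) {g : Unit × Fin 6 → Fin 4} (hg : Av (XX T z a b e f p) u g) :
    Zok k (fun j => g ((), j)) := by
  have hlt := Z.lt
  have hlt' := Z.lt'
  have h0 := hp.pos
  have h1 := hp.lt1
  intro j
  have hj6 := j.isLt
  set i := j.val % 3 with hi
  set m := j.val / 3 with hm
  have hjm : j.val = 3 * m + i := by omega
  have hi3 : i < 3 := Nat.mod_lt _ (by norm_num)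
  have hjr : (j.val : ℝ) = 3 * (m : ℝ) + (i : ℝ) := by rw [hjm]; push_cast; ring
  have hi0 : (0 : ℝ) ≤ (i : ℝ) := Nat.cast_nonneg _
  have hi2 : (i : ℝ) ≤ 2 := by
    have : i ≤ 2 := by omega
    exact_mod_cast this
  constructor
  · intro hk h3
    have h3 : g ((), j) = 3 := h3
    have hmem := S.mem_Lt (hg ((), j))
    rw [h3] at hmem
    have hmem : pt z (p + u + (j.val : ℝ)) ∈ closure (Ex T z {c, d}) := hmem
    obtain ⟨n, hn1, hn2⟩ := Z.zC _ hmem
    have hA := hp.inA i hi3 hk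
    set N : ℤ := n + m with hN
    have e1 : p + u + (j.val : ℝ) + 3 * (n : ℝ) = p + (u + i + 3 * (N : ℝ)) := by
      rw [hjr, hN]; push_cast; ring
    rw [e1] at hn1 hn2
    rcases lt_trichotomy N 0 with h4 | h4 | h4
    · have h5 : (N : ℝ) ≤ -1 := by exact_mod_cast (by omega : N ≤ -1)
      linarith
    · rw [h4] at hn1; push_cast at hn1; linarith
    · have h5 : (1 : ℝ) ≤ (N : ℝ) := by exact_mod_cast (by omega : 1 ≤ N)
      linarith
  · intro hk h2
    have h2 : g ((), j) = 2 := h2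
    have hmem := S.mem_Lt (hg ((), j))
    rw [h2] at hmem
    have hmem : pt z (p + u + (j.val : ℝ)) ∈ closure (Ex T z {a, b}) := hmem
    obtain ⟨n, hn1, hn2⟩ := Z.zA _ hmem
    have hC := hp.inC i hi3 hk
    set N : ℤ := n + m with hN
    have e1 : p + u + (j.val : ℝ) + 3 * (n : ℝ) = p + (u + i + 3 * (N : ℝ)) := by
      rw [hjr, hN]; push_cast; ring
    rw [e1] at hn1 hn2
    rcases lt_trichotomy N 0 with h4 | h4 | h4
    · have h5 : (N : ℝ) ≤ -1 := by exact_mod_cast (by omega : N ≤ -1)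
      linarith
    · rw [h4] at hn2; push_cast at hn2; linarith
    · have h5 : (1 : ℝ) ≤ (N : ℝ) := by exact_mod_cast (by omega : 1 ≤ N)
      linarith

theorem CzM.zok_LC (Z : Zn T z a b c d p q) (S : CzM U T z a b c d e f) {k : ℕ} {α u : ℝ}
    (hα : α < u) (hp : ∀ v ∈ Ioo α u, Ph (q - p) k v) {g : Unit × Fin 6 → Fin 4}
    (hg : g ∈ LC (XX T z a b e f p) u) : Zok k (fun j => g ((), j)) := by
  obtain ⟨v, hv, hvI⟩ := (Frequently.and_eventually hg (Ioo_mem_nhdsLT hα)).exists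
  exact CzM.zok Z S (hp v hvI) hv.2

theorem CzM.zok_RC (Z : Zn T z a b c d p q) (S : CzM U T z a b c d e f) {k : ℕ} {β u : ℝ}
    (hβ : u < β) (hp : ∀ v ∈ Ioo u β, Ph (q - p) k v) {g : Unit × Fin 6 → Fin 4}
    (hg : g ∈ RC (XX T z a b e f p) u) : Zok k (fun j => g ((), j)) := by
  obtain ⟨v, hv, hvI⟩ := (Frequently.and_eventually hg (Ioo_mem_nhdsGT hβ)).exists
  exact CzM.zok Z S (hp v hvI) hv.2


end Vale.Agent.P032.H987
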