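import Vale.Agent.P032.H987.Exc
import Vale.Agent.P032.H546.Krn

/-!
# P032: the check of all pairs of limit columns with flags (helper987)

Slot codes `c = 4 h + g + 16 x`.  `ckM z0 z1 F` : the check of `F (codes) (weight)` for all pairs of
columns with the zones `z0` before and `z1` after, at most two flags; `ckM_sound`.
Weight of a slot: `0` without flag, `1` with a flag and the letter `1` on exactly one side, `17`
otherwise.
-/

set_option linter.style.longLine false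

namespace Vale.Agent.P032.H987

open Vale.Agent.P032.H546 (allR allR_iff impR impR_mp getR frc frc_eq)

def PM0 : List (ℕ × ℕ × ℕ) :=
  [(0, 0, 0), (1, 4096, 0), (2, 8192, 0), (4, 1, 0), (5, 4097, 0), (8, 2, 0), (10, 8194, 0), (16,
    0, 17), (17, 4096, 1), (18, 8192, 17), (20, 1, 1), (21, 4097, 17), (22, 8193, 1), (24, 2,
    17), (25, 4098, 1), (26, 8194, 17)]

def NM0 : List (List (ℕ × ℕ × ℕ)) :=
  [[(5, 4097, 0), (10, 8194, 0), (21, 4097, 17), (22, 8193, 1), (25, 4098, 1), (26, 8194, 17)],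
    [(8, 2, 0), (10, 8194, 0), (20, 1, 1), (22, 8193, 1), (24, 2, 17), (26, 8194, 17)], [(4, 1,
    0), (5, 4097, 0), (20, 1, 1), (21, 4097, 17), (25, 4098, 1)], [(4, 1, 0), (5, 4097, 0), (8,
    2, 0), (10, 8194, 0), (20, 1, 1), (21, 4097, 17), (22, 8193, 1), (24, 2, 17), (25, 4098, 1),
    (26, 8194, 17)], [(2, 8192, 0), (10, 8194, 0), (17, 4096, 1), (18, 8192, 17), (25, 4098, 1),
    (26, 8194, 17)], [(0, 0, 0), (2, 8192, 0), (8, 2, 0), (10, 8194, 0), (16, 0, 17), (18, 8192,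
    17), (24, 2, 17), (26, 8194, 17)], [], [], [(1, 4096, 0), (5, 4097, 0), (17, 4096, 1), (21,
    4097, 17), (22, 8193, 1)], [], [(0, 0, 0), (1, 4096, 0), (4, 1, 0), (5, 4097, 0), (16, 0,
    17), (17, 4096, 1), (20, 1, 1), (21, 4097, 17)], [], [(1, 4096, 0), (2, 8192, 0), (5, 4097,
    0), (10, 8194, 0), (17, 4096, 1), (18, 8192, 17), (21, 4097, 17), (22, 8193, 1), (25, 4098,
    1), (26, 8194, 17)], [], [], [(0, 0, 0), (1, 4096, 0), (2, 8192, 0), (4, 1, 0), (5, 4097, 0),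
    (8, 2, 0), (10, 8194, 0), (16, 0, 17), (17, 4096, 1), (18, 8192, 17), (20, 1, 1), (21, 4097,
    17), (22, 8193, 1), (24, 2, 17), (25, 4098, 1), (26, 8194, 17)], [(5, 4097, 0), (10, 8194,
    0), (21, 4097, 17), (22, 8193, 1), (25, 4098, 1), (26, 8194, 17)], [(4, 1, 0), (8, 2, 0),
    (10, 8194, 0), (20, 1, 1), (22, 8193, 1), (24, 2, 17), (26, 8194, 17)], [(4, 1, 0), (5, 4097,
    0), (20, 1, 1), (21, 4097, 17), (24, 2, 17), (25, 4098, 1)], [(4, 1, 0), (5, 4097, 0), (8, 2,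
    0), (10, 8194, 0), (20, 1, 1), (21, 4097, 17), (22, 8193, 1), (24, 2, 17), (25, 4098, 1),
    (26, 8194, 17)], [(1, 4096, 0), (2, 8192, 0), (10, 8194, 0), (17, 4096, 1), (18, 8192, 17),
    (25, 4098, 1), (26, 8194, 17)], [(0, 0, 0), (2, 8192, 0), (8, 2, 0), (10, 8194, 0), (16, 0,
    17), (18, 8192, 17), (24, 2, 17), (26, 8194, 17)], [(0, 0, 0), (1, 4096, 0), (8, 2, 0), (16,
    0, 17), (17, 4096, 1), (24, 2, 17), (25, 4098, 1)], [(0, 0, 0), (1, 4096, 0), (2, 8192, 0),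
    (8, 2, 0), (10, 8194, 0), (16, 0, 17), (17, 4096, 1), (18, 8192, 17), (24, 2, 17), (25, 4098,
    1), (26, 8194, 17)], [(1, 4096, 0), (5, 4097, 0), (17, 4096, 1), (18, 8192, 17), (21, 4097,
    17), (22, 8193, 1)], [(0, 0, 0), (2, 8192, 0), (4, 1, 0), (16, 0, 17), (18, 8192, 17), (20,
    1, 1), (22, 8193, 1)], [(0, 0, 0), (1, 4096, 0), (4, 1, 0), (5, 4097, 0), (16, 0, 17), (17,
    4096, 1), (20, 1, 1), (21, 4097, 17)], [(0, 0, 0), (1, 4096, 0), (2, 8192, 0), (4, 1, 0), (5,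
    4097, 0), (16, 0, 17), (17, 4096, 1), (18, 8192, 17), (20, 1, 1), (21, 4097, 17), (22, 8193,
    1)], [(1, 4096, 0), (2, 8192, 0), (5, 4097, 0), (10, 8194, 0), (17, 4096, 1), (18, 8192, 17),
    (21, 4097, 17), (22, 8193, 1), (25, 4098, 1), (26, 8194, 17)], [(0, 0, 0), (2, 8192, 0), (4,
    1, 0), (8, 2, 0), (10, 8194, 0), (16, 0, 17), (18, 8192, 17), (20, 1, 1), (22, 8193, 1), (24,
    2, 17), (26, 8194, 17)], [(0, 0, 0), (1, 4096, 0), (4, 1, 0), (5, 4097, 0), (8, 2, 0), (16,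
    0, 17), (17, 4096, 1), (20, 1, 1), (21, 4097, 17), (24, 2, 17), (25, 4098, 1)], [(0, 0, 0),
    (1, 4096, 0), (2, 8192, 0), (4, 1, 0), (5, 4097, 0), (8, 2, 0), (10, 8194, 0), (16, 0, 17),
    (17, 4096, 1), (18, 8192, 17), (20, 1, 1), (21, 4097, 17), (22, 8193, 1), (24, 2, 17), (25,
    4098, 1), (26, 8194, 17)]]

def PM1 : List (ℕ × ℕ × ℕ) :=
  [(0, 0, 0), (1, 4096, 0), (3, 12288, 0), (4, 1, 0), (5, 4097, 0), (8, 2, 0), (16, 0, 17), (17,
    4096, 1), (19, 12288, 17), (20, 1, 1), (21, 4097, 17), (23, 12289, 1), (24, 2, 17), (25,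
    4098, 1), (27, 12290, 17)]

def NM1 : List (List (ℕ × ℕ × ℕ)) :=
  [[(5, 4097, 0), (21, 4097, 17), (23, 12289, 1), (25, 4098, 1), (27, 12290, 17)], [(8, 2, 0),
    (20, 1, 1), (23, 12289, 1), (24, 2, 17), (27, 12290, 17)], [(4, 1, 0), (5, 4097, 0), (20, 1,
    1), (21, 4097, 17), (23, 12289, 1), (25, 4098, 1), (27, 12290, 17)], [(4, 1, 0), (5, 4097,
    0), (8, 2, 0), (20, 1, 1), (21, 4097, 17), (24, 2, 17), (25, 4098, 1)], [(3, 12288, 0), (17,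
    4096, 1), (19, 12288, 17), (25, 4098, 1), (27, 12290, 17)], [(0, 0, 0), (3, 12288, 0), (8, 2,
    0), (16, 0, 17), (19, 12288, 17), (24, 2, 17), (27, 12290, 17)], [], [], [(1, 4096, 0), (3,
    12288, 0), (5, 4097, 0), (17, 4096, 1), (19, 12288, 17), (21, 4097, 17), (23, 12289, 1)], [],
    [(0, 0, 0), (1, 4096, 0), (3, 12288, 0), (4, 1, 0), (5, 4097, 0), (16, 0, 17), (17, 4096, 1),
    (19, 12288, 17), (20, 1, 1), (21, 4097, 17), (23, 12289, 1)], [], [(1, 4096, 0), (5, 4097,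
    0), (17, 4096, 1), (21, 4097, 17), (23, 12289, 1), (25, 4098, 1), (27, 12290, 17)], [], [],
    [(0, 0, 0), (1, 4096, 0), (4, 1, 0), (5, 4097, 0), (8, 2, 0), (16, 0, 17), (17, 4096, 1),
    (20, 1, 1), (21, 4097, 17), (24, 2, 17), (25, 4098, 1)], [(5, 4097, 0), (21, 4097, 17), (23,
    12289, 1), (25, 4098, 1), (27, 12290, 17)], [(4, 1, 0), (8, 2, 0), (20, 1, 1), (23, 12289,
    1), (24, 2, 17), (27, 12290, 17)], [(4, 1, 0), (5, 4097, 0), (20, 1, 1), (21, 4097, 17), (23,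
    12289, 1), (24, 2, 17), (25, 4098, 1), (27, 12290, 17)], [(4, 1, 0), (5, 4097, 0), (8, 2, 0),
    (20, 1, 1), (21, 4097, 17), (24, 2, 17), (25, 4098, 1)], [(1, 4096, 0), (3, 12288, 0), (17,
    4096, 1), (19, 12288, 17), (25, 4098, 1), (27, 12290, 17)], [(0, 0, 0), (3, 12288, 0), (8, 2,
    0), (16, 0, 17), (19, 12288, 17), (24, 2, 17), (27, 12290, 17)], [(0, 0, 0), (1, 4096, 0),
    (3, 12288, 0), (8, 2, 0), (16, 0, 17), (17, 4096, 1), (19, 12288, 17), (24, 2, 17), (25,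
    4098, 1), (27, 12290, 17)], [(0, 0, 0), (1, 4096, 0), (8, 2, 0), (16, 0, 17), (17, 4096, 1),
    (24, 2, 17), (25, 4098, 1)], [(1, 4096, 0), (3, 12288, 0), (5, 4097, 0), (17, 4096, 1), (19,
    12288, 17), (21, 4097, 17), (23, 12289, 1)], [(0, 0, 0), (3, 12288, 0), (4, 1, 0), (16, 0,
    17), (19, 12288, 17), (20, 1, 1), (23, 12289, 1)], [(0, 0, 0), (1, 4096, 0), (3, 12288, 0),
    (4, 1, 0), (5, 4097, 0), (16, 0, 17), (17, 4096, 1), (19, 12288, 17), (20, 1, 1), (21, 4097,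
    17), (23, 12289, 1)], [(0, 0, 0), (1, 4096, 0), (4, 1, 0), (5, 4097, 0), (16, 0, 17), (17,
    4096, 1), (20, 1, 1), (21, 4097, 17)], [(1, 4096, 0), (5, 4097, 0), (17, 4096, 1), (19,
    12288, 17), (21, 4097, 17), (23, 12289, 1), (25, 4098, 1), (27, 12290, 17)], [(0, 0, 0), (3,
    12288, 0), (4, 1, 0), (8, 2, 0), (16, 0, 17), (19, 12288, 17), (20, 1, 1), (23, 12289, 1),
    (24, 2, 17), (27, 12290, 17)], [(0, 0, 0), (1, 4096, 0), (3, 12288, 0), (4, 1, 0), (5, 4097,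
    0), (8, 2, 0), (16, 0, 17), (17, 4096, 1), (19, 12288, 17), (20, 1, 1), (21, 4097, 17), (23,
    12289, 1), (24, 2, 17), (25, 4098, 1), (27, 12290, 17)], [(0, 0, 0), (1, 4096, 0), (4, 1, 0),
    (5, 4097, 0), (8, 2, 0), (16, 0, 17), (17, 4096, 1), (20, 1, 1), (21, 4097, 17), (24, 2, 17),
    (25, 4098, 1)]]

def PM2 : List (ℕ × ℕ × ℕ) :=
  [(0, 0, 0), (1, 4096, 0), (2, 8192, 0), (4, 1, 0), (5, 4097, 0), (12, 3, 0), (16, 0, 17), (17,
    4096, 1), (18, 8192, 17), (20, 1, 1), (21, 4097, 17), (22, 8193, 1), (28, 3, 17), (29, 4099,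
    1), (30, 8195, 17)]

def NM2 : List (List (ℕ × ℕ × ℕ)) :=
  [[(5, 4097, 0), (21, 4097, 17), (22, 8193, 1), (29, 4099, 1), (30, 8195, 17)], [(12, 3, 0),
    (20, 1, 1), (22, 8193, 1), (28, 3, 17), (30, 8195, 17)], [(4, 1, 0), (5, 4097, 0), (12, 3,
    0), (20, 1, 1), (21, 4097, 17), (28, 3, 17), (29, 4099, 1)], [(4, 1, 0), (5, 4097, 0), (20,
    1, 1), (21, 4097, 17), (22, 8193, 1), (29, 4099, 1), (30, 8195, 17)], [(2, 8192, 0), (17,
    4096, 1), (18, 8192, 17), (29, 4099, 1), (30, 8195, 17)], [(0, 0, 0), (2, 8192, 0), (12, 3,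
    0), (16, 0, 17), (18, 8192, 17), (28, 3, 17), (30, 8195, 17)], [], [], [(1, 4096, 0), (5,
    4097, 0), (17, 4096, 1), (21, 4097, 17), (22, 8193, 1), (29, 4099, 1), (30, 8195, 17)], [],
    [(0, 0, 0), (1, 4096, 0), (4, 1, 0), (5, 4097, 0), (12, 3, 0), (16, 0, 17), (17, 4096, 1),
    (20, 1, 1), (21, 4097, 17), (28, 3, 17), (29, 4099, 1)], [], [(1, 4096, 0), (2, 8192, 0), (5,
    4097, 0), (17, 4096, 1), (18, 8192, 17), (21, 4097, 17), (22, 8193, 1)], [], [], [(0, 0, 0),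
    (1, 4096, 0), (2, 8192, 0), (4, 1, 0), (5, 4097, 0), (16, 0, 17), (17, 4096, 1), (18, 8192,
    17), (20, 1, 1), (21, 4097, 17), (22, 8193, 1)], [(5, 4097, 0), (21, 4097, 17), (22, 8193,
    1), (29, 4099, 1), (30, 8195, 17)], [(4, 1, 0), (12, 3, 0), (20, 1, 1), (22, 8193, 1), (28,
    3, 17), (30, 8195, 17)], [(4, 1, 0), (5, 4097, 0), (12, 3, 0), (20, 1, 1), (21, 4097, 17),
    (28, 3, 17), (29, 4099, 1)], [(4, 1, 0), (5, 4097, 0), (20, 1, 1), (21, 4097, 17), (22, 8193,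
    1), (28, 3, 17), (29, 4099, 1), (30, 8195, 17)], [(1, 4096, 0), (2, 8192, 0), (17, 4096, 1),
    (18, 8192, 17), (29, 4099, 1), (30, 8195, 17)], [(0, 0, 0), (2, 8192, 0), (12, 3, 0), (16, 0,
    17), (18, 8192, 17), (28, 3, 17), (30, 8195, 17)], [(0, 0, 0), (1, 4096, 0), (12, 3, 0), (16,
    0, 17), (17, 4096, 1), (28, 3, 17), (29, 4099, 1)], [(0, 0, 0), (1, 4096, 0), (2, 8192, 0),
    (12, 3, 0), (16, 0, 17), (17, 4096, 1), (18, 8192, 17), (28, 3, 17), (29, 4099, 1), (30,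
    8195, 17)], [(1, 4096, 0), (5, 4097, 0), (17, 4096, 1), (18, 8192, 17), (21, 4097, 17), (22,
    8193, 1), (29, 4099, 1), (30, 8195, 17)], [(0, 0, 0), (2, 8192, 0), (4, 1, 0), (12, 3, 0),
    (16, 0, 17), (18, 8192, 17), (20, 1, 1), (22, 8193, 1), (28, 3, 17), (30, 8195, 17)], [(0, 0,
    0), (1, 4096, 0), (4, 1, 0), (5, 4097, 0), (12, 3, 0), (16, 0, 17), (17, 4096, 1), (20, 1,
    1), (21, 4097, 17), (28, 3, 17), (29, 4099, 1)], [(0, 0, 0), (1, 4096, 0), (2, 8192, 0), (4,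
    1, 0), (5, 4097, 0), (12, 3, 0), (16, 0, 17), (17, 4096, 1), (18, 8192, 17), (20, 1, 1), (21,
    4097, 17), (22, 8193, 1), (28, 3, 17), (29, 4099, 1), (30, 8195, 17)], [(1, 4096, 0), (2,
    8192, 0), (5, 4097, 0), (17, 4096, 1), (18, 8192, 17), (21, 4097, 17), (22, 8193, 1)], [(0,
    0, 0), (2, 8192, 0), (4, 1, 0), (16, 0, 17), (18, 8192, 17), (20, 1, 1), (22, 8193, 1)], [(0,
    0, 0), (1, 4096, 0), (4, 1, 0), (5, 4097, 0), (16, 0, 17), (17, 4096, 1), (20, 1, 1), (21,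
    4097, 17)], [(0, 0, 0), (1, 4096, 0), (2, 8192, 0), (4, 1, 0), (5, 4097, 0), (16, 0, 17),
    (17, 4096, 1), (18, 8192, 17), (20, 1, 1), (21, 4097, 17), (22, 8193, 1)]]

def PM3 : List (ℕ × ℕ × ℕ) :=
  [(0, 0, 0), (1, 4096, 0), (3, 12288, 0), (4, 1, 0), (5, 4097, 0), (12, 3, 0), (15, 12291, 0),
    (16, 0, 17), (17, 4096, 1), (19, 12288, 17), (20, 1, 1), (21, 4097, 17), (23, 12289, 1), (28,
    3, 17), (29, 4099, 1), (31, 12291, 17)]

def NM3 : List (List (ℕ × ℕ × ℕ)) :=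
  [[(5, 4097, 0), (15, 12291, 0), (21, 4097, 17), (23, 12289, 1), (29, 4099, 1), (31, 12291,
    17)], [(12, 3, 0), (15, 12291, 0), (20, 1, 1), (23, 12289, 1), (28, 3, 17), (31, 12291, 17)],
    [(4, 1, 0), (5, 4097, 0), (12, 3, 0), (15, 12291, 0), (20, 1, 1), (21, 4097, 17), (23, 12289,
    1), (28, 3, 17), (29, 4099, 1), (31, 12291, 17)], [(4, 1, 0), (5, 4097, 0), (20, 1, 1), (21,
    4097, 17), (29, 4099, 1)], [(3, 12288, 0), (15, 12291, 0), (17, 4096, 1), (19, 12288, 17),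
    (29, 4099, 1), (31, 12291, 17)], [(0, 0, 0), (3, 12288, 0), (12, 3, 0), (15, 12291, 0), (16,
    0, 17), (19, 12288, 17), (28, 3, 17), (31, 12291, 17)], [], [], [(1, 4096, 0), (3, 12288, 0),
    (5, 4097, 0), (15, 12291, 0), (17, 4096, 1), (19, 12288, 17), (21, 4097, 17), (23, 12289, 1),
    (29, 4099, 1), (31, 12291, 17)], [], [(0, 0, 0), (1, 4096, 0), (3, 12288, 0), (4, 1, 0), (5,
    4097, 0), (12, 3, 0), (15, 12291, 0), (16, 0, 17), (17, 4096, 1), (19, 12288, 17), (20, 1,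
    1), (21, 4097, 17), (23, 12289, 1), (28, 3, 17), (29, 4099, 1), (31, 12291, 17)], [], [(1,
    4096, 0), (5, 4097, 0), (17, 4096, 1), (21, 4097, 17), (23, 12289, 1)], [], [], [(0, 0, 0),
    (1, 4096, 0), (4, 1, 0), (5, 4097, 0), (16, 0, 17), (17, 4096, 1), (20, 1, 1), (21, 4097,
    17)], [(5, 4097, 0), (15, 12291, 0), (21, 4097, 17), (23, 12289, 1), (29, 4099, 1), (31,
    12291, 17)], [(4, 1, 0), (12, 3, 0), (15, 12291, 0), (20, 1, 1), (23, 12289, 1), (28, 3, 17),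
    (31, 12291, 17)], [(4, 1, 0), (5, 4097, 0), (12, 3, 0), (15, 12291, 0), (20, 1, 1), (21,
    4097, 17), (23, 12289, 1), (28, 3, 17), (29, 4099, 1), (31, 12291, 17)], [(4, 1, 0), (5,
    4097, 0), (20, 1, 1), (21, 4097, 17), (28, 3, 17), (29, 4099, 1)], [(1, 4096, 0), (3, 12288,
    0), (15, 12291, 0), (17, 4096, 1), (19, 12288, 17), (29, 4099, 1), (31, 12291, 17)], [(0, 0,
    0), (3, 12288, 0), (12, 3, 0), (15, 12291, 0), (16, 0, 17), (19, 12288, 17), (28, 3, 17),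
    (31, 12291, 17)], [(0, 0, 0), (1, 4096, 0), (3, 12288, 0), (12, 3, 0), (15, 12291, 0), (16,
    0, 17), (17, 4096, 1), (19, 12288, 17), (28, 3, 17), (29, 4099, 1), (31, 12291, 17)], [(0, 0,
    0), (1, 4096, 0), (12, 3, 0), (16, 0, 17), (17, 4096, 1), (28, 3, 17), (29, 4099, 1)], [(1,
    4096, 0), (3, 12288, 0), (5, 4097, 0), (15, 12291, 0), (17, 4096, 1), (19, 12288, 17), (21,
    4097, 17), (23, 12289, 1), (29, 4099, 1), (31, 12291, 17)], [(0, 0, 0), (3, 12288, 0), (4, 1,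
    0), (12, 3, 0), (15, 12291, 0), (16, 0, 17), (19, 12288, 17), (20, 1, 1), (23, 12289, 1),
    (28, 3, 17), (31, 12291, 17)], [(0, 0, 0), (1, 4096, 0), (3, 12288, 0), (4, 1, 0), (5, 4097,
    0), (12, 3, 0), (15, 12291, 0), (16, 0, 17), (17, 4096, 1), (19, 12288, 17), (20, 1, 1), (21,
    4097, 17), (23, 12289, 1), (28, 3, 17), (29, 4099, 1), (31, 12291, 17)], [(0, 0, 0), (1,
    4096, 0), (4, 1, 0), (5, 4097, 0), (12, 3, 0), (16, 0, 17), (17, 4096, 1), (20, 1, 1), (21,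
    4097, 17), (28, 3, 17), (29, 4099, 1)], [(1, 4096, 0), (5, 4097, 0), (17, 4096, 1), (19,
    12288, 17), (21, 4097, 17), (23, 12289, 1)], [(0, 0, 0), (3, 12288, 0), (4, 1, 0), (16, 0,
    17), (19, 12288, 17), (20, 1, 1), (23, 12289, 1)], [(0, 0, 0), (1, 4096, 0), (3, 12288, 0),
    (4, 1, 0), (5, 4097, 0), (16, 0, 17), (17, 4096, 1), (19, 12288, 17), (20, 1, 1), (21, 4097,
    17), (23, 12289, 1)], [(0, 0, 0), (1, 4096, 0), (4, 1, 0), (5, 4097, 0), (16, 0, 17), (17,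
    4096, 1), (20, 1, 1), (21, 4097, 17)]]

def AM : ℕ := 0x77705370bbb013b0ddd051d0eee042670771037b0bb903bd0dd901de0ee802a77071507bb0b910bdd0d950dee0e840e77700530bbb09030ddd09510eee084200777053700000000000000000ee6042600000000b0bb903b00000000e0ea802a0000000000000000dd0d950dee0e840c67700530bab09030ddd09500eee08420

def OM : ℕ := 0xb0bbb0bb00330033b0bbb0bbb0bbb0bb00330033077707770777077707770777b0bbb0bb07770777ffffffffffffffffb0bbb0bb07770777ffffffffffffffffb0bbb0bb00330033b0bbb0bbb0bbb0bb00330033077707770777077707770777b0bbb0bb07770777ffffffffffffffffb0bbb0bb07770777ffffffffffffffff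

/-- neighbours -/
def adM (c d : ℕ) : Bool := Nat.beq (Nat.land (Nat.shiftRight AM (Nat.add (Nat.mul 32 c) d)) 1) 1

/-- opposite slots -/
def opM (c d : ℕ) : Bool := Nat.beq (Nat.land (Nat.shiftRight OM (Nat.add (Nat.mul 32 c) d)) 1) 1

def PM (zb za : Bool) : List (ℕ × ℕ × ℕ) :=
  match zb, za with
  | true, true => PM0 | true, false => PM1 | false, true => PM2 | false, false => PM3

noncomputable def NM (zb za : Bool) (c : ℕ) : List (ℕ × ℕ × ℕ) :=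
  getR (match zb, za with
    | true, true => NM0 | true, false => NM1 | false, true => NM2 | false, false => NM3) c

/-- the weight of a slot -/
def cw (h g : Fin 4) (x : Bool) : ℕ :=
  if x = true then (if (h = 1) = (g = 1) then 17 else 1) else 0

/-- the code of a slot -/
def cc (h g : Fin 4) (x : Bool) : ℕ := 4 * h.val + g.val + (if x = true then 16 else 0)

def vv (h g : Fin 4) : ℕ := h.val + 4096 * g.val

def l2 (w : ℕ) : Bool := Nat.ble (Nat.land w 15) 2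

/-- the check of all pairs of columns -/
noncomputable def ckM (z0 z1 : Fin 6 → Bool) (F : ℕ → ℕ → Bool) : Bool :=
  allR (fun q0 =>
  allR (fun q1 => frc (Nat.add q0.2.1 (Nat.mul 4 q1.2.1)) fun a1 => frc (Nat.add q0.2.2 q1.2.2) fun w1 =>
  allR (fun q2 => frc (Nat.add a1 (Nat.mul 16 q2.2.1)) fun a2 => frc (Nat.add w1 q2.2.2) fun w2 =>
    impR (l2 w2) (
  allR (fun q3 => impR (opM q0.1 q3.1) (frc (Nat.add a2 (Nat.mul 64 q3.2.1)) fun a3 =>
    frc (Nat.add w2 q3.2.2) fun w3 => impR (l2 w3) (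
  allR (fun q4 => impR (opM q1.1 q4.1) (frc (Nat.add a3 (Nat.mul 256 q4.2.1)) fun a4 =>
    frc (Nat.add w3 q4.2.2) fun w4 => impR (l2 w4) (
  allR (fun q5 => impR (opM q2.1 q5.1) (impR (adM q5.1 q0.1) (frc (Nat.add w4 q5.2.2) fun w5 =>
    impR (l2 w5) (frc (Nat.add a4 (Nat.mul 1024 q5.2.1)) fun a5 => F a5 w5))))
  (NM (z0 5) (z1 5) q4.1)))) (NM (z0 4) (z1 4) q3.1)))) (NM (z0 3) (z1 3) q2.1)))
  (NM (z0 2) (z1 2) q1.1)) (NM (z0 1) (z1 1) q0.1)) (PM (z0 0) (z1 0))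

/-- the letter obeys the zone -/
def ZL (x : Bool) (l : Fin 4) : Prop := (x = true → l ≠ 3) ∧ (x = false → l ≠ 2)

instance (x : Bool) (l : Fin 4) : Decidable (ZL x l) := by unfold ZL; infer_instance

/-- the condition of one slot -/
def PlM (x : Bool) (h g : Fin 4) : Prop := x = false → h = g ∨ h = 0 ∨ g = 0

instance (x : Bool) (h g : Fin 4) : Decidable (PlM x h g) := by unfold PlM; infer_instance

/-- the condition of two neighbours -/
def SwM (x x' : Bool) (h g h' g' : Fin 4) : Prop :=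
  h ≠ h' ∧ g ≠ g' ∧ (h ≠ g → h = g' → g = h' → (x = true ∧ x' = true) ∨
    ((x = true ∨ x' = true) ∧ (h = 0 ∨ g = 0) ∧ (h = 1 ∨ g = 1)))

instance (x x' : Bool) (h g h' g' : Fin 4) : Decidable (SwM x x' h g h' g') := by
  unfold SwM; infer_instance

def qq (x : Bool) (h g : Fin 4) : ℕ × ℕ × ℕ := (cc h g x, vv h g, cw h g x)

theorem mem_PM : ∀ (y y' x : Bool) (h g : Fin 4), ZL y h → ZL y' g → PlM x h g →
    qq x h g ∈ PM y y' := by decide +kernel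

theorem mem_NM : ∀ (y y' x x' : Bool) (h g h' g' : Fin 4), ZL y h' → ZL y' g' → PlM x h g →
    PlM x' h' g' → SwM x x' h g h' g' → qq x' h' g' ∈ NM y y' (cc h g x) := by
  intro y y' x x'
  cases y <;> cases y' <;> cases x <;> cases x' <;> decide +kernel

theorem adM_of : ∀ (x x' : Bool) (h g h' g' : Fin 4), PlM x h g → PlM x' h' g' →
    SwM x x' h g h' g' → adM (cc h g x) (cc h' g' x') = true := by decide +kernel

theorem opM_of : ∀ (x x' : Bool) (h g h' g' : Fin 4), ((h = 2 ∨ g = 2) → (h' = 3 ∨ g' = 3) → False) →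
    ((h' = 2 ∨ g' = 2) → (h = 3 ∨ g = 3) → False) → opM (cc h g x) (cc h' g' x') = true := by
  decide +kernel

/-- the code of a column -/
def codM (h : Fin 6 → Fin 4) : ℕ :=
  (h 0).val + 4 * (h 1).val + 16 * (h 2).val + 64 * (h 3).val + 256 * (h 4).val + 1024 * (h 5).val

/-- the number of flags -/
def nX (x : Fin 6 → Bool) : ℕ :=
  (x 0).toNat + (x 1).toNat + (x 2).toNat + (x 3).toNat + (x 4).toNat + (x 5).toNat

/-- the weight of a pair of columns -/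
def wM (x : Fin 6 → Bool) (h g : Fin 6 → Fin 4) : ℕ :=
  cw (h 0) (g 0) (x 0) + cw (h 1) (g 1) (x 1) + cw (h 2) (g 2) (x 2) + cw (h 3) (g 3) (x 3) +
    cw (h 4) (g 4) (x 4) + cw (h 5) (g 5) (x 5)

theorem cw_eq : ∀ (h g : Fin 4) (x : Bool), ∃ k : ℕ, cw h g x = x.toNat + 16 * k ∧ k ≤ 1 := by
  intro h g x
  unfold cw
  cases x
  · exact ⟨0, rfl, by omega⟩
  · by_cases h1 : (h = 1) = (g = 1)
    · exact ⟨1, by simp [h1], le_rfl⟩
    · exact ⟨0, by simp [h1], by omega⟩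

theorem l2_of {w n k : ℕ} (h : w = n + 16 * k) (hn : n ≤ 2) : l2 w = true := by
  unfold l2
  have h1 : Nat.land w 15 = n := by
    have : w &&& 15 = w % 16 := Nat.and_two_pow_sub_one_eq_mod w 4
    show w &&& 15 = n
    rw [this]; omega
  rw [h1]
  rw [Nat.ble_eq]; exact hn

theorem ckM_sound {z0 z1 : Fin 6 → Bool} {F : ℕ → ℕ → Bool} (hc : ckM z0 z1 F = true)
    {x : Fin 6 → Bool} {h g : Fin 6 → Fin 4} (hb : ∀ j, ZL (z0 j) (h j)) (ha : ∀ j, ZL (z1 j) (g j))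
    (t : EvM x h g) (hn : nX x ≤ 2) : F (codM h + 4096 * codM g) (wM x h g) = true := by
  have pl : ∀ j, PlM (x j) (h j) (g j) := fun j hj => t.pl j hj
  have sw : ∀ j, SwM (x j) (x (j + 1)) (h j) (g j) (h (j + 1)) (g (j + 1)) := fun j =>
    ⟨t.adj j, t.adj' j, t.sw j⟩
  have ad : adM (cc (h 5) (g 5) (x 5)) (cc (h 0) (g 0) (x 0)) = true :=
    adM_of _ _ _ _ _ _ (pl 5) (pl 0) (sw 5)
  have op : ∀ j, opM (cc (h j) (g j) (x j)) (cc (h (j + 3)) (g (j + 3)) (x (j + 3))) = true := by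
    intro j
    refine opM_of _ _ _ _ _ _ (t.opp j) fun h1 h2 => t.opp (j + 3) h1 ?_
    have e : j + 3 + 3 = j := by rw [add_assoc]; exact add_zero j
    rwa [e]
  have mm : ∀ j, qq (x (j + 1)) (h (j + 1)) (g (j + 1)) ∈
      NM (z0 (j + 1)) (z1 (j + 1)) (cc (h j) (g j) (x j)) := fun j =>
    mem_NM _ _ _ _ _ _ _ _ (hb _) (ha _) (pl j) (pl _) (sw j)
  obtain ⟨b0, e0, -⟩ := cw_eq (h 0) (g 0) (x 0)
  obtain ⟨b1, e1, -⟩ := cw_eq (h 1) (g 1) (x 1)
  obtain ⟨b2, e2, -⟩ := cw_eq (h 2) (g 2) (x 2)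
  obtain ⟨b3, e3, -⟩ := cw_eq (h 3) (g 3) (x 3)
  obtain ⟨b4, e4, -⟩ := cw_eq (h 4) (g 4) (x 4)
  obtain ⟨b5, e5, -⟩ := cw_eq (h 5) (g 5) (x 5)
  unfold nX at hn
  have k0 := allR_iff.1 hc _ (mem_PM _ _ _ _ _ (hb 0) (ha 0) (pl 0))
  have k1 := allR_iff.1 k0 _ (mm 0)
  simp only [frc_eq] at k1
  have k2 := allR_iff.1 k1 _ (mm 1)
  have k2 := impR_mp k2 (l2_of (n := (x 0).toNat + (x 1).toNat + (x 2).toNat) (k := b0 + b1 + b2)
    (by show cw _ _ _ + cw _ _ _ + cw _ _ _ = _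
        rw [show cw (h 0) (g 0) (x 0) = _ from e0,
          show cw (h (0 + 1)) (g (0 + 1)) (x (0 + 1)) = _ from e1,
          show cw (h (1 + 1)) (g (1 + 1)) (x (1 + 1)) = _ from e2]; ring) (by omega))
  have k3 := impR_mp (allR_iff.1 k2 _ (mm 2)) (op 0)
  have k3 := impR_mp k3 (l2_of (n := (x 0).toNat + (x 1).toNat + (x 2).toNat + (x 3).toNat)
    (k := b0 + b1 + b2 + b3)
    (by show cw _ _ _ + cw _ _ _ + cw _ _ _ + cw _ _ _ = _
        rw [show cw (h 0) (g 0) (x 0) = _ from e0,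
          show cw (h (0 + 1)) (g (0 + 1)) (x (0 + 1)) = _ from e1,
          show cw (h (1 + 1)) (g (1 + 1)) (x (1 + 1)) = _ from e2,
          show cw (h (2 + 1)) (g (2 + 1)) (x (2 + 1)) = _ from e3]; ring) (by omega))
  have k4 := impR_mp (allR_iff.1 k3 _ (mm 3)) (op 1)
  have k4 := impR_mp k4 (l2_of
    (n := (x 0).toNat + (x 1).toNat + (x 2).toNat + (x 3).toNat + (x 4).toNat)
    (k := b0 + b1 + b2 + b3 + b4)
    (by show cw _ _ _ + cw _ _ _ + cw _ _ _ + cw _ _ _ + cw _ _ _ = _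
        rw [show cw (h 0) (g 0) (x 0) = _ from e0,
          show cw (h (0 + 1)) (g (0 + 1)) (x (0 + 1)) = _ from e1,
          show cw (h (1 + 1)) (g (1 + 1)) (x (1 + 1)) = _ from e2,
          show cw (h (2 + 1)) (g (2 + 1)) (x (2 + 1)) = _ from e3,
          show cw (h (3 + 1)) (g (3 + 1)) (x (3 + 1)) = _ from e4]; ring) (by omega))
  have k5 := impR_mp (impR_mp (allR_iff.1 k4 _ (mm 4)) (op 2)) ad
  have k5 := impR_mp k5 (l2_of
    (n := (x 0).toNat + (x 1).toNat + (x 2).toNat + (x 3).toNat + (x 4).toNat + (x 5).toNat)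
    (k := b0 + b1 + b2 + b3 + b4 + b5)
    (by show cw _ _ _ + cw _ _ _ + cw _ _ _ + cw _ _ _ + cw _ _ _ + cw _ _ _ = _
        rw [show cw (h 0) (g 0) (x 0) = _ from e0,
          show cw (h (0 + 1)) (g (0 + 1)) (x (0 + 1)) = _ from e1,
          show cw (h (1 + 1)) (g (1 + 1)) (x (1 + 1)) = _ from e2,
          show cw (h (2 + 1)) (g (2 + 1)) (x (2 + 1)) = _ from e3,
          show cw (h (3 + 1)) (g (3 + 1)) (x (3 + 1)) = _ from e4,
          show cw (h (4 + 1)) (g (4 + 1)) (x (4 + 1)) = _ from e5]; ring) hn)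
  have e6 : codM h + 4096 * codM g = vv (h 0) (g 0) + 4 * vv (h 1) (g 1) + 16 * vv (h 2) (g 2) +
      64 * vv (h 3) (g 3) + 256 * vv (h 4) (g 4) + 1024 * vv (h 5) (g 5) := by
    unfold codM vv; ring
  rw [e6]
  exact k5

end Vale.Agent.P032.H987
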