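import Vale.Agent.P032.H987.ExcR

/-!
# P032: the check of all pairs of limit columns with flags and the neighbours (helper987)

As `ExcK`; a flagged slot is bad (`bS`) if the letter `1` is not on exactly one side, or the letters are
`0, 1` and no unflagged neighbour has the exchange, or the letters are `1, 2` and every unflagged
neighbour shows the letter `3`.
-/

set_option linter.style.longLine false

namespace Vale.Agent.P032.H987.V2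

open Vale.Agent.P032.H546 (allR allR_iff impR impR_mp getR frc frc_eq)

def PM0 : List (ℕ × ℕ × ℕ × ℕ × ℕ) :=
  [(0, 0, 0, 3, 0), (1, 4096, 0, 0, 0), (2, 8192, 0, 3, 0), (4, 1, 0, 1, 0), (5, 4097, 0, 3, 0),
    (8, 2, 0, 3, 0), (10, 8194, 0, 3, 0), (16, 0, 1, 4, 64), (17, 4096, 1, 4, 128), (18, 8192, 1,
    4, 64), (20, 1, 1, 4, 192), (21, 4097, 1, 4, 64), (22, 8193, 1, 4, 256), (24, 2, 1, 4, 64),
    (25, 4098, 1, 4, 256), (26, 8194, 1, 4, 64)]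

def NM0 : List (List (ℕ × ℕ × ℕ × ℕ × ℕ)) :=
  [[(5, 4097, 0, 3, 0), (10, 8194, 0, 3, 0), (21, 4097, 1, 4, 64), (22, 8193, 1, 4, 256), (25,
    4098, 1, 4, 256), (26, 8194, 1, 4, 64)], [(8, 2, 0, 3, 0), (10, 8194, 0, 3, 0), (20, 1, 1, 4,
    192), (22, 8193, 1, 4, 256), (24, 2, 1, 4, 64), (26, 8194, 1, 4, 64)], [(4, 1, 0, 1, 0), (5,
    4097, 0, 3, 0), (20, 1, 1, 4, 192), (21, 4097, 1, 4, 64), (25, 4098, 1, 4, 256)], [(4, 1, 0,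
    1, 0), (5, 4097, 0, 3, 0), (8, 2, 0, 3, 0), (10, 8194, 0, 3, 0), (20, 1, 1, 4, 192), (21,
    4097, 1, 4, 64), (22, 8193, 1, 4, 256), (24, 2, 1, 4, 64), (25, 4098, 1, 4, 256), (26, 8194,
    1, 4, 64)], [(2, 8192, 0, 3, 0), (10, 8194, 0, 3, 0), (17, 4096, 1, 4, 128), (18, 8192, 1, 4,
    64), (25, 4098, 1, 4, 256), (26, 8194, 1, 4, 64)], [(0, 0, 0, 3, 0), (2, 8192, 0, 3, 0), (8,
    2, 0, 3, 0), (10, 8194, 0, 3, 0), (16, 0, 1, 4, 64), (18, 8192, 1, 4, 64), (24, 2, 1, 4, 64),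
    (26, 8194, 1, 4, 64)], [], [], [(1, 4096, 0, 0, 0), (5, 4097, 0, 3, 0), (17, 4096, 1, 4,
    128), (21, 4097, 1, 4, 64), (22, 8193, 1, 4, 256)], [], [(0, 0, 0, 3, 0), (1, 4096, 0, 0, 0),
    (4, 1, 0, 1, 0), (5, 4097, 0, 3, 0), (16, 0, 1, 4, 64), (17, 4096, 1, 4, 128), (20, 1, 1, 4,
    192), (21, 4097, 1, 4, 64)], [], [(1, 4096, 0, 0, 0), (2, 8192, 0, 3, 0), (5, 4097, 0, 3, 0),
    (10, 8194, 0, 3, 0), (17, 4096, 1, 4, 128), (18, 8192, 1, 4, 64), (21, 4097, 1, 4, 64), (22,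
    8193, 1, 4, 256), (25, 4098, 1, 4, 256), (26, 8194, 1, 4, 64)], [], [], [(0, 0, 0, 3, 0), (1,
    4096, 0, 0, 0), (2, 8192, 0, 3, 0), (4, 1, 0, 1, 0), (5, 4097, 0, 3, 0), (8, 2, 0, 3, 0),
    (10, 8194, 0, 3, 0), (16, 0, 1, 4, 64), (17, 4096, 1, 4, 128), (18, 8192, 1, 4, 64), (20, 1,
    1, 4, 192), (21, 4097, 1, 4, 64), (22, 8193, 1, 4, 256), (24, 2, 1, 4, 64), (25, 4098, 1, 4,
    256), (26, 8194, 1, 4, 64)], [(5, 4097, 0, 3, 0), (10, 8194, 0, 3, 0), (21, 4097, 1, 4, 64),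
    (22, 8193, 1, 4, 256), (25, 4098, 1, 4, 256), (26, 8194, 1, 4, 64)], [(4, 1, 0, 1, 0), (8, 2,
    0, 3, 0), (10, 8194, 0, 3, 0), (20, 1, 1, 4, 192), (22, 8193, 1, 4, 256), (24, 2, 1, 4, 64),
    (26, 8194, 1, 4, 64)], [(4, 1, 0, 1, 0), (5, 4097, 0, 3, 0), (20, 1, 1, 4, 192), (21, 4097,
    1, 4, 64), (24, 2, 1, 4, 64), (25, 4098, 1, 4, 256)], [(4, 1, 0, 1, 0), (5, 4097, 0, 3, 0),
    (8, 2, 0, 3, 0), (10, 8194, 0, 3, 0), (20, 1, 1, 4, 192), (21, 4097, 1, 4, 64), (22, 8193, 1,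
    4, 256), (24, 2, 1, 4, 64), (25, 4098, 1, 4, 256), (26, 8194, 1, 4, 64)], [(1, 4096, 0, 0,
    0), (2, 8192, 0, 3, 0), (10, 8194, 0, 3, 0), (17, 4096, 1, 4, 128), (18, 8192, 1, 4, 64),
    (25, 4098, 1, 4, 256), (26, 8194, 1, 4, 64)], [(0, 0, 0, 3, 0), (2, 8192, 0, 3, 0), (8, 2, 0,
    3, 0), (10, 8194, 0, 3, 0), (16, 0, 1, 4, 64), (18, 8192, 1, 4, 64), (24, 2, 1, 4, 64), (26,
    8194, 1, 4, 64)], [(0, 0, 0, 3, 0), (1, 4096, 0, 0, 0), (8, 2, 0, 3, 0), (16, 0, 1, 4, 64),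
    (17, 4096, 1, 4, 128), (24, 2, 1, 4, 64), (25, 4098, 1, 4, 256)], [(0, 0, 0, 3, 0), (1, 4096,
    0, 0, 0), (2, 8192, 0, 3, 0), (8, 2, 0, 3, 0), (10, 8194, 0, 3, 0), (16, 0, 1, 4, 64), (17,
    4096, 1, 4, 128), (18, 8192, 1, 4, 64), (24, 2, 1, 4, 64), (25, 4098, 1, 4, 256), (26, 8194,
    1, 4, 64)], [(1, 4096, 0, 0, 0), (5, 4097, 0, 3, 0), (17, 4096, 1, 4, 128), (18, 8192, 1, 4,
    64), (21, 4097, 1, 4, 64), (22, 8193, 1, 4, 256)], [(0, 0, 0, 3, 0), (2, 8192, 0, 3, 0), (4,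
    1, 0, 1, 0), (16, 0, 1, 4, 64), (18, 8192, 1, 4, 64), (20, 1, 1, 4, 192), (22, 8193, 1, 4,
    256)], [(0, 0, 0, 3, 0), (1, 4096, 0, 0, 0), (4, 1, 0, 1, 0), (5, 4097, 0, 3, 0), (16, 0, 1,
    4, 64), (17, 4096, 1, 4, 128), (20, 1, 1, 4, 192), (21, 4097, 1, 4, 64)], [(0, 0, 0, 3, 0),
    (1, 4096, 0, 0, 0), (2, 8192, 0, 3, 0), (4, 1, 0, 1, 0), (5, 4097, 0, 3, 0), (16, 0, 1, 4,
    64), (17, 4096, 1, 4, 128), (18, 8192, 1, 4, 64), (20, 1, 1, 4, 192), (21, 4097, 1, 4, 64),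
    (22, 8193, 1, 4, 256)], [(1, 4096, 0, 0, 0), (2, 8192, 0, 3, 0), (5, 4097, 0, 3, 0), (10,
    8194, 0, 3, 0), (17, 4096, 1, 4, 128), (18, 8192, 1, 4, 64), (21, 4097, 1, 4, 64), (22, 8193,
    1, 4, 256), (25, 4098, 1, 4, 256), (26, 8194, 1, 4, 64)], [(0, 0, 0, 3, 0), (2, 8192, 0, 3,
    0), (4, 1, 0, 1, 0), (8, 2, 0, 3, 0), (10, 8194, 0, 3, 0), (16, 0, 1, 4, 64), (18, 8192, 1,
    4, 64), (20, 1, 1, 4, 192), (22, 8193, 1, 4, 256), (24, 2, 1, 4, 64), (26, 8194, 1, 4, 64)],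
    [(0, 0, 0, 3, 0), (1, 4096, 0, 0, 0), (4, 1, 0, 1, 0), (5, 4097, 0, 3, 0), (8, 2, 0, 3, 0),
    (16, 0, 1, 4, 64), (17, 4096, 1, 4, 128), (20, 1, 1, 4, 192), (21, 4097, 1, 4, 64), (24, 2,
    1, 4, 64), (25, 4098, 1, 4, 256)], [(0, 0, 0, 3, 0), (1, 4096, 0, 0, 0), (2, 8192, 0, 3, 0),
    (4, 1, 0, 1, 0), (5, 4097, 0, 3, 0), (8, 2, 0, 3, 0), (10, 8194, 0, 3, 0), (16, 0, 1, 4, 64),
    (17, 4096, 1, 4, 128), (18, 8192, 1, 4, 64), (20, 1, 1, 4, 192), (21, 4097, 1, 4, 64), (22,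
    8193, 1, 4, 256), (24, 2, 1, 4, 64), (25, 4098, 1, 4, 256), (26, 8194, 1, 4, 64)]]

def PM1 : List (ℕ × ℕ × ℕ × ℕ × ℕ) :=
  [(0, 0, 0, 3, 0), (1, 4096, 0, 0, 0), (3, 12288, 0, 2, 0), (4, 1, 0, 1, 0), (5, 4097, 0, 3, 0),
    (8, 2, 0, 3, 0), (16, 0, 1, 4, 64), (17, 4096, 1, 4, 128), (19, 12288, 1, 4, 64), (20, 1, 1,
    4, 192), (21, 4097, 1, 4, 64), (23, 12289, 1, 4, 0), (24, 2, 1, 4, 64), (25, 4098, 1, 4,
    256), (27, 12290, 1, 4, 64)]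

def NM1 : List (List (ℕ × ℕ × ℕ × ℕ × ℕ)) :=
  [[(5, 4097, 0, 3, 0), (21, 4097, 1, 4, 64), (23, 12289, 1, 4, 0), (25, 4098, 1, 4, 256), (27,
    12290, 1, 4, 64)], [(8, 2, 0, 3, 0), (20, 1, 1, 4, 192), (23, 12289, 1, 4, 0), (24, 2, 1, 4,
    64), (27, 12290, 1, 4, 64)], [(4, 1, 0, 1, 0), (5, 4097, 0, 3, 0), (20, 1, 1, 4, 192), (21,
    4097, 1, 4, 64), (23, 12289, 1, 4, 0), (25, 4098, 1, 4, 256), (27, 12290, 1, 4, 64)], [(4, 1,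
    0, 1, 0), (5, 4097, 0, 3, 0), (8, 2, 0, 3, 0), (20, 1, 1, 4, 192), (21, 4097, 1, 4, 64), (24,
    2, 1, 4, 64), (25, 4098, 1, 4, 256)], [(3, 12288, 0, 2, 0), (17, 4096, 1, 4, 128), (19,
    12288, 1, 4, 64), (25, 4098, 1, 4, 256), (27, 12290, 1, 4, 64)], [(0, 0, 0, 3, 0), (3, 12288,
    0, 2, 0), (8, 2, 0, 3, 0), (16, 0, 1, 4, 64), (19, 12288, 1, 4, 64), (24, 2, 1, 4, 64), (27,
    12290, 1, 4, 64)], [], [], [(1, 4096, 0, 0, 0), (3, 12288, 0, 2, 0), (5, 4097, 0, 3, 0), (17,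
    4096, 1, 4, 128), (19, 12288, 1, 4, 64), (21, 4097, 1, 4, 64), (23, 12289, 1, 4, 0)], [],
    [(0, 0, 0, 3, 0), (1, 4096, 0, 0, 0), (3, 12288, 0, 2, 0), (4, 1, 0, 1, 0), (5, 4097, 0, 3,
    0), (16, 0, 1, 4, 64), (17, 4096, 1, 4, 128), (19, 12288, 1, 4, 64), (20, 1, 1, 4, 192), (21,
    4097, 1, 4, 64), (23, 12289, 1, 4, 0)], [], [(1, 4096, 0, 0, 0), (5, 4097, 0, 3, 0), (17,
    4096, 1, 4, 128), (21, 4097, 1, 4, 64), (23, 12289, 1, 4, 0), (25, 4098, 1, 4, 256), (27,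
    12290, 1, 4, 64)], [], [], [(0, 0, 0, 3, 0), (1, 4096, 0, 0, 0), (4, 1, 0, 1, 0), (5, 4097,
    0, 3, 0), (8, 2, 0, 3, 0), (16, 0, 1, 4, 64), (17, 4096, 1, 4, 128), (20, 1, 1, 4, 192), (21,
    4097, 1, 4, 64), (24, 2, 1, 4, 64), (25, 4098, 1, 4, 256)], [(5, 4097, 0, 3, 0), (21, 4097,
    1, 4, 64), (23, 12289, 1, 4, 0), (25, 4098, 1, 4, 256), (27, 12290, 1, 4, 64)], [(4, 1, 0, 1,
    0), (8, 2, 0, 3, 0), (20, 1, 1, 4, 192), (23, 12289, 1, 4, 0), (24, 2, 1, 4, 64), (27, 12290,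
    1, 4, 64)], [(4, 1, 0, 1, 0), (5, 4097, 0, 3, 0), (20, 1, 1, 4, 192), (21, 4097, 1, 4, 64),
    (23, 12289, 1, 4, 0), (24, 2, 1, 4, 64), (25, 4098, 1, 4, 256), (27, 12290, 1, 4, 64)], [(4,
    1, 0, 1, 0), (5, 4097, 0, 3, 0), (8, 2, 0, 3, 0), (20, 1, 1, 4, 192), (21, 4097, 1, 4, 64),
    (24, 2, 1, 4, 64), (25, 4098, 1, 4, 256)], [(1, 4096, 0, 0, 0), (3, 12288, 0, 2, 0), (17,
    4096, 1, 4, 128), (19, 12288, 1, 4, 64), (25, 4098, 1, 4, 256), (27, 12290, 1, 4, 64)], [(0,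
    0, 0, 3, 0), (3, 12288, 0, 2, 0), (8, 2, 0, 3, 0), (16, 0, 1, 4, 64), (19, 12288, 1, 4, 64),
    (24, 2, 1, 4, 64), (27, 12290, 1, 4, 64)], [(0, 0, 0, 3, 0), (1, 4096, 0, 0, 0), (3, 12288,
    0, 2, 0), (8, 2, 0, 3, 0), (16, 0, 1, 4, 64), (17, 4096, 1, 4, 128), (19, 12288, 1, 4, 64),
    (24, 2, 1, 4, 64), (25, 4098, 1, 4, 256), (27, 12290, 1, 4, 64)], [(0, 0, 0, 3, 0), (1, 4096,
    0, 0, 0), (8, 2, 0, 3, 0), (16, 0, 1, 4, 64), (17, 4096, 1, 4, 128), (24, 2, 1, 4, 64), (25,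
    4098, 1, 4, 256)], [(1, 4096, 0, 0, 0), (3, 12288, 0, 2, 0), (5, 4097, 0, 3, 0), (17, 4096,
    1, 4, 128), (19, 12288, 1, 4, 64), (21, 4097, 1, 4, 64), (23, 12289, 1, 4, 0)], [(0, 0, 0, 3,
    0), (3, 12288, 0, 2, 0), (4, 1, 0, 1, 0), (16, 0, 1, 4, 64), (19, 12288, 1, 4, 64), (20, 1,
    1, 4, 192), (23, 12289, 1, 4, 0)], [(0, 0, 0, 3, 0), (1, 4096, 0, 0, 0), (3, 12288, 0, 2, 0),
    (4, 1, 0, 1, 0), (5, 4097, 0, 3, 0), (16, 0, 1, 4, 64), (17, 4096, 1, 4, 128), (19, 12288, 1,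
    4, 64), (20, 1, 1, 4, 192), (21, 4097, 1, 4, 64), (23, 12289, 1, 4, 0)], [(0, 0, 0, 3, 0),
    (1, 4096, 0, 0, 0), (4, 1, 0, 1, 0), (5, 4097, 0, 3, 0), (16, 0, 1, 4, 64), (17, 4096, 1, 4,
    128), (20, 1, 1, 4, 192), (21, 4097, 1, 4, 64)], [(1, 4096, 0, 0, 0), (5, 4097, 0, 3, 0),
    (17, 4096, 1, 4, 128), (19, 12288, 1, 4, 64), (21, 4097, 1, 4, 64), (23, 12289, 1, 4, 0),
    (25, 4098, 1, 4, 256), (27, 12290, 1, 4, 64)], [(0, 0, 0, 3, 0), (3, 12288, 0, 2, 0), (4, 1,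
    0, 1, 0), (8, 2, 0, 3, 0), (16, 0, 1, 4, 64), (19, 12288, 1, 4, 64), (20, 1, 1, 4, 192), (23,
    12289, 1, 4, 0), (24, 2, 1, 4, 64), (27, 12290, 1, 4, 64)], [(0, 0, 0, 3, 0), (1, 4096, 0, 0,
    0), (3, 12288, 0, 2, 0), (4, 1, 0, 1, 0), (5, 4097, 0, 3, 0), (8, 2, 0, 3, 0), (16, 0, 1, 4,
    64), (17, 4096, 1, 4, 128), (19, 12288, 1, 4, 64), (20, 1, 1, 4, 192), (21, 4097, 1, 4, 64),
    (23, 12289, 1, 4, 0), (24, 2, 1, 4, 64), (25, 4098, 1, 4, 256), (27, 12290, 1, 4, 64)], [(0,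
    0, 0, 3, 0), (1, 4096, 0, 0, 0), (4, 1, 0, 1, 0), (5, 4097, 0, 3, 0), (8, 2, 0, 3, 0), (16,
    0, 1, 4, 64), (17, 4096, 1, 4, 128), (20, 1, 1, 4, 192), (21, 4097, 1, 4, 64), (24, 2, 1, 4,
    64), (25, 4098, 1, 4, 256)]]

def PM2 : List (ℕ × ℕ × ℕ × ℕ × ℕ) :=
  [(0, 0, 0, 3, 0), (1, 4096, 0, 0, 0), (2, 8192, 0, 3, 0), (4, 1, 0, 1, 0), (5, 4097, 0, 3, 0),
    (12, 3, 0, 2, 0), (16, 0, 1, 4, 64), (17, 4096, 1, 4, 128), (18, 8192, 1, 4, 64), (20, 1, 1,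
    4, 192), (21, 4097, 1, 4, 64), (22, 8193, 1, 4, 256), (28, 3, 1, 4, 64), (29, 4099, 1, 4, 0),
    (30, 8195, 1, 4, 64)]

def NM2 : List (List (ℕ × ℕ × ℕ × ℕ × ℕ)) :=
  [[(5, 4097, 0, 3, 0), (21, 4097, 1, 4, 64), (22, 8193, 1, 4, 256), (29, 4099, 1, 4, 0), (30,
    8195, 1, 4, 64)], [(12, 3, 0, 2, 0), (20, 1, 1, 4, 192), (22, 8193, 1, 4, 256), (28, 3, 1, 4,
    64), (30, 8195, 1, 4, 64)], [(4, 1, 0, 1, 0), (5, 4097, 0, 3, 0), (12, 3, 0, 2, 0), (20, 1,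
    1, 4, 192), (21, 4097, 1, 4, 64), (28, 3, 1, 4, 64), (29, 4099, 1, 4, 0)], [(4, 1, 0, 1, 0),
    (5, 4097, 0, 3, 0), (20, 1, 1, 4, 192), (21, 4097, 1, 4, 64), (22, 8193, 1, 4, 256), (29,
    4099, 1, 4, 0), (30, 8195, 1, 4, 64)], [(2, 8192, 0, 3, 0), (17, 4096, 1, 4, 128), (18, 8192,
    1, 4, 64), (29, 4099, 1, 4, 0), (30, 8195, 1, 4, 64)], [(0, 0, 0, 3, 0), (2, 8192, 0, 3, 0),
    (12, 3, 0, 2, 0), (16, 0, 1, 4, 64), (18, 8192, 1, 4, 64), (28, 3, 1, 4, 64), (30, 8195, 1,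
    4, 64)], [], [], [(1, 4096, 0, 0, 0), (5, 4097, 0, 3, 0), (17, 4096, 1, 4, 128), (21, 4097,
    1, 4, 64), (22, 8193, 1, 4, 256), (29, 4099, 1, 4, 0), (30, 8195, 1, 4, 64)], [], [(0, 0, 0,
    3, 0), (1, 4096, 0, 0, 0), (4, 1, 0, 1, 0), (5, 4097, 0, 3, 0), (12, 3, 0, 2, 0), (16, 0, 1,
    4, 64), (17, 4096, 1, 4, 128), (20, 1, 1, 4, 192), (21, 4097, 1, 4, 64), (28, 3, 1, 4, 64),
    (29, 4099, 1, 4, 0)], [], [(1, 4096, 0, 0, 0), (2, 8192, 0, 3, 0), (5, 4097, 0, 3, 0), (17,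
    4096, 1, 4, 128), (18, 8192, 1, 4, 64), (21, 4097, 1, 4, 64), (22, 8193, 1, 4, 256)], [], [],
    [(0, 0, 0, 3, 0), (1, 4096, 0, 0, 0), (2, 8192, 0, 3, 0), (4, 1, 0, 1, 0), (5, 4097, 0, 3,
    0), (16, 0, 1, 4, 64), (17, 4096, 1, 4, 128), (18, 8192, 1, 4, 64), (20, 1, 1, 4, 192), (21,
    4097, 1, 4, 64), (22, 8193, 1, 4, 256)], [(5, 4097, 0, 3, 0), (21, 4097, 1, 4, 64), (22,
    8193, 1, 4, 256), (29, 4099, 1, 4, 0), (30, 8195, 1, 4, 64)], [(4, 1, 0, 1, 0), (12, 3, 0, 2,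
    0), (20, 1, 1, 4, 192), (22, 8193, 1, 4, 256), (28, 3, 1, 4, 64), (30, 8195, 1, 4, 64)], [(4,
    1, 0, 1, 0), (5, 4097, 0, 3, 0), (12, 3, 0, 2, 0), (20, 1, 1, 4, 192), (21, 4097, 1, 4, 64),
    (28, 3, 1, 4, 64), (29, 4099, 1, 4, 0)], [(4, 1, 0, 1, 0), (5, 4097, 0, 3, 0), (20, 1, 1, 4,
    192), (21, 4097, 1, 4, 64), (22, 8193, 1, 4, 256), (28, 3, 1, 4, 64), (29, 4099, 1, 4, 0),
    (30, 8195, 1, 4, 64)], [(1, 4096, 0, 0, 0), (2, 8192, 0, 3, 0), (17, 4096, 1, 4, 128), (18,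
    8192, 1, 4, 64), (29, 4099, 1, 4, 0), (30, 8195, 1, 4, 64)], [(0, 0, 0, 3, 0), (2, 8192, 0,
    3, 0), (12, 3, 0, 2, 0), (16, 0, 1, 4, 64), (18, 8192, 1, 4, 64), (28, 3, 1, 4, 64), (30,
    8195, 1, 4, 64)], [(0, 0, 0, 3, 0), (1, 4096, 0, 0, 0), (12, 3, 0, 2, 0), (16, 0, 1, 4, 64),
    (17, 4096, 1, 4, 128), (28, 3, 1, 4, 64), (29, 4099, 1, 4, 0)], [(0, 0, 0, 3, 0), (1, 4096,
    0, 0, 0), (2, 8192, 0, 3, 0), (12, 3, 0, 2, 0), (16, 0, 1, 4, 64), (17, 4096, 1, 4, 128),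
    (18, 8192, 1, 4, 64), (28, 3, 1, 4, 64), (29, 4099, 1, 4, 0), (30, 8195, 1, 4, 64)], [(1,
    4096, 0, 0, 0), (5, 4097, 0, 3, 0), (17, 4096, 1, 4, 128), (18, 8192, 1, 4, 64), (21, 4097,
    1, 4, 64), (22, 8193, 1, 4, 256), (29, 4099, 1, 4, 0), (30, 8195, 1, 4, 64)], [(0, 0, 0, 3,
    0), (2, 8192, 0, 3, 0), (4, 1, 0, 1, 0), (12, 3, 0, 2, 0), (16, 0, 1, 4, 64), (18, 8192, 1,
    4, 64), (20, 1, 1, 4, 192), (22, 8193, 1, 4, 256), (28, 3, 1, 4, 64), (30, 8195, 1, 4, 64)],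
    [(0, 0, 0, 3, 0), (1, 4096, 0, 0, 0), (4, 1, 0, 1, 0), (5, 4097, 0, 3, 0), (12, 3, 0, 2, 0),
    (16, 0, 1, 4, 64), (17, 4096, 1, 4, 128), (20, 1, 1, 4, 192), (21, 4097, 1, 4, 64), (28, 3,
    1, 4, 64), (29, 4099, 1, 4, 0)], [(0, 0, 0, 3, 0), (1, 4096, 0, 0, 0), (2, 8192, 0, 3, 0),
    (4, 1, 0, 1, 0), (5, 4097, 0, 3, 0), (12, 3, 0, 2, 0), (16, 0, 1, 4, 64), (17, 4096, 1, 4,
    128), (18, 8192, 1, 4, 64), (20, 1, 1, 4, 192), (21, 4097, 1, 4, 64), (22, 8193, 1, 4, 256),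
    (28, 3, 1, 4, 64), (29, 4099, 1, 4, 0), (30, 8195, 1, 4, 64)], [(1, 4096, 0, 0, 0), (2, 8192,
    0, 3, 0), (5, 4097, 0, 3, 0), (17, 4096, 1, 4, 128), (18, 8192, 1, 4, 64), (21, 4097, 1, 4,
    64), (22, 8193, 1, 4, 256)], [(0, 0, 0, 3, 0), (2, 8192, 0, 3, 0), (4, 1, 0, 1, 0), (16, 0,
    1, 4, 64), (18, 8192, 1, 4, 64), (20, 1, 1, 4, 192), (22, 8193, 1, 4, 256)], [(0, 0, 0, 3,
    0), (1, 4096, 0, 0, 0), (4, 1, 0, 1, 0), (5, 4097, 0, 3, 0), (16, 0, 1, 4, 64), (17, 4096, 1,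
    4, 128), (20, 1, 1, 4, 192), (21, 4097, 1, 4, 64)], [(0, 0, 0, 3, 0), (1, 4096, 0, 0, 0), (2,
    8192, 0, 3, 0), (4, 1, 0, 1, 0), (5, 4097, 0, 3, 0), (16, 0, 1, 4, 64), (17, 4096, 1, 4,
    128), (18, 8192, 1, 4, 64), (20, 1, 1, 4, 192), (21, 4097, 1, 4, 64), (22, 8193, 1, 4, 256)]]

def PM3 : List (ℕ × ℕ × ℕ × ℕ × ℕ) :=
  [(0, 0, 0, 3, 0), (1, 4096, 0, 0, 0), (3, 12288, 0, 2, 0), (4, 1, 0, 1, 0), (5, 4097, 0, 3, 0),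
    (12, 3, 0, 2, 0), (15, 12291, 0, 2, 0), (16, 0, 1, 4, 64), (17, 4096, 1, 4, 128), (19, 12288,
    1, 4, 64), (20, 1, 1, 4, 192), (21, 4097, 1, 4, 64), (23, 12289, 1, 4, 0), (28, 3, 1, 4, 64),
    (29, 4099, 1, 4, 0), (31, 12291, 1, 4, 64)]

def NM3 : List (List (ℕ × ℕ × ℕ × ℕ × ℕ)) :=
  [[(5, 4097, 0, 3, 0), (15, 12291, 0, 2, 0), (21, 4097, 1, 4, 64), (23, 12289, 1, 4, 0), (29,
    4099, 1, 4, 0), (31, 12291, 1, 4, 64)], [(12, 3, 0, 2, 0), (15, 12291, 0, 2, 0), (20, 1, 1,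
    4, 192), (23, 12289, 1, 4, 0), (28, 3, 1, 4, 64), (31, 12291, 1, 4, 64)], [(4, 1, 0, 1, 0),
    (5, 4097, 0, 3, 0), (12, 3, 0, 2, 0), (15, 12291, 0, 2, 0), (20, 1, 1, 4, 192), (21, 4097, 1,
    4, 64), (23, 12289, 1, 4, 0), (28, 3, 1, 4, 64), (29, 4099, 1, 4, 0), (31, 12291, 1, 4, 64)],
    [(4, 1, 0, 1, 0), (5, 4097, 0, 3, 0), (20, 1, 1, 4, 192), (21, 4097, 1, 4, 64), (29, 4099, 1,
    4, 0)], [(3, 12288, 0, 2, 0), (15, 12291, 0, 2, 0), (17, 4096, 1, 4, 128), (19, 12288, 1, 4,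
    64), (29, 4099, 1, 4, 0), (31, 12291, 1, 4, 64)], [(0, 0, 0, 3, 0), (3, 12288, 0, 2, 0), (12,
    3, 0, 2, 0), (15, 12291, 0, 2, 0), (16, 0, 1, 4, 64), (19, 12288, 1, 4, 64), (28, 3, 1, 4,
    64), (31, 12291, 1, 4, 64)], [], [], [(1, 4096, 0, 0, 0), (3, 12288, 0, 2, 0), (5, 4097, 0,
    3, 0), (15, 12291, 0, 2, 0), (17, 4096, 1, 4, 128), (19, 12288, 1, 4, 64), (21, 4097, 1, 4,
    64), (23, 12289, 1, 4, 0), (29, 4099, 1, 4, 0), (31, 12291, 1, 4, 64)], [], [(0, 0, 0, 3, 0),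
    (1, 4096, 0, 0, 0), (3, 12288, 0, 2, 0), (4, 1, 0, 1, 0), (5, 4097, 0, 3, 0), (12, 3, 0, 2,
    0), (15, 12291, 0, 2, 0), (16, 0, 1, 4, 64), (17, 4096, 1, 4, 128), (19, 12288, 1, 4, 64),
    (20, 1, 1, 4, 192), (21, 4097, 1, 4, 64), (23, 12289, 1, 4, 0), (28, 3, 1, 4, 64), (29, 4099,
    1, 4, 0), (31, 12291, 1, 4, 64)], [], [(1, 4096, 0, 0, 0), (5, 4097, 0, 3, 0), (17, 4096, 1,
    4, 128), (21, 4097, 1, 4, 64), (23, 12289, 1, 4, 0)], [], [], [(0, 0, 0, 3, 0), (1, 4096, 0,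
    0, 0), (4, 1, 0, 1, 0), (5, 4097, 0, 3, 0), (16, 0, 1, 4, 64), (17, 4096, 1, 4, 128), (20, 1,
    1, 4, 192), (21, 4097, 1, 4, 64)], [(5, 4097, 0, 3, 0), (15, 12291, 0, 2, 0), (21, 4097, 1,
    4, 64), (23, 12289, 1, 4, 0), (29, 4099, 1, 4, 0), (31, 12291, 1, 4, 64)], [(4, 1, 0, 1, 0),
    (12, 3, 0, 2, 0), (15, 12291, 0, 2, 0), (20, 1, 1, 4, 192), (23, 12289, 1, 4, 0), (28, 3, 1,
    4, 64), (31, 12291, 1, 4, 64)], [(4, 1, 0, 1, 0), (5, 4097, 0, 3, 0), (12, 3, 0, 2, 0), (15,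
    12291, 0, 2, 0), (20, 1, 1, 4, 192), (21, 4097, 1, 4, 64), (23, 12289, 1, 4, 0), (28, 3, 1,
    4, 64), (29, 4099, 1, 4, 0), (31, 12291, 1, 4, 64)], [(4, 1, 0, 1, 0), (5, 4097, 0, 3, 0),
    (20, 1, 1, 4, 192), (21, 4097, 1, 4, 64), (28, 3, 1, 4, 64), (29, 4099, 1, 4, 0)], [(1, 4096,
    0, 0, 0), (3, 12288, 0, 2, 0), (15, 12291, 0, 2, 0), (17, 4096, 1, 4, 128), (19, 12288, 1, 4,
    64), (29, 4099, 1, 4, 0), (31, 12291, 1, 4, 64)], [(0, 0, 0, 3, 0), (3, 12288, 0, 2, 0), (12,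
    3, 0, 2, 0), (15, 12291, 0, 2, 0), (16, 0, 1, 4, 64), (19, 12288, 1, 4, 64), (28, 3, 1, 4,
    64), (31, 12291, 1, 4, 64)], [(0, 0, 0, 3, 0), (1, 4096, 0, 0, 0), (3, 12288, 0, 2, 0), (12,
    3, 0, 2, 0), (15, 12291, 0, 2, 0), (16, 0, 1, 4, 64), (17, 4096, 1, 4, 128), (19, 12288, 1,
    4, 64), (28, 3, 1, 4, 64), (29, 4099, 1, 4, 0), (31, 12291, 1, 4, 64)], [(0, 0, 0, 3, 0), (1,
    4096, 0, 0, 0), (12, 3, 0, 2, 0), (16, 0, 1, 4, 64), (17, 4096, 1, 4, 128), (28, 3, 1, 4,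
    64), (29, 4099, 1, 4, 0)], [(1, 4096, 0, 0, 0), (3, 12288, 0, 2, 0), (5, 4097, 0, 3, 0), (15,
    12291, 0, 2, 0), (17, 4096, 1, 4, 128), (19, 12288, 1, 4, 64), (21, 4097, 1, 4, 64), (23,
    12289, 1, 4, 0), (29, 4099, 1, 4, 0), (31, 12291, 1, 4, 64)], [(0, 0, 0, 3, 0), (3, 12288, 0,
    2, 0), (4, 1, 0, 1, 0), (12, 3, 0, 2, 0), (15, 12291, 0, 2, 0), (16, 0, 1, 4, 64), (19,
    12288, 1, 4, 64), (20, 1, 1, 4, 192), (23, 12289, 1, 4, 0), (28, 3, 1, 4, 64), (31, 12291, 1,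
    4, 64)], [(0, 0, 0, 3, 0), (1, 4096, 0, 0, 0), (3, 12288, 0, 2, 0), (4, 1, 0, 1, 0), (5,
    4097, 0, 3, 0), (12, 3, 0, 2, 0), (15, 12291, 0, 2, 0), (16, 0, 1, 4, 64), (17, 4096, 1, 4,
    128), (19, 12288, 1, 4, 64), (20, 1, 1, 4, 192), (21, 4097, 1, 4, 64), (23, 12289, 1, 4, 0),
    (28, 3, 1, 4, 64), (29, 4099, 1, 4, 0), (31, 12291, 1, 4, 64)], [(0, 0, 0, 3, 0), (1, 4096,
    0, 0, 0), (4, 1, 0, 1, 0), (5, 4097, 0, 3, 0), (12, 3, 0, 2, 0), (16, 0, 1, 4, 64), (17,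
    4096, 1, 4, 128), (20, 1, 1, 4, 192), (21, 4097, 1, 4, 64), (28, 3, 1, 4, 64), (29, 4099, 1,
    4, 0)], [(1, 4096, 0, 0, 0), (5, 4097, 0, 3, 0), (17, 4096, 1, 4, 128), (19, 12288, 1, 4,
    64), (21, 4097, 1, 4, 64), (23, 12289, 1, 4, 0)], [(0, 0, 0, 3, 0), (3, 12288, 0, 2, 0), (4,
    1, 0, 1, 0), (16, 0, 1, 4, 64), (19, 12288, 1, 4, 64), (20, 1, 1, 4, 192), (23, 12289, 1, 4,
    0)], [(0, 0, 0, 3, 0), (1, 4096, 0, 0, 0), (3, 12288, 0, 2, 0), (4, 1, 0, 1, 0), (5, 4097, 0,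
    3, 0), (16, 0, 1, 4, 64), (17, 4096, 1, 4, 128), (19, 12288, 1, 4, 64), (20, 1, 1, 4, 192),
    (21, 4097, 1, 4, 64), (23, 12289, 1, 4, 0)], [(0, 0, 0, 3, 0), (1, 4096, 0, 0, 0), (4, 1, 0,
    1, 0), (5, 4097, 0, 3, 0), (16, 0, 1, 4, 64), (17, 4096, 1, 4, 128), (20, 1, 1, 4, 192), (21,
    4097, 1, 4, 64)]]

def BT : ℕ := 0x14001400000000001e1e1e1e000000001d1d1d001d0000001f1f1f1f1f0000000000000000

def PM (zb za : Bool) : List (ℕ × ℕ × ℕ × ℕ × ℕ) :=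
  match zb, za with
  | true, true => PM0 | true, false => PM1 | false, true => PM2 | false, false => PM3

noncomputable def NM (zb za : Bool) (c : ℕ) : List (ℕ × ℕ × ℕ × ℕ × ℕ) :=
  getR (match zb, za with
    | true, true => NM0 | true, false => NM1 | false, true => NM2 | false, false => NM3) c

/-- what a neighbour shows -/
def ss (x : Bool) (h g : Fin 4) : ℕ :=
  if x = true then 4 else if h = 0 ∧ g = 1 then 0 else if h = 1 ∧ g = 0 then 1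
    else if h = 3 ∨ g = 3 then 2 else 3

/-- the kind of a slot -/
def tt (x : Bool) (h g : Fin 4) : ℕ :=
  if x = false then 0 else if (h = 1 ↔ g = 1) then 64 else if h = 0 ∨ g = 0 then
    (if h = 0 then 128 else 192) else if h = 2 ∨ g = 2 then 256 else 0

def bb (t s s' : ℕ) : ℕ := Nat.land (Nat.shiftRight BT (Nat.add t (Nat.add (Nat.mul 8 s) s'))) 1

def l2' (w : ℕ) : Bool := Nat.ble w 2

/-- the check of all pairs of columns -/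
noncomputable def ckP (z0 z1 : Fin 6 → Bool) (F : ℕ → ℕ → Bool) : Bool :=
  allR (fun q0 =>
  allR (fun q1 => frc (Nat.add q0.2.1 (Nat.mul 4 q1.2.1)) fun a1 => frc (Nat.add q0.2.2.1 q1.2.2.1) fun w1 =>
  allR (fun q2 => frc (Nat.add a1 (Nat.mul 16 q2.2.1)) fun a2 => frc (Nat.add w1 q2.2.2.1) fun w2 =>
    impR (l2' w2) (frc (bb q1.2.2.2.2 q0.2.2.2.1 q2.2.2.2.1) fun b2 =>
  allR (fun q3 => impR (opM q0.1 q3.1) (frc (Nat.add a2 (Nat.mul 64 q3.2.1)) fun a3 =>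
    frc (Nat.add w2 q3.2.2.1) fun w3 => impR (l2' w3) (
    frc (Nat.add b2 (bb q2.2.2.2.2 q1.2.2.2.1 q3.2.2.2.1)) fun b3 =>
  allR (fun q4 => impR (opM q1.1 q4.1) (frc (Nat.add a3 (Nat.mul 256 q4.2.1)) fun a4 =>
    frc (Nat.add w3 q4.2.2.1) fun w4 => impR (l2' w4) (
    frc (Nat.add b3 (bb q3.2.2.2.2 q2.2.2.2.1 q4.2.2.2.1)) fun b4 =>
  allR (fun q5 => impR (opM q2.1 q5.1) (impR (adM q5.1 q0.1) (frc (Nat.add w4 q5.2.2.1) fun w5 =>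
    impR (l2' w5) (frc (Nat.add a4 (Nat.mul 1024 q5.2.1)) fun a5 =>
      frc (Nat.add w5 (Nat.mul 16 (Nat.add (Nat.add (Nat.add b4 (bb q4.2.2.2.2 q3.2.2.2.1 q5.2.2.2.1))
        (bb q5.2.2.2.2 q4.2.2.2.1 q0.2.2.2.1)) (bb q0.2.2.2.2 q5.2.2.2.1 q1.2.2.2.1)))) fun w6 => F a5 w6))))
  (NM (z0 5) (z1 5) q4.1)))) (NM (z0 4) (z1 4) q3.1)))) (NM (z0 3) (z1 3) q2.1)))
  (NM (z0 2) (z1 2) q1.1)) (NM (z0 1) (z1 1) q0.1)) (PM (z0 0) (z1 0))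

def qq (x : Bool) (h g : Fin 4) : ℕ × ℕ × ℕ × ℕ × ℕ := (cc h g x, vv h g, x.toNat, ss x h g, tt x h g)

theorem mem_PM : ∀ (y y' x : Bool) (h g : Fin 4), ZL y h → ZL y' g → PlM x h g →
    qq x h g ∈ PM y y' := by decide +kernel

theorem mem_NM : ∀ (y y' x x' : Bool) (h g h' g' : Fin 4), ZL y h' → ZL y' g' → PlM x h g →
    PlM x' h' g' → SwM x x' h g h' g' → qq x' h' g' ∈ NM y y' (cc h g x) := by
  intro y y' x x'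
  cases y <;> cases y' <;> cases x <;> cases x' <;> decide +kernel

/-- one bad slot -/
def bS (x : Fin 6 → Bool) (h g : Fin 6 → Fin 4) (j : Fin 6) : ℕ :=
  bb (tt (x j) (h j) (g j)) (ss (x (j + 5)) (h (j + 5)) (g (j + 5)))
    (ss (x (j + 1)) (h (j + 1)) (g (j + 1)))

/-- the number of bad slots -/
def nB (x : Fin 6 → Bool) (h g : Fin 6 → Fin 4) : ℕ :=
  bS x h g 1 + bS x h g 2 + bS x h g 3 + bS x h g 4 + bS x h g 5 + bS x h g 0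

theorem l2'_of {w : ℕ} (hn : w ≤ 2) : l2' w = true := by
  unfold l2'; rw [Nat.ble_eq]; exact hn

theorem ckP_sound {z0 z1 : Fin 6 → Bool} {F : ℕ → ℕ → Bool} (hc : ckP z0 z1 F = true)
    {x : Fin 6 → Bool} {h g : Fin 6 → Fin 4} (hb : ∀ j, ZL (z0 j) (h j)) (ha : ∀ j, ZL (z1 j) (g j))
    (t : EvM x h g) (hn : nX x ≤ 2) :
    F (codM h + 4096 * codM g) (nX x + 16 * nB x h g) = true := by
  have pl : ∀ j, PlM (x j) (h j) (g j) := fun j hj => t.pl j hj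
  have sw : ∀ j, SwM (x j) (x (j + 1)) (h j) (g j) (h (j + 1)) (g (j + 1)) := fun j =>
    ⟨t.adj j, t.adj' j, t.sw j⟩
  have ad : adM (cc (h 5) (g 5) (x 5)) (cc (h 0) (g 0) (x 0)) = true :=
    adM_of _ _ _ _ _ _ (pl 5) (pl 0) (sw 5)
  have op : ∀ j, opM (cc (h j) (g j) (x j)) (cc (h (j + 3)) (g (j + 3)) (x (j + 3))) = true := by
    intro j
    refine opM_of _ _ _ _ _ _ (t.opp j) fun h1 h2 => t.opp (j + 3) h1 ?_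
    have e : j + 3 + 3 = j := by rw [add_assoc]; exact add_zero j
    rwa [e]
  have mm : ∀ j, qq (x (j + 1)) (h (j + 1)) (g (j + 1)) ∈
      NM (z0 (j + 1)) (z1 (j + 1)) (cc (h j) (g j) (x j)) := fun j =>
    mem_NM _ _ _ _ _ _ _ _ (hb _) (ha _) (pl j) (pl _) (sw j)
  unfold nX at hn
  have k0 := allR_iff.1 hc _ (mem_PM _ _ _ _ _ (hb 0) (ha 0) (pl 0))
  have k1 := allR_iff.1 k0 _ (mm 0)
  simp only [frc_eq] at k1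
  have k2 := allR_iff.1 k1 _ (mm 1)
  have k2 := impR_mp k2 (l2'_of (show (x 0).toNat + (x 1).toNat + (x 2).toNat ≤ 2 by omega))
  have k3 := impR_mp (allR_iff.1 k2 _ (mm 2)) (op 0)
  have k3 := impR_mp k3 (l2'_of (show (x 0).toNat + (x 1).toNat + (x 2).toNat + (x 3).toNat ≤ 2
    by omega))
  have k4 := impR_mp (allR_iff.1 k3 _ (mm 3)) (op 1)
  have k4 := impR_mp k4 (l2'_of (show (x 0).toNat + (x 1).toNat + (x 2).toNat + (x 3).toNat +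
    (x 4).toNat ≤ 2 by omega))
  have k5 := impR_mp (impR_mp (allR_iff.1 k4 _ (mm 4)) (op 2)) ad
  have k5 := impR_mp k5 (l2'_of (show (x 0).toNat + (x 1).toNat + (x 2).toNat + (x 3).toNat +
    (x 4).toNat + (x 5).toNat ≤ 2 from hn))
  have e6 : codM h + 4096 * codM g = vv (h 0) (g 0) + 4 * vv (h 1) (g 1) + 16 * vv (h 2) (g 2) +
      64 * vv (h 3) (g 3) + 256 * vv (h 4) (g 4) + 1024 * vv (h 5) (g 5) := by
    unfold codM vv; ring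
  rw [e6]
  exact k5

/-! ### The weight -/

/-- some bad slot -/
def bY (x : Fin 6 → Bool) (h g : Fin 6 → Fin 4) : Bool := decide (nB x h g ≠ 0)

theorem bS_le (x : Fin 6 → Bool) (h g : Fin 6 → Fin 4) (j : Fin 6) : bS x h g j ≤ (x j).toNat := by
  unfold bS bb
  have h1 : Nat.land (Nat.shiftRight BT (Nat.add (tt (x j) (h j) (g j)) (Nat.add (Nat.mul 8
      (ss (x (j + 5)) (h (j + 5)) (g (j + 5)))) (ss (x (j + 1)) (h (j + 1)) (g (j + 1)))))) 1 ≤ 1 :=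
    Nat.and_le_right
  cases hx : x j
  · have h2 : tt false (h j) (g j) = 0 := rfl
    rw [h2]
    have h3 : ∀ s ≤ 4, ∀ s' ≤ 4, Nat.land (Nat.shiftRight BT (Nat.add 0 (Nat.add (Nat.mul 8 s) s'))) 1 = 0 := by
      decide
    have h4 : ∀ (x : Bool) (h g : Fin 4), ss x h g ≤ 4 := by decide
    rw [h3 _ (h4 _ _ _) _ (h4 _ _ _)]
    exact Nat.zero_le _
  · rw [hx] at h1
    exact h1

theorem nB_le (x : Fin 6 → Bool) (h g : Fin 6 → Fin 4) : nB x h g ≤ nX x := by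
  unfold nB nX
  have h0 := bS_le x h g 0
  have h1 := bS_le x h g 1
  have h2 := bS_le x h g 2
  have h3 := bS_le x h g 3
  have h4 := bS_le x h g 4
  have h5 := bS_le x h g 5
  omega

theorem rIx_eq' (x : Fin 6 → Bool) (h g : Fin 6 → Fin 4) (hn : nX x ≤ 2) :
    rIx (nX x + 16 * nB x h g) = ri (nX x) (bY x h g) := by
  have hle := nB_le x h g
  unfold bY
  generalize nB x h g = k at hle ⊢
  generalize nX x = n at hn hle ⊢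
  have : ∀ n < 3, ∀ k < 3, k ≤ n → rIx (n + 16 * k) = ri n (decide (k ≠ 0)) := by decide
  exact this n (by omega) k (by omega) hle

theorem bY_nX {x : Fin 6 → Bool} {h g : Fin 6 → Fin 4} (hb : bY x h g = true) : 1 ≤ nX x := by
  unfold bY at hb
  have := of_decide_eq_true hb
  have := nB_le x h g
  omega

theorem bS_zero {x : Fin 6 → Bool} {h g : Fin 6 → Fin 4} (hb : bY x h g = false) (j : Fin 6) :
    bS x h g j = 0 := by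
  unfold bY at hb
  rw [decide_eq_false_iff_not, not_not] at hb
  unfold nB at hb
  have c6 : ∀ j : Fin 6, j = 0 ∨ j = 1 ∨ j = 2 ∨ j = 3 ∨ j = 4 ∨ j = 5 := by decide
  rcases c6 j with rfl | rfl | rfl | rfl | rfl | rfl <;> omega

/-! ### What a slot which is not bad says -/

theorem ss_le : ∀ (x : Bool) (h g : Fin 4), ss x h g ≤ 4 := by decide

theorem out1 {x : Fin 6 → Bool} {h g : Fin 6 → Fin 4} (hb : bY x h g = false) {j : Fin 6}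
    (hx : x j = true) : ¬ (h j = 1 ↔ g j = 1) := by
  intro h1
  have h2 := bS_zero hb j
  have h3 : tt (x j) (h j) (g j) = 64 := by
    rw [hx]; unfold tt; rw [if_neg (by decide), if_pos h1]
  unfold bS at h2
  rw [h3] at h2
  have h4 : ∀ s ≤ 4, ∀ s' ≤ 4, bb 64 s s' ≠ 0 := by decide
  exact h4 _ (ss_le _ _ _) _ (ss_le _ _ _) h2

/-- the exchange at an unflagged neighbour -/
theorem out2 {x : Fin 6 → Bool} {h g : Fin 6 → Fin 4} (hb : bY x h g = false) {j : Fin 6}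
    (hx : x j = true) (h1 : (h j = 0 ∧ g j = 1) ∨ (h j = 1 ∧ g j = 0)) :
    ∃ j', (j' = j + 5 ∨ j' = j + 1) ∧ x j' = false ∧ h j' = g j ∧ g j' = h j := by
  have h2 := bS_zero hb j
  unfold bS at h2
  rw [hx] at h2
  have k0 : ∀ (x : Bool) (h g : Fin 4), ss x h g = 0 → x = false ∧ h = 0 ∧ g = 1 := by decide
  have k1 : ∀ (x : Bool) (h g : Fin 4), ss x h g = 1 → x = false ∧ h = 1 ∧ g = 0 := by decide
  rcases h1 with ⟨h3, h4⟩ | ⟨h3, h4⟩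
  · have h5 : tt true (h j) (g j) = 128 := by rw [h3, h4]; decide
    rw [h5] at h2
    have h6 : ∀ s ≤ 4, ∀ s' ≤ 4, bb 128 s s' = 0 → s = 1 ∨ s' = 1 := by decide
    rcases h6 _ (ss_le _ _ _) _ (ss_le _ _ _) h2 with h7 | h7
    · obtain ⟨a1, a2, a3⟩ := k1 _ _ _ h7
      exact ⟨j + 5, Or.inl rfl, a1, a2.trans h4.symm, a3.trans h3.symm⟩
    · obtain ⟨a1, a2, a3⟩ := k1 _ _ _ h7
      exact ⟨j + 1, Or.inr rfl, a1, a2.trans h4.symm, a3.trans h3.symm⟩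
  · have h5 : tt true (h j) (g j) = 192 := by rw [h3, h4]; decide
    rw [h5] at h2
    have h6 : ∀ s ≤ 4, ∀ s' ≤ 4, bb 192 s s' = 0 → s = 0 ∨ s' = 0 := by decide
    rcases h6 _ (ss_le _ _ _) _ (ss_le _ _ _) h2 with h7 | h7
    · obtain ⟨a1, a2, a3⟩ := k0 _ _ _ h7
      exact ⟨j + 5, Or.inl rfl, a1, a2.trans h4.symm, a3.trans h3.symm⟩
    · obtain ⟨a1, a2, a3⟩ := k0 _ _ _ h7
      exact ⟨j + 1, Or.inr rfl, a1, a2.trans h4.symm, a3.trans h3.symm⟩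

/-- some unflagged neighbour does not show the letter `3` -/
theorem out3 {x : Fin 6 → Bool} {h g : Fin 6 → Fin 4} (hb : bY x h g = false) {j : Fin 6}
    (hx : x j = true) (hh : h j ≠ 3) (hg : g j ≠ 3)
    (h5 : x (j + 5) = true ∨ h (j + 5) = 3 ∨ g (j + 5) = 3)
    (h1 : x (j + 1) = true ∨ h (j + 1) = 3 ∨ g (j + 1) = 3) : False := by
  have h2 := bS_zero hb j
  unfold bS at h2
  rw [hx] at h2
  have k24 : ∀ (x : Bool) (h g : Fin 4), (x = true ∨ h = 3 ∨ g = 3) → ss x h g = 2 ∨ ss x h g = 4 := by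
    decide
  have kt : ∀ h g : Fin 4, h ≠ 3 → g ≠ 3 → tt true h g = 64 ∨ tt true h g = 128 ∨
      tt true h g = 192 ∨ tt true h g = 256 := by decide
  have kb : ∀ t s s' : ℕ, (t = 64 ∨ t = 128 ∨ t = 192 ∨ t = 256) → (s = 2 ∨ s = 4) →
      (s' = 2 ∨ s' = 4) → bb t s s' ≠ 0 := by
    rintro t s s' (rfl | rfl | rfl | rfl) (rfl | rfl) (rfl | rfl) <;> decide
  exact kb _ _ _ (kt _ _ hh hg) (k24 _ _ _ h5) (k24 _ _ _ h1) h2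

end Vale.Agent.P032.H987.V2
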