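import Vale.Agent.P032.H987.ExcK2

/-!
# P032: the check of all triples of limit columns (helper987)

Two limit columns `u, v` of one side and one column `w` of the other side, flag at the slot `p`, the
neighbours of `p` are not flagged and show `3` in `u` before `p`, in `v` behind `p`, and `0` otherwise.
-/

set_option linter.style.longLine false

namespace Vale.Agent.P032.H987.V2

open Vale.Agent.P032.H546 (allR allR_iff impR impR_mp andR andR_eq getR frc frc_eq)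

def FU0 : List (ℕ × ℕ × ℕ × ℕ × ℕ × ℕ) :=
  [(0, 0, 0, 0, 0, 0), (1, 1, 0, 0, 0, 1), (2, 2, 0, 0, 0, 2), (0, 4, 1, 0, 1, 0), (1, 5, 1, 0,
    1, 1), (0, 8, 2, 0, 2, 0), (2, 10, 2, 0, 2, 2), (4, 0, 4, 1, 0, 0), (5, 1, 4, 1, 0, 1), (4,
    4, 5, 1, 1, 0), (5, 5, 5, 1, 1, 1), (8, 0, 8, 2, 0, 0), (10, 2, 8, 2, 0, 2), (8, 8, 10, 2, 2,
    0), (10, 10, 10, 2, 2, 2), (16, 16, 16, 0, 0, 0), (17, 17, 16, 0, 0, 1), (18, 18, 16, 0, 0,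
    2), (16, 20, 17, 0, 1, 0), (17, 21, 17, 0, 1, 1), (18, 22, 17, 0, 1, 2), (16, 24, 18, 0, 2,
    0), (17, 25, 18, 0, 2, 1), (18, 26, 18, 0, 2, 2), (20, 16, 20, 1, 0, 0), (21, 17, 20, 1, 0,
    1), (22, 18, 20, 1, 0, 2), (20, 20, 21, 1, 1, 0), (21, 21, 21, 1, 1, 1), (22, 22, 21, 1, 1,
    2), (20, 24, 22, 1, 2, 0), (21, 25, 22, 1, 2, 1), (22, 26, 22, 1, 2, 2), (24, 16, 24, 2, 0,
    0), (25, 17, 24, 2, 0, 1), (26, 18, 24, 2, 0, 2), (24, 20, 25, 2, 1, 0), (25, 21, 25, 2, 1,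
    1), (26, 22, 25, 2, 1, 2), (24, 24, 26, 2, 2, 0), (25, 25, 26, 2, 2, 1), (26, 26, 26, 2, 2,
    2)]

def MI0 : List (ℕ × ℕ × ℕ × ℕ × ℕ × ℕ) :=
  [(16, 16, 16, 0, 0, 0), (17, 17, 16, 0, 0, 1), (18, 18, 16, 0, 0, 2), (16, 20, 17, 0, 1, 0),
    (17, 21, 17, 0, 1, 1), (18, 22, 17, 0, 1, 2), (16, 24, 18, 0, 2, 0), (17, 25, 18, 0, 2, 1),
    (18, 26, 18, 0, 2, 2), (20, 16, 20, 1, 0, 0), (21, 17, 20, 1, 0, 1), (22, 18, 20, 1, 0, 2),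
    (20, 20, 21, 1, 1, 0), (21, 21, 21, 1, 1, 1), (22, 22, 21, 1, 1, 2), (20, 24, 22, 1, 2, 0),
    (21, 25, 22, 1, 2, 1), (22, 26, 22, 1, 2, 2), (24, 16, 24, 2, 0, 0), (25, 17, 24, 2, 0, 1),
    (26, 18, 24, 2, 0, 2), (24, 20, 25, 2, 1, 0), (25, 21, 25, 2, 1, 1), (26, 22, 25, 2, 1, 2),
    (24, 24, 26, 2, 2, 0), (25, 25, 26, 2, 2, 1), (26, 26, 26, 2, 2, 2)]

def FU1 : List (ℕ × ℕ × ℕ × ℕ × ℕ × ℕ) :=
  [(0, 0, 0, 0, 0, 0), (1, 1, 0, 0, 0, 1), (3, 3, 0, 0, 0, 3), (0, 4, 1, 0, 1, 0), (1, 5, 1, 0,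
    1, 1), (0, 8, 2, 0, 2, 0), (4, 0, 4, 1, 0, 0), (5, 1, 4, 1, 0, 1), (4, 4, 5, 1, 1, 0), (5, 5,
    5, 1, 1, 1), (8, 0, 8, 2, 0, 0), (8, 8, 10, 2, 2, 0), (16, 16, 16, 0, 0, 0), (17, 17, 16, 0,
    0, 1), (19, 19, 16, 0, 0, 3), (16, 20, 17, 0, 1, 0), (17, 21, 17, 0, 1, 1), (19, 23, 17, 0,
    1, 3), (16, 24, 18, 0, 2, 0), (17, 25, 18, 0, 2, 1), (19, 27, 18, 0, 2, 3), (20, 16, 20, 1,
    0, 0), (21, 17, 20, 1, 0, 1), (23, 19, 20, 1, 0, 3), (20, 20, 21, 1, 1, 0), (21, 21, 21, 1,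
    1, 1), (23, 23, 21, 1, 1, 3), (20, 24, 22, 1, 2, 0), (21, 25, 22, 1, 2, 1), (23, 27, 22, 1,
    2, 3), (24, 16, 24, 2, 0, 0), (25, 17, 24, 2, 0, 1), (27, 19, 24, 2, 0, 3), (24, 20, 25, 2,
    1, 0), (25, 21, 25, 2, 1, 1), (27, 23, 25, 2, 1, 3), (24, 24, 26, 2, 2, 0), (25, 25, 26, 2,
    2, 1), (27, 27, 26, 2, 2, 3)]

def MI1 : List (ℕ × ℕ × ℕ × ℕ × ℕ × ℕ) :=
  [(16, 16, 16, 0, 0, 0), (17, 17, 16, 0, 0, 1), (16, 20, 17, 0, 1, 0), (17, 21, 17, 0, 1, 1),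
    (16, 24, 18, 0, 2, 0), (17, 25, 18, 0, 2, 1), (20, 16, 20, 1, 0, 0), (21, 17, 20, 1, 0, 1),
    (20, 20, 21, 1, 1, 0), (21, 21, 21, 1, 1, 1), (20, 24, 22, 1, 2, 0), (21, 25, 22, 1, 2, 1),
    (24, 16, 24, 2, 0, 0), (25, 17, 24, 2, 0, 1), (24, 20, 25, 2, 1, 0), (25, 21, 25, 2, 1, 1),
    (24, 24, 26, 2, 2, 0), (25, 25, 26, 2, 2, 1)]

def FU2 : List (ℕ × ℕ × ℕ × ℕ × ℕ × ℕ) :=
  [(0, 0, 0, 0, 0, 0), (1, 1, 0, 0, 0, 1), (2, 2, 0, 0, 0, 2), (0, 4, 1, 0, 1, 0), (1, 5, 1, 0,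
    1, 1), (0, 12, 3, 0, 3, 0), (4, 0, 4, 1, 0, 0), (5, 1, 4, 1, 0, 1), (4, 4, 5, 1, 1, 0), (5,
    5, 5, 1, 1, 1), (12, 0, 12, 3, 0, 0), (12, 12, 15, 3, 3, 0), (16, 16, 16, 0, 0, 0), (17, 17,
    16, 0, 0, 1), (18, 18, 16, 0, 0, 2), (16, 20, 17, 0, 1, 0), (17, 21, 17, 0, 1, 1), (18, 22,
    17, 0, 1, 2), (16, 28, 19, 0, 3, 0), (17, 29, 19, 0, 3, 1), (18, 30, 19, 0, 3, 2), (20, 16,
    20, 1, 0, 0), (21, 17, 20, 1, 0, 1), (22, 18, 20, 1, 0, 2), (20, 20, 21, 1, 1, 0), (21, 21,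
    21, 1, 1, 1), (22, 22, 21, 1, 1, 2), (20, 28, 23, 1, 3, 0), (21, 29, 23, 1, 3, 1), (22, 30,
    23, 1, 3, 2), (28, 16, 28, 3, 0, 0), (29, 17, 28, 3, 0, 1), (30, 18, 28, 3, 0, 2), (28, 20,
    29, 3, 1, 0), (29, 21, 29, 3, 1, 1), (30, 22, 29, 3, 1, 2), (28, 28, 31, 3, 3, 0), (29, 29,
    31, 3, 3, 1), (30, 30, 31, 3, 3, 2)]

def MI2 : List (ℕ × ℕ × ℕ × ℕ × ℕ × ℕ) :=
  [(16, 16, 16, 0, 0, 0), (17, 17, 16, 0, 0, 1), (18, 18, 16, 0, 0, 2), (16, 20, 17, 0, 1, 0),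
    (17, 21, 17, 0, 1, 1), (18, 22, 17, 0, 1, 2), (20, 16, 20, 1, 0, 0), (21, 17, 20, 1, 0, 1),
    (22, 18, 20, 1, 0, 2), (20, 20, 21, 1, 1, 0), (21, 21, 21, 1, 1, 1), (22, 22, 21, 1, 1, 2)]

def FU3 : List (ℕ × ℕ × ℕ × ℕ × ℕ × ℕ) :=
  [(0, 0, 0, 0, 0, 0), (1, 1, 0, 0, 0, 1), (3, 3, 0, 0, 0, 3), (0, 4, 1, 0, 1, 0), (1, 5, 1, 0,
    1, 1), (0, 12, 3, 0, 3, 0), (3, 15, 3, 0, 3, 3), (4, 0, 4, 1, 0, 0), (5, 1, 4, 1, 0, 1), (4,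
    4, 5, 1, 1, 0), (5, 5, 5, 1, 1, 1), (12, 0, 12, 3, 0, 0), (15, 3, 12, 3, 0, 3), (12, 12, 15,
    3, 3, 0), (15, 15, 15, 3, 3, 3), (16, 16, 16, 0, 0, 0), (17, 17, 16, 0, 0, 1), (19, 19, 16,
    0, 0, 3), (16, 20, 17, 0, 1, 0), (17, 21, 17, 0, 1, 1), (19, 23, 17, 0, 1, 3), (16, 28, 19,
    0, 3, 0), (17, 29, 19, 0, 3, 1), (19, 31, 19, 0, 3, 3), (20, 16, 20, 1, 0, 0), (21, 17, 20,
    1, 0, 1), (23, 19, 20, 1, 0, 3), (20, 20, 21, 1, 1, 0), (21, 21, 21, 1, 1, 1), (23, 23, 21,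
    1, 1, 3), (20, 28, 23, 1, 3, 0), (21, 29, 23, 1, 3, 1), (23, 31, 23, 1, 3, 3), (28, 16, 28,
    3, 0, 0), (29, 17, 28, 3, 0, 1), (31, 19, 28, 3, 0, 3), (28, 20, 29, 3, 1, 0), (29, 21, 29,
    3, 1, 1), (31, 23, 29, 3, 1, 3), (28, 28, 31, 3, 3, 0), (29, 29, 31, 3, 3, 1), (31, 31, 31,
    3, 3, 3)]

def MI3 : List (ℕ × ℕ × ℕ × ℕ × ℕ × ℕ) :=
  [(16, 16, 16, 0, 0, 0), (17, 17, 16, 0, 0, 1), (16, 20, 17, 0, 1, 0), (17, 21, 17, 0, 1, 1),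
    (20, 16, 20, 1, 0, 0), (21, 17, 20, 1, 0, 1), (20, 20, 21, 1, 1, 0), (21, 21, 21, 1, 1, 1)]


def FU (y y' : Bool) : List (ℕ × ℕ × ℕ × ℕ × ℕ × ℕ) :=
  match y, y' with
  | true, true => FU0 | true, false => FU1 | false, true => FU2 | false, false => FU3

def MI (y y' : Bool) : List (ℕ × ℕ × ℕ × ℕ × ℕ × ℕ) :=
  match y, y' with
  | true, true => MI0 | true, false => MI1 | false, true => MI2 | false, false => MI3

def LE (y : Bool) : List (ℕ × ℕ × ℕ × ℕ × ℕ × ℕ) :=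
  match y with
  | true => [] | false => [(12, 0, 12, 3, 0, 0)]

def RI (y : Bool) : List (ℕ × ℕ × ℕ × ℕ × ℕ × ℕ) :=
  match y with
  | true => [] | false => [(0, 12, 3, 0, 3, 0)]

def q3 (x : Bool) (u v w : Fin 4) : ℕ × ℕ × ℕ × ℕ × ℕ × ℕ :=
  (cc u w x, cc v w x, cc u v x, u.val, v.val, w.val)

instance dec6 : DecidableEq (ℕ × ℕ × ℕ × ℕ × ℕ × ℕ) := inferInstance

instance memDec6 (q : ℕ × ℕ × ℕ × ℕ × ℕ × ℕ) (l : List (ℕ × ℕ × ℕ × ℕ × ℕ × ℕ)) :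
    Decidable (q ∈ l) := inferInstance

noncomputable def adT (q q' : ℕ × ℕ × ℕ × ℕ × ℕ × ℕ) : Bool :=
  andR (adM q.1 q'.1) (andR (adM q.2.1 q'.2.1) (adM q.2.2.1 q'.2.2.1))

noncomputable def opT (q q' : ℕ × ℕ × ℕ × ℕ × ℕ × ℕ) : Bool :=
  andR (opM q.1 q'.1) (andR (opM q.2.1 q'.2.1) (opM q.2.2.1 q'.2.2.1))

/-- the place value -/
def pw (p i : ℕ) : ℕ := Nat.pow 4 (Nat.mod (Nat.add p i) 6)

noncomputable def ckT (p : Fin 6) (za zb : Fin 6 → Bool) (F : ℕ → ℕ → ℕ → ℕ → Bool) : Bool :=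
  allR (fun q0 => allR (fun q1 => impR (adT q0 q1) (allR (fun q2 => impR (adT q1 q2) (
  allR (fun q3 => impR (opT q0 q3) (impR (adT q2 q3) (
  allR (fun q4 => impR (opT q1 q4) (impR (adT q3 q4) (
  allR (fun q5 => impR (opT q2 q5) (impR (adT q4 q5) (impR (adT q5 q0) (
    frc (Nat.add (Nat.add (Nat.add (Nat.add (Nat.add (Nat.div q0.1 16) (Nat.div q1.1 16))
      (Nat.div q2.1 16)) (Nat.div q3.1 16)) (Nat.div q4.1 16)) (Nat.div q5.1 16)) fun n =>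
    impR (l2' n) (
    frc (Nat.add (Nat.add (Nat.add (Nat.add (Nat.add (Nat.mul q0.2.2.2.1 (pw p.val 5))
      (Nat.mul q1.2.2.2.1 (pw p.val 0))) (Nat.mul q2.2.2.2.1 (pw p.val 1)))
      (Nat.mul q3.2.2.2.1 (pw p.val 2))) (Nat.mul q4.2.2.2.1 (pw p.val 3)))
      (Nat.mul q5.2.2.2.1 (pw p.val 4))) fun U =>
    frc (Nat.add (Nat.add (Nat.add (Nat.add (Nat.add (Nat.mul q0.2.2.2.2.1 (pw p.val 5))
      (Nat.mul q1.2.2.2.2.1 (pw p.val 0))) (Nat.mul q2.2.2.2.2.1 (pw p.val 1)))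
      (Nat.mul q3.2.2.2.2.1 (pw p.val 2))) (Nat.mul q4.2.2.2.2.1 (pw p.val 3)))
      (Nat.mul q5.2.2.2.2.1 (pw p.val 4))) fun V =>
    frc (Nat.add (Nat.add (Nat.add (Nat.add (Nat.add (Nat.mul q0.2.2.2.2.2 (pw p.val 5))
      (Nat.mul q1.2.2.2.2.2 (pw p.val 0))) (Nat.mul q2.2.2.2.2.2 (pw p.val 1)))
      (Nat.mul q3.2.2.2.2.2 (pw p.val 2))) (Nat.mul q4.2.2.2.2.2 (pw p.val 3)))
      (Nat.mul q5.2.2.2.2.2 (pw p.val 4))) fun W => F U V W n)))))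
  (FU (za (p + 4)) (zb (p + 4)))))) (FU (za (p + 3)) (zb (p + 3)))))) (FU (za (p + 2)) (zb (p + 2)))))
  (RI (za (p + 1))))) (MI (za p) (zb p))) (LE (za (p + 5)))

noncomputable def ckTT (za zb : Fin 6 → Bool) (F : ℕ → ℕ → ℕ → ℕ → Bool) : Bool :=
  allR (fun p => ckT p za zb F) [0, 1, 2, 3, 4, 5]

theorem mem_FU : ∀ (y y' x : Bool) (u v w : Fin 4), ZL y u → ZL y v → ZL y' w → PlM x u w →
    PlM x v w → PlM x u v → q3 x u v w ∈ FU y y' := by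
  intro y y' x
  cases y <;> cases y' <;> cases x <;> decide +kernel

theorem mem_MI : ∀ (y y' : Bool) (u v w : Fin 4), ZL y u → ZL y v → ZL y' w → u ≠ 3 → v ≠ 3 →
    w ≠ 3 → q3 true u v w ∈ MI y y' := by
  intro y y'
  cases y <;> cases y' <;> decide +kernel

theorem mem_LE : ∀ (y : Bool), ZL y 3 → q3 false 3 0 0 ∈ LE y := by decide

theorem mem_RI : ∀ (y : Bool), ZL y 3 → q3 false 0 3 0 ∈ RI y := by decide

theorem dv : ∀ (x : Bool) (u w : Fin 4), cc u w x / 16 = x.toNat := by decide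

/-- the pattern -/
structure Pat (x : Fin 6 → Bool) (u v w : Fin 6 → Fin 4) (p : Fin 6) : Prop where
  x5 : x (p + 5) = false
  x0 : x p = true
  x1 : x (p + 1) = false
  u5 : u (p + 5) = 3
  v5 : v (p + 5) = 0
  w5 : w (p + 5) = 0
  u1 : u (p + 1) = 0
  v1 : v (p + 1) = 3
  w1 : w (p + 1) = 0
  u0 : u p ≠ 3
  v0 : v p ≠ 3
  w0 : w p ≠ 3

theorem cod_rot (u : Fin 6 → Fin 4) (p : Fin 6) :
    (u (p + 5)).val * pw p.val 5 + (u p).val * pw p.val 0 + (u (p + 1)).val * pw p.val 1 +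
      (u (p + 2)).val * pw p.val 2 + (u (p + 3)).val * pw p.val 3 + (u (p + 4)).val * pw p.val 4 =
    codM u := by
  have c6 : ∀ j : Fin 6, j = 0 ∨ j = 1 ∨ j = 2 ∨ j = 3 ∨ j = 4 ∨ j = 5 := by decide
  unfold codM
  rcases c6 p with rfl | rfl | rfl | rfl | rfl | rfl
  · show (u 5).val * 1024 + (u 0).val * 1 + (u 1).val * 4 + (u 2).val * 16 + (u 3).val * 64 + (u 4).val * 256 = _
    ring
  · show (u 0).val * 1 + (u 1).val * 4 + (u 2).val * 16 + (u 3).val * 64 + (u 4).val * 256 + (u 5).val * 1024 = _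
    ring
  · show (u 1).val * 4 + (u 2).val * 16 + (u 3).val * 64 + (u 4).val * 256 + (u 5).val * 1024 + (u 0).val * 1 = _
    ring
  · show (u 2).val * 16 + (u 3).val * 64 + (u 4).val * 256 + (u 5).val * 1024 + (u 0).val * 1 + (u 1).val * 4 = _
    ring
  · show (u 3).val * 64 + (u 4).val * 256 + (u 5).val * 1024 + (u 0).val * 1 + (u 1).val * 4 + (u 2).val * 16 = _
    ring
  · show (u 4).val * 256 + (u 5).val * 1024 + (u 0).val * 1 + (u 1).val * 4 + (u 2).val * 16 + (u 3).val * 64 = _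
    ring

theorem nX_rot (x : Fin 6 → Bool) (p : Fin 6) :
    (x (p + 5)).toNat + (x p).toNat + (x (p + 1)).toNat + (x (p + 2)).toNat + (x (p + 3)).toNat +
      (x (p + 4)).toNat = nX x := by
  have c6 : ∀ j : Fin 6, j = 0 ∨ j = 1 ∨ j = 2 ∨ j = 3 ∨ j = 4 ∨ j = 5 := by decide
  unfold nX
  rcases c6 p with rfl | rfl | rfl | rfl | rfl | rfl
  · show (x 5).toNat + (x 0).toNat + (x 1).toNat + (x 2).toNat + (x 3).toNat + (x 4).toNat = _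
    ring
  · show (x 0).toNat + (x 1).toNat + (x 2).toNat + (x 3).toNat + (x 4).toNat + (x 5).toNat = _
    ring
  · show (x 1).toNat + (x 2).toNat + (x 3).toNat + (x 4).toNat + (x 5).toNat + (x 0).toNat = _
    ring
  · show (x 2).toNat + (x 3).toNat + (x 4).toNat + (x 5).toNat + (x 0).toNat + (x 1).toNat = _
    ring
  · show (x 3).toNat + (x 4).toNat + (x 5).toNat + (x 0).toNat + (x 1).toNat + (x 2).toNat = _
    ring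
  · show (x 4).toNat + (x 5).toNat + (x 0).toNat + (x 1).toNat + (x 2).toNat + (x 3).toNat = _
    ring

theorem ckT_sound {za zb : Fin 6 → Bool} {F : ℕ → ℕ → ℕ → ℕ → Bool}
    (hc : ckTT za zb F = true) {x : Fin 6 → Bool} {u v w : Fin 6 → Fin 4} {p : Fin 6}
    (hu : ∀ j, ZL (za j) (u j)) (hv : ∀ j, ZL (za j) (v j)) (hw : ∀ j, ZL (zb j) (w j))
    (t1 : EvM x u w) (t2 : EvM x v w) (t3 : EvM x u v) (hn : nX x ≤ 2) (P : Pat x u v w p) :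
    F (codM u) (codM v) (codM w) (nX x) = true := by
  have hp : p ∈ ([0, 1, 2, 3, 4, 5] : List (Fin 6)) := by
    have : ∀ p : Fin 6, p ∈ ([0, 1, 2, 3, 4, 5] : List (Fin 6)) := by decide
    exact this p
  have hc := allR_iff.1 hc p hp
  have pl : ∀ j, q3 (x j) (u j) (v j) (w j) ∈ FU (za j) (zb j) := fun j =>
    mem_FU _ _ _ _ _ _ (hu j) (hv j) (hw j) (fun h => t1.pl j h) (fun h => t2.pl j h)
      (fun h => t3.pl j h)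
  have ad : ∀ j, adT (q3 (x j) (u j) (v j) (w j))
      (q3 (x (j + 1)) (u (j + 1)) (v (j + 1)) (w (j + 1))) = true := fun j => by
    unfold adT q3
    rw [andR_eq, andR_eq]
    exact ⟨adM_of _ _ _ _ _ _ (fun h => t1.pl j h) (fun h => t1.pl _ h) ⟨t1.adj j, t1.adj' j, t1.sw j⟩,
      adM_of _ _ _ _ _ _ (fun h => t2.pl j h) (fun h => t2.pl _ h) ⟨t2.adj j, t2.adj' j, t2.sw j⟩,
      adM_of _ _ _ _ _ _ (fun h => t3.pl j h) (fun h => t3.pl _ h) ⟨t3.adj j, t3.adj' j, t3.sw j⟩⟩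
  have op : ∀ j, opT (q3 (x j) (u j) (v j) (w j))
      (q3 (x (j + 3)) (u (j + 3)) (v (j + 3)) (w (j + 3))) = true := fun j => by
    have e : j + 3 + 3 = j := by rw [add_assoc]; exact add_zero j
    unfold opT q3
    rw [andR_eq, andR_eq]
    refine ⟨opM_of _ _ _ _ _ _ (t1.opp j) fun h1 h2 => t1.opp (j + 3) h1 ?_,
      opM_of _ _ _ _ _ _ (t2.opp j) fun h1 h2 => t2.opp (j + 3) h1 ?_,
      opM_of _ _ _ _ _ _ (t3.opp j) fun h1 h2 => t3.opp (j + 3) h1 ?_⟩ <;> rwa [e]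
  have ad' : ∀ i i' : Fin 6, i' = i + 1 → adT (q3 (x i) (u i) (v i) (w i))
      (q3 (x i') (u i') (v i') (w i')) = true := fun i i' h => by rw [h]; exact ad i
  have op' : ∀ i i' : Fin 6, i' = i + 3 → opT (q3 (x i) (u i) (v i) (w i))
      (q3 (x i') (u i') (v i') (w i')) = true := fun i i' h => by rw [h]; exact op i
  have f1 : ∀ p : Fin 6, p = p + 5 + 1 ∧ p + 1 = p + 1 ∧ p + 2 = p + 1 + 1 ∧ p + 3 = p + 2 + 1 ∧
      p + 4 = p + 3 + 1 ∧ p + 5 = p + 4 + 1 ∧ p + 2 = p + 5 + 3 ∧ p + 3 = p + 3 ∧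
      p + 4 = p + 1 + 3 := by decide
  obtain ⟨g1, g2, g3, g4, g5, g6, g7, g8, g9⟩ := f1 p
  have m0 : q3 (x (p + 5)) (u (p + 5)) (v (p + 5)) (w (p + 5)) ∈ LE (za (p + 5)) := by
    have h1 := hu (p + 5)
    rw [P.u5] at h1
    rw [P.x5, P.u5, P.v5, P.w5]
    exact mem_LE _ h1
  have m1 : q3 (x p) (u p) (v p) (w p) ∈ MI (za p) (zb p) := by
    rw [P.x0]
    exact mem_MI _ _ _ _ _ (hu p) (hv p) (hw p) P.u0 P.v0 P.w0
  have m2 : q3 (x (p + 1)) (u (p + 1)) (v (p + 1)) (w (p + 1)) ∈ RI (za (p + 1)) := by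
    have h1 := hv (p + 1)
    rw [P.v1] at h1
    rw [P.x1, P.u1, P.v1, P.w1]
    exact mem_RI _ h1
  have k0 := allR_iff.1 hc _ m0
  have k1 := impR_mp (allR_iff.1 k0 _ m1) (ad' _ _ g1)
  have k2 := impR_mp (allR_iff.1 k1 _ m2) (ad' _ _ g2)
  have k3 := impR_mp (impR_mp (allR_iff.1 k2 _ (pl (p + 2))) (op' _ _ g7)) (ad' _ _ g3)
  have k4 := impR_mp (impR_mp (allR_iff.1 k3 _ (pl (p + 3))) (op' _ _ g8)) (ad' _ _ g4)
  have k5 := impR_mp (impR_mp (impR_mp (allR_iff.1 k4 _ (pl (p + 4))) (op' _ _ g9)) (ad' _ _ g5))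
    (ad' _ _ g6)
  simp only [frc_eq] at k5
  have e1 : Nat.add (Nat.add (Nat.add (Nat.add (Nat.add (Nat.div (cc (u (p + 5)) (w (p + 5)) (x (p + 5))) 16)
      (Nat.div (cc (u p) (w p) (x p)) 16)) (Nat.div (cc (u (p + 1)) (w (p + 1)) (x (p + 1))) 16))
      (Nat.div (cc (u (p + 2)) (w (p + 2)) (x (p + 2))) 16))
      (Nat.div (cc (u (p + 3)) (w (p + 3)) (x (p + 3))) 16))
      (Nat.div (cc (u (p + 4)) (w (p + 4)) (x (p + 4))) 16) = nX x := by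
    show cc _ _ _ / 16 + cc _ _ _ / 16 + cc _ _ _ / 16 + cc _ _ _ / 16 + cc _ _ _ / 16 +
      cc _ _ _ / 16 = _
    rw [dv, dv, dv, dv, dv, dv]
    exact nX_rot x p
  have eU := cod_rot u p
  have eV := cod_rot v p
  have eW := cod_rot w p
  have k6 : impR (l2' (Nat.add (Nat.add (Nat.add (Nat.add (Nat.add
      (Nat.div (cc (u (p + 5)) (w (p + 5)) (x (p + 5))) 16)
      (Nat.div (cc (u p) (w p) (x p)) 16)) (Nat.div (cc (u (p + 1)) (w (p + 1)) (x (p + 1))) 16))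
      (Nat.div (cc (u (p + 2)) (w (p + 2)) (x (p + 2))) 16))
      (Nat.div (cc (u (p + 3)) (w (p + 3)) (x (p + 3))) 16))
      (Nat.div (cc (u (p + 4)) (w (p + 4)) (x (p + 4))) 16)))
      (F ((u (p + 5)).val * pw p.val 5 + (u p).val * pw p.val 0 + (u (p + 1)).val * pw p.val 1 +
      (u (p + 2)).val * pw p.val 2 + (u (p + 3)).val * pw p.val 3 + (u (p + 4)).val * pw p.val 4)
      ((v (p + 5)).val * pw p.val 5 + (v p).val * pw p.val 0 + (v (p + 1)).val * pw p.val 1 +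
      (v (p + 2)).val * pw p.val 2 + (v (p + 3)).val * pw p.val 3 + (v (p + 4)).val * pw p.val 4)
      ((w (p + 5)).val * pw p.val 5 + (w p).val * pw p.val 0 + (w (p + 1)).val * pw p.val 1 +
      (w (p + 2)).val * pw p.val 2 + (w (p + 3)).val * pw p.val 3 + (w (p + 4)).val * pw p.val 4)
      (Nat.add (Nat.add (Nat.add (Nat.add (Nat.add
      (Nat.div (cc (u (p + 5)) (w (p + 5)) (x (p + 5))) 16)
      (Nat.div (cc (u p) (w p) (x p)) 16)) (Nat.div (cc (u (p + 1)) (w (p + 1)) (x (p + 1))) 16))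
      (Nat.div (cc (u (p + 2)) (w (p + 2)) (x (p + 2))) 16))
      (Nat.div (cc (u (p + 3)) (w (p + 3)) (x (p + 3))) 16))
      (Nat.div (cc (u (p + 4)) (w (p + 4)) (x (p + 4))) 16))) = true := k5
  rw [e1, eU, eV, eW] at k6
  exact impR_mp k6 (l2'_of hn)

/-! ### The tests -/

/-- two columns of the left side -/
noncomputable def fL (C1 C2 R : ℕ) (cu cv cw n : ℕ) : Bool :=
  impR (Nat.beq (lk C1 cu) (lk C1 cv)) (rl R (Nat.add n 2) (lk C1 cu) (lk C2 cw))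

/-- two columns of the right side -/
noncomputable def fR (C1 C2 R : ℕ) (cu cv cw n : ℕ) : Bool :=
  impR (Nat.beq (lk C2 cu) (lk C2 cv)) (rl R (Nat.add n 2) (lk C1 cw) (lk C2 cu))

/-- the same, the left columns rotated -/
noncomputable def fLs (C1 C2 R : ℕ) (cu cv cw n : ℕ) : Bool :=
  impR (Nat.beq (lk C1 (rotc cu)) (lk C1 (rotc cv))) (rl R (Nat.add n 2) (lk C1 (rotc cu)) (lk C2 cw))

noncomputable def fRs (C1 C2 R : ℕ) (cu cv cw n : ℕ) : Bool :=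
  impR (Nat.beq (lk C2 cu) (lk C2 cv)) (rl R (Nat.add n 2) (lk C1 (rotc cw)) (lk C2 cu))

end Vale.Agent.P032.H987.V2
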