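import Vale.Agent.P032.H987.ExcD2

/-!
# P032: the events inside a phase, check of all pairs of columns (helper987)
-/

set_option linter.style.longLine false

namespace Vale.Agent.P032.H987.V2

theorem tr0 : ckP (zn 0) (zn 0) (lfT CL0 CL0 TR0) = true := by decide +kernel

theorem tr1 : ckP (zn 1) (zn 1) (lfT CL1 CL1 TR1) = true := by decide +kernel

theorem tr2 : ckP (zn 2) (zn 2) (lfT CL2 CL2 TR2) = true := by decide +kernel

theorem tr3 : ckP (zn 3) (zn 3) (lfT CL3 CL3 TR3) = true := by decide +kernel


end Vale.Agent.P032.H987.V2
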