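import Vale.Agent.P032.H987.ExcD2

/-!
# P032: check of all triples of columns (helper987)
-/

set_option linter.style.longLine false

namespace Vale.Agent.P032.H987.V2

theorem trl0 : ckTT (zn 0) (zn 0) (fL CL0 CL0 TR0) = true := by decide +kernel

theorem trr0 : ckTT (zn 0) (zn 0) (fR CL0 CL0 TR0) = true := by decide +kernel

theorem trl1 : ckTT (zn 1) (zn 1) (fL CL1 CL1 TR1) = true := by decide +kernel

theorem trr1 : ckTT (zn 1) (zn 1) (fR CL1 CL1 TR1) = true := by decide +kernel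

theorem trl2 : ckTT (zn 2) (zn 2) (fL CL2 CL2 TR2) = true := by decide +kernel

theorem trr2 : ckTT (zn 2) (zn 2) (fR CL2 CL2 TR2) = true := by decide +kernel

theorem trl3 : ckTT (zn 3) (zn 3) (fL CL3 CL3 TR3) = true := by decide +kernel

theorem trr3 : ckTT (zn 3) (zn 3) (fR CL3 CL3 TR3) = true := by decide +kernel

theorem mrl0 : ckTT (zn 1) (zn 0) (fL CL1 CL0 MR0) = true := by decide +kernel

theorem mrr0 : ckTT (zn 0) (zn 1) (fR CL1 CL0 MR0) = true := by decide +kernel

theorem srl0 : ckTT (zr 0) (zn 1) (fLs CL0 CL1 SR0) = true := by decide +kernel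

theorem srr0 : ckTT (zn 1) (zr 0) (fRs CL0 CL1 SR0) = true := by decide +kernel

theorem mrl1 : ckTT (zn 2) (zn 1) (fL CL2 CL1 MR1) = true := by decide +kernel

theorem mrr1 : ckTT (zn 1) (zn 2) (fR CL2 CL1 MR1) = true := by decide +kernel

theorem srl1 : ckTT (zr 1) (zn 2) (fLs CL1 CL2 SR1) = true := by decide +kernel

theorem srr1 : ckTT (zn 2) (zr 1) (fRs CL1 CL2 SR1) = true := by decide +kernel

theorem mrl2 : ckTT (zn 3) (zn 2) (fL CL3 CL2 MR2) = true := by decide +kernel

theorem mrr2 : ckTT (zn 2) (zn 3) (fR CL3 CL2 MR2) = true := by decide +kernel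

theorem srl2 : ckTT (zr 2) (zn 3) (fLs CL2 CL3 SR2) = true := by decide +kernel

theorem srr2 : ckTT (zn 3) (zr 2) (fRs CL2 CL3 SR2) = true := by decide +kernel

theorem zrl1 : ckTT (zr 1) (zn 1) (fLs CL1 CL1 ZR1) = true := by decide +kernel

theorem zrr1 : ckTT (zn 1) (zr 1) (fRs CL1 CL1 ZR1) = true := by decide +kernel

theorem zrl2 : ckTT (zr 2) (zn 2) (fLs CL2 CL2 ZR2) = true := by decide +kernel

theorem zrr2 : ckTT (zn 2) (zr 2) (fRs CL2 CL2 ZR2) = true := by decide +kernel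


end Vale.Agent.P032.H987.V2
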