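import Vale.Agent.P032.H987.ExcW2
import Vale.Agent.P032.H987.ExcL
import Vale.Agent.P032.H987.ExcTA2
import Vale.Agent.P032.H987.ExcTB2
import Vale.Agent.P032.H987.ExcTC2

/-!
# P032: one circle in the mode `e` with at most two points of order at least four, neighbours (helper987)

* `exc_E` : an event `e | f` is an exchange with a neighbour of order at most three.
* `exc_K` : a point of order at least four outside the closure of the `cd`-arcs has a neighbour of order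
  at most three outside this closure.
-/

open Set Filter Topology Metric

noncomputable section

namespace Vale.Agent.P032.H987.V2

open Vale.Agent.P032.Six Vale.Agent.P032.S5.H767 Vale.Agent.P032.S5.H122 Vale.Agent.P032.Sweep

theorem tabS : ∀ k < 3, ∃ C0 C1 T0 T1 M S P Q, TabS k C0 C1 T0 T1 M S P Q := by
  intro k hk
  interval_cases k
  · exact ⟨CL0, CL1, TR0, TR1, MR0, SR0, PR0, QR0, ⟨tr0, trl0, trr0⟩, ⟨tr1, trl1, trr1⟩,
      ⟨mr0, mrl0, mrr0⟩, ⟨sr0, srl0, srr0⟩, id0, id1, sp0, pp0, pq0, qq0, fq0⟩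
  · exact ⟨CL1, CL2, TR1, TR2, MR1, SR1, PR1, QR1, ⟨tr1, trl1, trr1⟩, ⟨tr2, trl2, trr2⟩,
      ⟨mr1, mrl1, mrr1⟩, ⟨sr1, srl1, srr1⟩, id1, id2, sp1, pp1, pq1, qq1, fq1⟩
  · exact ⟨CL2, CL3, TR2, TR3, MR2, SR2, PR2, QR2, ⟨tr2, trl2, trr2⟩, ⟨tr3, trl3, trr3⟩,
      ⟨mr2, mrl2, mrr2⟩, ⟨sr2, srl2, srr2⟩, id2, id3, sp2, pp2, pq2, qq2, fq2⟩

theorem tabZ : ∀ k < 3, 0 < k → ∃ C T Z W, TabZ k C T Z W := by
  intro k hk h0
  interval_cases k
  · exact ⟨CL1, TR1, ZR1, WR1, ⟨tr1, trl1, trr1⟩, ⟨zr1, zrl1, zrr1⟩, id1, sw1, ww1, fw1⟩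
  · exact ⟨CL2, TR2, ZR2, WR2, ⟨tr2, trl2, trr2⟩, ⟨zr2, zrl2, zrr2⟩, id2, sw2, ww2, fw2⟩

variable {U : Fin 6 → Set ℂ} {T : ℂ → Set (Fin 6)} {z : ℂ} {a b c d e f : Fin 6} {p q : ℝ}

/-- the directions near a point of the closure of an exact set -/
theorem cl_freq {P : Set (Fin 6)} {s : ℝ} (hy : pt z s ∈ closure (Ex T z P)) {δ : ℝ} (hδ : 0 < δ) :
    ∃ v, |v - s| < δ ∧ v ∈ Lc T z ∧ T (pt z v) = P := by
  set K : Set ℝ := Icc (s - 3) (s + 3) \ Ioo (s - δ) (s + δ) with hK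
  have hKc : IsCompact K := isCompact_Icc.diff isOpen_Ioo
  have hC : IsClosed (pt z '' K) := (hKc.image (continuous_pt z)).isClosed
  have hnot : pt z s ∉ pt z '' K := by
    rintro ⟨v, ⟨hv1, hv2⟩, hv3⟩
    obtain ⟨n, hn⟩ := pt_eq_iff hv3
    have h1 : n = 0 := by
      by_contra hne
      rcases lt_or_gt_of_ne hne with h5 | h5
      · have h7 : (n : ℝ) ≤ -1 := by exact_mod_cast (by omega : n ≤ -1)
        linarith [hv1.1]
      · have h7 : (1 : ℝ) ≤ n := by exact_mod_cast (by omega : 1 ≤ n)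
        linarith [hv1.2]
    rw [h1] at hn
    push_cast at hn
    exact hv2 ⟨by linarith, by linarith⟩
  obtain ⟨w, hw1, hw2⟩ := mem_closure_iff_nhds.1 hy _ (hC.isOpen_compl.mem_nhds hnot)
  obtain ⟨v0, hv0⟩ := S5.H349.exists_pt hw2.1
  -- an angle of `w` in the interval
  obtain ⟨v, hv, hvw⟩ : ∃ v ∈ Icc (s - 3) (s + 3), pt z v = w := by
    refine ⟨v0 - 6 * (round ((v0 - s) / 6) : ℤ), ?_, ?_⟩
    · have h1 := abs_sub_round ((v0 - s) / 6)
      rw [abs_le] at h1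
      constructor <;> linarith [h1.1, h1.2]
    · have h1 := pt_per6 (z := z) (v0 - 6 * ((round ((v0 - s) / 6) : ℤ) : ℝ)) (round ((v0 - s) / 6))
      rw [sub_add_cancel] at h1
      rw [← h1]; exact hv0.symm
  have hvK : v ∈ Ioo (s - δ) (s + δ) := by
    by_contra hcon
    exact hw1 ⟨v, ⟨hv, hcon⟩, hvw⟩
  have hE : pt z v ∈ Ex T z P := by rw [hvw]; exact hw2
  have hT := ex_self hE
  refine ⟨v, abs_lt.2 ⟨by linarith [hvK.1], by linarith [hvK.2]⟩, ?_, hT⟩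
  show ∀ᶠ x in 𝓝 v, T (pt z x) = T (pt z v)
  rw [hT]
  have h1 : Tendsto (pt z) (𝓝 v) (𝓝[sphere z 1] (pt z v)) :=
    tendsto_nhdsWithin_of_tendsto_nhds_of_eventually_within _ (continuous_pt z).continuousAt
      (Eventually.of_forall fun x => dist_pt z x)
  exact h1.eventually hE.2

/-- the letter of an exact `cd`-direction -/
theorem lt_cd (S : CzM U T z a b c d e f) : lt98 a b e f ({c, d} : Set (Fin 6)) = 3 := by
  obtain ⟨⟨ab, ac, ad, ae, af⟩, ⟨bc, bd, be, bf⟩, ⟨cd, ce, cf⟩, ⟨de, df⟩, ef⟩ := S.nd'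
  unfold lt98
  rw [if_neg (by simp only [mem_insert_iff, mem_singleton_iff, not_or]; exact ⟨Ne.symm ce, Ne.symm de⟩),
    if_neg (by simp only [mem_insert_iff, mem_singleton_iff, not_or]; exact ⟨Ne.symm cf, Ne.symm df⟩),
    if_neg (fun h => by
      have h1 : c ∈ ({a, b} : Set (Fin 6)) := by rw [← h]; simp
      rcases h1 with h1 | h1
      · exact ac h1.symm
      · exact bc (by rw [mem_singleton_iff] at h1; exact h1.symm))]

/-- a slot in the closure of the `cd`-arcs shows `3` on one of the sides -/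
theorem shows3 (S : CzM U T z a b c d e f) {φ t : ℝ} {i : Fin 6}
    (hy : qj z φ t i ∈ closure (Ex T z {c, d})) :
    (∃ g ∈ LC (XX T z a b e f φ) t, g ((), i) = 3) ∨ ∃ g ∈ RC (XX T z a b e f φ) t, g ((), i) = 3 := by
  have hcl : ∀ δ > 0, ∃ v, |v - t| < δ ∧ φ + v + (i.val : ℝ) ∈ Oc T z (lt98 a b e f) 3 := by
    intro δ hδ
    obtain ⟨v, h1, h2, h3⟩ := cl_freq (s := φ + t + (i.val : ℝ)) hy hδ
    refine ⟨v - φ - (i.val : ℝ), ?_, ?_, ?_⟩
    · rw [show v - φ - (i.val : ℝ) - t = v - (φ + t + (i.val : ℝ)) by ring]; exact h1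
    · rw [show φ + (v - φ - (i.val : ℝ)) + (i.val : ℝ) = v by ring]; exact h2
    · rw [show φ + (v - φ - (i.val : ℝ)) + (i.val : ℝ) = v by ring, h3]; exact lt_cd S
  have hc : Continuous fun v : ℝ => φ + v + (i.val : ℝ) := by fun_prop
  have hO : IsOpen {v : ℝ | φ + v + (i.val : ℝ) ∈ Oc T z (lt98 a b e f) 3} :=
    (Oc_open z (lt98 a b e f) 3).preimage hc
  by_cases hL : ∃ᶠ v in 𝓝[<] t, φ + v + (i.val : ℝ) ∈ Oc T z (lt98 a b e f) 3
  · exact Or.inl (S.lc_of hL)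
  right
  apply S.rc_of
  intro hR
  rw [not_frequently] at hL
  obtain ⟨r, hr, hsub⟩ := mem_nhdsLT_iff_exists_Ioo_subset.1 hL
  obtain ⟨r', hr', hsub'⟩ := mem_nhdsGT_iff_exists_Ioo_subset.1 hR
  have hr : r < t := hr
  have hr' : t < r' := hr'
  obtain ⟨v, hv1, hv2⟩ := hcl (min (t - r) (r' - t)) (lt_min (by linarith) (by linarith))
  rw [abs_lt] at hv1
  have h5 := min_le_left (t - r) (r' - t)
  have h6 := min_le_right (t - r) (r' - t)
  rcases lt_trichotomy v t with h | h | h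
  · exact hsub ⟨by linarith [hv1.1], h⟩ hv2
  · subst h
    obtain ⟨ε, hε, hb⟩ := Metric.isOpen_iff.1 hO v hv2
    have h7 : v + min (ε / 2) ((r' - v) / 2) ∈ {x : ℝ | φ + x + (i.val : ℝ) ∈ Oc T z (lt98 a b e f) 3} := by
      apply hb
      rw [mem_ball, Real.dist_eq, add_sub_cancel_left, abs_of_pos (lt_min (by linarith) (by linarith))]
      exact lt_of_le_of_lt (min_le_left _ _) (by linarith)
    refine hsub' ⟨?_, ?_⟩ h7
    · have := lt_min (show (0 : ℝ) < ε / 2 by linarith) (show (0 : ℝ) < (r' - v) / 2 by linarith)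
      linarith
    · have := min_le_right (ε / 2) ((r' - v) / 2)
      linarith
  · exact hsub' ⟨h, by linarith [hv1.2]⟩ hv2

/-- a point of the circle in its slot -/
theorem slot_of (p u : ℝ) : ∃ t ∈ Ico (0 : ℝ) 1, ∃ (j : Fin 6) (n : ℤ),
    u = p + t + (j.val : ℝ) + 6 * (n : ℝ) := by
  set t := Int.fract (u - p) with ht
  set N := ⌊u - p⌋ with hN
  have h3 : (N : ℝ) + t = u - p := Int.floor_add_fract _
  set n := N / 6 with hn
  have h5 : 0 ≤ N % 6 := Int.emod_nonneg _ (by norm_num)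
  have h6 : N % 6 < 6 := Int.emod_lt_of_pos _ (by norm_num)
  refine ⟨t, ⟨Int.fract_nonneg _, Int.fract_lt_one _⟩, ⟨(N % 6).toNat, by omega⟩, n, ?_⟩
  have hjv : (((N % 6).toNat : ℕ) : ℤ) = N % 6 := Int.toNat_of_nonneg h5
  have h7 : (((N % 6).toNat : ℕ) : ℝ) = (N : ℝ) - 6 * (n : ℝ) := by
    have h8 : ((((N % 6).toNat : ℕ) : ℤ) : ℝ) = ((N - 6 * n : ℤ) : ℝ) := by
      rw [hjv]; congr 1; omega
    push_cast at h8
    exact h8
  show u = p + t + (((N % 6).toNat : ℕ) : ℝ) + 6 * (n : ℝ)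
  rw [h7]; linarith

/-- **no bad columns** -/
theorem no_bad (S : CzM U T z a b c d e f) (Z : Zn T z a b c d p q) {y1 y2 : ℂ}
    (h2 : ∀ y, dist y z = 1 → 4 ≤ (T y).ncard → y = y1 ∨ y = y2) {t : ℝ} (ht : t ∈ Ico (0 : ℝ) 1)
    {g g' : Unit × Fin 6 → Fin 4} (hg : g ∈ LC (XX T z a b e f p) t)
    (hg' : g' ∈ RC (XX T z a b e f p) t) :
    ¬ Bd (CzM.fl T z p t) (LC (XX T z a b e f p) t) (RC (XX T z a b e f p) t) g g' := by
  classical
  have w := S.sw p
  have hfin : {y | dist y z = 1 ∧ 4 ≤ (T y).ncard}.Finite :=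
    (Set.toFinite ({y1, y2} : Set ℂ)).subset fun y hy => by
      rcases h2 y hy.1 hy.2 with h | h
      · exact Or.inl h
      · exact Or.inr h
  have hcY : ∀ y u j, qj z p u j = y → cY z p y u j = true := fun y u j h => by
    unfold cY; exact decide_eq_true h
  have hsum : ∀ L : List ℝ, L.Pairwise (· < ·) → (∀ u ∈ L, u ∈ Ico (0 : ℝ) 1) →
      sX (CzM.fl T z p) L ≤ 2 := by
    intro L h3 h4
    have h5 := cY_sum (z := z) p y1 L h3 h4
    have h6 := cY_sum (z := z) p y2 L h3 h4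
    have h7 := sX_le2 (fx := CzM.fl T z p) (gx := cY z p y1) (hx := cY z p y2) (fun u j h => by
      obtain ⟨h8, h9⟩ := fl_dist h
      exact (h2 _ h8 h9).imp (hcY _ _ _) (hcY _ _ _)) L
    omega
  choose G0 hG0 using fun s => w.LC_ne s
  choose G1 hG1 using fun s => w.RC_ne s
  have hGu : ∀ s, Function.update G0 t g s ∈ LC (XX T z a b e f p) s := fun s => by
    by_cases hs : s = t
    · subst hs; rw [Function.update_self]; exact hg
    · rw [Function.update_of_ne hs]; exact hG0 s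
  have hGu' : ∀ s, Function.update G1 t g' s ∈ RC (XX T z a b e f p) s := fun s => by
    by_cases hs : s = t
    · subst hs; rw [Function.update_self]; exact hg'
    · rw [Function.update_of_ne hs]; exact hG1 s
  have h3 := turn2 S Z hfin tabS tabZ hGu hGu' hsum t ht
  rw [Function.update_self, Function.update_self] at h3
  exact h3

theorem nb_pt (t : ℝ) (j : Fin 6) : dist (qj z p t (j + 5)) (qj z p t j) = 1 ∧
    dist (qj z p t (j + 1)) (qj z p t j) = 1 := by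
  constructor
  · have h1 := dist_qj_succ z p t (j + 5)
    have e : j + 5 + 1 = j := by rw [add_assoc]; exact add_zero j
    rwa [e] at h1
  · rw [dist_comm]; exact dist_qj_succ z p t j

theorem low_of {t : ℝ} {i : Fin 6} (h : CzM.fl T z p t i = false) : (T (qj z p t i)).ncard ≤ 3 := by
  unfold CzM.fl at h
  rw [decide_eq_false_iff_not] at h
  omega

theorem av_of (S : CzM U T z a b c d e f) {t : ℝ} {g : Unit × Fin 6 → Fin 4}
    (hg : g ∈ LC (XX T z a b e f p) t ∪ RC (XX T z a b e f p) t) (i : Fin 6) :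
    qj z p t i ∈ Lt T z a b c d e f (g ((), i)) := by
  have w := S.sw p
  refine S.mem_Lt ?_
  rcases hg with hg | hg
  · exact w.av_of_LC hg ((), i)
  · exact w.av_of_RC hg ((), i)

/-- **an event `e | f` is an exchange with a neighbour of order at most three** -/
theorem exc_E (S : CzM U T z a b c d e f) (Z : Zn T z a b c d p q) {y1 y2 : ℂ}
    (h2 : ∀ y, dist y z = 1 → 4 ≤ (T y).ncard → y = y1 ∨ y = y2) {u : ℝ}
    (hu : 4 ≤ (T (pt z u)).ncard) {l m : Fin 4}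
    (hl : ∃ᶠ v in 𝓝[<] u, v ∈ Oc T z (lt98 a b e f) l)
    (hm : ∃ᶠ v in 𝓝[>] u, v ∈ Oc T z (lt98 a b e f) m)
    (hlm : (l = 0 ∧ m = 1) ∨ (l = 1 ∧ m = 0)) :
    ∃ X, dist X z = 1 ∧ dist X (pt z u) = 1 ∧ (T X).ncard ≤ 3 ∧ e ∈ T X ∧ f ∈ T X := by
  obtain ⟨t, htI, j, n, hu1⟩ := slot_of p u
  have hpt : pt z u = qj z p t j := by
    show pt z u = pt z (p + t + (j.val : ℝ))
    rw [hu1]
    exact pt_per6 _ n
  have hfl : CzM.fl T z p t j = true := by
    unfold CzM.fl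
    rw [← hpt]
    exact decide_eq_true hu
  obtain ⟨g, hg, hgl⟩ := S.lc_of (φ := p) (t := t) (j := j) (l := l) (by
    refine (tsl (p + (j.val : ℝ) + 6 * (n : ℝ)) t u (by rw [hu1]; ring)).frequently ?_
    refine hl.mono fun v hv => ?_
    have h8 := Oc_per6 n hv
    have e : p + (v - (p + (j.val : ℝ) + 6 * (n : ℝ))) + (j.val : ℝ) = v - 6 * (n : ℝ) := by ring
    rw [e]; exact h8)
  obtain ⟨g', hg', hgm⟩ := S.rc_of (φ := p) (t := t) (j := j) (l := m) (by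
    refine (tsr (p + (j.val : ℝ) + 6 * (n : ℝ)) t u (by rw [hu1]; ring)).frequently ?_
    refine hm.mono fun v hv => ?_
    have h8 := Oc_per6 n hv
    have e : p + (v - (p + (j.val : ℝ) + 6 * (n : ℝ))) + (j.val : ℝ) = v - 6 * (n : ℝ) := by ring
    rw [e]; exact h8)
  have hnb := no_bad S Z h2 htI hg hg'
  have hbY : bY (CzM.fl T z p t) (co g) (co g') = false := by
    cases h3 : bY (CzM.fl T z p t) (co g) (co g')
    · rfl
    · exact absurd (Or.inl h3) hnb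
  obtain ⟨j', hj', hx, e1, e2⟩ := out2 hbY hfl (by
    show (g ((), j) = 0 ∧ g' ((), j) = 1) ∨ (g ((), j) = 1 ∧ g' ((), j) = 0)
    rw [hgl, hgm]; exact hlm)
  have e1 : g ((), j') = m := by rw [← hgm]; exact e1
  have e2 : g' ((), j') = l := by rw [← hgl]; exact e2
  have m1 := av_of S (Or.inl hg) j'
  have m2 := av_of S (Or.inr hg') j'
  rw [e1] at m1
  rw [e2] at m2
  have hd : dist (qj z p t j') (pt z u) = 1 := by
    rw [hpt]
    rcases hj' with rfl | rfl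
    · exact (nb_pt t j).1
    · exact (nb_pt t j).2
  refine ⟨qj z p t j', dist_qj z p t j', hd, low_of hx, ?_⟩
  rcases hlm with ⟨rfl, rfl⟩ | ⟨rfl, rfl⟩
  · exact ⟨m2.2, m1.2⟩
  · exact ⟨m1.2, m2.2⟩

/-- **a neighbour outside the closure of the `cd`-arcs** -/
theorem exc_K (S : CzM U T z a b c d e f) (Z : Zn T z a b c d p q) {y1 y2 : ℂ}
    (h2 : ∀ y, dist y z = 1 → 4 ≤ (T y).ncard → y = y1 ∨ y = y2) {u : ℝ}
    (hu : 4 ≤ (T (pt z u)).ncard) (hy : pt z u ∉ closure (Ex T z {c, d})) :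
    ∃ X, dist X z = 1 ∧ dist X (pt z u) = 1 ∧ (T X).ncard ≤ 3 ∧ X ∉ closure (Ex T z {c, d}) := by
  by_contra hcon
  push Not at hcon
  obtain ⟨t, htI, j, n, hu1⟩ := slot_of p u
  have hpt : pt z u = qj z p t j := by
    show pt z u = pt z (p + t + (j.val : ℝ))
    rw [hu1]
    exact pt_per6 _ n
  have hfl : CzM.fl T z p t j = true := by
    unfold CzM.fl
    rw [← hpt]
    exact decide_eq_true hu
  have w := S.sw p
  obtain ⟨g0, hg0⟩ := w.LC_ne t
  obtain ⟨g1, hg1⟩ := w.RC_ne t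
  -- the letters at the point
  have h3j : ∀ g ∈ LC (XX T z a b e f p) t ∪ RC (XX T z a b e f p) t, g ((), j) ≠ 3 := by
    intro g hg h4
    have h5 := av_of S hg j
    rw [h4] at h5
    exact hy (hpt ▸ h5)
  -- the neighbours
  have side : ∀ i : Fin 6, dist (qj z p t i) (qj z p t j) = 1 → CzM.fl T z p t i = true ∨
      (CzM.fl T z p t i = false ∧ ((∃ g ∈ LC (XX T z a b e f p) t, g ((), i) = 3) ∨
        ∃ g ∈ RC (XX T z a b e f p) t, g ((), i) = 3)) := by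
    intro i hi
    cases hx : CzM.fl T z p t i
    · exact Or.inr ⟨rfl, shows3 S (hcon _ (dist_qj z p t i) (by rw [hpt]; exact hi) (low_of hx))⟩
    · exact Or.inl rfl
  have plain : ∀ i : Fin 6, CzM.fl T z p t i = false →
      ∀ g ∈ LC (XX T z a b e f p) t ∪ RC (XX T z a b e f p) t, g ((), i) = 3 →
      ∀ h ∈ LC (XX T z a b e f p) t ∪ RC (XX T z a b e f p) t, h ((), i) = 3 ∨ h ((), i) = 0 := by
    intro i hi g hg hg3 h hh
    rcases (S.ev hg hh).pl i hi with h4 | h4 | h4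
    · left; rw [← hg3]; exact h4.symm
    · have h4 : g ((), i) = 0 := h4
      rw [hg3] at h4
      exact absurd h4 (by decide)
    · exact Or.inr h4
  have pair : ∀ g ∈ LC (XX T z a b e f p) t, ∀ g' ∈ RC (XX T z a b e f p) t,
      (CzM.fl T z p t (j + 5) = true ∨ g ((), j + 5) = 3 ∨ g' ((), j + 5) = 3) →
      (CzM.fl T z p t (j + 1) = true ∨ g ((), j + 1) = 3 ∨ g' ((), j + 1) = 3) → False := by
    intro g hg g' hg' h5 h6
    have hnb := no_bad S Z h2 htI hg hg'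
    have hbY : bY (CzM.fl T z p t) (co g) (co g') = false := by
      cases h3 : bY (CzM.fl T z p t) (co g) (co g')
      · rfl
      · exact absurd (Or.inl h3) hnb
    exact out3 hbY hfl (h3j g (Or.inl hg)) (h3j g' (Or.inr hg')) h5 h6
  rcases side (j + 5) (nb_pt t j).1 with hA | ⟨xA, ⟨v1, hv1, hA⟩ | ⟨w1, hw1, hA⟩⟩
  · rcases side (j + 1) (nb_pt t j).2 with hB | ⟨xB, ⟨v2, hv2, hB⟩ | ⟨w2, hw2, hB⟩⟩
    · exact pair g0 hg0 g1 hg1 (Or.inl hA) (Or.inl hB)
    · exact pair v2 hv2 g1 hg1 (Or.inl hA) (Or.inr (Or.inl hB))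
    · exact pair g0 hg0 w2 hw2 (Or.inl hA) (Or.inr (Or.inr hB))
  · rcases side (j + 1) (nb_pt t j).2 with hB | ⟨xB, ⟨v2, hv2, hB⟩ | ⟨w2, hw2, hB⟩⟩
    · exact pair v1 hv1 g1 hg1 (Or.inr (Or.inl hA)) (Or.inl hB)
    · -- two columns on the left
      rcases plain (j + 1) xB v2 (Or.inl hv2) hB v1 (Or.inl hv1) with h4 | h4
      · exact pair v1 hv1 g1 hg1 (Or.inr (Or.inl hA)) (Or.inr (Or.inl h4))
      rcases plain (j + 5) xA v1 (Or.inl hv1) hA v2 (Or.inl hv2) with h5 | h5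
      · exact pair v2 hv2 g1 hg1 (Or.inr (Or.inl h5)) (Or.inr (Or.inl hB))
      rcases plain (j + 1) xB v2 (Or.inl hv2) hB g1 (Or.inr hg1) with h6 | h6
      · exact pair v1 hv1 g1 hg1 (Or.inr (Or.inl hA)) (Or.inr (Or.inr h6))
      rcases plain (j + 5) xA v1 (Or.inl hv1) hA g1 (Or.inr hg1) with h7 | h7
      · exact pair v2 hv2 g1 hg1 (Or.inr (Or.inr h7)) (Or.inr (Or.inl hB))
      exact no_bad S Z h2 htI hv1 hg1 (Or.inr (Or.inl ⟨v2, hv2, j, ⟨xA, hfl, xB, hA, h5, h7, h4, hB, h6,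
        h3j v1 (Or.inl hv1), h3j v2 (Or.inl hv2), h3j g1 (Or.inr hg1)⟩⟩))
    · exact pair v1 hv1 w2 hw2 (Or.inr (Or.inl hA)) (Or.inr (Or.inr hB))
  · rcases side (j + 1) (nb_pt t j).2 with hB | ⟨xB, ⟨v2, hv2, hB⟩ | ⟨w2, hw2, hB⟩⟩
    · exact pair g0 hg0 w1 hw1 (Or.inr (Or.inr hA)) (Or.inl hB)
    · exact pair v2 hv2 w1 hw1 (Or.inr (Or.inr hA)) (Or.inr (Or.inl hB))
    · -- two columns on the right
      rcases plain (j + 1) xB w2 (Or.inr hw2) hB w1 (Or.inr hw1) with h4 | h4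
      · exact pair g0 hg0 w1 hw1 (Or.inr (Or.inr hA)) (Or.inr (Or.inr h4))
      rcases plain (j + 5) xA w1 (Or.inr hw1) hA w2 (Or.inr hw2) with h5 | h5
      · exact pair g0 hg0 w2 hw2 (Or.inr (Or.inr h5)) (Or.inr (Or.inr hB))
      rcases plain (j + 1) xB w2 (Or.inr hw2) hB g0 (Or.inl hg0) with h6 | h6
      · exact pair g0 hg0 w1 hw1 (Or.inr (Or.inr hA)) (Or.inr (Or.inl h6))
      rcases plain (j + 5) xA w1 (Or.inr hw1) hA g0 (Or.inl hg0) with h7 | h7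
      · exact pair g0 hg0 w2 hw2 (Or.inr (Or.inl h7)) (Or.inr (Or.inr hB))
      exact no_bad S Z h2 htI hg0 hw1 (Or.inr (Or.inr ⟨w2, hw2, j, ⟨xA, hfl, xB, hA, h5, h7, h4, hB, h6,
        h3j w1 (Or.inr hw1), h3j w2 (Or.inr hw2), h3j g0 (Or.inl hg0)⟩⟩))

end Vale.Agent.P032.H987.V2
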