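import Vale.Agent.P032.H987.ExcK

/-!
# P032: class relations, packed bits (helper987)

* `rl R r i k` : the bit of a relation; `rIx_eq` : the index of the weight of a pair of columns.
* `compB A B C` : the composition of `A` and `B` is contained in `C` (`comp_sound`).
* `walkM` : the states along a chain of prescribed columns.
-/

open Set Filter Topology Metric

namespace Vale.Agent.P032.H987

open Vale.Agent.P032.Six Vale.Agent.P032.S5.H767 Vale.Agent.P032.S5.H122 Vale.Agent.P032.Sweep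
open Vale.Agent.P032.H546 (allR allR_iff impR impR_mp getR frc frc_eq)

def zn (k : ℕ) (j : Fin 6) : Bool := Nat.ble (Nat.succ (Nat.mod j.val 3)) k

def zr (k : ℕ) (j : Fin 6) : Bool := zn k (j + 5)

def lk (C n : ℕ) : ℕ := Nat.land (Nat.shiftRight C (Nat.mul 5 n)) 31

def RT : ℕ :=
  0xfffff4fffffffffffffff43ffffffffffffff210

/-- the index of a weight -/
def rIx (w : ℕ) : ℕ := Nat.land (Nat.shiftRight RT (Nat.mul 4 w)) 15

/-- the bit of a relation -/
def rl (R r i k : ℕ) : Bool :=
  Nat.beq (Nat.land (Nat.shiftRight R (Nat.add (Nat.mul (Nat.add (Nat.mul r 32) i) 32) k)) 1) 1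

/-- the test of a pair -/
noncomputable def lfT (C1 C2 R : ℕ) (a w : ℕ) : Bool :=
  rl R (rIx w) (lk C1 (Nat.mod a 4096)) (lk C2 (Nat.div a 4096))

/-- the code of the rotated column -/
def rotc (n : ℕ) : ℕ := Nat.add (Nat.div n 4) (Nat.mul 1024 (Nat.mod n 4))

/-- the test of a pair, first column rotated -/
noncomputable def lfS (C1 C2 R : ℕ) (a w : ℕ) : Bool :=
  rl R (rIx w) (lk C1 (rotc (Nat.mod a 4096))) (lk C2 (Nat.div a 4096))

/-! ### The weight -/

/-- some flagged slot without the letter `1` on exactly one side -/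
def bX (x : Fin 6 → Bool) (h g : Fin 6 → Fin 4) : Bool :=
  decide (∃ j, x j = true ∧ (h j = 1 ↔ g j = 1))

/-- the index of a state -/
def ri (n : ℕ) (b : Bool) : ℕ := n + (if b = true then 2 else 0)

/-- one bad slot -/
def b1 (h g : Fin 4) (x : Bool) : ℕ := if x = true ∧ (h = 1 ↔ g = 1) then 1 else 0

theorem cw_b1 : ∀ (h g : Fin 4) (x : Bool), cw h g x = x.toNat + 16 * b1 h g x := by decide

theorem b1_le : ∀ (h g : Fin 4) (x : Bool), b1 h g x ≤ x.toNat := by decide

theorem rIx_eq (x : Fin 6 → Bool) (h g : Fin 6 → Fin 4) (hn : nX x ≤ 2) :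
    rIx (wM x h g) = ri (nX x) (bX x h g) := by
  set k := b1 (h 0) (g 0) (x 0) + b1 (h 1) (g 1) (x 1) + b1 (h 2) (g 2) (x 2) +
    b1 (h 3) (g 3) (x 3) + b1 (h 4) (g 4) (x 4) + b1 (h 5) (g 5) (x 5) with hk
  have e : wM x h g = nX x + 16 * k := by
    unfold wM nX
    rw [cw_b1, cw_b1, cw_b1, cw_b1, cw_b1, cw_b1]
    ring
  have hle : k ≤ nX x := by
    unfold nX
    have h0 := b1_le (h 0) (g 0) (x 0)
    have h1 := b1_le (h 1) (g 1) (x 1)
    have h2 := b1_le (h 2) (g 2) (x 2)
    have h3 := b1_le (h 3) (g 3) (x 3)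
    have h4 := b1_le (h 4) (g 4) (x 4)
    have h5 := b1_le (h 5) (g 5) (x 5)
    omega
  have hb : bX x h g = true ↔ k ≠ 0 := by
    unfold bX
    rw [decide_eq_true_iff]
    have g1 : ∀ j, b1 (h j) (g j) (x j) ≠ 0 ↔ (x j = true ∧ (h j = 1 ↔ g j = 1)) := fun j => by
      unfold b1
      split
      · next h' => simp [h']
      · next h' => simp [h']
    constructor
    · rintro ⟨j, hj⟩
      have h2 := (g1 j).2 hj
      have : ∀ j : Fin 6, b1 (h j) (g j) (x j) ≤ k := by
        intro j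
        fin_cases j <;> simp only [hk] <;> (try simp only [Fin.zero_eta, Fin.mk_one, Fin.reduceFinMk]) <;> omega
      have := this j
      omega
    · intro h2
      by_contra hcon
      push Not at hcon
      have g2 : ∀ j, b1 (h j) (g j) (x j) = 0 := fun j => by
        by_contra h3
        have h4 := (g1 j).1 h3
        rcases hcon j h4.1 with ⟨h5, h6⟩ | ⟨h5, h6⟩
        · exact h6 (h4.2.1 h5)
        · exact h5 (h4.2.2 h6)
      apply h2
      rw [hk, g2 0, g2 1, g2 2, g2 3, g2 4, g2 5]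
  rw [e]
  generalize nX x = n at hn hle ⊢
  have hb2 : bX x h g = decide (k ≠ 0) := by
    cases hbx : bX x h g
    · rw [hbx] at hb
      symm
      rw [decide_eq_false_iff_not]
      intro h1
      exact Bool.noConfusion (hb.2 h1)
    · rw [hbx] at hb
      symm
      rw [decide_eq_true_iff]
      exact hb.1 rfl
  rw [hb2]
  clear_value k
  have : ∀ n < 3, ∀ k < 3, k ≤ n → rIx (n + 16 * k) = ri n (decide (k ≠ 0)) := by decide
  exact this n (by omega) k (by omega) hle

/-! ### Bits -/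

theorem bit_eq (X n : ℕ) : Nat.beq (Nat.land (Nat.shiftRight X n) 1) 1 = X.testBit n := by
  have h1 : Nat.land (Nat.shiftRight X n) 1 = X / 2 ^ n % 2 := by
    have h2 : (X >>> n) &&& 1 = (X >>> n) % 2 := Nat.and_one_is_mod _
    show (X >>> n) &&& 1 = _
    rw [h2, Nat.shiftRight_eq_div_pow]
  rw [h1, Nat.testBit_eq_decide_div_mod_eq]
  cases hh : Nat.beq (X / 2 ^ n % 2) 1
  · symm
    rw [decide_eq_false_iff_not]
    exact Nat.ne_of_beq_eq_false hh
  · symm
    rw [decide_eq_true_iff]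
    exact Nat.eq_of_beq_eq_true hh

theorem rl_eq (R r i k : ℕ) : rl R r i k = R.testBit ((r * 32 + i) * 32 + k) := bit_eq _ _

/-- a row -/
def row (R r i : ℕ) : ℕ := Nat.mod (Nat.shiftRight R (Nat.mul (Nat.add (Nat.mul r 32) i) 32)) 4294967296

theorem row_bit {R r i k : ℕ} (hk : k < 32) : (row R r i).testBit k = rl R r i k := by
  have h1 : row R r i = (R >>> ((r * 32 + i) * 32)) % 2 ^ 32 := rfl
  rw [h1, Nat.testBit_mod_two_pow, Nat.testBit_shiftRight, rl_eq]
  simp [hk]

def subB (A B : ℕ) : Bool := Nat.beq (Nat.land A B) A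

theorem subB_bit {A B : ℕ} (h : subB A B = true) {k : ℕ} (hk : A.testBit k = true) :
    B.testBit k = true := by
  have h1 : A &&& B = A := Nat.eq_of_beq_eq_true h
  rw [← h1, Nat.testBit_and, Bool.and_eq_true] at hk
  exact hk.2

def rng : List ℕ := [0, 1, 2, 3, 4, 5, 6, 7, 8, 9, 10, 11, 12, 13, 14, 15, 16, 17, 18, 19, 20, 21,
  22, 23, 24, 25, 26, 27, 28, 29, 30, 31]

theorem mem_rng : ∀ i < 32, i ∈ rng := by decide

/-- sums of states -/
def cmb : List (ℕ × ℕ × ℕ) := [(0, 0, 0), (0, 1, 1), (0, 2, 2), (0, 3, 3), (0, 4, 4), (1, 0, 1),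
  (1, 1, 2), (1, 3, 4), (2, 0, 2), (3, 0, 3), (3, 1, 4), (3, 3, 4), (4, 0, 4)]

theorem mem_cmb : ∀ n < 3, ∀ n' < 3, ∀ b b' : Bool, n + n' ≤ 2 → (b = true → 1 ≤ n) →
    (b' = true → 1 ≤ n') → (ri n b, ri n' b', ri (n + n') (b || b')) ∈ cmb := by
  intro n hn n' hn' b b' h1 h2 h3
  interval_cases n <;> interval_cases n' <;> cases b <;> cases b' <;> revert h1 h2 h3 <;> decide

noncomputable def compB (A B C : ℕ) : Bool :=
  allR (fun t => allR (fun i => allR (fun j => impR (rl A t.1 i j)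
    (subB (row B t.2.1 j) (row C t.2.2 i))) rng) rng) cmb

theorem comp_sound {A B C : ℕ} (h : compB A B C = true) {n n' : ℕ} {b b' : Bool}
    (hn : n + n' ≤ 2) (hb : b = true → 1 ≤ n) (hb' : b' = true → 1 ≤ n') {i j k : ℕ} (hi : i < 32)
    (hj : j < 32) (hk : k < 32) (h1 : rl A (ri n b) i j = true) (h2 : rl B (ri n' b') j k = true) :
    rl C (ri (n + n') (b || b')) i k = true := by
  have m := mem_cmb n (by omega) n' (by omega) b b' hn hb hb'
  have h3 := allR_iff.1 (allR_iff.1 (allR_iff.1 h _ m) i (mem_rng i hi)) j (mem_rng j hj)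
  have h4 := impR_mp h3 h1
  have h5 : (row B (ri n' b') j).testBit k = true := by rw [row_bit hk]; exact h2
  have h6 := subB_bit h4 h5
  rw [← row_bit hk]
  exact h6

theorem sub_sound {A B : ℕ} (h : subB A B = true) {r i k : ℕ} (h1 : rl A r i k = true) :
    rl B r i k = true := by
  rw [rl_eq] at h1 ⊢
  exact subB_bit h h1

/-- the relation without flags is the equality -/
noncomputable def idB (R : ℕ) : Bool :=
  allR (fun i => allR (fun k => impR (rl R 0 i k) (Nat.beq i k)) rng) rng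

theorem id_sound {R : ℕ} (h : idB R = true) {i k : ℕ} (hi : i < 32) (hk : k < 32)
    (h1 : rl R 0 i k = true) : i = k :=
  Nat.eq_of_beq_eq_true (impR_mp (allR_iff.1 (allR_iff.1 h i (mem_rng i hi)) k (mem_rng k hk)) h1)

/-- the final test: only two flags, no bad one -/
noncomputable def finB (R : ℕ) : Bool :=
  allR (fun i => impR (rl R 0 i i) false) rng && allR (fun i => impR (rl R 1 i i) false) rng &&
    (allR (fun i => impR (rl R 3 i i) false) rng && allR (fun i => impR (rl R 4 i i) false) rng)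

theorem fin_sound {R : ℕ} (h : finB R = true) {n : ℕ} {b : Bool} (hn : n ≤ 2)
    (hb : b = true → 1 ≤ n) {i : ℕ} (hi : i < 32) (h1 : rl R (ri n b) i i = true) :
    n = 2 ∧ b = false := by
  unfold finB at h
  rw [Bool.and_eq_true, Bool.and_eq_true, Bool.and_eq_true] at h
  obtain ⟨⟨h0, h1'⟩, h3, h4⟩ := h
  have m := mem_rng i hi
  have k0 : rl R 0 i i = false := by
    cases hh : rl R 0 i i
    · rfl
    · exact (Bool.noConfusion (impR_mp (allR_iff.1 h0 i m) hh))
  have k1 : rl R 1 i i = false := by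
    cases hh : rl R 1 i i
    · rfl
    · exact (Bool.noConfusion (impR_mp (allR_iff.1 h1' i m) hh))
  have k3 : rl R 3 i i = false := by
    cases hh : rl R 3 i i
    · rfl
    · exact (Bool.noConfusion (impR_mp (allR_iff.1 h3 i m) hh))
  have k4 : rl R 4 i i = false := by
    cases hh : rl R 4 i i
    · rfl
    · exact (Bool.noConfusion (impR_mp (allR_iff.1 h4 i m) hh))
  have c : n = 0 ∨ n = 1 ∨ n = 2 := by omega
  cases b
  · rcases c with rfl | rfl | rfl
    · rw [show ri 0 false = 0 from rfl, k0] at h1; exact Bool.noConfusion h1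
    · rw [show ri 1 false = 1 from rfl, k1] at h1; exact Bool.noConfusion h1
    · exact ⟨rfl, rfl⟩
  · rcases c with rfl | rfl | rfl
    · exact absurd (hb rfl) (by omega)
    · rw [show ri 1 true = 3 from rfl, k3] at h1; exact Bool.noConfusion h1
    · rw [show ri 2 true = 4 from rfl, k4] at h1; exact Bool.noConfusion h1

/-! ### Classes of columns -/

/-- the class of a column -/
def ck (C : ℕ) (h : Fin 6 → Fin 4) : ℕ := lk C (codM h)

theorem ck_lt (C : ℕ) (h : Fin 6 → Fin 4) : ck C h < 32 := by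
  unfold ck lk
  have : Nat.land (Nat.shiftRight C (Nat.mul 5 (codM h))) 31 ≤ 31 := Nat.and_le_right
  omega

theorem codM_lt (h : Fin 6 → Fin 4) : codM h < 4096 := by
  unfold codM
  have h0 := (h 0).isLt
  have h1 := (h 1).isLt
  have h2 := (h 2).isLt
  have h3 := (h 3).isLt
  have h4 := (h 4).isLt
  have h5 := (h 5).isLt
  omega

theorem rotc_eq (h : Fin 6 → Fin 4) : rotc (codM h) = codM (fun j => h (j + 1)) := by
  show codM h / 4 + 1024 * (codM h % 4) = _
  unfold codM
  have h0 := (h 0).isLt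
  show _ = (h 1).val + 4 * (h 2).val + 16 * (h 3).val + 64 * (h 4).val + 256 * (h 5).val +
    1024 * (h 0).val
  omega

theorem lfT_iff {C1 C2 R : ℕ} {x : Fin 6 → Bool} {h g : Fin 6 → Fin 4} (hn : nX x ≤ 2)
    (h1 : lfT C1 C2 R (codM h + 4096 * codM g) (wM x h g) = true) :
    rl R (ri (nX x) (bX x h g)) (ck C1 h) (ck C2 g) = true := by
  have hlt := codM_lt h
  unfold lfT at h1
  rw [rIx_eq x h g hn] at h1
  have e1 : Nat.mod (codM h + 4096 * codM g) 4096 = codM h := by
    show (codM h + 4096 * codM g) % 4096 = _; omega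
  have e2 : Nat.div (codM h + 4096 * codM g) 4096 = codM g := by
    show (codM h + 4096 * codM g) / 4096 = _; omega
  rw [e1, e2] at h1
  exact h1

theorem lfS_iff {C1 C2 R : ℕ} {x : Fin 6 → Bool} {h g : Fin 6 → Fin 4} (hn : nX x ≤ 2)
    (h1 : lfS C1 C2 R (codM h + 4096 * codM g) (wM x h g) = true) :
    rl R (ri (nX x) (bX x h g)) (ck C1 fun j => h (j + 1)) (ck C2 g) = true := by
  have hlt := codM_lt h
  unfold lfS at h1
  rw [rIx_eq x h g hn] at h1
  have e1 : Nat.mod (codM h + 4096 * codM g) 4096 = codM h := by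
    show (codM h + 4096 * codM g) % 4096 = _; omega
  have e2 : Nat.div (codM h + 4096 * codM g) 4096 = codM g := by
    show (codM h + 4096 * codM g) / 4096 = _; omega
  rw [e1, e2, rotc_eq] at h1
  exact h1

theorem zl_of_zok {k : ℕ} {h : Fin 6 → Fin 4} (hz : Zok k h) (j : Fin 6) : ZL (zn k j) (h j) := by
  refine ⟨fun h1 => (hz j).1 ?_, fun h1 => (hz j).2 ?_⟩
  · have : Nat.succ (j.val % 3) ≤ k := Nat.ble_eq.mp h1
    omega
  · have : ¬ (Nat.succ (j.val % 3) ≤ k) := fun h2 => by
      have h3 : zn k j = true := Nat.ble_eq.mpr h2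
      rw [h3] at h1; exact Bool.noConfusion h1
    omega

theorem zl_of_rot {k : ℕ} {h : Fin 6 → Fin 4} (hz : Zok k (fun j => h (j + 1))) (j : Fin 6) :
    ZL (zr k j) (h j) := by
  have h1 := zl_of_zok hz (j + 5)
  have e : j + 5 + 1 = j := by rw [add_assoc]; exact add_zero j
  have h1 : ZL (zn k (j + 5)) (h (j + 5 + 1)) := h1
  rw [e] at h1
  exact h1

theorem bX_nX {x : Fin 6 → Bool} {h g : Fin 6 → Fin 4} (hb : bX x h g = true) : 1 ≤ nX x := by
  unfold bX at hb
  obtain ⟨j, hj, -⟩ := of_decide_eq_true hb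
  unfold nX
  have key : (x j).toNat = 1 := by rw [hj]; rfl
  have : ∀ j : Fin 6, (x j).toNat ≤ (x 0).toNat + (x 1).toNat + (x 2).toNat + (x 3).toNat +
      (x 4).toNat + (x 5).toNat := by
    intro j
    fin_cases j <;> (try simp only [Fin.zero_eta, Fin.mk_one, Fin.reduceFinMk]) <;> omega
  have := this j
  omega

end Vale.Agent.P032.H987
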