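import Vale.Agent.P032.H987.ExcR

/-!
# P032: one circle in the mode `e`, the turn (helper987)

* `ChM`, `sweepP` : the sweep with prescribed columns at the special times.
* `walkM` : the states along a phase.
* `CzM.turn` : the whole turn gives a list of times with exactly two flags, none of them bad.
-/

open Set Filter Topology Metric

noncomputable section

namespace Vale.Agent.P032.H987

open Vale.Agent.P032.Six Vale.Agent.P032.S5.H767 Vale.Agent.P032.S5.H122 Vale.Agent.P032.Sweep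
open Vale.Agent.P032.H546 (allR allR_iff impR impR_mp getR frc frc_eq)

/-- chain of prescribed columns -/
def ChM {γ : Type*} (R : γ → γ → Prop) (G G' : ℝ → γ) : List ℝ → γ → γ → Prop
  | [], h, h' => R h h'
  | s :: l, h, h' => R h (G s) ∧ ChM R G G' l (G' s) h'

/-- sweep with a sorted list of special times and prescribed columns -/
theorem sweepP {ι Λ : Type*} {X : ι → Λ → Set ℝ} {Leg : (ι → Λ) → Prop} [Finite ι] [Finite Λ]
    (w : Sw X Leg) {R : (ι → Λ) → (ι → Λ) → Prop} (tr : ∀ h h' h'', R h h' → R h' h'' → R h h'')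
    {G G' : ℝ → ι → Λ} (hG : ∀ s, G s ∈ LC X s) (hG' : ∀ s, G' s ∈ RC X s) {b : ℝ} :
    ∀ (l : List ℝ) (a : ℝ), a < b → l.Pairwise (· < ·) → (∀ s ∈ l, s ∈ Ioo a b) →
    (∀ u ∈ Ioo a b, u ∉ l → ∀ h ∈ LC X u ∪ RC X u, ∀ h' ∈ LC X u ∪ RC X u, R h h') →
    ∀ h ∈ RC X a, ∀ h' ∈ LC X b, ChM R G G' l h h' := by
  intro l
  induction l with
  | nil =>
    intro a hab _ _ loc h hh h' hh'
    exact w.sweep tr hab (fun u hu => loc u hu (List.not_mem_nil)) h hh h' hh'
  | cons s l ih =>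
    intro a hab hs hI loc h hh h' hh'
    have hsI := hI s (List.mem_cons_self)
    have hs2 := List.pairwise_cons.1 hs
    refine ⟨?_, ?_⟩
    · refine w.sweep tr hsI.1 (fun u hu => loc u ⟨hu.1, hu.2.trans hsI.2⟩ ?_) h hh _ (hG s)
      intro hmem
      rcases List.mem_cons.1 hmem with h1 | h1
      · exact absurd hu.2 (by rw [h1]; exact lt_irrefl _)
      · exact absurd (hs2.1 u h1) (not_lt.2 hu.2.le)
    · refine ih s hsI.2 hs2.2 (fun t ht => ⟨hs2.1 t ht, (hI t (List.mem_cons_of_mem _ ht)).2⟩)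
        (fun u hu hnot => ?_) _ (hG' s) h' hh'
      refine loc u ⟨hsI.1.trans hu.1, hu.2⟩ ?_
      intro hmem
      rcases List.mem_cons.1 hmem with h1 | h1
      · exact absurd hu.1 (by rw [h1]; exact lt_irrefl _)
      · exact hnot h1

/-- the column -/
abbrev co (g : Unit × Fin 6 → Fin 4) : Fin 6 → Fin 4 := fun j => g ((), j)

/-- the number of flags of a list of times -/
def sX (fx : ℝ → Fin 6 → Bool) (l : List ℝ) : ℕ := (l.map fun s => nX (fx s)).sum

theorem sX_cons (fx : ℝ → Fin 6 → Bool) (s : ℝ) (l : List ℝ) : sX fx (s :: l) = nX (fx s) + sX fx l := by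
  unfold sX; rw [List.map_cons, List.sum_cons]

theorem sX_append (fx : ℝ → Fin 6 → Bool) (l l' : List ℝ) : sX fx (l ++ l') = sX fx l + sX fx l' := by
  unfold sX; rw [List.map_append, List.sum_append]

/-- **the states along a phase** -/
theorem walkM {C TR P k : ℕ} (hT : ckM (zn k) (zn k) (lfT C C TR) = true)
    (hP : compB P TR P = true) {fx : ℝ → Fin 6 → Bool} {G G' : ℝ → Unit × Fin 6 → Fin 4} {E0 : ℕ}
    (hE : E0 < 32) :
    ∀ (l : List ℝ) (h h' : Unit × Fin 6 → Fin 4) (n : ℕ) (b : Bool),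
    (∀ s ∈ l, EvM (fx s) (co (G s)) (co (G' s))) →
    (∀ s ∈ l, Zok k (co (G s)) ∧ Zok k (co (G' s))) →
    ChM (fun g g' => ck C (co g) = ck C (co g')) G G' l h h' → (b = true → 1 ≤ n) →
    n + sX fx l ≤ 2 → rl P (ri n b) E0 (ck C (co h)) = true →
    ∃ b' : Bool, rl P (ri (n + sX fx l) b') E0 (ck C (co h')) = true ∧
      (b' = true → 1 ≤ n + sX fx l) ∧ (b = true → b' = true) ∧
      ∀ s ∈ l, bX (fx s) (co (G s)) (co (G' s)) = true → b' = true := by
  intro l
  induction l with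
  | nil =>
    intro h h' n b _ _ hc hb hn hr
    have hc : ck C (co h) = ck C (co h') := hc
    refine ⟨b, ?_, ?_, fun h => h, fun s hs => absurd hs List.not_mem_nil⟩
    · show rl P (ri (n + 0) b) E0 _ = true
      rw [add_zero, ← hc]; exact hr
    · intro h1; have := hb h1; omega
  | cons s l ih =>
    rintro h h' n b he hz ⟨h1, h2⟩ hb hn hr
    rw [sX_cons] at hn ⊢
    have hns : nX (fx s) ≤ 2 := by omega
    have h1 : ck C (co h) = ck C (co (G s)) := h1
    have m0 : s ∈ s :: l := List.mem_cons_self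
    have hck := lfT_iff hns (ckM_sound hT (fun j => zl_of_zok (hz s m0).1 j)
      (fun j => zl_of_zok (hz s m0).2 j) (he s m0) hns)
    rw [h1] at hr
    have hcomp := comp_sound hP (n := n) (n' := nX (fx s)) (b := b)
      (b' := bX (fx s) (co (G s)) (co (G' s))) (by omega) hb (fun h => bX_nX h) hE (ck_lt _ _)
      (ck_lt _ _) hr hck
    obtain ⟨b', k1, k2, k3, k4⟩ := ih (G' s) h' (n + nX (fx s))
      (b || bX (fx s) (co (G s)) (co (G' s)))
      (fun t ht => he t (List.mem_cons_of_mem _ ht)) (fun t ht => hz t (List.mem_cons_of_mem _ ht))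
      h2 (fun h3 => by
        rcases Bool.or_eq_true _ _ ▸ h3 with h4 | h4
        · have := hb h4; omega
        · have := bX_nX h4; omega) (by omega) hcomp
    refine ⟨b', ?_, ?_, fun h3 => k3 (by rw [h3]; rfl), fun t ht h3 => ?_⟩
    · rw [← add_assoc]; exact k1
    · intro h3; have := k2 h3; omega
    · rcases List.mem_cons.1 ht with rfl | ht
      · exact k3 (by rw [h3]; exact Bool.or_true _)
      · exact k4 t ht h3

variable {U : Fin 6 → Set ℂ} {T : ℂ → Set (Fin 6)} {z : ℂ} {a b c d e f : Fin 6} {p q : ℝ}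

namespace CzM

/-- the special times in `(0, 1)` are finite in number -/
theorem finite_fl (hfin : {y | dist y z = 1 ∧ 4 ≤ (T y).ncard}.Finite) (φ : ℝ) :
    {u | u ∈ Ioo (0 : ℝ) 1 ∧ ∃ j, fl T z φ u j = true}.Finite := by
  have h1 : {u | u ∈ Ioo (0 : ℝ) 1 ∧ ∃ j, fl T z φ u j = true} ⊆
      ⋃ j : Fin 6, ⋃ y ∈ {y | dist y z = 1 ∧ 4 ≤ (T y).ncard},
        {u | u ∈ Ioo (0 : ℝ) 1 ∧ qj z φ u j = y} := by
    rintro u ⟨hu, j, hj⟩
    exact mem_iUnion.2 ⟨j, mem_iUnion₂.2 ⟨qj z φ u j, ⟨dist_qj z φ u j, of_decide_eq_true hj⟩, hu,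
      rfl⟩⟩
  refine Finite.subset (finite_iUnion fun j => hfin.biUnion fun y _ => ?_) h1
  refine Set.Subsingleton.finite ?_
  rintro u ⟨hu, h1⟩ u' ⟨hu', h2⟩
  obtain ⟨n, hn⟩ := pt_eq_iff (show pt z (φ + u + (j.val : ℝ)) = pt z (φ + u' + (j.val : ℝ)) from
    h1.trans h2.symm)
  have h3 : u = u' + 6 * (n : ℝ) := by linarith
  have h4 : n = 0 := by
    by_contra hne
    rcases lt_or_gt_of_ne hne with h5 | h5
    · have h6 : n ≤ -1 := by omega
      have h7 : (n : ℝ) ≤ -1 := by exact_mod_cast h6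
      linarith [hu.1, hu'.2]
    · have h6 : 1 ≤ n := by omega
      have h7 : (1 : ℝ) ≤ n := by exact_mod_cast h6
      linarith [hu.2, hu'.1]
  rw [h3, h4]; simp

/-- one phase -/
theorem phase (S : CzM U T z a b c d e f) (Z : Zn T z a b c d p q)
    (hfin : {y | dist y z = 1 ∧ 4 ≤ (T y).ncard}.Finite) {C TR k : ℕ}
    (hT : ckM (zn k) (zn k) (lfT C C TR) = true) (hid : idB TR = true) {α β : ℝ}
    (hα : 0 ≤ α) (hβ : β ≤ 1) (hαβ : α < β) (hp : ∀ v ∈ Ioo α β, Ph (q - p) k v)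
    {G G' : ℝ → Unit × Fin 6 → Fin 4} (hG : ∀ s, G s ∈ LC (XX T z a b e f p) s)
    (hG' : ∀ s, G' s ∈ RC (XX T z a b e f p) s)
    {h h' : Unit × Fin 6 → Fin 4} (hh : h ∈ RC (XX T z a b e f p) α)
    (hh' : h' ∈ LC (XX T z a b e f p) β) :
    ∃ l : List ℝ, l.Pairwise (· < ·) ∧
      (∀ u, u ∈ l ↔ u ∈ Ioo α β ∧ ∃ j, fl T z p u j = true) ∧
      ChM (fun g g' => ck C (co g) = ck C (co g')) G G' l h h' ∧
      ∀ s ∈ l, Zok k (co (G s)) ∧ Zok k (co (G' s)) := by
  have w := S.sw p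
  have hfin2 : {u | u ∈ Ioo α β ∧ ∃ j, fl T z p u j = true}.Finite :=
    (finite_fl hfin p).subset fun _ hu => ⟨⟨lt_of_le_of_lt hα hu.1.1, lt_of_lt_of_le hu.1.2 hβ⟩, hu.2⟩
  set F := hfin2.toFinset with hF
  have hmem : ∀ u, u ∈ F ↔ u ∈ Ioo α β ∧ ∃ j, fl T z p u j = true := fun u => by
    rw [hF, Set.Finite.mem_toFinset]; exact Iff.rfl
  have hz : ∀ u ∈ Ioo α β, ∀ g ∈ LC (XX T z a b e f p) u ∪ RC (XX T z a b e f p) u,
      Zok k (co g) := by
    rintro u hu g (hg | hg)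
    · exact CzM.zok_LC Z S hu.1 (fun v hv => hp v ⟨hv.1, hv.2.trans hu.2⟩) hg
    · exact CzM.zok_RC Z S hu.2 (fun v hv => hp v ⟨hu.1.trans hv.1, hv.2⟩) hg
  refine ⟨F.sort (· ≤ ·), (Finset.sortedLT_sort F).pairwise, fun u => by
    rw [Finset.mem_sort]; exact hmem u, ?_, fun s hs => ?_⟩
  · refine sweepP w (fun _ _ _ h1 h2 => h1.trans h2) hG hG' _ α hαβ
      (Finset.sortedLT_sort F).pairwise (fun s hs => ((hmem s).1 ((Finset.mem_sort _).1 hs)).1)
      (fun u hu hnot g hg g' hg' => ?_) h hh h' hh'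
    have h3 : fl T z p u = fun _ => false := by
      funext j
      by_contra hne
      have hne : fl T z p u j = true := by
        cases hx : fl T z p u j
        · exact absurd hx hne
        · rfl
      exact hnot ((Finset.mem_sort _).2 ((hmem u).2 ⟨hu, j, hne⟩))
    have h4 := S.ev hg hg'
    have hn : nX (fl T z p u) ≤ 2 := by rw [h3]; decide
    have h5 := lfT_iff hn (ckM_sound hT (fun j => zl_of_zok (hz u hu _ hg) j)
      (fun j => zl_of_zok (hz u hu _ hg') j) h4 hn)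
    have h6 : ri (nX (fl T z p u)) (bX (fl T z p u) (fun j => g ((), j)) fun j => g' ((), j)) = 0 := by
      rw [h3]
      have : bX (fun _ => false) (fun j => g ((), j)) (fun j => g' ((), j)) = false := by
        unfold bX
        rw [decide_eq_false_iff_not]
        rintro ⟨j, hj, -⟩
        exact Bool.noConfusion hj
      rw [this]; rfl
    rw [h6] at h5
    exact id_sound hid (ck_lt _ _) (ck_lt _ _) h5
  · have hs2 := (hmem s).1 ((Finset.mem_sort _).1 hs)
    exact ⟨hz s hs2.1 _ (Or.inl (hG s)), hz s hs2.1 _ (Or.inr (hG' s))⟩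

end CzM

/-- the tables, zone time inside -/
structure TabS (k C0 C1 T0 T1 M S P Q : ℕ) : Prop where
  t0 : ckM (zn k) (zn k) (lfT C0 C0 T0) = true
  t1 : ckM (zn (k + 1)) (zn (k + 1)) (lfT C1 C1 T1) = true
  m : ckM (zn (k + 1)) (zn k) (lfT C1 C0 M) = true
  s : ckM (zr k) (zn (k + 1)) (lfS C0 C1 S) = true
  i0 : idB T0 = true
  i1 : idB T1 = true
  sp : subB S P = true
  pp : compB P T1 P = true
  pq : compB P M Q = true
  qq : compB Q T0 Q = true
  f : finB Q = true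

/-- the tables, zone time `0` -/
structure TabZ (k C T Z W : ℕ) : Prop where
  t : ckM (zn k) (zn k) (lfT C C T) = true
  z : ckM (zr k) (zn k) (lfS C C Z) = true
  i : idB T = true
  sw : subB Z W = true
  ww : compB W T W = true
  f : finB W = true

namespace CzM

/-- **the turn** -/
theorem turn (S : CzM U T z a b c d e f) (Z : Zn T z a b c d p q)
    (hfin : {y | dist y z = 1 ∧ 4 ≤ (T y).ncard}.Finite)
    (tS : ∀ k < 3, ∃ C0 C1 T0 T1 M S P Q, TabS k C0 C1 T0 T1 M S P Q)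
    (tZ : ∀ k < 3, 0 < k → ∃ C T Z W, TabZ k C T Z W)
    {G G' : ℝ → Unit × Fin 6 → Fin 4} (hG : ∀ s, G s ∈ LC (XX T z a b e f p) s)
    (hG' : ∀ s, G' s ∈ RC (XX T z a b e f p) s)
    (h2 : ∀ L : List ℝ, L.Pairwise (· < ·) → (∀ u ∈ L, u ∈ Ico (0 : ℝ) 1) → sX (fl T z p) L ≤ 2) :
    ∃ L : List ℝ, L.Pairwise (· < ·) ∧ (∀ u ∈ L, u ∈ Ico (0 : ℝ) 1) ∧ sX (fl T z p) L = 2 ∧
      (∀ u ∈ Ico (0 : ℝ) 1, (∃ j, fl T z p u j = true) → u ∈ L) ∧
      ∀ u ∈ L, bX (fl T z p u) (co (G u)) (co (G' u)) = false := by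
  have w := S.sw p
  have hlt := Z.lt
  have hlt' := Z.lt'
  obtain ⟨j0, s, hj0, hs0, hs1, hq⟩ : ∃ (j0 : ℕ) (s : ℝ), j0 < 3 ∧ 0 ≤ s ∧ s < 1 ∧
      q = p + j0 + s := by
    refine ⟨⌊q - p⌋₊, Int.fract (q - p), ?_, Int.fract_nonneg _, Int.fract_lt_one _, ?_⟩
    · rw [Nat.floor_lt (by linarith)]
      push_cast; linarith
    · have h1 := Int.floor_add_fract (q - p)
      have h2 : ((⌊q - p⌋₊ : ℕ) : ℝ) = ((⌊q - p⌋ : ℤ) : ℝ) := by
        rw [← natCast_floor_eq_intCast_floor (by linarith)]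
      rw [h2]; linarith
  have hQ : q - p = j0 + s := by rw [hq]; ring
  -- the phases
  have ph2 : ∀ v ∈ Ioo s 1, Ph (q - p) j0 v := by
    intro v hv
    refine ⟨lt_of_le_of_lt hs0 hv.1, hv.2, fun i _ h2 => ?_, fun i _ h2 => ?_⟩
    · have h3 : (i : ℝ) + 1 ≤ (j0 : ℝ) := by exact_mod_cast h2
      rw [hQ]; linarith [hv.2]
    · have h3 : (j0 : ℝ) ≤ (i : ℝ) := by exact_mod_cast h2
      rw [hQ]; linarith [hv.1]
  have ph1 : ∀ v ∈ Ioo 0 s, Ph (q - p) (j0 + 1) v := by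
    intro v hv
    refine ⟨hv.1, hv.2.trans hs1, fun i _ h2 => ?_, fun i _ h2 => ?_⟩
    · have h3 : (i : ℝ) ≤ (j0 : ℝ) := by exact_mod_cast (by omega : i ≤ j0)
      rw [hQ]; linarith [hv.2]
    · have h3 : (j0 : ℝ) + 1 ≤ (i : ℝ) := by exact_mod_cast h2
      rw [hQ]; linarith [hv.1]
  have hrot : G 0 ∘ rt Unit ∈ LC (XX T z a b e f p) 1 := by
    have := LC_shift (X := XX T z a b e f p) (σ := rt Unit) (fun s l u => Xl_per s l u) (hG 0)
    rwa [zero_add] at this
  have ev : ∀ u, EvM (fl T z p u) (co (G u)) (co (G' u)) := fun u =>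
    S.ev (Or.inl (hG u)) (Or.inr (hG' u))
  set E : Fin 6 → Fin 4 := fun j => G 0 ((), j + 1) with hE
  have hcoE : co (G 0 ∘ rt Unit) = E := rfl
  have zE : Zok j0 E := CzM.zok_LC Z S hs1 ph2 hrot
  rcases hs0.eq_or_lt with hs | hs
  · subst hs
    have h0 : 0 < j0 := by
      rcases Nat.eq_zero_or_pos j0 with h0 | h0
      · subst h0; push_cast at hQ; linarith
      · exact h0
    obtain ⟨C, TR, ZR, W, t⟩ := tZ j0 hj0 h0
    obtain ⟨l, h1, h3, h4, h5⟩ := S.phase Z hfin t.t t.i le_rfl le_rfl one_pos ph2 hG hG' (hG' 0) hrot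
    have hL1 : (0 :: l).Pairwise (· < ·) := List.pairwise_cons.2 ⟨fun u hu => ((h3 u).1 hu).1.1, h1⟩
    have hL2 : ∀ u ∈ (0 :: l), u ∈ Ico (0 : ℝ) 1 := by
      intro u hu
      rcases List.mem_cons.1 hu with rfl | hu
      · exact ⟨le_rfl, one_pos⟩
      · exact ⟨((h3 u).1 hu).1.1.le, ((h3 u).1 hu).1.2⟩
    have hL3 := h2 _ hL1 hL2
    rw [sX_cons] at hL3
    have hn0 : nX (fl T z p 0) ≤ 2 := by omega
    have z0 : Zok j0 (co (G' 0)) := CzM.zok_RC Z S one_pos ph2 (hG' 0)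
    have k1 := lfS_iff hn0 (ckM_sound t.z (fun j => zl_of_rot zE j) (fun j => zl_of_zok z0 j)
      (ev 0) hn0)
    have k2 := sub_sound t.sw k1
    obtain ⟨b', k3, k4, k5, k6⟩ := walkM t.t t.ww (ck_lt C E) l (G' 0) (G 0 ∘ rt Unit)
      (nX (fl T z p 0)) _ (fun s _ => ev s) h5 h4 (fun h => bX_nX h) hL3 k2
    rw [hcoE] at k3
    obtain ⟨k7, k8⟩ := fin_sound t.f (by omega) k4 (ck_lt C E) k3
    refine ⟨0 :: l, hL1, hL2, by rw [sX_cons]; exact k7, fun u hu hj => ?_, fun u hu => ?_⟩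
    · rcases hu.1.eq_or_lt with h6 | h6
      · rw [← h6]; exact List.mem_cons_self
      · exact List.mem_cons_of_mem _ ((h3 u).2 ⟨⟨h6, hu.2⟩, hj⟩)
    · by_contra hne
      have hne : bX (fl T z p u) (co (G u)) (co (G' u)) = true := by
        cases hx : bX (fl T z p u) (co (G u)) (co (G' u))
        · exact absurd hx hne
        · rfl
      rcases List.mem_cons.1 hu with rfl | hu
      · rw [k5 hne] at k8; exact Bool.noConfusion k8
      · rw [k6 u hu hne] at k8; exact Bool.noConfusion k8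
  · obtain ⟨C0, C1, T0, T1, M, SR, P, Q, t⟩ := tS j0 hj0
    obtain ⟨l, h1, h3, h4, h5⟩ := S.phase Z hfin t.t1 t.i1 le_rfl hs1.le hs ph1 hG hG' (hG' 0) (hG s)
    obtain ⟨l', h1', h3', h4', h5'⟩ := S.phase Z hfin t.t0 t.i0 hs0 le_rfl hs1 ph2 hG hG' (hG' s) hrot
    have hL1 : (0 :: (l ++ s :: l')).Pairwise (· < ·) := by
      rw [List.pairwise_cons, List.pairwise_append, List.pairwise_cons]
      refine ⟨fun u hu => ?_, h1, ⟨fun u hu => ((h3' u).1 hu).1.1, h1'⟩, fun u hu v hv => ?_⟩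
      · rcases List.mem_append.1 hu with hu | hu
        · exact ((h3 u).1 hu).1.1
        · rcases List.mem_cons.1 hu with rfl | hu
          · exact hs
          · exact hs.trans ((h3' u).1 hu).1.1
      · rcases List.mem_cons.1 hv with rfl | hv
        · exact ((h3 u).1 hu).1.2
        · exact ((h3 u).1 hu).1.2.trans ((h3' v).1 hv).1.1
    have hL2 : ∀ u ∈ (0 :: (l ++ s :: l')), u ∈ Ico (0 : ℝ) 1 := by
      intro u hu
      rcases List.mem_cons.1 hu with rfl | hu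
      · exact ⟨le_rfl, one_pos⟩
      rcases List.mem_append.1 hu with hu | hu
      · exact ⟨((h3 u).1 hu).1.1.le, ((h3 u).1 hu).1.2.trans hs1⟩
      rcases List.mem_cons.1 hu with rfl | hu
      · exact ⟨hs0, hs1⟩
      · exact ⟨hs0.trans ((h3' u).1 hu).1.1.le, ((h3' u).1 hu).1.2⟩
    have hL3 := h2 _ hL1 hL2
    rw [sX_cons, sX_append, sX_cons] at hL3
    have hn0 : nX (fl T z p 0) ≤ 2 := by omega
    have hns : nX (fl T z p s) ≤ 2 := by omega
    have z0 : Zok (j0 + 1) (co (G' 0)) := CzM.zok_RC Z S hs ph1 (hG' 0)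
    have z1 : Zok (j0 + 1) (co (G s)) := CzM.zok_LC Z S hs ph1 (hG s)
    have z2 : Zok j0 (co (G' s)) := CzM.zok_RC Z S hs1 ph2 (hG' s)
    have k1 := lfS_iff hn0 (ckM_sound t.s (fun j => zl_of_rot zE j) (fun j => zl_of_zok z0 j)
      (ev 0) hn0)
    have k2 := sub_sound t.sp k1
    obtain ⟨b1', k3, k4, k5, k6⟩ := walkM t.t1 t.pp (ck_lt C0 E) l (G' 0) (G s)
      (nX (fl T z p 0)) _ (fun s _ => ev s) h5 h4 (fun h => bX_nX h) (by omega) k2
    have m1 := lfT_iff hns (ckM_sound t.m (fun j => zl_of_zok z1 j) (fun j => zl_of_zok z2 j)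
      (ev s) hns)
    have m2 := comp_sound t.pq (by omega) k4 (fun h => bX_nX h) (ck_lt C0 E) (ck_lt _ _)
      (ck_lt _ _) k3 m1
    obtain ⟨b2', k3', k4', k5', k6'⟩ := walkM t.t0 t.qq (ck_lt C0 E) l' (G' s) (G 0 ∘ rt Unit)
      (nX (fl T z p 0) + sX (fl T z p) l + nX (fl T z p s))
      (b1' || bX (fl T z p s) (co (G s)) (co (G' s))) (fun s _ => ev s) h5' h4' (fun h6 => by
        rcases Bool.or_eq_true _ _ ▸ h6 with h7 | h7
        · have := k4 h7; omega
        · have := bX_nX h7; omega) (by omega) m2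
    rw [hcoE] at k3'
    obtain ⟨k7, k8⟩ := fin_sound t.f (by omega) k4' (ck_lt C0 E) k3'
    have hb : b2' = true → False := fun h => by rw [k8] at h; exact Bool.noConfusion h
    refine ⟨0 :: (l ++ s :: l'), hL1, hL2, by rw [sX_cons, sX_append, sX_cons]; omega,
      fun u hu hj => ?_, fun u hu => ?_⟩
    · rcases hu.1.eq_or_lt with h6 | h6
      · rw [← h6]; exact List.mem_cons_self
      · refine List.mem_cons_of_mem _ (List.mem_append.2 ?_)
        rcases lt_trichotomy u s with h7 | h7 | h7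
        · exact Or.inl ((h3 u).2 ⟨⟨h6, h7⟩, hj⟩)
        · rw [h7]; exact Or.inr List.mem_cons_self
        · exact Or.inr (List.mem_cons_of_mem _ ((h3' u).2 ⟨⟨h7, hu.2⟩, hj⟩))
    · by_contra hne
      have hne : bX (fl T z p u) (co (G u)) (co (G' u)) = true := by
        cases hx : bX (fl T z p u) (co (G u)) (co (G' u))
        · exact absurd hx hne
        · rfl
      rcases List.mem_cons.1 hu with rfl | hu
      · exact hb (k5' (by rw [k5 hne]; rfl))
      rcases List.mem_append.1 hu with hu | hu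
      · exact hb (k5' (by rw [k6 u hu hne]; rfl))
      rcases List.mem_cons.1 hu with rfl | hu
      · exact hb (k5' (by rw [hne]; exact Bool.or_true _))
      · exact hb (k6' u hu hne)

end CzM

end Vale.Agent.P032.H987
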