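import Vale.Agent.P032.H987.ExcW
import Vale.Agent.P032.H987.ExcK3

/-!
# P032: one circle in the mode `e`, the turn with the neighbours (helper987)

`Bd` : at the time `u` the prescribed columns (or two columns of one side and one of the other) are bad;
`CzM.turn2` : the whole turn gives a list of times with exactly two flags, none of them bad.
-/

open Set Filter Topology Metric

noncomputable section

namespace Vale.Agent.P032.H987.V2

open Vale.Agent.P032.Six Vale.Agent.P032.S5.H767 Vale.Agent.P032.S5.H122 Vale.Agent.P032.Sweep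
open Vale.Agent.P032.H546 (allR allR_iff impR impR_mp getR frc frc_eq)

/-- the checks of a relation -/
structure RelT (k k' C1 C2 R : ℕ) : Prop where
  p : ckP (zn k) (zn k') (lfT C1 C2 R) = true
  l : ckTT (zn k) (zn k') (fL C1 C2 R) = true
  r : ckTT (zn k') (zn k) (fR C1 C2 R) = true

/-- the checks of a relation, left columns rotated -/
structure RelS (k k' C1 C2 R : ℕ) : Prop where
  p : ckP (zr k) (zn k') (lfS C1 C2 R) = true
  l : ckTT (zr k) (zn k') (fLs C1 C2 R) = true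
  r : ckTT (zn k') (zr k) (fRs C1 C2 R) = true

/-- bad columns: `L, R` the columns of the two sides -/
def Bd (x : Fin 6 → Bool) (L R : Set (Unit × Fin 6 → Fin 4)) (g g' : Unit × Fin 6 → Fin 4) : Prop :=
  bY x (co g) (co g') = true ∨ (∃ v ∈ L, ∃ p, Pat x (co g) (co v) (co g') p) ∨
    ∃ v ∈ R, ∃ p, Pat x (co g') (co v) (co g) p

theorem EvM.symm' {x : Fin 6 → Bool} {h g : Fin 6 → Fin 4} (t : EvM x h g) : EvM x g h where
  pl := fun j hj => by
    rcases t.pl j hj with h | h | h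
    · exact Or.inl h.symm
    · exact Or.inr (Or.inr h)
    · exact Or.inr (Or.inl h)
  adj := t.adj'
  adj' := t.adj
  sw := fun j h1 h2 h3 => by
    rcases t.sw j (Ne.symm h1) h3 h2 with h | ⟨h, h4, h5⟩
    · exact Or.inl h
    · exact Or.inr ⟨h, h4.symm, h5.symm⟩
  opp := fun j h1 h2 => t.opp j h1.symm h2.symm

theorem nX_pos {x : Fin 6 → Bool} {j : Fin 6} (hj : x j = true) : 1 ≤ nX x := by
  have key : (x j).toNat = 1 := by rw [hj]; rfl
  have c6 : ∀ j : Fin 6, j = 0 ∨ j = 1 ∨ j = 2 ∨ j = 3 ∨ j = 4 ∨ j = 5 := by decide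
  unfold nX
  rcases c6 j with rfl | rfl | rfl | rfl | rfl | rfl <;> omega

theorem Bd.pos {x : Fin 6 → Bool} {L R : Set (Unit × Fin 6 → Fin 4)} {g g' : Unit × Fin 6 → Fin 4}
    (h : Bd x L R g g') : 1 ≤ nX x := by
  rcases h with h | ⟨v, -, p, h⟩ | ⟨v, -, p, h⟩
  · exact bY_nX h
  · exact nX_pos h.x0
  · exact nX_pos h.x0

open Classical in
/-- the flag of bad columns -/
def bD (x : Fin 6 → Bool) (L R : Set (Unit × Fin 6 → Fin 4)) (g g' : Unit × Fin 6 → Fin 4) : Bool :=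
  decide (Bd x L R g g')

theorem bD_iff {x : Fin 6 → Bool} {L R : Set (Unit × Fin 6 → Fin 4)} {g g' : Unit × Fin 6 → Fin 4} :
    bD x L R g g' = true ↔ Bd x L R g g' := by
  simp only [bD, decide_eq_true_eq]

theorem bD_nX {x : Fin 6 → Bool} {L R : Set (Unit × Fin 6 → Fin 4)} {g g' : Unit × Fin 6 → Fin 4}
    (h : bD x L R g g' = true) : 1 ≤ nX x := Bd.pos (bD_iff.1 h)

theorem impR_eq {b c : Bool} (h : impR b c = true) (hb : b = true) : c = true := impR_mp h hb

theorem beq_of {m n : ℕ} (h : m = n) : Nat.beq m n = true := by subst h; exact Nat.beq_refl m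

/-- **the relation of two columns** -/
theorem relT {k k' C1 C2 R : ℕ} (t : RelT k k' C1 C2 R) {x : Fin 6 → Bool}
    {L Rr : Set (Unit × Fin 6 → Fin 4)} {g g' : Unit × Fin 6 → Fin 4} (hg : g ∈ L) (hg' : g' ∈ Rr)
    (hev : ∀ v ∈ L ∪ Rr, ∀ w ∈ L ∪ Rr, EvM x (co v) (co w)) (hzL : ∀ v ∈ L, Zok k (co v))
    (hzR : ∀ v ∈ Rr, Zok k' (co v)) (hcL : ∀ v ∈ L, ck C1 (co v) = ck C1 (co g))
    (hcR : ∀ v ∈ Rr, ck C2 (co v) = ck C2 (co g')) (hn : nX x ≤ 2) :
    rl R (ri (nX x) (bD x L Rr g g')) (ck C1 (co g)) (ck C2 (co g')) = true := by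
  have e := hev g (Or.inl hg) g' (Or.inr hg')
  have zg := zl_of_zok (hzL g hg)
  have zg' := zl_of_zok (hzR g' hg')
  have hlt := codM_lt (co g)
  have e1 : Nat.mod (codM (co g) + 4096 * codM (co g')) 4096 = codM (co g) := by
    show (codM (co g) + 4096 * codM (co g')) % 4096 = _; omega
  have e2 : Nat.div (codM (co g) + 4096 * codM (co g')) 4096 = codM (co g') := by
    show (codM (co g) + 4096 * codM (co g')) / 4096 = _; omega
  have hp : rl R (ri (nX x) (bY x (co g) (co g'))) (ck C1 (co g)) (ck C2 (co g')) = true := by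
    have h1 := ckP_sound t.p zg zg' e hn
    unfold lfT at h1
    rw [rIx_eq' x _ _ hn, e1, e2] at h1
    exact h1
  have htrue : bD x L Rr g g' = true → rl R (ri (nX x) true) (ck C1 (co g)) (ck C2 (co g')) = true := by
    intro hb
    rcases bD_iff.1 hb with h | ⟨v, hv, p, P⟩ | ⟨v, hv, p, P⟩
    · rw [h] at hp; exact hp
    · have h1 := ckT_sound t.l zg (zl_of_zok (hzL v hv)) zg' e (hev v (Or.inl hv) g' (Or.inr hg'))
        (hev g (Or.inl hg) v (Or.inl hv)) hn P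
      exact impR_eq h1 (beq_of (hcL v hv).symm)
    · have h1 := ckT_sound t.r zg' (zl_of_zok (hzR v hv)) zg (EvM.symm' e)
        (EvM.symm' (hev g (Or.inl hg) v (Or.inr hv))) (hev g' (Or.inr hg') v (Or.inr hv)) hn P
      exact impR_eq h1 (beq_of (hcR v hv).symm)
  cases hb : bD x L Rr g g'
  · have h2 : bY x (co g) (co g') = false := by
      cases h3 : bY x (co g) (co g')
      · rfl
      · have h4 : ¬ Bd x L Rr g g' := fun h => by
          have : bD x L Rr g g' = true := bD_iff.2 h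
          rw [this] at hb; exact Bool.noConfusion hb
        exact absurd (Or.inl h3) h4
    rw [h2] at hp
    exact hp
  · exact htrue hb

/-- the relation of two columns, left columns rotated -/
theorem relS {k k' C1 C2 R : ℕ} (t : RelS k k' C1 C2 R) {x : Fin 6 → Bool}
    {L Rr : Set (Unit × Fin 6 → Fin 4)} {g g' : Unit × Fin 6 → Fin 4} (hg : g ∈ L) (hg' : g' ∈ Rr)
    (hev : ∀ v ∈ L ∪ Rr, ∀ w ∈ L ∪ Rr, EvM x (co v) (co w))
    (hzL : ∀ v ∈ L, Zok k (fun j => v ((), j + 1)))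
    (hzR : ∀ v ∈ Rr, Zok k' (co v))
    (hcL : ∀ v ∈ L, (ck C1 fun j => v ((), j + 1)) = ck C1 fun j => g ((), j + 1))
    (hcR : ∀ v ∈ Rr, ck C2 (co v) = ck C2 (co g')) (hn : nX x ≤ 2) :
    rl R (ri (nX x) (bD x L Rr g g')) (ck C1 fun j => g ((), j + 1)) (ck C2 (co g')) = true := by
  have e := hev g (Or.inl hg) g' (Or.inr hg')
  have zL : ∀ v ∈ L, ∀ j, ZL (zr k j) (co v j) := fun v hv => zl_of_rot (h := co v) (hzL v hv)
  have zg' := zl_of_zok (hzR g' hg')
  have hlt := codM_lt (co g)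
  have e1 : Nat.mod (codM (co g) + 4096 * codM (co g')) 4096 = codM (co g) := by
    show (codM (co g) + 4096 * codM (co g')) % 4096 = _; omega
  have e2 : Nat.div (codM (co g) + 4096 * codM (co g')) 4096 = codM (co g') := by
    show (codM (co g) + 4096 * codM (co g')) / 4096 = _; omega
  have er : ∀ v : Unit × Fin 6 → Fin 4, lk C1 (rotc (codM (co v))) = ck C1 fun j => v ((), j + 1) :=
    fun v => by rw [rotc_eq]; rfl
  have hp : rl R (ri (nX x) (bY x (co g) (co g'))) (ck C1 fun j => g ((), j + 1))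
      (ck C2 (co g')) = true := by
    have h1 := ckP_sound t.p (zL g hg) zg' e hn
    unfold lfS at h1
    rw [rIx_eq' x _ _ hn, e1, e2, er] at h1
    exact h1
  have htrue : bD x L Rr g g' = true →
      rl R (ri (nX x) true) (ck C1 fun j => g ((), j + 1)) (ck C2 (co g')) = true := by
    intro hb
    rcases bD_iff.1 hb with h | ⟨v, hv, p, P⟩ | ⟨v, hv, p, P⟩
    · rw [h] at hp; exact hp
    · have h1 := ckT_sound t.l (zL g hg) (zL v hv) zg' e (hev v (Or.inl hv) g' (Or.inr hg'))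
        (hev g (Or.inl hg) v (Or.inl hv)) hn P
      unfold fLs at h1
      rw [er, er] at h1
      exact impR_eq h1 (beq_of (hcL v hv).symm)
    · have h1 := ckT_sound t.r zg' (zl_of_zok (hzR v hv)) (zL g hg) (EvM.symm' e)
        (EvM.symm' (hev g (Or.inl hg) v (Or.inr hv))) (hev g' (Or.inr hg') v (Or.inr hv)) hn P
      unfold fRs at h1
      rw [er] at h1
      exact impR_eq h1 (beq_of (hcR v hv).symm)
  cases hb : bD x L Rr g g'
  · have h2 : bY x (co g) (co g') = false := by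
      cases h3 : bY x (co g) (co g')
      · rfl
      · have h4 : ¬ Bd x L Rr g g' := fun h => by
          have : bD x L Rr g g' = true := bD_iff.2 h
          rw [this] at hb; exact Bool.noConfusion hb
        exact absurd (Or.inl h3) h4
    rw [h2] at hp
    exact hp
  · exact htrue hb

/-- **the states along a phase** -/
theorem walk2 {C TR P : ℕ} (hP : compB P TR P = true) {fx : ℝ → Fin 6 → Bool} {β : ℝ → Bool}
    {G G' : ℝ → Unit × Fin 6 → Fin 4} {E0 : ℕ} (hE : E0 < 32)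
    (hβ : ∀ s, β s = true → 1 ≤ nX (fx s)) :
    ∀ (l : List ℝ) (h h' : Unit × Fin 6 → Fin 4) (n : ℕ) (b : Bool),
    (∀ s ∈ l, nX (fx s) ≤ 2 → rl TR (ri (nX (fx s)) (β s)) (ck C (co (G s))) (ck C (co (G' s))) = true) →
    ChM (fun g g' => ck C (co g) = ck C (co g')) G G' l h h' → (b = true → 1 ≤ n) →
    n + sX fx l ≤ 2 → rl P (ri n b) E0 (ck C (co h)) = true →
    ∃ b' : Bool, rl P (ri (n + sX fx l) b') E0 (ck C (co h')) = true ∧
      (b' = true → 1 ≤ n + sX fx l) ∧ (b = true → b' = true) ∧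
      ∀ s ∈ l, β s = true → b' = true := by
  intro l
  induction l with
  | nil =>
    intro h h' n b _ hc hb hn hr
    have hc : ck C (co h) = ck C (co h') := hc
    refine ⟨b, ?_, ?_, fun h => h, fun s hs => absurd hs List.not_mem_nil⟩
    · show rl P (ri (n + 0) b) E0 _ = true
      rw [add_zero, ← hc]; exact hr
    · intro h1; have := hb h1; omega
  | cons s l ih =>
    rintro h h' n b he ⟨h1, h2⟩ hb hn hr
    rw [sX_cons] at hn ⊢
    have hns : nX (fx s) ≤ 2 := by omega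
    have h1 : ck C (co h) = ck C (co (G s)) := h1
    have m0 : s ∈ s :: l := List.mem_cons_self
    have hck := he s m0 hns
    rw [h1] at hr
    have hcomp := comp_sound hP (n := n) (n' := nX (fx s)) (b := b)
      (b' := β s) (by omega) hb (hβ s) hE (ck_lt _ _)
      (ck_lt _ _) hr hck
    obtain ⟨b', k1, k2, k3, k4⟩ := ih (G' s) h' (n + nX (fx s)) (b || β s)
      (fun t ht => he t (List.mem_cons_of_mem _ ht))
      h2 (fun h3 => by
        rcases Bool.or_eq_true _ _ ▸ h3 with h4 | h4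
        · have := hb h4; omega
        · have := hβ s h4; omega) (by omega) hcomp
    refine ⟨b', ?_, ?_, fun h3 => k3 (by rw [h3]; rfl), fun t ht h3 => ?_⟩
    · rw [← add_assoc]; exact k1
    · intro h3; have := k2 h3; omega
    · rcases List.mem_cons.1 ht with rfl | ht
      · exact k3 (by rw [h3]; exact Bool.or_true _)
      · exact k4 t ht h3

/-- the tables, zone time inside -/
structure TabS (k C0 C1 T0 T1 M S P Q : ℕ) : Prop where
  t0 : RelT k k C0 C0 T0
  t1 : RelT (k + 1) (k + 1) C1 C1 T1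
  m : RelT (k + 1) k C1 C0 M
  s : RelS k (k + 1) C0 C1 S
  i0 : idB T0 = true
  i1 : idB T1 = true
  sp : subB S P = true
  pp : compB P T1 P = true
  pq : compB P M Q = true
  qq : compB Q T0 Q = true
  f : finB Q = true

/-- the tables, zone time `0` -/
structure TabZ (k C T Z W : ℕ) : Prop where
  t : RelT k k C C T
  z : RelS k k C C Z
  i : idB T = true
  sw : subB Z W = true
  ww : compB W T W = true
  f : finB W = true

variable {U : Fin 6 → Set ℂ} {T : ℂ → Set (Fin 6)} {z : ℂ} {a b c d e f : Fin 6} {p q : ℝ}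

/-- no event without a flag changes the class -/
theorem loc2 (S : CzM U T z a b c d e f) {C TR k : ℕ} (t : RelT k k C C TR) (hid : idB TR = true)
    {u : ℝ} (h0 : ∀ j, CzM.fl T z p u j = false) {g g' : Unit × Fin 6 → Fin 4}
    (hg : g ∈ LC (XX T z a b e f p) u ∪ RC (XX T z a b e f p) u)
    (hg' : g' ∈ LC (XX T z a b e f p) u ∪ RC (XX T z a b e f p) u)
    (hz : Zok k (co g)) (hz' : Zok k (co g')) : ck C (co g) = ck C (co g') := by
  have h3 : CzM.fl T z p u = fun _ => false := funext h0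
  have hn : nX (CzM.fl T z p u) ≤ 2 := by rw [h3]; decide
  have h4 : EvM (CzM.fl T z p u) (co g) (co g') := S.ev hg hg'
  have h1 := ckP_sound t.p (zl_of_zok hz) (zl_of_zok hz') h4 hn
  unfold lfT at h1
  have hlt := codM_lt (co g)
  have e1 : Nat.mod (codM (co g) + 4096 * codM (co g')) 4096 = codM (co g) := by
    show (codM (co g) + 4096 * codM (co g')) % 4096 = _; omega
  have e2 : Nat.div (codM (co g) + 4096 * codM (co g')) 4096 = codM (co g') := by
    show (codM (co g) + 4096 * codM (co g')) / 4096 = _; omega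
  rw [rIx_eq' _ _ _ hn, e1, e2] at h1
  have h6 : ri (nX (CzM.fl T z p u)) (bY (CzM.fl T z p u) (co g) (co g')) = 0 := by
    have h7 := nB_le (CzM.fl T z p u) (co g) (co g')
    have h8 : nX (CzM.fl T z p u) = 0 := by rw [h3]; decide
    have h9 : nB (CzM.fl T z p u) (co g) (co g') = 0 := by omega
    unfold bY
    rw [h8, h9]
    decide
  rw [h6] at h1
  exact id_sound hid (ck_lt _ _) (ck_lt _ _) h1

/-- the zones of all limit columns at the time `u` inside a phase -/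
theorem zone2 (S : CzM U T z a b c d e f) (Z : Zn T z a b c d p q) {k : ℕ} {α β u : ℝ}
    (hp : ∀ v ∈ Ioo α β, Ph (q - p) k v) (hu : u ∈ Ioo α β) :
    (∀ v ∈ LC (XX T z a b e f p) u, Zok k (co v)) ∧ ∀ v ∈ RC (XX T z a b e f p) u, Zok k (co v) :=
  ⟨fun _ hg => CzM.zok_LC Z S hu.1 (fun v hv => hp v ⟨hv.1, hv.2.trans hu.2⟩) hg,
    fun _ hg => CzM.zok_RC Z S hu.2 (fun v hv => hp v ⟨hu.1.trans hv.1, hv.2⟩) hg⟩

/-- one class on the left -/
theorem sameL (S : CzM U T z a b c d e f) (Z : Zn T z a b c d p q)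
    (hfin : {y | dist y z = 1 ∧ 4 ≤ (T y).ncard}.Finite) {C TR k : ℕ}
    (t : RelT k k C C TR) (hid : idB TR = true) {α u : ℝ} (h0 : 0 ≤ α) (h1 : u ≤ 1) (hu : α < u)
    (hp : ∀ v ∈ Ioo α u, Ph (q - p) k v) :
    ∀ g ∈ LC (XX T z a b e f p) u, ∀ g' ∈ LC (XX T z a b e f p) u, ck C (co g) = ck C (co g') := by
  have w := S.sw p
  have hf := CzM.finite_fl hfin p
  have hclosed : ∀ᶠ v in 𝓝[<] u, v ∉ {u | u ∈ Ioo (0 : ℝ) 1 ∧ ∃ j, CzM.fl T z p u j = true} := by
    have h2 : ({v | v ∈ Ioo (0 : ℝ) 1 ∧ ∃ j, CzM.fl T z p v j = true} \ {u}).Finite :=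
      hf.subset sdiff_subset
    have h3 : ({v | v ∈ Ioo (0 : ℝ) 1 ∧ ∃ j, CzM.fl T z p v j = true} \ {u})ᶜ ∈ 𝓝 u :=
      h2.isClosed.isOpen_compl.mem_nhds fun h => h.2 rfl
    filter_upwards [mem_nhdsWithin_of_mem_nhds h3, self_mem_nhdsWithin] with v hv hv2 hv3
    exact hv ⟨hv3, fun h => absurd hv2 (by rw [show v = u from h]; exact lt_irrefl u)⟩
  obtain ⟨r, hr, hsub⟩ := mem_nhdsLT_iff_exists_Ioo_subset.1 hclosed
  have hr : r < u := hr
  set s := max r α with hs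
  have hsu : s < u := max_lt hr hu
  intro g hg g' hg'
  obtain ⟨h, hh⟩ := w.RC_ne s
  have key : ∀ v ∈ LC (XX T z a b e f p) u, ck C (co h) = ck C (co v) := fun v hv =>
    w.sweep (R := fun g g' => ck C (co g) = ck C (co g')) (fun _ _ _ h1 h2 => h1.trans h2) hsu
      (fun x hx g1 hg1 g2 hg2 => by
        have hxα : x ∈ Ioo α u := ⟨lt_of_le_of_lt (le_max_right r α) hx.1, hx.2⟩
        have hz := zone2 S Z hp hxα
        have z1 : ∀ g ∈ LC (XX T z a b e f p) x ∪ RC (XX T z a b e f p) x, Zok k (co g) :=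
          fun g hg => hg.elim (hz.1 g) (hz.2 g)
        refine loc2 S t hid (fun j => ?_) hg1 hg2 (z1 _ hg1) (z1 _ hg2)
        by_contra hne
        have hne : CzM.fl T z p x j = true := by
          cases hx : CzM.fl T z p x j
          · exact absurd hx hne
          · rfl
        exact hsub ⟨lt_of_le_of_lt (le_max_left r α) hx.1, hx.2⟩
          ⟨⟨lt_of_le_of_lt h0 hxα.1, lt_of_lt_of_le hx.2 h1⟩, j, hne⟩) h hh v hv
  exact (key g hg).symm.trans (key g' hg')

/-- one class on the right -/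
theorem sameR (S : CzM U T z a b c d e f) (Z : Zn T z a b c d p q)
    (hfin : {y | dist y z = 1 ∧ 4 ≤ (T y).ncard}.Finite) {C TR k : ℕ}
    (t : RelT k k C C TR) (hid : idB TR = true) {β u : ℝ} (h0 : 0 ≤ u) (h1 : β ≤ 1) (hu : u < β)
    (hp : ∀ v ∈ Ioo u β, Ph (q - p) k v) :
    ∀ g ∈ RC (XX T z a b e f p) u, ∀ g' ∈ RC (XX T z a b e f p) u, ck C (co g) = ck C (co g') := by
  have w := S.sw p
  have hf := CzM.finite_fl hfin p
  have hclosed : ∀ᶠ v in 𝓝[>] u, v ∉ {u | u ∈ Ioo (0 : ℝ) 1 ∧ ∃ j, CzM.fl T z p u j = true} := by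
    have h2 : ({v | v ∈ Ioo (0 : ℝ) 1 ∧ ∃ j, CzM.fl T z p v j = true} \ {u}).Finite :=
      hf.subset sdiff_subset
    have h3 : ({v | v ∈ Ioo (0 : ℝ) 1 ∧ ∃ j, CzM.fl T z p v j = true} \ {u})ᶜ ∈ 𝓝 u :=
      h2.isClosed.isOpen_compl.mem_nhds fun h => h.2 rfl
    filter_upwards [mem_nhdsWithin_of_mem_nhds h3, self_mem_nhdsWithin] with v hv hv2 hv3
    exact hv ⟨hv3, fun h => absurd hv2 (by rw [show v = u from h]; exact lt_irrefl u)⟩
  obtain ⟨r, hr, hsub⟩ := mem_nhdsGT_iff_exists_Ioo_subset.1 hclosed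
  have hr : u < r := hr
  set s := min r β with hs
  have hsu : u < s := lt_min hr hu
  intro g hg g' hg'
  obtain ⟨h, hh⟩ := w.LC_ne s
  have key : ∀ v ∈ RC (XX T z a b e f p) u, ck C (co v) = ck C (co h) := fun v hv =>
    w.sweep (R := fun g g' => ck C (co g) = ck C (co g')) (fun _ _ _ h1 h2 => h1.trans h2) hsu
      (fun x hx g1 hg1 g2 hg2 => by
        have hxα : x ∈ Ioo u β := ⟨hx.1, lt_of_lt_of_le hx.2 (min_le_right r β)⟩
        have hz := zone2 S Z hp hxα
        have z1 : ∀ g ∈ LC (XX T z a b e f p) x ∪ RC (XX T z a b e f p) x, Zok k (co g) :=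
          fun g hg => hg.elim (hz.1 g) (hz.2 g)
        refine loc2 S t hid (fun j => ?_) hg1 hg2 (z1 _ hg1) (z1 _ hg2)
        by_contra hne
        have hne : CzM.fl T z p x j = true := by
          cases hx : CzM.fl T z p x j
          · exact absurd hx hne
          · rfl
        exact hsub ⟨hx.1, lt_of_lt_of_le hx.2 (min_le_left r β)⟩
          ⟨⟨lt_of_le_of_lt h0 hx.1, lt_of_lt_of_le hxα.2 h1⟩, j, hne⟩) v hv h hh
  exact (key g hg).trans (key g' hg').symm

/-- one phase -/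
theorem phase2 (S : CzM U T z a b c d e f) (Z : Zn T z a b c d p q)
    (hfin : {y | dist y z = 1 ∧ 4 ≤ (T y).ncard}.Finite) {C TR k : ℕ}
    (t : RelT k k C C TR) (hid : idB TR = true) {α β : ℝ}
    (hα : 0 ≤ α) (hβ : β ≤ 1) (hαβ : α < β) (hp : ∀ v ∈ Ioo α β, Ph (q - p) k v)
    {G G' : ℝ → Unit × Fin 6 → Fin 4} (hG : ∀ s, G s ∈ LC (XX T z a b e f p) s)
    (hG' : ∀ s, G' s ∈ RC (XX T z a b e f p) s)
    {h h' : Unit × Fin 6 → Fin 4} (hh : h ∈ RC (XX T z a b e f p) α)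
    (hh' : h' ∈ LC (XX T z a b e f p) β) :
    ∃ l : List ℝ, l.Pairwise (· < ·) ∧
      (∀ u, u ∈ l ↔ u ∈ Ioo α β ∧ ∃ j, CzM.fl T z p u j = true) ∧
      ChM (fun g g' => ck C (co g) = ck C (co g')) G G' l h h' ∧
      ∀ s ∈ l, nX (CzM.fl T z p s) ≤ 2 → rl TR (ri (nX (CzM.fl T z p s))
        (bD (CzM.fl T z p s) (LC (XX T z a b e f p) s) (RC (XX T z a b e f p) s) (G s) (G' s)))
        (ck C (co (G s))) (ck C (co (G' s))) = true := by
  have w := S.sw p
  have hfin2 : {u | u ∈ Ioo α β ∧ ∃ j, CzM.fl T z p u j = true}.Finite :=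
    (CzM.finite_fl hfin p).subset fun _ hu =>
      ⟨⟨lt_of_le_of_lt hα hu.1.1, lt_of_lt_of_le hu.1.2 hβ⟩, hu.2⟩
  set F := hfin2.toFinset with hF
  have hmem : ∀ u, u ∈ F ↔ u ∈ Ioo α β ∧ ∃ j, CzM.fl T z p u j = true := fun u => by
    rw [hF, Set.Finite.mem_toFinset]; exact Iff.rfl
  refine ⟨F.sort (· ≤ ·), (Finset.sortedLT_sort F).pairwise, fun u => by
    rw [Finset.mem_sort]; exact hmem u, ?_, fun s hs hn => ?_⟩
  · refine sweepP w (fun _ _ _ h1 h2 => h1.trans h2) hG hG' _ α hαβ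
      (Finset.sortedLT_sort F).pairwise (fun s hs => ((hmem s).1 ((Finset.mem_sort _).1 hs)).1)
      (fun u hu hnot g hg g' hg' => ?_) h hh h' hh'
    have hz := zone2 S Z hp hu
    have z1 : ∀ g ∈ LC (XX T z a b e f p) u ∪ RC (XX T z a b e f p) u, Zok k (co g) :=
      fun g hg => hg.elim (hz.1 g) (hz.2 g)
    refine loc2 S t hid (fun j => ?_) hg hg' (z1 _ hg) (z1 _ hg')
    by_contra hne
    have hne : CzM.fl T z p u j = true := by
      cases hx : CzM.fl T z p u j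
      · exact absurd hx hne
      · rfl
    exact hnot ((Finset.mem_sort _).2 ((hmem u).2 ⟨hu, j, hne⟩))
  · have hs2 := ((hmem s).1 ((Finset.mem_sort _).1 hs)).1
    have hz := zone2 S Z hp hs2
    exact relT t (hG s) (hG' s) (fun v hv w hw => S.ev hv hw) hz.1 hz.2
      (fun v hv => sameL S Z hfin t hid hα (hs2.2.le.trans hβ) hs2.1
        (fun x hx => hp x ⟨hx.1, hx.2.trans hs2.2⟩) v hv _ (hG s))
      (fun v hv => sameR S Z hfin t hid (hα.trans hs2.1.le) hβ hs2.2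
        (fun x hx => hp x ⟨hs2.1.trans hx.1, hx.2⟩) v hv _ (hG' s)) hn

/-- **the turn** -/
theorem turn2 (S : CzM U T z a b c d e f) (Z : Zn T z a b c d p q)
    (hfin : {y | dist y z = 1 ∧ 4 ≤ (T y).ncard}.Finite)
    (tS : ∀ k < 3, ∃ C0 C1 T0 T1 M S P Q, TabS k C0 C1 T0 T1 M S P Q)
    (tZ : ∀ k < 3, 0 < k → ∃ C T Z W, TabZ k C T Z W)
    {G G' : ℝ → Unit × Fin 6 → Fin 4} (hG : ∀ s, G s ∈ LC (XX T z a b e f p) s)
    (hG' : ∀ s, G' s ∈ RC (XX T z a b e f p) s)
    (h2 : ∀ L : List ℝ, L.Pairwise (· < ·) → (∀ u ∈ L, u ∈ Ico (0 : ℝ) 1) →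
      sX (CzM.fl T z p) L ≤ 2) :
    ∀ u ∈ Ico (0 : ℝ) 1, ¬ Bd (CzM.fl T z p u) (LC (XX T z a b e f p) u)
      (RC (XX T z a b e f p) u) (G u) (G' u) := by
  have w := S.sw p
  have hlt := Z.lt
  have hlt' := Z.lt'
  obtain ⟨j0, s, hj0, hs0, hs1, hq⟩ : ∃ (j0 : ℕ) (s : ℝ), j0 < 3 ∧ 0 ≤ s ∧ s < 1 ∧
      q = p + j0 + s := by
    refine ⟨⌊q - p⌋₊, Int.fract (q - p), ?_, Int.fract_nonneg _, Int.fract_lt_one _, ?_⟩
    · rw [Nat.floor_lt (by linarith)]
      push_cast; linarith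
    · have h1 := Int.floor_add_fract (q - p)
      have h2 : ((⌊q - p⌋₊ : ℕ) : ℝ) = ((⌊q - p⌋ : ℤ) : ℝ) := by
        rw [← natCast_floor_eq_intCast_floor (by linarith)]
      rw [h2]; linarith
  have hQ : q - p = j0 + s := by rw [hq]; ring
  -- the phases
  have ph2 : ∀ v ∈ Ioo s 1, Ph (q - p) j0 v := by
    intro v hv
    refine ⟨lt_of_le_of_lt hs0 hv.1, hv.2, fun i _ h2 => ?_, fun i _ h2 => ?_⟩
    · have h3 : (i : ℝ) + 1 ≤ (j0 : ℝ) := by exact_mod_cast h2
      rw [hQ]; linarith [hv.2]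
    · have h3 : (j0 : ℝ) ≤ (i : ℝ) := by exact_mod_cast h2
      rw [hQ]; linarith [hv.1]
  have ph1 : ∀ v ∈ Ioo 0 s, Ph (q - p) (j0 + 1) v := by
    intro v hv
    refine ⟨hv.1, hv.2.trans hs1, fun i _ h2 => ?_, fun i _ h2 => ?_⟩
    · have h3 : (i : ℝ) ≤ (j0 : ℝ) := by exact_mod_cast (by omega : i ≤ j0)
      rw [hQ]; linarith [hv.2]
    · have h3 : (j0 : ℝ) + 1 ≤ (i : ℝ) := by exact_mod_cast h2
      rw [hQ]; linarith [hv.1]
  have rot1 : ∀ v ∈ LC (XX T z a b e f p) 0, v ∘ rt Unit ∈ LC (XX T z a b e f p) 1 := by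
    intro v hv
    have := LC_shift (X := XX T z a b e f p) (σ := rt Unit) (fun s l u => Xl_per s l u) hv
    rwa [zero_add] at this
  have hrot := rot1 _ (hG 0)
  have hev : ∀ u, ∀ v ∈ LC (XX T z a b e f p) u ∪ RC (XX T z a b e f p) u,
      ∀ w ∈ LC (XX T z a b e f p) u ∪ RC (XX T z a b e f p) u, EvM (CzM.fl T z p u) (co v) (co w) :=
    fun u v hv w hw => S.ev hv hw
  set bt : ℝ → Bool := fun u => bD (CzM.fl T z p u) (LC (XX T z a b e f p) u)
    (RC (XX T z a b e f p) u) (G u) (G' u) with hbt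
  have hbn : ∀ u, bt u = true → 1 ≤ nX (CzM.fl T z p u) := fun u h => bD_nX h
  have hfin0 : ∀ u, Bd (CzM.fl T z p u) (LC (XX T z a b e f p) u)
      (RC (XX T z a b e f p) u) (G u) (G' u) → bt u = true := fun u h => bD_iff.2 h
  have hflag : ∀ u, bt u = true → ∃ j, CzM.fl T z p u j = true := by
    intro u h
    have h1 := hbn u h
    by_contra hcon
    push Not at hcon
    have h3 : CzM.fl T z p u = fun _ => false := by
      funext j
      cases hx : CzM.fl T z p u j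
      · rfl
      · exact absurd hx (hcon j)
    have h4 : nX (fun _ => false) = 0 := by decide
    rw [h3, h4] at h1
    omega
  set E : Fin 6 → Fin 4 := fun j => G 0 ((), j + 1) with hE
  have hcoE : co (G 0 ∘ rt Unit) = E := rfl
  have zE : ∀ v ∈ LC (XX T z a b e f p) 0, Zok j0 (fun j => v ((), j + 1)) := fun v hv =>
    CzM.zok_LC Z S hs1 ph2 (rot1 v hv)
  rcases hs0.eq_or_lt with hs | hs
  · subst hs
    have h0 : 0 < j0 := by
      rcases Nat.eq_zero_or_pos j0 with h0 | h0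
      · subst h0; push_cast at hQ; linarith
      · exact h0
    obtain ⟨C, TR, ZR, W, t⟩ := tZ j0 hj0 h0
    obtain ⟨l, h1, h3, h4, h5⟩ := phase2 S Z hfin t.t t.i le_rfl le_rfl one_pos ph2 hG hG' (hG' 0) hrot
    have hL1 : (0 :: l).Pairwise (· < ·) := List.pairwise_cons.2 ⟨fun u hu => ((h3 u).1 hu).1.1, h1⟩
    have hL2 : ∀ u ∈ (0 :: l), u ∈ Ico (0 : ℝ) 1 := by
      intro u hu
      rcases List.mem_cons.1 hu with rfl | hu
      · exact ⟨le_rfl, one_pos⟩
      · exact ⟨((h3 u).1 hu).1.1.le, ((h3 u).1 hu).1.2⟩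
    have hL3 := h2 _ hL1 hL2
    rw [sX_cons] at hL3
    have hn0 : nX (CzM.fl T z p 0) ≤ 2 := by omega
    have z0 : ∀ v ∈ RC (XX T z a b e f p) 0, Zok j0 (co v) := fun v hv => CzM.zok_RC Z S one_pos ph2 hv
    have k1 := relS t.z (hG 0) (hG' 0) (hev 0) zE z0
      (fun v hv => sameL S Z hfin t.t t.i le_rfl le_rfl one_pos ph2 _ (rot1 v hv) _ hrot)
      (fun v hv => sameR S Z hfin t.t t.i le_rfl le_rfl one_pos ph2 v hv _ (hG' 0)) hn0
    have k2 := sub_sound t.sw k1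
    obtain ⟨b', k3, k4, k5, k6⟩ := walk2 (β := bt) t.ww (ck_lt C E) hbn l (G' 0) (G 0 ∘ rt Unit)
      (nX (CzM.fl T z p 0)) (bt 0) h5 h4 (hbn 0) hL3 k2
    rw [hcoE] at k3
    obtain ⟨k7, k8⟩ := fin_sound t.f (by omega) k4 (ck_lt C E) k3
    have hb : b' = true → False := fun h => by rw [k8] at h; exact Bool.noConfusion h
    intro u hu hbad
    have hbu := hfin0 u hbad
    rcases hu.1.eq_or_lt with h6 | h6
    · rw [← h6] at hbu; exact hb (k5 hbu)
    · exact hb (k6 u ((h3 u).2 ⟨⟨h6, hu.2⟩, hflag u hbu⟩) hbu)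
  · obtain ⟨C0, C1, T0, T1, M, SR, P, Q, t⟩ := tS j0 hj0
    obtain ⟨l, h1, h3, h4, h5⟩ := phase2 S Z hfin t.t1 t.i1 le_rfl hs1.le hs ph1 hG hG' (hG' 0) (hG s)
    obtain ⟨l', h1', h3', h4', h5'⟩ := phase2 S Z hfin t.t0 t.i0 hs0 le_rfl hs1 ph2 hG hG' (hG' s) hrot
    have hL1 : (0 :: (l ++ s :: l')).Pairwise (· < ·) := by
      rw [List.pairwise_cons, List.pairwise_append, List.pairwise_cons]
      refine ⟨fun u hu => ?_, h1, ⟨fun u hu => ((h3' u).1 hu).1.1, h1'⟩, fun u hu v hv => ?_⟩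
      · rcases List.mem_append.1 hu with hu | hu
        · exact ((h3 u).1 hu).1.1
        · rcases List.mem_cons.1 hu with rfl | hu
          · exact hs
          · exact hs.trans ((h3' u).1 hu).1.1
      · rcases List.mem_cons.1 hv with rfl | hv
        · exact ((h3 u).1 hu).1.2
        · exact ((h3 u).1 hu).1.2.trans ((h3' v).1 hv).1.1
    have hL2 : ∀ u ∈ (0 :: (l ++ s :: l')), u ∈ Ico (0 : ℝ) 1 := by
      intro u hu
      rcases List.mem_cons.1 hu with rfl | hu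
      · exact ⟨le_rfl, one_pos⟩
      rcases List.mem_append.1 hu with hu | hu
      · exact ⟨((h3 u).1 hu).1.1.le, ((h3 u).1 hu).1.2.trans hs1⟩
      rcases List.mem_cons.1 hu with rfl | hu
      · exact ⟨hs0, hs1⟩
      · exact ⟨hs0.trans ((h3' u).1 hu).1.1.le, ((h3' u).1 hu).1.2⟩
    have hL3 := h2 _ hL1 hL2
    rw [sX_cons, sX_append, sX_cons] at hL3
    have hn0 : nX (CzM.fl T z p 0) ≤ 2 := by omega
    have hns : nX (CzM.fl T z p s) ≤ 2 := by omega
    have z0 : ∀ v ∈ RC (XX T z a b e f p) 0, Zok (j0 + 1) (co v) := fun v hv =>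
      CzM.zok_RC Z S hs ph1 hv
    have z1 : ∀ v ∈ LC (XX T z a b e f p) s, Zok (j0 + 1) (co v) := fun v hv =>
      CzM.zok_LC Z S hs ph1 hv
    have z2 : ∀ v ∈ RC (XX T z a b e f p) s, Zok j0 (co v) := fun v hv => CzM.zok_RC Z S hs1 ph2 hv
    have k1 := relS t.s (hG 0) (hG' 0) (hev 0) zE z0
      (fun v hv => sameL S Z hfin t.t0 t.i0 hs0 le_rfl hs1 ph2 _ (rot1 v hv) _ hrot)
      (fun v hv => sameR S Z hfin t.t1 t.i1 le_rfl hs1.le hs ph1 v hv _ (hG' 0)) hn0
    have k2 := sub_sound t.sp k1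
    obtain ⟨b1', k3, k4, k5, k6⟩ := walk2 (β := bt) t.pp (ck_lt C0 E) hbn l (G' 0) (G s)
      (nX (CzM.fl T z p 0)) (bt 0) h5 h4 (hbn 0) (by omega) k2
    have m1 := relT t.m (hG s) (hG' s) (hev s) z1 z2
      (fun v hv => sameL S Z hfin t.t1 t.i1 le_rfl hs1.le hs ph1 v hv _ (hG s))
      (fun v hv => sameR S Z hfin t.t0 t.i0 hs0 le_rfl hs1 ph2 v hv _ (hG' s)) hns
    have m2 := comp_sound t.pq (by omega) k4 (hbn s) (ck_lt C0 E) (ck_lt _ _)
      (ck_lt _ _) k3 m1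
    obtain ⟨b2', k3', k4', k5', k6'⟩ := walk2 (β := bt) t.qq (ck_lt C0 E) hbn l' (G' s)
      (G 0 ∘ rt Unit) (nX (CzM.fl T z p 0) + sX (CzM.fl T z p) l + nX (CzM.fl T z p s))
      (b1' || bt s) h5' h4' (fun h6 => by
        rcases Bool.or_eq_true _ _ ▸ h6 with h7 | h7
        · have := k4 h7; omega
        · have := hbn s h7; omega) (by omega) m2
    rw [hcoE] at k3'
    obtain ⟨k7, k8⟩ := fin_sound t.f (by omega) k4' (ck_lt C0 E) k3'
    have hb : b2' = true → False := fun h => by rw [k8] at h; exact Bool.noConfusion h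
    intro u hu hbad
    have hbu := hfin0 u hbad
    rcases hu.1.eq_or_lt with h6 | h6
    · rw [← h6] at hbu
      exact hb (k5' (by rw [k5 hbu]; rfl))
    rcases lt_trichotomy u s with h7 | h7 | h7
    · exact hb (k5' (by rw [k6 u ((h3 u).2 ⟨⟨h6, h7⟩, hflag u hbu⟩) hbu]; rfl))
    · rw [h7] at hbu
      exact hb (k5' (by rw [hbu]; exact Bool.or_true _))
    · exact hb (k6' u ((h3' u).2 ⟨⟨h7, hu.2⟩, hflag u hbu⟩) hbu)

end Vale.Agent.P032.H987.V2
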