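import Vale.Agent.P032.H987.Zone
import Vale.Agent.P032.H492.TwoJ
import Vale.Agent.P032.S5.H349.Bridge

/-!
# P032: one circle with zones, labels with sides (helper987)

Labels of the points of `S(z)`:
`1` : `T y = {a, b, e}`, the exact `ab`-arc is before `y` (`OEnd T z y 1`); `2` : it is after `y`;
`3`, `4` : the same for `T y = {c, d, f}` and `cd`; `5` : `T y = T z`, `ab` before, `cd` after;
`6` : `T y = T z`, `cd` before, `ab` after; `0` : the other points.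

* `CzE` : `Cz`, clean ends, no two points with the palette of `z` at distance one;
* `EvL lam h h'` : the columns before and after a time with the label vector `lam`;
* `ZChL`, `CzE.zpath` : the class theorem with label vectors.
-/

open Set Filter Topology Metric

noncomputable section

namespace Vale.Agent.P032.H987

open Vale.Agent.P032.Six Vale.Agent.P032.S5.H767 Vale.Agent.P032.S5.H122 Vale.Agent.P032.Sweep
  Vale.Agent.P032.S5.H349

open Cz (tau finite_times)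

/-- letters before and after a point with the label -/
def CtL (x : Fin 7) (l m : Fin 4) : Prop :=
  match x with
  | 0 => Ct 0 l m
  | 1 => l = 2 ∧ m = 0
  | 2 => l = 0 ∧ m = 2
  | 3 => l = 3 ∧ m = 1
  | 4 => l = 1 ∧ m = 3
  | 5 => l = 2 ∧ m = 3
  | 6 => l = 3 ∧ m = 2

instance (x : Fin 7) (l m : Fin 4) : Decidable (CtL x l m) := by
  unfold CtL; split <;> infer_instance

/-- the columns before and after a time with the label vector `lam` -/
structure EvL (lam : Fin 6 → Fin 7) (h h' : Fin 6 → Fin 4) : Prop where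
  ct : ∀ j, CtL (lam j) (h j) (h' j)
  adj : ∀ j, h j ≠ h (j + 1)
  adj' : ∀ j, h' j ≠ h' (j + 1)
  noswap : ∀ j, h j ≠ h' j → h j = h' (j + 1) → h' j ≠ h (j + 1)
  opp : ∀ j, (h j = 2 ∨ h' j = 2) → (h (j + 3) = 3 ∨ h' (j + 3) = 3) → False

instance (lam : Fin 6 → Fin 7) (h h' : Fin 6 → Fin 4) : Decidable (EvL lam h h') :=
  decidable_of_iff ((∀ j, CtL (lam j) (h j) (h' j)) ∧ (∀ j, h j ≠ h (j + 1)) ∧
      (∀ j, h' j ≠ h' (j + 1)) ∧ (∀ j, h j ≠ h' j → h j = h' (j + 1) → h' j ≠ h (j + 1)) ∧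
      ∀ j, (h j = 2 ∨ h' j = 2) → (h (j + 3) = 3 ∨ h' (j + 3) = 3) → False)
    ⟨fun ⟨h1, h2, h3, h4, h5⟩ => ⟨h1, h2, h3, h4, h5⟩,
      fun h => ⟨h.ct, h.adj, h.adj', h.noswap, h.opp⟩⟩

/-- chain of classes with label vectors in the phase `k` -/
def ZChL {σ : Type} (k : ℕ) (cl : (Fin 6 → Fin 4) → σ) :
    List (Fin 6 → Fin 7) → (Fin 6 → Fin 4) → (Fin 6 → Fin 4) → Prop
  | [], h, h' => Zok k h ∧ Zok k h' ∧ cl h = cl h'
  | τ :: l, h, h' => ∃ g g', (Zok k h ∧ Zok k g ∧ cl h = cl g) ∧ EvL τ g g' ∧ ZChL k cl l g' h'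

variable {U : Fin 6 → Set ℂ} {T : ℂ → Set (Fin 6)} {z : ℂ} {a b c d e f : Fin 6} {p q : ℝ}

open Classical in
/-- the label of a point -/
def lb (T : ℂ → Set (Fin 6)) (z : ℂ) (a b c d e f : Fin 6) (y : ℂ) : Fin 7 :=
  if T y = T z then (if ∀ᶠ t in 𝓝[>] (0 : ℝ), T (hb z y (-1) t) = {a, b} then 5 else 6)
  else if T y = {a, b, e} then (if OEnd T z y 1 then 1 else 2)
  else if T y = {c, d, f} then (if OEnd T z y 1 then 3 else 4) else 0

theorem lb_ne {y : ℂ} : lb T z a b c d e f y ≠ 0 ↔ ty T z a b c d e f y ≠ 0 := by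
  unfold lb ty
  split_ifs <;> simp

/-- the label vector at the time `u` -/
def lam (T : ℂ → Set (Fin 6)) (z : ℂ) (a b c d e f : Fin 6) (φ u : ℝ) : Fin 6 → Fin 7 :=
  fun j => lb T z a b c d e f (qj z φ u j)

theorem lam_ne {φ u : ℝ} {j : Fin 6} :
    lam T z a b c d e f φ u j ≠ 0 ↔ tau T z a b c d e f φ u j ≠ 0 := lb_ne

/-- a two-pair point with clean ends in one network and no two J-points at distance one -/
structure CzE (U : Fin 6 → Set ℂ) (T : ℂ → Set (Fin 6)) (z : ℂ) (a b c d e f : Fin 6) : Prop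
    extends Cz U T z a b c d e f where
  cln : ∀ y, dist y z = 1 → T y = {a, b, e} ∨ T y = {c, d, f} → Cln T z y
  nj : ∀ s, T (pt z s) = T z → T (pt z (s + 1)) = T z → False

theorem qj_back (φ u v : ℝ) (j : Fin 6) :
    qj z φ v j = z + (qj z φ u j - z) * cis (-((u - v) * (Real.pi / 3))) := by
  unfold qj
  rw [pt_rot]
  congr 1
  have := Real.pi_ne_zero
  field_simp
  ring

/-- a left limit column at points before the slot -/
theorem Cz.lc_side (S : Cz U T z a b c d e f) {φ u : ℝ} {g : Unit × Fin 6 → Fin 4}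
    (hg : g ∈ LC (XX T z a b e f φ) u) (j : Fin 6) {Q : ℂ → Prop}
    (hQ : ∃ ε > 0, ∀ t ∈ Ioo (0 : ℝ) ε, Q (z + (qj z φ u j - z) * cis (-t))) :
    ∃ y, Q y ∧ y ∈ Lt T z a b c d e f (g ((), j)) := by
  obtain ⟨ε, hε, hQ⟩ := hQ
  have hpi := Real.pi_pos
  obtain ⟨v, ⟨-, hv⟩, hvI⟩ := (Frequently.and_eventually hg
    (Ioo_mem_nhdsLT (show u - ε * (3 / Real.pi) < u by
      have : 0 < ε * (3 / Real.pi) := by positivity
      linarith))).exists
  refine ⟨qj z φ v j, ?_, S.mem_Lt (hv ((), j))⟩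
  rw [qj_back φ u v j]
  refine hQ _ ⟨by have := sub_pos.2 hvI.2; positivity, ?_⟩
  have h1 : u - v < ε * (3 / Real.pi) := by linarith [hvI.1]
  calc (u - v) * (Real.pi / 3) < ε * (3 / Real.pi) * (Real.pi / 3) :=
        mul_lt_mul_of_pos_right h1 (by positivity)
    _ = ε := by field_simp

theorem Cz.rc_side (S : Cz U T z a b c d e f) {φ u : ℝ} {g : Unit × Fin 6 → Fin 4}
    (hg : g ∈ RC (XX T z a b e f φ) u) (j : Fin 6) {Q : ℂ → Prop}
    (hQ : ∃ ε > 0, ∀ t ∈ Ioo (0 : ℝ) ε, Q (z + (qj z φ u j - z) * cis t)) :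
    ∃ y, Q y ∧ y ∈ Lt T z a b c d e f (g ((), j)) := by
  obtain ⟨ε, hε, hQ⟩ := hQ
  have hpi := Real.pi_pos
  obtain ⟨v, ⟨-, hv⟩, hvI⟩ := (Frequently.and_eventually hg
    (Ioo_mem_nhdsGT (show u < u + ε * (3 / Real.pi) by
      have : 0 < ε * (3 / Real.pi) := by positivity
      linarith))).exists
  refine ⟨qj z φ v j, ?_, S.mem_Lt (hv ((), j))⟩
  rw [qj_back φ u v j]
  have h1 : v - u < ε * (3 / Real.pi) := by linarith [hvI.2]
  have h2 := hQ ((v - u) * (Real.pi / 3)) ⟨by have := sub_pos.2 hvI.1; positivity, by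
    calc (v - u) * (Real.pi / 3) < ε * (3 / Real.pi) * (Real.pi / 3) :=
          mul_lt_mul_of_pos_right h1 (by positivity)
      _ = ε := by field_simp⟩
  rwa [show -((u - v) * (Real.pi / 3)) = (v - u) * (Real.pi / 3) by ring]

/-- the letter at an exact point -/
theorem Cz.let_ab (S : Cz U T z a b c d e f) {y : ℂ} (hy : T y = {a, b}) {l : Fin 4}
    (hl : y ∈ Lt T z a b c d e f l) : l = 2 := by
  obtain ⟨⟨ab, ac, ad, ae, af⟩, ⟨bc, bd, be, bf⟩, ⟨cd, ce, cf⟩, ⟨de, df⟩, ef⟩ := S.nd'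
  have h4 : l = 0 ∨ l = 1 ∨ l = 2 ∨ l = 3 := by fin_cases l <;> decide
  rcases h4 with rfl | rfl | h4 | rfl
  · have h1 : e ∈ T y := hl.2
    rw [hy] at h1
    rcases h1 with h1 | h1
    · exact absurd h1.symm ae
    · exact absurd h1.symm be
  · have h1 : f ∈ T y := hl.2
    rw [hy] at h1
    rcases h1 with h1 | h1
    · exact absurd h1.symm af
    · exact absurd h1.symm bf
  · exact h4
  · have h1 : c ∈ T y := Lt_col S.irr hl (show c ∈ ({c, d} : Set (Fin 6)) from Or.inl rfl)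
    rw [hy] at h1
    rcases h1 with h1 | h1
    · exact absurd h1.symm ac
    · exact absurd h1.symm bc

theorem Cz.let_cd (S : Cz U T z a b c d e f) {y : ℂ} (hy : T y = {c, d}) {l : Fin 4}
    (hl : y ∈ Lt T z a b c d e f l) : l = 3 := by
  obtain ⟨⟨ab, ac, ad, ae, af⟩, ⟨bc, bd, be, bf⟩, ⟨cd, ce, cf⟩, ⟨de, df⟩, ef⟩ := S.nd'
  have h4 : l = 0 ∨ l = 1 ∨ l = 2 ∨ l = 3 := by fin_cases l <;> decide
  rcases h4 with rfl | rfl | rfl | h4
  · have h1 : e ∈ T y := hl.2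
    rw [hy] at h1
    rcases h1 with h1 | h1
    · exact absurd h1 (Ne.symm ce)
    · exact absurd h1 (Ne.symm de)
  · have h1 : f ∈ T y := hl.2
    rw [hy] at h1
    rcases h1 with h1 | h1
    · exact absurd h1 (Ne.symm cf)
    · exact absurd h1 (Ne.symm df)
  · have h1 : a ∈ T y := Lt_col S.irr hl (show a ∈ ({a, b} : Set (Fin 6)) from Or.inl rfl)
    rw [hy] at h1
    rcases h1 with h1 | h1
    · exact absurd h1 ac
    · exact absurd h1 ad
  · exact h4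

theorem ev_Ioo {P : ℝ → Prop} (h : ∀ᶠ t in 𝓝[>] (0 : ℝ), P t) : ∃ ε > 0, ∀ t ∈ Ioo (0 : ℝ) ε, P t := by
  obtain ⟨ε, hε, hsub⟩ := (mem_nhdsGT_iff_exists_Ioo_subset).1 h
  exact ⟨ε, hε, fun t ht => hsub ht⟩

/-- the palettes near a point are inside its palette -/
theorem ev_sub (h : Irr U T) (z y : ℂ) (σ : ℝ) :
    ∀ᶠ t in 𝓝[>] (0 : ℝ), T (z + (y - z) * cis (σ * t)) ⊆ T y := by
  have h1 := (tendsto_hb z y σ).eventually (h.nhd y)
  exact h1

theorem Cz.inter_V (S : Cz U T z a b c d e f) {y : ℂ} (hy : T y = {a, b, e}) :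
    T z ∩ T y = {a, b} := by
  obtain ⟨⟨ab, ac, ad, ae, af⟩, ⟨bc, bd, be, bf⟩, ⟨cd, ce, cf⟩, ⟨de, df⟩, ef⟩ := S.nd'
  rw [hy, S.dpt.pal]
  ext i
  simp only [mem_inter_iff, mem_insert_iff, mem_singleton_iff]
  constructor
  · rintro ⟨h1, h2 | h2 | rfl⟩
    · exact Or.inl h2
    · exact Or.inr h2
    · rcases h1 with h1 | h1 | h1 | h1
      · exact absurd h1.symm ae
      · exact absurd h1.symm be
      · exact absurd h1.symm ce
      · exact absurd h1.symm de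
  · rintro (rfl | rfl) <;> simp

theorem Cz.inter_Q (S : Cz U T z a b c d e f) {y : ℂ} (hy : T y = {c, d, f}) :
    T z ∩ T y = {c, d} := by
  obtain ⟨⟨ab, ac, ad, ae, af⟩, ⟨bc, bd, be, bf⟩, ⟨cd, ce, cf⟩, ⟨de, df⟩, ef⟩ := S.nd'
  rw [hy, S.dpt.pal]
  ext i
  simp only [mem_inter_iff, mem_insert_iff, mem_singleton_iff]
  constructor
  · rintro ⟨h1, h2 | h2 | rfl⟩
    · exact Or.inl h2
    · exact Or.inr h2
    · rcases h1 with h1 | h1 | h1 | h1
      · exact absurd h1.symm af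
      · exact absurd h1.symm bf
      · exact absurd h1.symm cf
      · exact absurd h1.symm df
  · rintro (rfl | rfl) <;> simp

theorem Cz.four (S : Cz U T z a b c d e f) : (T z).ncard = 4 := by
  obtain ⟨⟨ab, ac, ad, ae, af⟩, ⟨bc, bd, be, bf⟩, ⟨cd, ce, cf⟩, ⟨de, df⟩, ef⟩ := S.nd'
  rw [S.dpt.pal, Set.ncard_eq_toFinset_card']
  simp [ab, ac, ad, bc, bd, cd]

theorem ncard_three {x y w : Fin 6} (h1 : x ≠ y) (h2 : x ≠ w) (h3 : y ≠ w) :
    ({x, y, w} : Set (Fin 6)).ncard = 3 := Set.ncard_eq_three.2 ⟨x, y, w, h1, h2, h3, rfl⟩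

/-- at a clean end: the orientation, the exact side and the other side -/
theorem Cz.cln_V (S : Cz U T z a b c d e f) {y : ℂ} (hy : dist y z = 1) (hT : T y = {a, b, e})
    (hc : Cln T z y) : (OEnd T z y 1 ∧
        (∃ ε > 0, ∀ t ∈ Ioo (0 : ℝ) ε, T (z + (y - z) * cis (-t)) = {a, b}) ∧
        ∃ ε > 0, ∀ t ∈ Ioo (0 : ℝ) ε, ¬ {a, b} ⊆ T (z + (y - z) * cis t)) ∨
      (¬ OEnd T z y 1 ∧
        (∃ ε > 0, ∀ t ∈ Ioo (0 : ℝ) ε, T (z + (y - z) * cis t) = {a, b}) ∧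
        ∃ ε > 0, ∀ t ∈ Ioo (0 : ℝ) ε, ¬ {a, b} ⊆ T (z + (y - z) * cis (-t))) := by
  obtain ⟨⟨ab, ac, ad, ae, af⟩, ⟨bc, bd, be, bf⟩, ⟨cd, ce, cf⟩, ⟨de, df⟩, ef⟩ := S.nd'
  obtain ⟨o, ε, ho, hε, h1, h2⟩ := hc
  have hin := S.inter_V hT
  rw [hin] at h1 h2
  rcases ho with rfl | rfl
  · left
    refine ⟨⟨Or.inl rfl, hy, S.four, by rw [hT]; exact ncard_three ab ae be,
      by rw [hin, Set.ncard_pair ab], ε, hε, fun t ht => by rw [hin]; exact h1 t ht⟩,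
      ⟨ε, hε, fun t ht => ?_⟩, ε, hε, fun t ht => ?_⟩
    · have := h1 t ht; rwa [one_mul] at this
    · have := h2 t ht; rwa [one_mul] at this
  · right
    refine ⟨?_, ⟨ε, hε, fun t ht => ?_⟩, ε, hε, fun t ht => ?_⟩
    · rintro ⟨-, -, -, -, -, ε', hε', h3⟩
      have hm : 0 < min ε ε' := lt_min hε hε'
      have h4 := h3 (min ε ε' / 2) ⟨by linarith, by have := min_le_right ε ε'; linarith⟩
      have h5 := h2 (min ε ε' / 2) ⟨by linarith, by have := min_le_left ε ε'; linarith⟩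
      rw [one_mul, hin] at h4
      rw [neg_one_mul, h4] at h5
      exact h5 (le_refl _)
    · have := h1 t ht; rwa [neg_one_mul, neg_neg] at this
    · have := h2 t ht; rwa [neg_one_mul] at this

theorem Cz.cln_Q (S : Cz U T z a b c d e f) {y : ℂ} (hy : dist y z = 1) (hT : T y = {c, d, f})
    (hc : Cln T z y) : (OEnd T z y 1 ∧
        (∃ ε > 0, ∀ t ∈ Ioo (0 : ℝ) ε, T (z + (y - z) * cis (-t)) = {c, d}) ∧
        ∃ ε > 0, ∀ t ∈ Ioo (0 : ℝ) ε, ¬ {c, d} ⊆ T (z + (y - z) * cis t)) ∨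
      (¬ OEnd T z y 1 ∧
        (∃ ε > 0, ∀ t ∈ Ioo (0 : ℝ) ε, T (z + (y - z) * cis t) = {c, d}) ∧
        ∃ ε > 0, ∀ t ∈ Ioo (0 : ℝ) ε, ¬ {c, d} ⊆ T (z + (y - z) * cis (-t))) := by
  obtain ⟨⟨ab, ac, ad, ae, af⟩, ⟨bc, bd, be, bf⟩, ⟨cd, ce, cf⟩, ⟨de, df⟩, ef⟩ := S.nd'
  obtain ⟨o, ε, ho, hε, h1, h2⟩ := hc
  have hin := S.inter_Q hT
  rw [hin] at h1 h2
  rcases ho with rfl | rfl
  · left
    refine ⟨⟨Or.inl rfl, hy, S.four, by rw [hT]; exact ncard_three cd cf df,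
      by rw [hin, Set.ncard_pair cd], ε, hε, fun t ht => by rw [hin]; exact h1 t ht⟩,
      ⟨ε, hε, fun t ht => ?_⟩, ε, hε, fun t ht => ?_⟩
    · have := h1 t ht; rwa [one_mul] at this
    · have := h2 t ht; rwa [one_mul] at this
  · right
    refine ⟨?_, ⟨ε, hε, fun t ht => ?_⟩, ε, hε, fun t ht => ?_⟩
    · rintro ⟨-, -, -, -, -, ε', hε', h3⟩
      have hm : 0 < min ε ε' := lt_min hε hε'
      have h4 := h3 (min ε ε' / 2) ⟨by linarith, by have := min_le_right ε ε'; linarith⟩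
      have h5 := h2 (min ε ε' / 2) ⟨by linarith, by have := min_le_left ε ε'; linarith⟩
      rw [one_mul, hin] at h4
      rw [neg_one_mul, h4] at h5
      exact h5 (le_refl _)
    · have := h1 t ht; rwa [neg_one_mul, neg_neg] at this
    · have := h2 t ht; rwa [neg_one_mul] at this

/-- the letter on the side of a clean end which does not carry the pair -/
theorem Cz.let_V' (S : Cz U T z a b c d e f) {y : ℂ} (hs : T y ⊆ {a, b, e})
    (hn : ¬ {a, b} ⊆ T y) {l : Fin 4} (hl : y ∈ Lt T z a b c d e f l) : l = 0 := by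
  obtain ⟨⟨ab, ac, ad, ae, af⟩, ⟨bc, bd, be, bf⟩, ⟨cd, ce, cf⟩, ⟨de, df⟩, ef⟩ := S.nd'
  have h4 : l = 0 ∨ l = 1 ∨ l = 2 ∨ l = 3 := by fin_cases l <;> decide
  rcases h4 with h4 | rfl | rfl | rfl
  · exact h4
  · have h1 : f ∈ ({a, b, e} : Set (Fin 6)) := hs hl.2
    rcases h1 with h1 | h1 | h1
    · exact absurd h1.symm af
    · exact absurd h1.symm bf
    · exact absurd h1.symm ef
  · exact absurd (Lt_col S.irr hl) hn
  · have h1 : c ∈ ({a, b, e} : Set (Fin 6)) :=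
      hs (Lt_col S.irr hl (show c ∈ ({c, d} : Set (Fin 6)) from Or.inl rfl))
    rcases h1 with h1 | h1 | h1
    · exact absurd h1.symm ac
    · exact absurd h1.symm bc
    · exact absurd h1 ce

theorem Cz.let_Q' (S : Cz U T z a b c d e f) {y : ℂ} (hs : T y ⊆ {c, d, f})
    (hn : ¬ {c, d} ⊆ T y) {l : Fin 4} (hl : y ∈ Lt T z a b c d e f l) : l = 1 := by
  obtain ⟨⟨ab, ac, ad, ae, af⟩, ⟨bc, bd, be, bf⟩, ⟨cd, ce, cf⟩, ⟨de, df⟩, ef⟩ := S.nd'
  have h4 : l = 0 ∨ l = 1 ∨ l = 2 ∨ l = 3 := by fin_cases l <;> decide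
  rcases h4 with rfl | h4 | rfl | rfl
  · have h1 : e ∈ ({c, d, f} : Set (Fin 6)) := hs hl.2
    rcases h1 with h1 | h1 | h1
    · exact absurd h1 (Ne.symm ce)
    · exact absurd h1 (Ne.symm de)
    · exact absurd h1 ef
  · exact h4
  · have h1 : a ∈ ({c, d, f} : Set (Fin 6)) :=
      hs (Lt_col S.irr hl (show a ∈ ({a, b} : Set (Fin 6)) from Or.inl rfl))
    rcases h1 with h1 | h1 | h1
    · exact absurd h1 ac
    · exact absurd h1 ad
    · exact absurd h1 af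
  · exact absurd (Lt_col S.irr hl) hn

/-- combine two one-sided properties -/
theorem and_side {P Q : ℝ → Prop} (h1 : ∃ ε > 0, ∀ t ∈ Ioo (0 : ℝ) ε, P t)
    (h2 : ∃ ε > 0, ∀ t ∈ Ioo (0 : ℝ) ε, Q t) : ∃ ε > 0, ∀ t ∈ Ioo (0 : ℝ) ε, P t ∧ Q t := by
  obtain ⟨ε, hε, h1⟩ := h1
  obtain ⟨ε', hε', h2⟩ := h2
  refine ⟨min ε ε', lt_min hε hε', fun t ht => ⟨h1 t ⟨ht.1, ?_⟩, h2 t ⟨ht.1, ?_⟩⟩⟩
  · exact lt_of_lt_of_le ht.2 (min_le_left _ _)
  · exact lt_of_lt_of_le ht.2 (min_le_right _ _)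

namespace CzE

/-- the letters before and after at one slot -/
theorem ctL (S : CzE U T z a b c d e f) {φ u : ℝ} {g g' : Unit × Fin 6 → Fin 4}
    (hg : g ∈ LC (XX T z a b e f φ) u) (hg' : g' ∈ RC (XX T z a b e f φ) u) (j : Fin 6) :
    CtL (lam T z a b c d e f φ u j) (g ((), j)) (g' ((), j)) := by
  have C := S.toCz
  obtain ⟨⟨ab, ac, ad, ae, af⟩, ⟨bc, bd, be, bf⟩, ⟨cd, ce, cf⟩, ⟨de, df⟩, ef⟩ := C.nd'
  have hty : Ct (ty T z a b c d e f (qj z φ u j)) (g ((), j)) (g' ((), j)) :=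
    (C.tie (Or.inl hg) (Or.inr hg')).ct j
  have hd := dist_qj z φ u j
  set y := qj z φ u j with hy
  have nb : ∀ σ : ℝ, σ = 1 ∨ σ = -1 →
      ∃ ε > 0, ∀ t ∈ Ioo (0 : ℝ) ε, T (z + (y - z) * cis (σ * t)) ⊆ T y :=
    fun σ _ => ev_Ioo (ev_sub C.irr z y σ)
  have nb1 := nb 1 (Or.inl rfl)
  have nb2 := nb (-1) (Or.inr rfl)
  simp only [one_mul, neg_one_mul] at nb1 nb2
  show CtL (lb T z a b c d e f y) _ _
  unfold lb
  unfold ty at hty
  by_cases h3 : T y = T z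
  · rw [if_pos h3]
    obtain ⟨τ, hτ, h1, h2⟩ := C.irr.j_sides C.dpt hd h3
    have hne : ({a, b} : Set (Fin 6)) ≠ {c, d} := by
      intro h5
      have : a ∈ ({c, d} : Set (Fin 6)) := by rw [← h5]; simp
      rcases this with h6 | h6
      · exact ac h6
      · exact ad h6
    rcases hτ with rfl | rfl
    · -- `A` after
      have hn : ¬ ∀ᶠ t in 𝓝[>] (0 : ℝ), T (hb z y (-1) t) = {a, b} := by
        intro h5
        obtain ⟨t, ht1, ht2⟩ := (h5.and h2).exists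
        exact hne (ht1.symm.trans ht2)
      rw [if_neg hn]
      obtain ⟨y1, k1, k2⟩ := C.lc_side hg j (Q := fun y => T y = {c, d})
        (by have := ev_Ioo h2; simpa only [hb, neg_one_mul] using this)
      obtain ⟨y2, k3, k4⟩ := C.rc_side hg' j (Q := fun y => T y = {a, b})
        (by have := ev_Ioo h1; simpa only [hb, one_mul] using this)
      exact ⟨C.let_cd k1 k2, C.let_ab k3 k4⟩
    · rw [neg_neg] at h2
      rw [if_pos h1]
      obtain ⟨y1, k1, k2⟩ := C.lc_side hg j (Q := fun y => T y = {a, b})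
        (by have := ev_Ioo h1; simpa only [hb, neg_one_mul] using this)
      obtain ⟨y2, k3, k4⟩ := C.rc_side hg' j (Q := fun y => T y = {c, d})
        (by have := ev_Ioo h2; simpa only [hb, one_mul] using this)
      exact ⟨C.let_ab k1 k2, C.let_cd k3 k4⟩
  rw [if_neg h3] at hty ⊢
  by_cases h1 : T y = {a, b, e}
  · rw [if_pos h1]
    rw [h1] at nb1 nb2
    rcases C.cln_V hd h1 (S.cln y hd (Or.inl h1)) with ⟨ho, k1, k2⟩ | ⟨ho, k1, k2⟩
    · rw [if_pos ho]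
      obtain ⟨y1, k3, k4⟩ := C.lc_side hg j (Q := fun y => T y = {a, b}) k1
      obtain ⟨y2, k5, k6⟩ := C.rc_side hg' j
        (Q := fun y => ¬ {a, b} ⊆ T y ∧ T y ⊆ {a, b, e}) (and_side k2 nb1)
      exact ⟨C.let_ab k3 k4, C.let_V' k5.2 k5.1 k6⟩
    · rw [if_neg ho]
      obtain ⟨y1, k3, k4⟩ := C.rc_side hg' j (Q := fun y => T y = {a, b}) k1
      obtain ⟨y2, k5, k6⟩ := C.lc_side hg j
        (Q := fun y => ¬ {a, b} ⊆ T y ∧ T y ⊆ {a, b, e}) (and_side k2 nb2)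
      exact ⟨C.let_V' k5.2 k5.1 k6, C.let_ab k3 k4⟩
  rw [if_neg h1] at hty ⊢
  by_cases h2 : T y = {c, d, f}
  · rw [if_pos h2]
    rw [h2] at nb1 nb2
    rcases C.cln_Q hd h2 (S.cln y hd (Or.inr h2)) with ⟨ho, k1, k2⟩ | ⟨ho, k1, k2⟩
    · rw [if_pos ho]
      obtain ⟨y1, k3, k4⟩ := C.lc_side hg j (Q := fun y => T y = {c, d}) k1
      obtain ⟨y2, k5, k6⟩ := C.rc_side hg' j
        (Q := fun y => ¬ {c, d} ⊆ T y ∧ T y ⊆ {c, d, f}) (and_side k2 nb1)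
      exact ⟨C.let_cd k3 k4, C.let_Q' k5.2 k5.1 k6⟩
    · rw [if_neg ho]
      obtain ⟨y1, k3, k4⟩ := C.rc_side hg' j (Q := fun y => T y = {c, d}) k1
      obtain ⟨y2, k5, k6⟩ := C.lc_side hg j
        (Q := fun y => ¬ {c, d} ⊆ T y ∧ T y ⊆ {c, d, f}) (and_side k2 nb2)
      exact ⟨C.let_Q' k5.2 k5.1 k6, C.let_cd k3 k4⟩
  rw [if_neg h2] at hty ⊢
  exact hty

/-- **the columns before and after any time** -/
theorem evL (S : CzE U T z a b c d e f) {φ u : ℝ} {g g' : Unit × Fin 6 → Fin 4}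
    (hg : g ∈ LC (XX T z a b e f φ) u) (hg' : g' ∈ RC (XX T z a b e f φ) u) :
    EvL (lam T z a b c d e f φ u) (fun j => g ((), j)) (fun j => g' ((), j)) := by
  have t := S.toCz.tie (Or.inl hg) (Or.inr hg')
  refine ⟨S.ctL hg hg', t.adj, t.adj', fun j h1 h2 h3 => ?_, t.opp⟩
  obtain ⟨k1, k2⟩ := t.noswap j h1 h2 h3
  have hJ : ∀ i : Fin 6, tau T z a b c d e f φ u i = 3 → T (qj z φ u i) = T z := by
    intro i hi
    by_contra hcon
    unfold tau ty at hi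
    rw [if_neg hcon] at hi
    split_ifs at hi
    · exact absurd hi (by decide)
    · exact absurd hi (by decide)
    · exact absurd hi (by decide)
  refine S.nj (φ + u + (j.val : ℝ)) (hJ j k1) ?_
  rw [← qj_succ]
  exact hJ (j + 1) k2

end CzE

theorem zchL_of_cmp {σ : Type} {k : ℕ} {cl : (Fin 6 → Fin 4) → σ} {E : ℝ → Fin 6 → Fin 7} :
    ∀ {l : List ℝ} {h h' : Unit × Fin 6 → Fin 4},
    Cmp (fun g g' => Zok k (fun j => g ((), j)) ∧ Zok k (fun j => g' ((), j)) ∧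
        cl (fun j => g ((), j)) = cl (fun j => g' ((), j)))
      (fun s g g' => EvL (E s) (fun j => g ((), j)) (fun j => g' ((), j))) l h h' →
    ZChL k cl (l.map E) (fun j => h ((), j)) (fun j => h' ((), j)) := by
  intro l
  induction l with
  | nil => intro h h' hc; exact hc
  | cons s l ih =>
    rintro h h' ⟨g, g', h1, h2, h3⟩
    exact ⟨_, _, h1, h2, ih h3⟩

/-- one phase -/
theorem CzE.phase (S : CzE U T z a b c d e f) (Z : Zn T z a b c d p q)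
    (hfin : {y | dist y z = 1 ∧ lb T z a b c d e f y ≠ 0}.Finite) {σ : Type} {k : ℕ}
    {cl : (Fin 6 → Fin 4) → σ}
    (hcl : ∀ h h', Zok k h → Zok k h' → Tie (fun _ => 0) h h' → cl h = cl h') {α β : ℝ}
    (hα : 0 ≤ α) (hβ : β ≤ 1) (hαβ : α < β) (hp : ∀ v ∈ Ioo α β, Ph (q - p) k v)
    {h h' : Unit × Fin 6 → Fin 4} (hh : h ∈ RC (XX T z a b e f p) α)
    (hh' : h' ∈ LC (XX T z a b e f p) β) :
    ∃ l : List ℝ, l.Pairwise (· < ·) ∧
      (∀ u, u ∈ l ↔ u ∈ Ioo α β ∧ ∃ j, lam T z a b c d e f p u j ≠ 0) ∧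
      ZChL k cl (l.map (lam T z a b c d e f p)) (fun j => h ((), j)) (fun j => h' ((), j)) := by
  have C := S.toCz
  have w := C.sw p
  have hfin' : {y | dist y z = 1 ∧ ty T z a b c d e f y ≠ 0}.Finite := by
    simpa only [lb_ne] using hfin
  have hfin2 : {u | u ∈ Ioo α β ∧ ∃ j, lam T z a b c d e f p u j ≠ 0}.Finite := by
    have := finite_times' hfin' p α β hα hβ
    simpa only [lam_ne] using this
  set F := hfin2.toFinset with hF
  have hmem : ∀ u, u ∈ F ↔ u ∈ Ioo α β ∧ ∃ j, lam T z a b c d e f p u j ≠ 0 := fun u => by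
    rw [hF, Set.Finite.mem_toFinset]; exact Iff.rfl
  refine ⟨F.sort (· ≤ ·), (Finset.sortedLT_sort F).pairwise, fun u => by
    rw [Finset.mem_sort]; exact hmem u, ?_⟩
  have hz : ∀ u ∈ Ioo α β, ∀ g ∈ LC (XX T z a b e f p) u ∪ RC (XX T z a b e f p) u,
      Zok k (fun j => g ((), j)) := by
    rintro u hu g (hg | hg)
    · exact Z.zok_LC C hu.1 (fun v hv => hp v ⟨hv.1, hv.2.trans hu.2⟩) hg
    · exact Z.zok_RC C hu.2 (fun v hv => hp v ⟨hu.1.trans hv.1, hv.2⟩) hg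
  have h1 := w.sweep_finset
    (R := fun g g' => Zok k (fun j => g ((), j)) ∧ Zok k (fun j => g' ((), j)) ∧
        cl (fun j => g ((), j)) = cl (fun j => g' ((), j)))
    (fun _ _ _ h1 h2 => ⟨h1.1, h2.2.1, h1.2.2.trans h2.2.2⟩)
    (E := fun s g g' => EvL (lam T z a b c d e f p s) (fun j => g ((), j)) (fun j => g' ((), j)))
    hαβ F (fun s hs => ((hmem s).1 hs).1)
    (fun s _ h hh h' hh' => S.evL hh hh')
    (fun u hu hnot h hh h' hh' => by
      have h2 := C.tie hh hh'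
      have h3 : tau T z a b c d e f p u = fun _ => 0 := by
        funext j
        by_contra hne
        exact hnot ((hmem u).2 ⟨hu, j, lam_ne.2 hne⟩)
      rw [h3] at h2
      exact ⟨hz u hu _ hh, hz u hu _ hh', hcl _ _ (hz u hu _ hh) (hz u hu _ hh') h2⟩)
    h hh h' hh'
  exact zchL_of_cmp h1

/-- **The class theorem with zones and labels.**  `j0 + s = q - p`; base angle `p`. -/
theorem CzE.zpath (S : CzE U T z a b c d e f) (Z : Zn T z a b c d p q)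
    (hfin : {y | dist y z = 1 ∧ lb T z a b c d e f y ≠ 0}.Finite) {σ : Type}
    {cl : ℕ → (Fin 6 → Fin 4) → σ}
    (hcl : ∀ k h h', Zok k h → Zok k h' → Tie (fun _ => 0) h h' → cl k h = cl k h') :
    ∃ (j0 : ℕ) (s : ℝ), j0 < 3 ∧ 0 ≤ s ∧ s < 1 ∧ q = p + j0 + s ∧
      ((s = 0 ∧ 0 < j0 ∧ ∃ (l : List ℝ) (h h' : Fin 6 → Fin 4), l.Pairwise (· < ·) ∧
        (∀ u, u ∈ l ↔ u ∈ Ioo (0 : ℝ) 1 ∧ ∃ j, lam T z a b c d e f p u j ≠ 0) ∧
        EvL (lam T z a b c d e f p 0) h h' ∧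
        ZChL j0 (cl j0) (l.map (lam T z a b c d e f p)) h' (fun j => h (j + 1))) ∨
       (0 < s ∧ ∃ (l l' : List ℝ) (h h' g g' : Fin 6 → Fin 4), l.Pairwise (· < ·) ∧
        l'.Pairwise (· < ·) ∧
        (∀ u, u ∈ l ↔ u ∈ Ioo (0 : ℝ) s ∧ ∃ j, lam T z a b c d e f p u j ≠ 0) ∧
        (∀ u, u ∈ l' ↔ u ∈ Ioo s 1 ∧ ∃ j, lam T z a b c d e f p u j ≠ 0) ∧
        EvL (lam T z a b c d e f p 0) h h' ∧
        ZChL (j0 + 1) (cl (j0 + 1)) (l.map (lam T z a b c d e f p)) h' g ∧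
        EvL (lam T z a b c d e f p s) g g' ∧
        ZChL j0 (cl j0) (l'.map (lam T z a b c d e f p)) g' (fun j => h (j + 1)))) := by
  have w := S.toCz.sw p
  have hlt := Z.lt
  have hlt' := Z.lt'
  obtain ⟨j0, s, hj0, hs0, hs1, hq⟩ : ∃ (j0 : ℕ) (s : ℝ), j0 < 3 ∧ 0 ≤ s ∧ s < 1 ∧
      q = p + j0 + s := by
    refine ⟨⌊q - p⌋₊, Int.fract (q - p), ?_, Int.fract_nonneg _, Int.fract_lt_one _, ?_⟩
    · rw [Nat.floor_lt (by linarith)]
      push_cast; linarith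
    · have h1 := Int.floor_add_fract (q - p)
      have h2 : ((⌊q - p⌋₊ : ℕ) : ℝ) = ((⌊q - p⌋ : ℤ) : ℝ) := by
        rw [← natCast_floor_eq_intCast_floor (by linarith)]
      rw [h2]; linarith
  refine ⟨j0, s, hj0, hs0, hs1, hq, ?_⟩
  have hQ : q - p = j0 + s := by rw [hq]; ring
  -- the phases
  have ph2 : ∀ v ∈ Ioo s 1, Ph (q - p) j0 v := by
    intro v hv
    refine ⟨lt_of_le_of_lt hs0 hv.1, hv.2, fun i _ h2 => ?_, fun i _ h2 => ?_⟩
    · have h3 : (i : ℝ) + 1 ≤ (j0 : ℝ) := by exact_mod_cast h2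
      rw [hQ]; linarith [hv.2]
    · have h3 : (j0 : ℝ) ≤ (i : ℝ) := by exact_mod_cast h2
      rw [hQ]; linarith [hv.1]
  have ph1 : ∀ v ∈ Ioo 0 s, Ph (q - p) (j0 + 1) v := by
    intro v hv
    refine ⟨hv.1, hv.2.trans hs1, fun i _ h2 => ?_, fun i _ h2 => ?_⟩
    · have h3 : (i : ℝ) ≤ (j0 : ℝ) := by exact_mod_cast (by omega : i ≤ j0)
      rw [hQ]; linarith [hv.2]
    · have h3 : (j0 : ℝ) + 1 ≤ (i : ℝ) := by exact_mod_cast h2
      rw [hQ]; linarith [hv.1]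
  obtain ⟨g0, hg0⟩ := w.LC_ne 0
  obtain ⟨g0', hg0'⟩ := w.RC_ne 0
  have hrot : g0 ∘ rt Unit ∈ LC (XX T z a b e f p) 1 := by
    have := LC_shift (X := XX T z a b e f p) (σ := rt Unit) (fun s l u => Xl_per s l u) hg0
    rwa [zero_add] at this
  rcases hs0.eq_or_lt with hs | hs
  · left
    subst hs
    refine ⟨rfl, ?_, ?_⟩
    · rcases Nat.eq_zero_or_pos j0 with h0 | h0
      · subst h0; push_cast at hQ; linarith
      · exact h0
    · obtain ⟨l, h1, h2, h3⟩ := S.phase Z hfin (hcl j0) le_rfl le_rfl one_pos ph2 hg0' hrot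
      exact ⟨l, fun j => g0 ((), j), fun j => g0' ((), j), h1, h2, S.evL hg0 hg0', h3⟩
  · right
    refine ⟨hs, ?_⟩
    obtain ⟨g1, hg1⟩ := w.LC_ne s
    obtain ⟨g1', hg1'⟩ := w.RC_ne s
    obtain ⟨l, h1, h2, h3⟩ := S.phase Z hfin (hcl (j0 + 1)) le_rfl hs1.le hs ph1 hg0' hg1
    obtain ⟨l', h1', h2', h3'⟩ := S.phase Z hfin (hcl j0) hs0 le_rfl hs1 ph2 hg1' hrot
    exact ⟨l, l', fun j => g0 ((), j), fun j => g0' ((), j), fun j => g1 ((), j),
      fun j => g1' ((), j), h1, h1', h2, h2', S.evL hg0 hg0', h3, S.evL hg1 hg1', h3'⟩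

end Vale.Agent.P032.H987
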