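import Vale.Agent.P032.H987.Turn
import Vale.Agent.P032.H180.Tor

/-!
# P032: lifts along a sweep (helper987)

Every slot `k` carries a cocycle `φ k l m ∈ G` on its palettes (for example `+1` for a change from `e`
to `f`, `-1` for a change from `f` to `e`, `0` otherwise) with a primitive `g k` (a `Sec` in the sense of
`H180/Tor.lean`; it exists by `interval`).  The sum of the changes is carried along the sweep; after one
sixth of a turn of all circles it is the sum of the degrees of the circles.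
-/

open Set Filter Topology

namespace Vale.Agent.P032.H987

open Vale.Agent.P032.H180

section
variable {K Λ ι G : Type*} [AddCommGroup G] {X : K → Λ → Set ℝ} {Leg : (K → Λ) → Prop} {a b : ℝ}

/-- the palette of slot `k` -/
def pals (X : K → Λ → Set ℝ) (k : K) (t : ℝ) : Set Λ := {l | t ∈ X k l}

theorem sec_left {Q : ℝ → Set Λ} {φ : Λ → Λ → G} {g : ℝ → Λ → G}
    (hs : Sec (Icc a b) Q (fun _ => φ) g) {u : ℝ} (hu : u ∈ Ioc a b) :
    ∀ᶠ v in 𝓝[<] u, ∀ i ∈ Q v, g v i = g u i := by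
  have h1 := hs.loc u ⟨hu.1.le, hu.2⟩
  have h2 : 𝓝[<] u ≤ 𝓝[Icc a b] u := by
    refine nhdsWithin_le_of_mem ?_
    filter_upwards [Ioo_mem_nhdsLT hu.1] with v hv
    exact ⟨hv.1.le, hv.2.le.trans hu.2⟩
  exact h1.filter_mono h2

theorem sec_right {Q : ℝ → Set Λ} {φ : Λ → Λ → G} {g : ℝ → Λ → G}
    (hs : Sec (Icc a b) Q (fun _ => φ) g) {u : ℝ} (hu : u ∈ Ico a b) :
    ∀ᶠ v in 𝓝[>] u, ∀ i ∈ Q v, g v i = g u i := by
  have h1 := hs.loc u ⟨hu.1, hu.2.le⟩
  have h2 : 𝓝[>] u ≤ 𝓝[Icc a b] u := by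
    refine nhdsWithin_le_of_mem ?_
    filter_upwards [Ioo_mem_nhdsGT hu.2] with v hv
    exact ⟨hu.1.trans hv.1.le, hv.2.le⟩
  exact h1.filter_mono h2

theorem sec_nhds {Q : ℝ → Set Λ} {φ : Λ → Λ → G} {g : ℝ → Λ → G}
    (hs : Sec (Icc a b) Q (fun _ => φ) g) {u : ℝ} (hu : u ∈ Ioo a b) :
    ∀ᶠ v in 𝓝 u, ∀ i ∈ Q v, g v i = g u i := by
  have h1 := hs.loc u ⟨hu.1.le, hu.2.le⟩
  have h2 : 𝓝 u ≤ 𝓝[Icc a b] u := by
    rw [nhdsWithin_eq_nhds.2 (Icc_mem_nhds hu.1 hu.2)]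
  exact h1.filter_mono h2

/-- **The sweep theorem with lifts** (and counted marks). -/
theorem MW.sweep_lift [Fintype K] [Finite Λ] [Finite ι] (w : MW X Leg a b) (hab : a < b)
    {φ : K → Λ → Λ → G} {g : K → ℝ → Λ → G}
    (hs : ∀ k, Sec (Icc a b) (pals X k) (fun _ => φ k) (g k))
    {h₀ : K → Λ} (h₀a : ∀ k, a ∈ X k (h₀ k))
    {M : ι → Set ℝ} (hfin : ∀ τ, (M τ ∩ Ioo a b).Finite)
    {I : (ι → ℕ) → G → (K → Λ) → Prop}
    (start : ∀ h ∈ RC X a, I 0 (∑ k, φ k (h₀ k) (h k)) h)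
    (step : ∀ u ∈ Ioo a b, ∀ h ∈ LC X u, ∀ h' ∈ RC X u, ∀ n s, I n s h →
      I (n + ind M u) (s + ∑ k, φ k (h k) (h' k)) h') :
    ∀ h ∈ LC X b, I (cnt M a b) (∑ k, (g k b (h k) - g k a (h₀ k))) h := by
  classical
  set L : ℝ → G := fun v => ∑ k, (g k v (let' X w.cover v k) - g k a (h₀ k)) with hL
  have main : ∀ v ∈ Ioo a b, v ∈ Gen X → I (cnt M a v) (L v) (let' X w.cover v) := by
    have main' := transport (σ := G × (K → Λ)) hfin w.dense
      (st := fun v => (L v, let' X w.cover v)) (I := fun n p => I n p.1 p.2) ?_ ?_ ?_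
    · exact main'
    · intro u hu hu2
      have h1 : ∀ᶠ v in 𝓝 u, ∀ k, ∀ i ∈ pals X k v, g k v i = g k u i :=
        eventually_all.2 fun k => sec_nhds (hs k) hu2
      filter_upwards [w.gen_const hu, h1] with v hv hv1 hvG
      have h2 := hv hvG
      refine Prod.ext ?_ h2
      show L v = L u
      rw [hL]
      refine Finset.sum_congr rfl fun k _ => ?_
      rw [← h2, hv1 k _ (let_mem w.cover v k)]
    · have h1 : ∀ᶠ v in 𝓝[>] a, ∀ k, ∀ i ∈ pals X k v, g k v i = g k a i :=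
        eventually_all.2 fun k => sec_right (hs k) ⟨le_rfl, hab⟩
      filter_upwards [w.ev_RC a, h1] with v hv hv1 hvG
      have h2 := start _ (hv hvG)
      have h3 := (w.of_RC ⟨le_rfl, hab⟩ (hv hvG)).2
      have h4 : L v = ∑ k, φ k (h₀ k) (let' X w.cover v k) := by
        rw [hL]
        refine Finset.sum_congr rfl fun k _ => ?_
        rw [hv1 k _ (let_mem w.cover v k)]
        exact ((hs k).diff a ⟨le_rfl, hab.le⟩ _ (h₀a k) _ (h3 k)).symm
      show I 0 (L v) (let' X w.cover v)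
      rw [h4]; exact h2
    · intro u hu
      have h1 : ∀ᶠ v in 𝓝[<] u, ∀ k, ∀ i ∈ pals X k v, g k v i = g k u i :=
        eventually_all.2 fun k => sec_left (hs k) ⟨hu.1, hu.2.le⟩
      have h1' : ∀ᶠ v in 𝓝[>] u, ∀ k, ∀ i ∈ pals X k v, g k v i = g k u i :=
        eventually_all.2 fun k => sec_right (hs k) ⟨hu.1.le, hu.2⟩
      filter_upwards [w.ev_LC u, h1] with v hv hv1 hvG
      filter_upwards [w.ev_RC u, h1'] with v' hv' hv1' hvG' n hI
      have h5 := (w.of_LC ⟨hu.1, hu.2.le⟩ (hv hvG)).2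
      have h6 := (w.of_RC ⟨hu.1.le, hu.2⟩ (hv' hvG')).2
      have h7 : L v' = L v + ∑ k, φ k (let' X w.cover v k) (let' X w.cover v' k) := by
        rw [hL]
        show ∑ k, (g k v' (let' X w.cover v' k) - g k a (h₀ k))
          = ∑ k, (g k v (let' X w.cover v k) - g k a (h₀ k)) + _
        rw [← Finset.sum_add_distrib]
        refine Finset.sum_congr rfl fun k _ => ?_
        rw [hv1 k _ (let_mem w.cover v k), hv1' k _ (let_mem w.cover v' k),
          (hs k).diff u ⟨hu.1.le, hu.2.le⟩ _ (h5 k) _ (h6 k)]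
        abel
      show I (n + ind M u) (L v') (let' X w.cover v')
      rw [h7]
      exact step u hu _ (hv hvG) _ (hv' hvG') n _ hI
  -- the end
  intro h hh
  obtain ⟨ε, hε, hacc⟩ := no_acc hfin b
  have h1 : ∀ᶠ v in 𝓝[<] b, ∀ k, ∀ i ∈ pals X k v, g k v i = g k b i :=
    eventually_all.2 fun k => sec_left (hs k) ⟨hab, le_rfl⟩
  have h9 : ∀ᶠ v in 𝓝[<] b, v ∈ Ioo (max a (b - ε)) b ∧
      ∀ k, ∀ i ∈ pals X k v, g k v i = g k b i :=
    Eventually.and (Ioo_mem_nhdsLT (max_lt hab (by linarith))) h1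
  obtain ⟨v, ⟨h4, h5⟩, ⟨h6, h7⟩, h12⟩ := (Frequently.and_eventually hh h9).exists
  have h8 : a < v := lt_of_le_of_lt (le_max_left _ _) h6
  have h10 : b - ε < v := lt_of_le_of_lt (le_max_right _ _) h6
  have h11 : cnt M a b = cnt M a v := by
    funext τ
    have e : M τ ∩ Ioo a b = M τ ∩ Ioo a v := by
      ext x
      constructor
      · rintro ⟨hx, hx1, hx2⟩
        rcases lt_or_ge x v with h' | h'
        · exact ⟨hx, hx1, h'⟩
        · have := hacc τ x ⟨hx, hx1, hx2⟩ (by linarith)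
          rw [abs_of_neg (by linarith)] at this
          linarith
      · rintro ⟨hx, hx1, hx2⟩
        exact ⟨hx, hx1, by linarith⟩
    show (M τ ∩ Ioo a b).ncard = (M τ ∩ Ioo a v).ncard
    rw [e]
  have h13 := main v ⟨h8, h7⟩ h4
  have h14 : let' X w.cover v = h := w.gen_eq h4 h5
  have h15 : L v = ∑ k, (g k b (h k) - g k a (h₀ k)) := by
    rw [hL]
    refine Finset.sum_congr rfl fun k _ => ?_
    rw [h14, h12 k _ (h5 k)]
  have h16 : I (cnt M a v) (L v) (let' X w.cover v) := h13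
  rw [h14, h15] at h16
  rw [h11]
  exact h16

end

section
variable {κ Λ ι G : Type*} [AddCommGroup G] {Y : κ → Λ → Set ℝ} {Leg : (κ × Fin 6 → Λ) → Prop}

theorem sum_fin6 (f : Fin 6 → G) : ∑ j, f j = f 0 + f 1 + f 2 + f 3 + f 4 + f 5 := by
  rw [Fin.sum_univ_six]

/-- **The turn with lifts**: `s c` is a primitive on `[0, 6]` of the changes on the circle `c`, its
increase over the whole circle is the degree of the circle. -/
theorem MC.turn_lift [Fintype κ] [Finite Λ] [Finite ι] (w : MC Y)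
    (leg : ∀ u ∈ Ioo (0 : ℝ) 1, u ∈ Gen (slots Y) → ∀ h : κ × Fin 6 → Λ,
      (∀ k, u + (k.2.val : ℝ) ∈ Y k.1 (h k)) → Leg h)
    {φ : κ → Λ → Λ → G} {s : κ → ℝ → Λ → G}
    (hs : ∀ c, Sec (Icc (0 : ℝ) 6) (pals Y c) (fun _ => φ c) (s c))
    {M : ι → Set ℝ} (hfin : ∀ τ, (M τ ∩ Ioo 0 1).Finite)
    {h₀ : κ × Fin 6 → Λ} (hh₀ : h₀ ∈ LC (slots Y) 0)
    {I : (ι → ℕ) → G → (κ × Fin 6 → Λ) → Prop}
    (start : ∀ h ∈ RC (slots Y) 0, I 0 (∑ k : κ × Fin 6, φ k.1 (h₀ k) (h k)) h)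
    (step : ∀ u ∈ Ioo (0 : ℝ) 1, ∀ h ∈ LC (slots Y) u, ∀ h' ∈ RC (slots Y) u, ∀ n t, I n t h →
      I (n + ind M u) (t + ∑ k : κ × Fin 6, φ k.1 (h k) (h' k)) h') :
    I (cnt M 0 1) (∑ c, (s c 6 (h₀ (c, 0)) - s c 0 (h₀ (c, 0)))) (sh h₀) := by
  classical
  have hsel : ∀ k, (0 : ℝ) ∈ slots Y k (h₀ k) := by
    have h1 : MW (slots Y) (fun _ => True) (-1) 1 := w.mw fun _ _ _ _ _ => trivial
    exact (h1.of_LC ⟨by norm_num, by norm_num⟩ hh₀).2
  have hlc : sh h₀ ∈ LC (slots Y) 1 := by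
    have := (w.LC_add_one 0 (g := h₀)).2 hh₀
    rwa [zero_add] at this
  have hmem : ∀ (c : κ) (j : Fin 6), (j.val : ℝ) ∈ Y c (h₀ (c, j)) := fun c j => by
    have := hsel (c, j)
    simpa [slots] using this
  have hsec : ∀ k : κ × Fin 6, Sec (Icc (0 : ℝ) 1) (pals (slots Y) k) (fun _ => φ k.1)
      (fun t => s k.1 (t + (k.2.val : ℝ))) := by
    intro k
    refine (hs k.1).comp (p := fun t : ℝ => t + (k.2.val : ℝ)) (by fun_prop) ?_
    intro t ht
    have h1 : (k.2.val : ℝ) ≤ 5 := by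
      have := k.2.isLt
      exact_mod_cast (by omega : k.2.val ≤ 5)
    have h2 : (0 : ℝ) ≤ (k.2.val : ℝ) := Nat.cast_nonneg _
    exact ⟨by linarith [ht.1], by linarith [ht.2]⟩
  have key := (w.mw leg).sweep_lift one_pos hsec hsel hfin start step _ hlc
  have hsum : ∑ k : κ × Fin 6, (s k.1 (1 + (k.2.val : ℝ)) (sh h₀ k) - s k.1 (0 + (k.2.val : ℝ)) (h₀ k))
      = ∑ c, (s c 6 (h₀ (c, 0)) - s c 0 (h₀ (c, 0))) := by
    rw [Fintype.sum_prod_type]
    refine Finset.sum_congr rfl fun c _ => ?_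
    rw [sum_fin6]
    have e0 : sh h₀ (c, 0) = h₀ (c, 1) := rfl
    have e1 : sh h₀ (c, 1) = h₀ (c, 2) := rfl
    have e2 : sh h₀ (c, 2) = h₀ (c, 3) := rfl
    have e3 : sh h₀ (c, 3) = h₀ (c, 4) := rfl
    have e4 : sh h₀ (c, 4) = h₀ (c, 5) := rfl
    have e5 : sh h₀ (c, 5) = h₀ (c, 0) := rfl
    have v0 : ((0 : Fin 6).val : ℝ) = 0 := by norm_num
    have v1 : ((1 : Fin 6).val : ℝ) = 1 := by norm_num
    have v2 : ((2 : Fin 6).val : ℝ) = 2 := by norm_num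
    have v3 : ((3 : Fin 6).val : ℝ) = 3 := by norm_num
    have v4 : ((4 : Fin 6).val : ℝ) = 4 := by norm_num
    have v5 : ((5 : Fin 6).val : ℝ) = 5 := by norm_num
    simp only [e0, e1, e2, e3, e4, e5, v0, v1, v2, v3, v4, v5]
    have a1 : (1 : ℝ) + 0 = 1 := by norm_num
    have a2 : (1 : ℝ) + 1 = 2 := by norm_num
    have a3 : (1 : ℝ) + 2 = 3 := by norm_num
    have a4 : (1 : ℝ) + 3 = 4 := by norm_num
    have a5 : (1 : ℝ) + 4 = 5 := by norm_num
    have a6 : (1 : ℝ) + 5 = 6 := by norm_num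
    rw [a1, a2, a3, a4, a5, a6]
    simp only [zero_add]
    abel
  rw [hsum] at key
  exact key

/-- the degree of a circle does not depend on the letter -/
theorem sec_deg (w : MC Y) {φ : κ → Λ → Λ → G} {s : κ → ℝ → Λ → G}
    (hs : ∀ c, Sec (Icc (0 : ℝ) 6) (pals Y c) (fun _ => φ c) (s c)) (c : κ) {l m : Λ}
    (hl : (0 : ℝ) ∈ Y c l) (hm : (0 : ℝ) ∈ Y c m) :
    s c 6 l - s c 0 l = s c 6 m - s c 0 m := by
  have hl6 : (6 : ℝ) ∈ Y c l := by
    have := (w.per c l 0).2 hl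
    rwa [zero_add] at this
  have hm6 : (6 : ℝ) ∈ Y c m := by
    have := (w.per c m 0).2 hm
    rwa [zero_add] at this
  have h1 := (hs c).diff 0 ⟨le_rfl, by norm_num⟩ l hl m hm
  have h2 := (hs c).diff 6 ⟨by norm_num, le_rfl⟩ l hl6 m hm6
  have h3 : s c 0 m - s c 0 l = s c 6 m - s c 6 l := by rw [← h1, ← h2]
  have h4 : s c 6 m = s c 0 m - s c 0 l + s c 6 l := by rw [h3]; abel
  rw [h4]; abel

/-- existence of the primitives -/
theorem MC.exists_sec [Finite Λ] (w : MC Y) {φ : κ → Λ → Λ → G}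
    (hcoc : ∀ c, ∀ t ∈ Icc (0 : ℝ) 6, ∀ l m n, t ∈ Y c l → t ∈ Y c m → t ∈ Y c n →
      φ c l m + φ c m n = φ c l n) :
    ∃ s : κ → ℝ → Λ → G, ∀ c, Sec (Icc (0 : ℝ) 6) (pals Y c) (fun _ => φ c) (s c) := by
  have h : ∀ c, ∃ s : ℝ → Λ → G, Sec (Icc (0 : ℝ) 6) (pals Y c) (fun _ => φ c) s := by
    intro c
    refine interval (by norm_num) ⟨fun t _ => w.cover c t,
      fun t ht i hi j hj l hl => hcoc c t ht i j l hi hj hl, fun t _ => ?_⟩
    refine mem_nhdsWithin_of_mem_nhds ?_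
    have h1 : ∀ᶠ v in 𝓝 t, ∀ l, v ∈ Y c l → t ∈ Y c l := by
      rw [eventually_all]; intro l
      by_cases h : t ∈ Y c l
      · exact Eventually.of_forall fun v _ => h
      · filter_upwards [(w.closed c l).isOpen_compl.mem_nhds h] with v hv hv'
        exact absurd hv' hv
    filter_upwards [h1] with v hv
    exact ⟨fun l hl => hv l hl, fun _ _ _ _ => rfl⟩
  choose s hs using h
  exact ⟨s, hs⟩

end

end Vale.Agent.P032.H987
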