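import Mathlib

/-!
# P032: serialisation of simultaneous changes (helper987)

Columns `h : K → Λ` with pairwise constraints `ok s t a b`.  If `h` and `h'` are legal then `h'` is reached
from `h` by legal updates of *blocks*; a block is a set of slots which is strongly connected for the
relation `Bef s t` : the slot `t` cannot be changed before the slot `s`.  If no slot lies on a cycle of `Bef`
(of length at least two) then single slot updates suffice.
-/

open Relation

namespace Vale.Agent.P032.H987

variable {K Λ : Type*}

/-- pairwise constraints -/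
def LegOf (ok : K → K → Λ → Λ → Prop) (h : K → Λ) : Prop := ∀ s t, s ≠ t → ok s t (h s) (h t)

/-- `t` cannot be changed (from `h` to `h'`) before `s` -/
def Bef (ok : K → K → Λ → Λ → Prop) (h h' : K → Λ) (s t : K) : Prop :=
  s ≠ t ∧ h s ≠ h' s ∧ h t ≠ h' t ∧ ¬ ok s t (h s) (h' t)

/-- update of a block, from the values of `h` to the values of `h'` -/
def BUpd (ok : K → K → Λ → Λ → Prop) (h h' g g' : K → Λ) : Prop :=
  LegOf ok g ∧ LegOf ok g' ∧ ∃ B : Set K, B.Nonempty ∧ (∀ s ∈ B, g s = h s ∧ g' s = h' s ∧ h s ≠ h' s) ∧
    (∀ s ∉ B, g' s = g s) ∧ (∀ s ∉ B, g s = h s ∨ g s = h' s) ∧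
    ∀ s ∈ B, ∀ t ∈ B, ReflTransGen (Bef ok h h') s t

/-- update of one slot, between legal columns -/
def Upd1 (Leg : (K → Λ) → Prop) (g g' : K → Λ) : Prop :=
  Leg g ∧ Leg g' ∧ ∃ s, ∀ t, t ≠ s → g' t = g t

variable {ok : K → K → Λ → Λ → Prop} {h h' : K → Λ}

/-- **Serialisation in blocks** -/
theorem serial_blocks [Finite K] (hsym : ∀ s t a b, ok s t a b → ok t s b a)
    (hh : LegOf ok h) (hh' : LegOf ok h') : ReflTransGen (BUpd ok h h') h h' := by
  classical
  have : Fintype K := Fintype.ofFinite K
  have main : ∀ n : ℕ, ∀ g : K → Λ, LegOf ok g → (∀ s, g s = h s ∨ g s = h' s) →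
      (Finset.univ.filter fun s => g s ≠ h' s).card = n → ReflTransGen (BUpd ok h h') g h' := by
    intro n
    induction n using Nat.strong_induction_on with
    | _ n ih =>
      intro g hg hgm hn
      set D : Finset K := Finset.univ.filter fun s => g s ≠ h' s with hD
      rcases D.eq_empty_or_nonempty with he | hne
      · have : g = h' := by
          funext s
          by_contra hcon
          have : s ∈ D := Finset.mem_filter.2 ⟨Finset.mem_univ _, hcon⟩
          rw [he] at this
          exact absurd this (Finset.notMem_empty s)
        rw [this]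
      · -- ancestors inside `D`
        have hDm : ∀ s, s ∈ D ↔ g s ≠ h' s := fun s => by simp [hD]
        have hDh : ∀ s ∈ D, g s = h s ∧ h s ≠ h' s := fun s hs => by
          have h1 := (hDm s).1 hs
          rcases hgm s with h2 | h2
          · exact ⟨h2, h2 ▸ h1⟩
          · exact absurd h2 h1
        set R : K → K → Prop := fun s t => s ∈ D ∧ t ∈ D ∧ Bef ok h h' s t with hR
        set Anc : K → Finset K := fun s => D.filter fun t => ReflTransGen R t s with hAnc
        obtain ⟨s, hsD, hmin⟩ := D.exists_min_image (fun s => (Anc s).card) hne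
        have hsA : ∀ t, t ∈ Anc s ↔ t ∈ D ∧ ReflTransGen R t s := fun t => by simp [hAnc]
        have hsc : ∀ t ∈ Anc s, ReflTransGen R s t := by
          intro t ht
          have h1 := (hsA t).1 ht
          have h2 : Anc t ⊆ Anc s := by
            intro r hr
            have h3 : r ∈ D ∧ ReflTransGen R r t := by simpa [hAnc] using hr
            exact (hsA r).2 ⟨h3.1, h3.2.trans h1.2⟩
          have h3 := Finset.eq_of_subset_of_card_le h2 (hmin t h1.1)
          have h4 : s ∈ Anc t := by rw [h3]; exact (hsA s).2 ⟨hsD, ReflTransGen.refl⟩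
          have h5 : s ∈ D ∧ ReflTransGen R s t := by simpa [hAnc] using h4
          exact h5.2
        -- the new column
        set g' : K → Λ := fun t => if t ∈ Anc s then h' t else g t with hg'
        have hin : ∀ t ∈ Anc s, g' t = h' t := fun t ht => by simp only [hg', if_pos ht]
        have hout : ∀ t, t ∉ Anc s → g' t = g t := fun t ht => by simp only [hg', if_neg ht]
        have hleg' : LegOf ok g' := by
          have half : ∀ r t, r ≠ t → r ∉ Anc s → t ∈ Anc s → ok r t (g r) (h' t) := by
            intro r t hrt hr ht
            by_cases hrD : r ∈ D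
            · by_contra hcon
              refine hr ((hsA r).2 ⟨hrD, ReflTransGen.head ?_ ((hsA t).1 ht).2⟩)
              have h1 := hDh r hrD
              have h2 := hDh t ((hsA t).1 ht).1
              exact ⟨hrD, ((hsA t).1 ht).1, hrt, h1.2, h2.2, by rw [← h1.1]; exact hcon⟩
            · have : g r = h' r := by
                by_contra hcon
                exact hrD ((hDm r).2 hcon)
              rw [this]
              exact hh' r t hrt
          intro r t hrt
          by_cases hr : r ∈ Anc s <;> by_cases ht : t ∈ Anc s
          · rw [hin r hr, hin t ht]; exact hh' r t hrt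
          · rw [hin r hr, hout t ht]
            exact hsym _ _ _ _ (half t r hrt.symm ht hr)
          · rw [hout r hr, hin t ht]
            exact half r t hrt hr ht
          · rw [hout r hr, hout t ht]; exact hg r t hrt
        have hcard : (Finset.univ.filter fun t => g' t ≠ h' t).card < n := by
          rw [← hn]
          refine Finset.card_lt_card ?_
          rw [Finset.ssubset_iff_of_subset]
          · exact ⟨s, hsD, fun h1 => by
              have h2 := (Finset.mem_filter.1 h1).2
              exact h2 (hin s ((hsA s).2 ⟨hsD, ReflTransGen.refl⟩))⟩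
          · intro t ht
            have h2 := (Finset.mem_filter.1 ht).2
            rw [hDm]
            by_cases h3 : t ∈ Anc s
            · exact absurd (hin t h3) h2
            · rwa [hout t h3] at h2
        refine ReflTransGen.head (b := g') ⟨hg, hleg', (Anc s : Set K), ?_, ?_, ?_, ?_, ?_⟩
          (ih _ hcard g' hleg' ?_ rfl)
        · exact ⟨s, Finset.mem_coe.2 ((hsA s).2 ⟨hsD, ReflTransGen.refl⟩)⟩
        · intro t ht
          have ht : t ∈ Anc s := ht
          have h1 := hDh t ((hsA t).1 ht).1
          exact ⟨h1.1, hin t ht, h1.2⟩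
        · intro t ht
          exact hout t ht
        · intro t _
          exact hgm t
        · intro r hr t ht
          have hr : r ∈ Anc s := hr
          have ht : t ∈ Anc s := ht
          have h1 : ReflTransGen R r t := ((hsA r).1 hr).2.trans (hsc t ht)
          exact ReflTransGen.mono (p := Bef ok h h') (fun _ _ h => h.2.2) _ _ h1
        · intro t
          by_cases h3 : t ∈ Anc s
          · exact Or.inr (hin t h3)
          · rw [hout t h3]; exact hgm t
  exact main _ h hh (fun s => Or.inl rfl) rfl

/-- **Serialisation**: if `Bef` has no cycles, single slot updates suffice. -/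
theorem serial_single [Finite K] (hsym : ∀ s t a b, ok s t a b → ok t s b a)
    (hh : LegOf ok h) (hh' : LegOf ok h') (hac : ∀ s, ¬ TransGen (Bef ok h h') s s) :
    ReflTransGen (Upd1 (LegOf ok)) h h' := by
  refine ReflTransGen.mono ?_ _ _ (serial_blocks hsym hh hh')
  rintro g g' ⟨h1, h2, B, ⟨s, hs⟩, -, h4, -, h6⟩
  refine ⟨h1, h2, s, fun t hts => ?_⟩
  by_cases ht : t ∈ B
  · exfalso
    have h7 := h6 s hs t ht
    have h8 := h6 t ht s hs
    rcases h7.cases_head with h9 | ⟨c, h9, h10⟩
    · exact hts h9.symm
    · exact hac s (TransGen.head' h9 (h10.trans h8))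
  · exact h4 t ht

end Vale.Agent.P032.H987
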