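import Vale.Agent.P032.H987.Sweep

/-!
# P032: several circles and one sixth of a turn (helper987)

`Y c l` is the set of directions (in units of 60 degrees) at which the letter `l` is available on the
circle `c`.  The slots are `(c, j)`, `j : Fin 6`; the slot `(c, j)` at time `u` is the direction `u + j`.
The limit columns at time `1` are the shifted limit columns at time `0`.
-/

open Set Filter Topology

namespace Vale.Agent.P032.H987

variable {κ Λ ι : Type*}

/-- words on the circles `c : κ` -/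
structure MC (Y : κ → Λ → Set ℝ) : Prop where
  closed : ∀ c l, IsClosed (Y c l)
  cover : ∀ c u, ∃ l, u ∈ Y c l
  per : ∀ c l u, u + 6 ∈ Y c l ↔ u ∈ Y c l
  gen : ∀ c, Dense {u | ∃ l, ∀ m, u ∈ Y c m → m = l}

/-- the slots -/
def slots (Y : κ → Λ → Set ℝ) : κ × Fin 6 → Λ → Set ℝ := fun k l => {u | u + (k.2.val : ℝ) ∈ Y k.1 l}

/-- the shift of a column -/
def sh (h : κ × Fin 6 → Λ) : κ × Fin 6 → Λ := fun k => h (k.1, k.2 + 1)

variable {Y : κ → Λ → Set ℝ} {a b : ℝ} {Leg : (κ × Fin 6 → Λ) → Prop}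

theorem MC.mw (w : MC Y)
    (leg : ∀ u ∈ Ioo a b, u ∈ Gen (slots Y) → ∀ h : κ × Fin 6 → Λ,
      (∀ k, u + (k.2.val : ℝ) ∈ Y k.1 (h k)) → Leg h) : MW (slots Y) Leg a b where
  closed k l := (w.closed k.1 l).preimage (f := fun u : ℝ => u + (k.2.val : ℝ)) (by fun_prop)
  cover k u := w.cover k.1 _
  gen k := (w.gen k.1).preimage (f := fun u : ℝ => u + (k.2.val : ℝ))
    (Homeomorph.addRight (k.2.val : ℝ)).isOpenMap
  leg := leg

/-- the directions of the slots at time `u + 1` -/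
theorem MC.shift_mem (w : MC Y) (u : ℝ) (c : κ) (j : Fin 6) (l : Λ) :
    u + 1 + (j.val : ℝ) ∈ Y c l ↔ u + ((j + 1).val : ℝ) ∈ Y c l := by
  by_cases hj : j = 5
  · subst hj
    have h1 : ((5 : Fin 6) + 1).val = 0 := rfl
    have h2 : (5 : Fin 6).val = 5 := rfl
    rw [h1, h2, ← w.per c l (u + ((0 : ℕ) : ℝ))]
    have : u + 1 + ((5 : ℕ) : ℝ) = u + ((0 : ℕ) : ℝ) + 6 := by push_cast; ring
    rw [this]
  · have h1 : (j + 1).val = j.val + 1 := by
      have : j.val ≠ 5 := fun h => hj (Fin.ext h)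
      have h6 := j.isLt
      rw [Fin.val_add_one_of_lt]
      rw [Fin.lt_def]
      show j.val < 5
      omega
    rw [h1]
    have : u + 1 + (j.val : ℝ) = u + ((j.val + 1 : ℕ) : ℝ) := by push_cast; ring
    rw [this]

theorem sh_surj (h : κ × Fin 6 → Λ) : ∃ g, h = sh g :=
  ⟨fun k => h (k.1, k.2 - 1), by funext k; simp [sh]⟩

theorem sh_inj {g g' : κ × Fin 6 → Λ} (h : sh g = sh g') : g = g' := by
  funext k
  have := congrFun h (k.1, k.2 - 1)
  simpa [sh] using this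

theorem MC.sel_shift (w : MC Y) (u : ℝ) (g : κ × Fin 6 → Λ) :
    (∀ k, u + 1 ∈ slots Y k (sh g k)) ↔ ∀ k, u ∈ slots Y k (g k) := by
  constructor
  · intro h k
    have h1 := h (k.1, k.2 - 1)
    have h2 := (w.shift_mem u k.1 (k.2 - 1) _).1 h1
    simp only [sh, sub_add_cancel] at h2
    exact h2
  · intro h k
    exact (w.shift_mem u k.1 k.2 _).2 (h (k.1, k.2 + 1))

theorem MC.gen_shift (w : MC Y) (u : ℝ) : u + 1 ∈ Gen (slots Y) ↔ u ∈ Gen (slots Y) := by
  constructor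
  · intro h k
    obtain ⟨l, hl⟩ := h (k.1, k.2 - 1)
    refine ⟨l, fun m hm => hl m ?_⟩
    show u + 1 + (((k.2 - 1 : Fin 6)).val : ℝ) ∈ Y k.1 m
    rw [w.shift_mem, sub_add_cancel]
    exact hm
  · intro h k
    obtain ⟨l, hl⟩ := h (k.1, k.2 + 1)
    exact ⟨l, fun m hm => hl m ((w.shift_mem u k.1 k.2 m).1 hm)⟩

theorem tendsto_add_left (u : ℝ) : Tendsto (fun v : ℝ => v + 1) (𝓝[<] u) (𝓝[<] (u + 1)) := by
  refine tendsto_nhdsWithin_of_tendsto_nhds_of_eventually_within _ ?_ ?_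
  · have : Continuous fun v : ℝ => v + 1 := by fun_prop
    exact (this.tendsto u).mono_left nhdsWithin_le_nhds
  · filter_upwards [self_mem_nhdsWithin] with v hv
    have hv : v < u := hv
    show v + 1 < u + 1
    linarith

theorem tendsto_sub_left (u : ℝ) : Tendsto (fun v : ℝ => v - 1) (𝓝[<] (u + 1)) (𝓝[<] u) := by
  refine tendsto_nhdsWithin_of_tendsto_nhds_of_eventually_within _ ?_ ?_
  · have : Continuous fun v : ℝ => v - 1 := by fun_prop
    have h := (this.tendsto (u + 1)).mono_left (nhdsWithin_le_nhds (s := Iio (u + 1)))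
    simpa using h
  · filter_upwards [self_mem_nhdsWithin] with v hv
    have hv : v < u + 1 := hv
    show v - 1 < u
    linarith

/-- the left limit columns after one sixth of a turn -/
theorem MC.LC_add_one (w : MC Y) (u : ℝ) {g : κ × Fin 6 → Λ} :
    sh g ∈ LC (slots Y) (u + 1) ↔ g ∈ LC (slots Y) u := by
  constructor
  · intro h
    have h1 := (tendsto_sub_left u).frequently
      (p := fun v => v ∈ Gen (slots Y) ∧ ∀ k, v ∈ slots Y k (g k)) ?_
    · exact h1
    · refine Frequently.mono h fun v hv => ?_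
      have e : v - 1 + 1 = v := by ring
      refine ⟨(w.gen_shift (v - 1)).1 (by rw [e]; exact hv.1),
        (w.sel_shift (v - 1) g).1 (by rw [e]; exact hv.2)⟩
  · intro h
    refine (tendsto_add_left u).frequently
      (p := fun v => v ∈ Gen (slots Y) ∧ ∀ k, v ∈ slots Y k (sh g k)) ?_
    refine Frequently.mono h fun v hv => ?_
    exact ⟨(w.gen_shift v).2 hv.1, (w.sel_shift v g).2 hv.2⟩

/-- **The turn**, with marks: the invariant holds at the shifted left limit columns. -/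
theorem MC.turn_marks [Finite κ] [Finite Λ] [Finite ι] (w : MC Y)
    (leg : ∀ u ∈ Ioo (0 : ℝ) 1, u ∈ Gen (slots Y) → ∀ h : κ × Fin 6 → Λ,
      (∀ k, u + (k.2.val : ℝ) ∈ Y k.1 (h k)) → Leg h)
    {M : ι → Set ℝ} (hfin : ∀ τ, (M τ ∩ Ioo 0 1).Finite)
    {I : (ι → ℕ) → (κ × Fin 6 → Λ) → Prop}
    (start : ∀ h ∈ RC (slots Y) 0, I 0 h)
    (step : ∀ u ∈ Ioo (0 : ℝ) 1, ∀ h ∈ LC (slots Y) u, ∀ h' ∈ RC (slots Y) u, ∀ n, I n h →
      I (n + ind M u) h') :
    ∀ h ∈ LC (slots Y) 0, I (cnt M 0 1) (sh h) := by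
  intro h hh
  refine (w.mw leg).sweep_end one_pos hfin start step _ ?_
  have := (w.LC_add_one 0 (g := h)).2 hh
  rwa [zero_add] at this

/-- **The turn**, without marks -/
theorem MC.turn [Finite κ] [Finite Λ] (w : MC Y)
    (leg : ∀ u ∈ Ioo (0 : ℝ) 1, u ∈ Gen (slots Y) → ∀ h : κ × Fin 6 → Λ,
      (∀ k, u + (k.2.val : ℝ) ∈ Y k.1 (h k)) → Leg h)
    {R : (κ × Fin 6 → Λ) → (κ × Fin 6 → Λ) → Prop} (htr : ∀ x y z, R x y → R y z → R x z)
    (hRC : ∀ h ∈ RC (slots Y) 0, ∀ h' ∈ RC (slots Y) 0, R h h')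
    (step : ∀ u ∈ Ioo (0 : ℝ) 1, ∀ h ∈ LC (slots Y) u, ∀ h' ∈ RC (slots Y) u, R h h') :
    ∀ h ∈ LC (slots Y) 0, ∀ h' ∈ RC (slots Y) 0, R h' (sh h) := by
  intro h hh h' hh'
  refine (w.mw leg).sweep_rel one_pos htr hRC step h' hh' _ ?_
  have := (w.LC_add_one 0 (g := h)).2 hh
  rwa [zero_add] at this

end Vale.Agent.P032.H987
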