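import Vale.Agent.P032.H987.Arcs
import Vale.Agent.P032.H546.FFin
import Vale.Agent.P032.H913.F1

/-!
# P032: the blocks of a centre with one J-partner, from the label word (helper987)

* `pal_V`, .. : the palette of a label; `CzF.lab_Ad` : a labelled point is in the closure of an arc;
* `f1_core`, `f1_of` : the list theorem `list1` gives 913's `F1`.
-/

open Set Filter Topology Metric

noncomputable section

namespace Vale.Agent.P032.H987

open Vale.Agent.P032.Six Vale.Agent.P032.S5.H767 Vale.Agent.P032.S5.H122 Vale.Agent.P032.Sweep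
  Vale.Agent.P032.S5.H349 Vale.Agent.P032.S5.H450
open Vale.Agent.P032.H594 (JPair Ad Sd Blk Bf Af Eqs Dif SG)

variable {U : Fin 6 → Set ℂ} {T : ℂ → Set (Fin 6)} {z y : ℂ} {a b c d e f : Fin 6} {p : ℝ}
  {g1 g2 : Bool}

/-! ### Palettes of the labels -/

theorem pal_V {w : ℂ} (h : lbF g1 g2 T z a b c d e f w = 1 ∨ lbF g1 g2 T z a b c d e f w = 2) :
    T w = {a, b, e} := by
  by_contra h1
  unfold lbF at h
  simp only [if_neg h1] at h
  split_ifs at h <;> revert h <;> decide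

theorem pal_Q {w : ℂ} (h : lbF g1 g2 T z a b c d e f w = 3 ∨ lbF g1 g2 T z a b c d e f w = 4) :
    T w = {c, d, f} := by
  by_contra h1
  unfold lbF at h
  simp only [if_neg h1] at h
  split_ifs at h <;> revert h <;> decide

theorem pal_J {w : ℂ} (h : lbF g1 g2 T z a b c d e f w = 5 ∨ lbF g1 g2 T z a b c d e f w = 6) :
    T w = T z := by
  by_contra h1
  unfold lbF at h
  simp only [if_neg h1] at h
  split_ifs at h <;> revert h <;> decide

theorem pal_V' {w : ℂ} (h : lbF g1 g2 T z a b c d e f w = 7 ∨ lbF g1 g2 T z a b c d e f w = 8) :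
    T w = {a, b, f} := by
  by_contra h1
  have h2 : ¬ (g1 = true ∧ T w = {a, b, f} ∧ w ∈ closure (Ex T z {a, b})) := fun k => h1 k.2.1
  unfold lbF at h
  simp only [if_neg h2] at h
  split_ifs at h <;> revert h <;> decide

theorem pal_Q' {w : ℂ} (h : lbF g1 g2 T z a b c d e f w = 9 ∨ lbF g1 g2 T z a b c d e f w = 10) :
    T w = {c, d, e} := by
  by_contra h1
  have h2 : ¬ (g2 = true ∧ T w = {c, d, e} ∧ w ∈ closure (Ex T z {c, d})) := fun k => h1 k.2.1
  unfold lbF at h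
  simp only [if_neg h2] at h
  split_ifs at h <;> revert h <;> decide

/-! ### Labelled points and arcs -/

theorem cl_aft {P : Set (Fin 6)} {u : ℝ} (h : ∃ β > u, ∀ v ∈ Ioo u β, pt z v ∈ Ex T z P) :
    pt z u ∈ closure (Ex T z P) := by
  obtain ⟨β, hβ, h⟩ := h
  have h1 : u ∈ closure (Ioo u β) := by
    rw [closure_Ioo (ne_of_lt hβ)]; exact ⟨le_rfl, le_of_lt hβ⟩
  exact (closure_mono (by rintro _ ⟨v, hv, rfl⟩; exact h v hv))
    (image_closure_subset_closure_image (continuous_pt z) ⟨u, h1, rfl⟩)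

theorem cl_bef {P : Set (Fin 6)} {u : ℝ} (h : ∃ α < u, ∀ v ∈ Ioo α u, pt z v ∈ Ex T z P) :
    pt z u ∈ closure (Ex T z P) := by
  obtain ⟨α, hα, h⟩ := h
  have h1 : u ∈ closure (Ioo α u) := by
    rw [closure_Ioo (ne_of_lt hα)]; exact ⟨le_of_lt hα, le_rfl⟩
  exact (closure_mono (by rintro _ ⟨v, hv, rfl⟩; exact h v hv))
    (image_closure_subset_closure_image (continuous_pt z) ⟨u, h1, rfl⟩)

theorem CzF.lab_Ad (S : CzF g1 g2 U T z a b c d e f) {u : ℝ}
    (hx : lbF g1 g2 T z a b c d e f (pt z u) ≠ 0) : u ∈ Ad T z {a, b} {c, d} := by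
  obtain ⟨h1, h2⟩ := S.sides u
  revert hx h1 h2
  generalize lbF g1 g2 T z a b c d e f (pt z u) = x
  intro hx h1 h2
  have h11 : x = 0 ∨ x = 1 ∨ x = 2 ∨ x = 3 ∨ x = 4 ∨ x = 5 ∨ x = 6 ∨ x = 7 ∨ x = 8 ∨ x = 9 ∨
      x = 10 := by clear hx h1 h2; revert x; decide
  rcases h11 with rfl | rfl | rfl | rfl | rfl | rfl | rfl | rfl | rfl | rfl | rfl
  · exact absurd rfl hx
  · exact Or.inl (cl_bef h2)
  · exact Or.inl (cl_aft h1)
  · exact Or.inr (cl_bef h2)
  · exact Or.inr (cl_aft h1)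
  · exact Or.inl (cl_bef h2)
  · exact Or.inl (cl_aft h1)
  · exact Or.inl (cl_bef h2)
  · exact Or.inl (cl_aft h1)
  · exact Or.inr (cl_bef h2)
  · exact Or.inr (cl_aft h1)

theorem stt0_Ad {t : ℝ} (h : Stt T z a b c d 0 (pt z t)) : t ∉ Ad T z {a, b} {c, d} := fun k =>
  k.elim h.1 h.2

theorem stt1_Ad {t : ℝ} (h : Stt T z a b c d 1 (pt z t)) : t ∈ Ad T z {a, b} {c, d} :=
  Or.inl (subset_closure h)

theorem stt2_Ad {t : ℝ} (h : Stt T z a b c d 2 (pt z t)) : t ∈ Ad T z {a, b} {c, d} :=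
  Or.inr (subset_closure h)

theorem pt_ne987 {u v : ℝ} (h1 : u < v) (h2 : v < u + 6) : pt z u ≠ pt z v := by
  intro h
  obtain ⟨n, hn⟩ := pt_eq h
  have h3 : (n : ℝ) < 0 := by linarith
  have h4 : (-1 : ℝ) < n := by linarith
  have h5 : n < 0 := by exact_mod_cast h3
  have h6 : -1 < n := by exact_mod_cast h4
  omega

/-- the labels of a circle, relative to the direction `p` -/
abbrev lq (T : ℂ → Set (Fin 6)) (z : ℂ) (a b c d e f : Fin 6) (p t : ℝ) : Fin 11 :=
  lbF true true T z a b c d e f (pt z (p + t))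

/-- the status in a gap between two labelled directions -/
theorem CzF.gap987 (S : CzF true true U T z a b c d e f) {u v : ℝ} (huv : u < v)
    (h0 : ∀ w, u < w → w < v → lq T z a b c d e f p w = 0)
    {x : Fin 11} (hx : lq T z a b c d e f p u = x) (hx0 : x ≠ 0) :
    ∀ t ∈ Ioo (p + u) (p + v), Stt T z a b c d (aft x) (pt z t) := by
  have h1 := S.mid (t1 := p + u) (t2 := p + v) (by linarith) (fun t ht => by
    have := h0 (t - p) (by linarith [ht.1]) (by linarith [ht.2])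
    unfold lq at this
    rwa [add_sub_cancel] at this) (by
      have h2 : lbF true true T z a b c d e f (pt z (p + u)) = x := hx
      rw [h2]; exact hx0)
  have h2 : lbF true true T z a b c d e f (pt z (p + u)) = x := hx
  rwa [h2] at h1

/-- the sign rules of a J-partner, as far as they are used here -/
def SgE (T : ℂ → Set (Fin 6)) (z : ℂ) (a b c d e : Fin 6) : Prop :=
  ∃ P N Y : Set ℝ, SG P N (Ad T z {a, b} {c, d}) Y ∧
    (∀ x, (∀ᶠ t in 𝓝[<] x, t ∉ Ad T z {a, b} {c, d}) → e ∉ T (pt z x) → Bf P x) ∧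
    ∀ x, (∀ᶠ t in 𝓝[>] x, t ∉ Ad T z {a, b} {c, d}) → e ∉ T (pt z x) → Af P x

theorem sgE_of (J : JPair U T z y a b c d e f ∨ JPair U T z y a b d c e f) :
    SgE T z a b c d e := by
  rcases J with J | J
  · exact ⟨_, _, _, J.sg, fun x h1 h2 => J.bz' h1 h2, fun x h1 h2 => J.az' h1 h2⟩
  · have e1 : Ad T z {a, b} {c, d} = Ad T z {a, b} {d, c} := by rw [Set.pair_comm c d]
    refine ⟨_, _, _, by rw [e1]; exact J.sg, fun x h1 h2 => J.bz' ?_ h2,
      fun x h1 h2 => J.az' ?_ h2⟩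
    · rwa [e1] at h1
    · rwa [e1] at h1

/-- **the blocks, from the labels** -/
theorem f1_core (S : CzF true true U T z a b c d e f) (J : SgE T z a b c d e)
    {t1 t2 t3 t4 t5 t6 : ℝ} (o1 : 0 < t1) (o2 : t1 < t2) (o3 : t2 < t3)
    (o4 : t3 < t4) (o5 : t4 < t5) (o6 : t5 < t6) (o7 : t6 < 6)
    (hn : ∀ t, 0 ≤ t → t < 6 → lq T z a b c d e f p t ≠ 0 →
      t = 0 ∨ t = t1 ∨ t = t2 ∨ t = t3 ∨ t = t4 ∨ t = t5 ∨ t = t6)
    (L0 : lq T z a b c d e f p 0 = 6) (L1 : lq T z a b c d e f p t1 = 7)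
    (L23 : (lq T z a b c d e f p t2 = 10 ∧ lq T z a b c d e f p t3 = 3) ∨
      (lq T z a b c d e f p t2 = 4 ∧ lq T z a b c d e f p t3 = 9))
    (L45 : (lq T z a b c d e f p t4 = 8 ∧ lq T z a b c d e f p t5 = 1) ∨
      (lq T z a b c d e f p t4 = 2 ∧ lq T z a b c d e f p t5 = 7))
    (L6 : lq T z a b c d e f p t6 = 4) (f2 : 1 ≤ t2) (f3 : t3 < 3) (f4 : 3 ≤ t4) (f4' : t4 < 5)
    (f6 : 5 ≤ t6) :
    H913.F1 T z a b c d e f p (p + (t6 - 6)) (p + t1) (p + t2) (p + t3) (p + t4) (p + t5) := by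
  have h := S.irr
  have hz := S.dpt
  obtain ⟨⟨ab, ac, ad, ae, af⟩, ⟨bc, bd, be, bf⟩, ⟨cd, ce, cf⟩, ⟨de, df⟩, ef⟩ := S.toCz.nd'
  have gapn : ∀ {u v : ℝ}, 0 ≤ u → v ≤ 6 → (∀ w, u < w → w < v →
      ¬ (w = 0 ∨ w = t1 ∨ w = t2 ∨ w = t3 ∨ w = t4 ∨ w = t5 ∨ w = t6)) →
      ∀ w, u < w → w < v → lq T z a b c d e f p w = 0 := by
    intro u v hu hv hno w h1 h2
    by_contra hne
    exact hno w h1 h2 (hn w (by linarith) (by linarith) hne)
  -- the status on the seven intervals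
  have s0 : ∀ t ∈ Ioo (p + 0) (p + t1), Stt T z a b c d 1 (pt z t) :=
    S.gap987 o1 (gapn le_rfl (by linarith) (by rintro w h1 h2 (k | k | k | k | k | k | k) <;> linarith))
      L0 (by decide)
  have s1 : ∀ t ∈ Ioo (p + t1) (p + t2), Stt T z a b c d 0 (pt z t) :=
    S.gap987 o2 (gapn (by linarith) (by linarith)
      (by rintro w h1 h2 (k | k | k | k | k | k | k) <;> linarith)) L1 (by decide)
  have s2 : ∀ t ∈ Ioo (p + t2) (p + t3), Stt T z a b c d 2 (pt z t) := by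
    have hg := gapn (u := t2) (v := t3) (by linarith) (by linarith)
      (by rintro w h1 h2 (k | k | k | k | k | k | k) <;> linarith)
    rcases L23 with k | k
    · exact S.gap987 o3 hg k.1 (by decide)
    · exact S.gap987 o3 hg k.1 (by decide)
  have s3 : ∀ t ∈ Ioo (p + t3) (p + t4), Stt T z a b c d 0 (pt z t) := by
    have hg := gapn (u := t3) (v := t4) (by linarith) (by linarith)
      (by rintro w h1 h2 (k | k | k | k | k | k | k) <;> linarith)
    rcases L23 with k | k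
    · exact S.gap987 o4 hg k.2 (by decide)
    · exact S.gap987 o4 hg k.2 (by decide)
  have s4 : ∀ t ∈ Ioo (p + t4) (p + t5), Stt T z a b c d 1 (pt z t) := by
    have hg := gapn (u := t4) (v := t5) (by linarith) (by linarith)
      (by rintro w h1 h2 (k | k | k | k | k | k | k) <;> linarith)
    rcases L45 with k | k
    · exact S.gap987 o5 hg k.1 (by decide)
    · exact S.gap987 o5 hg k.1 (by decide)
  have s5 : ∀ t ∈ Ioo (p + t5) (p + t6), Stt T z a b c d 0 (pt z t) := by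
    have hg := gapn (u := t5) (v := t6) (by linarith) (by linarith)
      (by rintro w h1 h2 (k | k | k | k | k | k | k) <;> linarith)
    rcases L45 with k | k
    · exact S.gap987 o6 hg k.2 (by decide)
    · exact S.gap987 o6 hg k.2 (by decide)
  have s6 : ∀ t ∈ Ioo (p + t6) (p + 6), Stt T z a b c d 2 (pt z t) :=
    S.gap987 o7 (gapn (by linarith) le_rfl
      (by rintro w h1 h2 (k | k | k | k | k | k | k) <;> linarith)) L6 (by decide)
  -- periodicity
  have per : ∀ t : ℝ, pt z (t + 6) = pt z t := fun t => pt_six z t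
  -- exact arcs
  have A0' : ∀ t ∈ Ioo p (p + t1), T (pt z t) = {a, b} := fun t ht =>
    ex_self (s0 t (by rw [add_zero]; exact ht))
  have A0 : ∀ t ∈ Ioo (p + (t6 - 6)) p, T (pt z t) = {c, d} := fun t ht => by
    rw [← per t]
    exact ex_self (s6 (t + 6) ⟨by linarith [ht.1], by linarith [ht.2]⟩)
  have A1 : ∀ t ∈ Ioo (p + t2) (p + t3), T (pt z t) = {c, d} := fun t ht => ex_self (s2 t ht)
  have A2 : ∀ t ∈ Ioo (p + t4) (p + t5), T (pt z t) = {a, b} := fun t ht => ex_self (s4 t ht)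
  -- palettes
  have P0 : T (pt z (p + (t6 - 6))) = {c, d, f} := by
    rw [← per, show p + (t6 - 6) + 6 = p + t6 by ring]
    exact pal_Q (Or.inr L6)
  have P0' : T (pt z (p + t1)) = {a, b, f} := pal_V' (Or.inl L1)
  have W1 : (T (pt z (p + t2)) = {c, d, e} ∧ T (pt z (p + t3)) = {c, d, f}) ∨
      (T (pt z (p + t2)) = {c, d, f} ∧ T (pt z (p + t3)) = {c, d, e}) := by
    rcases L23 with k | k
    · exact Or.inl ⟨pal_Q' (Or.inr k.1), pal_Q (Or.inl k.2)⟩
    · exact Or.inr ⟨pal_Q (Or.inr k.1), pal_Q' (Or.inl k.2)⟩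
  have W2 : (T (pt z (p + t4)) = {a, b, f} ∧ T (pt z (p + t5)) = {a, b, e}) ∨
      (T (pt z (p + t4)) = {a, b, e} ∧ T (pt z (p + t5)) = {a, b, f}) := by
    rcases L45 with k | k
    · exact Or.inl ⟨pal_V' (Or.inr k.1), pal_V (Or.inl k.2)⟩
    · exact Or.inr ⟨pal_V (Or.inr k.1), pal_V' (Or.inl k.2)⟩
  have TJ : T (pt z p) = T z := by
    have h1 : lbF true true T z a b c d e f (pt z (p + 0)) = 6 := L0
    rw [add_zero] at h1
    exact pal_J (Or.inr h1)
  -- labelled points are in `Ad`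
  have lab : ∀ u, lq T z a b c d e f p u ≠ 0 → p + u ∈ Ad T z {a, b} {c, d} := fun u hu =>
    S.lab_Ad hu
  have m0 : p ∈ Ad T z {a, b} {c, d} := by
    have := lab 0 (by rw [L0]; decide)
    rwa [add_zero] at this
  have m1 : p + t1 ∈ Ad T z {a, b} {c, d} := lab _ (by rw [L1]; decide)
  have m2 : p + t2 ∈ Ad T z {a, b} {c, d} := lab _ (by rcases L23 with k | k <;> rw [k.1] <;> decide)
  have m3 : p + t3 ∈ Ad T z {a, b} {c, d} := lab _ (by rcases L23 with k | k <;> rw [k.2] <;> decide)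
  have m4 : p + t4 ∈ Ad T z {a, b} {c, d} := lab _ (by rcases L45 with k | k <;> rw [k.1] <;> decide)
  have m5 : p + t5 ∈ Ad T z {a, b} {c, d} := lab _ (by rcases L45 with k | k <;> rw [k.2] <;> decide)
  have m6 : p + t6 ∈ Ad T z {a, b} {c, d} := lab _ (by rw [L6]; decide)
  have adp : ∀ t, t + 6 ∈ Ad T z {a, b} {c, d} ↔ t ∈ Ad T z {a, b} {c, d} := fun t => by
    show (pt z (t + 6) ∈ closure (Ex T z {a, b}) ∨ pt z (t + 6) ∈ closure (Ex T z {c, d})) ↔ _
    rw [per]; rfl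
  have m6' : p + (t6 - 6) ∈ Ad T z {a, b} {c, d} := by
    rw [← adp, show p + (t6 - 6) + 6 = p + t6 by ring]; exact m6
  -- lengths
  have l1 : t1 ≤ 1 := by
    by_contra hc
    push Not at hc
    refine H695.no_one h (u := p + (t1 - 1) / 2) (Set.ncard_pair ab)
      (A0' _ ⟨by linarith, by linarith⟩) (A0' _ ⟨by linarith, by linarith⟩)
  have l5 : t5 ≤ 5 := by
    by_contra hc
    push Not at hc
    set m := min (t5 - 5) t1 / 2 with hm
    have hm0 : 0 < min (t5 - 5) t1 := lt_min (by linarith) o1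
    have hm1 := min_le_left (t5 - 5) t1
    have hm2 := min_le_right (t5 - 5) t1
    refine H695.no_one h (u := p + (5 + m)) (Set.ncard_pair ab)
      (A2 _ ⟨by linarith, by linarith⟩) ?_
    rw [show p + (5 + m) + 1 = p + m + 6 by ring, per]
    exact A0' _ ⟨by linarith, by linarith⟩
  have l4 : 3 < t4 := by
    rcases f4.lt_or_eq with k | k
    · exact k
    · exfalso
      have h1 : pt z (p + t4) ∈ closure (Ex T z {a, b}) :=
        cl_aft ⟨p + t5, by linarith, fun v hv => s4 v hv⟩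
      rw [← k, pt_three] at h1
      refine h.anti_clo hz (dist_pt z p) ?_ ?_ h1
      · rw [TJ, hz.pal]; simp
      · rw [TJ, hz.pal]; simp
  -- the block of the J-partner has length one
  have hlen : p + t1 = p + (t6 - 6) + 1 := by
    obtain ⟨P, N, Y, G, gb, ga⟩ := J
    refine (G.neg.eq_block' (b := p + (t6 - 6)) (b' := p + t1) (by linarith) ?_ ?_ ?_ ?_ ?_ ?_).1
    · rintro t ⟨h1, h2⟩
      rcases lt_trichotomy t p with k | k | k
      · rcases h1.lt_or_eq with k' | k'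
        · rw [← adp]
          exact stt2_Ad (s6 (t + 6) ⟨by linarith, by linarith⟩)
        · rw [← k']; exact m6'
      · rw [k]; exact m0
      · rcases h2.lt_or_eq with k' | k'
        · exact stt1_Ad (s0 t ⟨by linarith, k'⟩)
        · rw [k']; exact m1
    · intro t h1 h2 hA
      rw [← adp] at hA
      exact stt0_Ad (s5 (t + 6) ⟨by linarith, by linarith⟩) hA
    · intro t h1 h2 hA
      exact stt0_Ad (s1 t ⟨h1, by linarith⟩) hA
    · filter_upwards [Ioo_mem_nhdsLT (show p + (t5 - 6) < p + (t6 - 6) by linarith)] with t ht hA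
      rw [← adp] at hA
      exact stt0_Ad (s5 (t + 6) ⟨by linarith [ht.1], by linarith [ht.2]⟩) hA
    · filter_upwards [Ioo_mem_nhdsGT (show p + t1 < p + t2 by linarith)] with t ht hA
      exact stt0_Ad (s1 t ht) hA
    · left
      refine ⟨?_, ?_⟩
      · refine gb _ ?_ ?_
        · filter_upwards [Ioo_mem_nhdsLT (show p + (t5 - 6) < p + (t6 - 6) by linarith)] with t ht hA
          rw [← adp] at hA
          exact stt0_Ad (s5 (t + 6) ⟨by linarith [ht.1], by linarith [ht.2]⟩) hA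
        · rw [P0]
          rintro (k | k | k)
          exacts [ce k.symm, de k.symm, ef k]
      · refine ga _ ?_ ?_
        · filter_upwards [Ioo_mem_nhdsGT (show p + t1 < p + t2 by linarith)] with t ht hA
          exact stt0_Ad (s1 t ht) hA
        · rw [P0']
          rintro (k | k | k)
          exacts [ae k.symm, be k.symm, ef k]
  refine ⟨⟨by linarith, by linarith, by linarith, by linarith, by linarith, by linarith,
    by linarith, by linarith, by linarith, by linarith, ?_⟩, A0, A0', A1, A2, P0, P0', W1, W2⟩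
  intro t h1 h2
  constructor
  · intro hA
    by_contra hcon
    rw [not_or, not_or, not_and_or, not_and_or, not_and_or] at hcon
    simp only [not_le] at hcon
    obtain ⟨k0, k1, k2⟩ := hcon
    rcases k0 with k0 | k0
    · rw [← adp] at hA
      exact stt0_Ad (s5 (t + 6) ⟨by linarith, by linarith⟩) hA
    · rcases k1 with k1 | k1
      · exact stt0_Ad (s1 t ⟨k0, k1⟩) hA
      · rcases k2 with k2 | k2
        · exact stt0_Ad (s3 t ⟨k1, k2⟩) hA
        · exact stt0_Ad (s5 t ⟨k2, by linarith⟩) hA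
  · rintro (⟨k1, k2⟩ | ⟨k1, k2⟩ | ⟨k1, k2⟩)
    · rcases lt_trichotomy t p with k | k | k
      · rcases k1.lt_or_eq with k' | k'
        · rw [← adp]
          exact stt2_Ad (s6 (t + 6) ⟨by linarith, by linarith⟩)
        · rw [← k']; exact m6'
      · rw [k]; exact m0
      · rcases k2.lt_or_eq with k' | k'
        · exact stt1_Ad (s0 t ⟨by linarith, k'⟩)
        · rw [k']; exact m1
    · rcases k1.lt_or_eq with k | k
      · rcases k2.lt_or_eq with k' | k'
        · exact stt2_Ad (s2 t ⟨k, k'⟩)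
        · rw [k']; exact m3
      · rw [← k]; exact m2
    · rcases k1.lt_or_eq with k | k
      · rcases k2.lt_or_eq with k' | k'
        · exact stt1_Ad (s4 t ⟨k, k'⟩)
        · rw [k']; exact m5
      · rw [← k]; exact m4

/-- **the list theorem gives the blocks** -/
theorem f1_of (S : CzF true true U T z a b c d e f)
    (J : JPair U T z y a b c d e f ∨ JPair U T z y a b d c e f) (hφ : pt z p = y) {l : List (ℝ × ℕ)}
    (hl : H546.Lst true true T z a b c d e f p H546.wds1 [0, 0, 1, 1, 3, 3, 5]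
      [0, 1, 2, 2, 4, 5, 5] l) :
    ∃ x0 x0' x1 x1' x2 x2', H913.F1 T z a b c d e f p x0 x0' x1 x1' x2 x2' := by
  obtain ⟨h1, h2, h3, h4, h5, h6⟩ := hl
  have hlen : l.length = 7 := by
    have := h5.length_eq
    simpa using this.symm
  obtain ⟨q0, q1, q2, q3, q4, q5, q6, rfl⟩ :
      ∃ q0 q1 q2 q3 q4 q5 q6, l = [q0, q1, q2, q3, q4, q5, q6] := by
    match l, hlen with
    | [q0, q1, q2, q3, q4, q5, q6], _ => exact ⟨q0, q1, q2, q3, q4, q5, q6, rfl⟩
  simp only [List.map_cons, List.map_nil, List.forall₂_cons, List.forall₂_nil_left_iff, and_true]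
    at h5 h6
  simp only [List.map_cons, List.map_nil, List.pairwise_cons, List.mem_cons, List.not_mem_nil,
    or_false, List.Pairwise.nil, and_true] at h1
  have o1 : q0.1 < q1.1 := h1.1 _ (Or.inl rfl)
  have o2 : q1.1 < q2.1 := h1.2.1 _ (Or.inl rfl)
  have o3 : q2.1 < q3.1 := h1.2.2.1 _ (Or.inl rfl)
  have o4 : q3.1 < q4.1 := h1.2.2.2.1 _ (Or.inl rfl)
  have o5 : q4.1 < q5.1 := h1.2.2.2.2.1 _ (Or.inl rfl)
  have o6 : q5.1 < q6.1 := h1.2.2.2.2.2.1 _ rfl
  have r0 := h2 q0 (by simp)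
  have r1 := h2 q1 (by simp)
  have r2 := h2 q2 (by simp)
  have r3 := h2 q3 (by simp)
  have r4 := h2 q4 (by simp)
  have r5 := h2 q5 (by simp)
  have r6 := h2 q6 (by simp)
  have hmem : ∀ t, 0 ≤ t → t < 6 → lq T z a b c d e f p t ≠ 0 → t = q0.1 ∨ t = q1.1 ∨ t = q2.1 ∨
      t = q3.1 ∨ t = q4.1 ∨ t = q5.1 ∨ t = q6.1 := by
    intro t k1 k2 k3
    obtain ⟨x, hx, hxt⟩ := h3 t k1 k2 k3
    simp only [List.mem_cons, List.not_mem_nil, or_false] at hx
    rcases hx with rfl | rfl | rfl | rfl | rfl | rfl | rfl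
    · exact Or.inl hxt.symm
    · exact Or.inr (Or.inl hxt.symm)
    · exact Or.inr (Or.inr (Or.inl hxt.symm))
    · exact Or.inr (Or.inr (Or.inr (Or.inl hxt.symm)))
    · exact Or.inr (Or.inr (Or.inr (Or.inr (Or.inl hxt.symm))))
    · exact Or.inr (Or.inr (Or.inr (Or.inr (Or.inr (Or.inl hxt.symm)))))
    · exact Or.inr (Or.inr (Or.inr (Or.inr (Or.inr (Or.inr hxt.symm)))))
  have TJ : T (pt z p) = T z := by
    rw [hφ]
    rcases J with J | J
    · exact J.Tyz
    · exact J.Tyz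
  have z0 : q0.1 = 0 := by
    have k := hmem 0 le_rfl (by norm_num) (by
      show lbF true true T z a b c d e f (pt z (p + 0)) ≠ 0
      rw [add_zero]
      unfold lbF
      rw [if_pos TJ]
      split_ifs <;> decide)
    have k0 := r0.1
    rcases k with k | k | k | k | k | k | k <;> linarith
  have tr : ∀ {q : ℝ × ℕ} {n : ℕ} (x : Fin 11), x.val = n →
      (lbF true true T z a b c d e f (pt z (p + q.1))).val = q.2 → q.2 = n →
      lq T z a b c d e f p q.1 = x := by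
    intro q n x hx k1 k2
    exact Fin.ext (by rw [hx, ← k2, ← k1])
  have fl : ∀ {t : ℝ} {n : ℕ}, 0 ≤ t → n ≤ ⌊t⌋₊ → (n : ℝ) ≤ t := fun ht hn =>
    (Nat.cast_le.2 hn).trans (Nat.floor_le ht)
  have fu : ∀ {t : ℝ} {n : ℕ}, ⌊t⌋₊ ≤ n → t < n + 1 := fun {t n} hn =>
    lt_of_lt_of_le (Nat.lt_floor_add_one t) (by exact_mod_cast Nat.succ_le_succ hn)
  obtain ⟨-, -, a2, -, a4, -, a6⟩ := h5
  obtain ⟨-, -, -, b3, b4, -, -⟩ := h6
  have f2 : (1 : ℝ) ≤ q2.1 := by have := fl r2.1 a2; exact_mod_cast this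
  have f3 : q3.1 < 3 := by have := fu b3; push_cast at this; linarith
  have f4 : (3 : ℝ) ≤ q4.1 := by have := fl r4.1 a4; exact_mod_cast this
  have f4' : q4.1 < 5 := by have := fu b4; push_cast at this; linarith
  have f6 : (5 : ℝ) ≤ q6.1 := by have := fl r6.1 a6; exact_mod_cast this
  simp only [H546.wds1, List.mem_cons, List.not_mem_nil, or_false, List.map_cons, List.map_nil,
    List.cons.injEq, and_true] at h4
  have hw : q0.2 = 6 ∧ q1.2 = 7 ∧ ((q2.2 = 10 ∧ q3.2 = 3) ∨ (q2.2 = 4 ∧ q3.2 = 9)) ∧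
      ((q4.2 = 8 ∧ q5.2 = 1) ∨ (q4.2 = 2 ∧ q5.2 = 7)) ∧ q6.2 = 4 := by
    omega
  obtain ⟨w0, w1, w23, w45, w6⟩ := hw
  refine ⟨_, _, _, _, _, _, f1_core S (sgE_of J) (t1 := q1.1) (t2 := q2.1) (t3 := q3.1) (t4 := q4.1)
    (t5 := q5.1) (t6 := q6.1) (by rw [← z0]; exact o1) o2 o3 o4 o5 o6 r6.2.1 ?_ ?_
    (tr 7 rfl r1.2.2.2 w1) ?_ ?_ (tr 4 rfl r6.2.2.2 w6) f2 f3 f4 f4' f6⟩
  · intro t k1 k2 k3
    rw [← z0]
    exact hmem t k1 k2 k3
  · have := tr 6 rfl r0.2.2.2 w0
    rwa [z0] at this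
  · rcases w23 with ⟨k1, k2⟩ | ⟨k1, k2⟩
    · exact Or.inl ⟨tr 10 rfl r2.2.2.2 k1, tr 3 rfl r3.2.2.2 k2⟩
    · exact Or.inr ⟨tr 4 rfl r2.2.2.2 k1, tr 9 rfl r3.2.2.2 k2⟩
  · rcases w45 with ⟨k1, k2⟩ | ⟨k1, k2⟩
    · exact Or.inl ⟨tr 8 rfl r4.2.2.2 k1, tr 1 rfl r5.2.2.2 k2⟩
    · exact Or.inr ⟨tr 2 rfl r4.2.2.2 k1, tr 7 rfl r5.2.2.2 k2⟩

end Vale.Agent.P032.H987
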