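import Vale.Agent.P032.H987.Cls

/-!
# P032: one circle with zones, the class theorem (helper987)

`Zn T z a b c d p q` : the closed exact directions (in units of 60 degrees) of the pair `ab` lie in
`[p, q]` modulo `3`, those of `cd` in `[q, p + 3]` modulo `3`.  Base angle `p`: at the time `u` the
slots `j` with `u + j % 3 < q - p` are in the zone `A`, those with `q - p < u + j % 3` in the zone `C`.

* `Zok k h` : the column `h` obeys the zones in the phase `k` (slots `j` with `j % 3 < k` in zone `A`);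
* `ZCh k cl E l h h'` : chain of classes in the phase `k` through the special times `l`;
* `Cz.zpath` : the full turn, with the zone time `s`.
-/

open Set Filter Topology Metric

noncomputable section

namespace Vale.Agent.P032.H987

open Vale.Agent.P032.Six Vale.Agent.P032.S5.H767 Vale.Agent.P032.S5.H122 Vale.Agent.P032.Sweep

open Cz (tau finite_times)

variable {U : Fin 6 → Set ℂ} {T : ℂ → Set (Fin 6)} {z : ℂ} {a b c d e f : Fin 6} {p q : ℝ}

/-- zones (angles in units of 60 degrees) -/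
structure Zn (T : ℂ → Set (Fin 6)) (z : ℂ) (a b c d : Fin 6) (p q : ℝ) : Prop where
  lt : p < q
  lt' : q < p + 3
  zA : ∀ u, pt z u ∈ closure (Ex T z {a, b}) → ∃ n : ℤ, p ≤ u + 3 * n ∧ u + 3 * n ≤ q
  zC : ∀ u, pt z u ∈ closure (Ex T z {c, d}) → ∃ n : ℤ, q ≤ u + 3 * n ∧ u + 3 * n ≤ p + 3

/-- the column obeys the zones: the slots `j` with `j % 3 < k` are in the zone `A` -/
def Zok (k : ℕ) (h : Fin 6 → Fin 4) : Prop :=
  ∀ j, (j.val % 3 < k → h j ≠ 3) ∧ (k ≤ j.val % 3 → h j ≠ 2)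

instance (k : ℕ) (h : Fin 6 → Fin 4) : Decidable (Zok k h) := by unfold Zok; infer_instance

/-- the times of the phase `k` -/
structure Ph (Q : ℝ) (k : ℕ) (u : ℝ) : Prop where
  pos : 0 < u
  lt1 : u < 1
  inA : ∀ i : ℕ, i < 3 → i < k → u + i < Q
  inC : ∀ i : ℕ, i < 3 → k ≤ i → Q < u + i

theorem Zn.zok (Z : Zn T z a b c d p q) (S : Cz U T z a b c d e f) {k : ℕ} {u : ℝ}
    (hp : Ph (q - p) k u) {g : Unit × Fin 6 → Fin 4} (hg : Av (XX T z a b e f p) u g) :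
    Zok k (fun j => g ((), j)) := by
  have hlt := Z.lt
  have hlt' := Z.lt'
  have h0 := hp.pos
  have h1 := hp.lt1
  intro j
  have hj6 := j.isLt
  set i := j.val % 3 with hi
  set m := j.val / 3 with hm
  have hjm : j.val = 3 * m + i := by omega
  have hi3 : i < 3 := Nat.mod_lt _ (by norm_num)
  have hjr : (j.val : ℝ) = 3 * (m : ℝ) + (i : ℝ) := by rw [hjm]; push_cast; ring
  have hi0 : (0 : ℝ) ≤ (i : ℝ) := Nat.cast_nonneg _
  have hi2 : (i : ℝ) ≤ 2 := by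
    have : i ≤ 2 := by omega
    exact_mod_cast this
  constructor
  · intro hk h3
    have h3 : g ((), j) = 3 := h3
    have hmem := S.mem_Lt (hg ((), j))
    rw [h3] at hmem
    have hmem : pt z (p + u + (j.val : ℝ)) ∈ closure (Ex T z {c, d}) := hmem
    obtain ⟨n, hn1, hn2⟩ := Z.zC _ hmem
    have hA := hp.inA i hi3 hk
    set N : ℤ := n + m with hN
    have e1 : p + u + (j.val : ℝ) + 3 * (n : ℝ) = p + (u + i + 3 * (N : ℝ)) := by
      rw [hjr, hN]; push_cast; ring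
    rw [e1] at hn1 hn2
    rcases lt_trichotomy N 0 with h4 | h4 | h4
    · have h5 : (N : ℝ) ≤ -1 := by exact_mod_cast (by omega : N ≤ -1)
      linarith
    · rw [h4] at hn1; push_cast at hn1; linarith
    · have h5 : (1 : ℝ) ≤ (N : ℝ) := by exact_mod_cast (by omega : 1 ≤ N)
      linarith
  · intro hk h2
    have h2 : g ((), j) = 2 := h2
    have hmem := S.mem_Lt (hg ((), j))
    rw [h2] at hmem
    have hmem : pt z (p + u + (j.val : ℝ)) ∈ closure (Ex T z {a, b}) := hmem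
    obtain ⟨n, hn1, hn2⟩ := Z.zA _ hmem
    have hC := hp.inC i hi3 hk
    set N : ℤ := n + m with hN
    have e1 : p + u + (j.val : ℝ) + 3 * (n : ℝ) = p + (u + i + 3 * (N : ℝ)) := by
      rw [hjr, hN]; push_cast; ring
    rw [e1] at hn1 hn2
    rcases lt_trichotomy N 0 with h4 | h4 | h4
    · have h5 : (N : ℝ) ≤ -1 := by exact_mod_cast (by omega : N ≤ -1)
      linarith
    · rw [h4] at hn2; push_cast at hn2; linarith
    · have h5 : (1 : ℝ) ≤ (N : ℝ) := by exact_mod_cast (by omega : 1 ≤ N)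
      linarith

/-- left limit columns at the right end of a phase -/
theorem Zn.zok_LC (Z : Zn T z a b c d p q) (S : Cz U T z a b c d e f) {k : ℕ} {α u : ℝ}
    (hα : α < u) (hp : ∀ v ∈ Ioo α u, Ph (q - p) k v) {g : Unit × Fin 6 → Fin 4}
    (hg : g ∈ LC (XX T z a b e f p) u) : Zok k (fun j => g ((), j)) := by
  obtain ⟨v, hv, hvI⟩ := (Frequently.and_eventually hg (Ioo_mem_nhdsLT hα)).exists
  exact Z.zok S (hp v hvI) hv.2

/-- right limit columns at the left end of a phase -/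
theorem Zn.zok_RC (Z : Zn T z a b c d p q) (S : Cz U T z a b c d e f) {k : ℕ} {β u : ℝ}
    (hβ : u < β) (hp : ∀ v ∈ Ioo u β, Ph (q - p) k v) {g : Unit × Fin 6 → Fin 4}
    (hg : g ∈ RC (XX T z a b e f p) u) : Zok k (fun j => g ((), j)) := by
  obtain ⟨v, hv, hvI⟩ := (Frequently.and_eventually hg (Ioo_mem_nhdsGT hβ)).exists
  exact Z.zok S (hp v hvI) hv.2

/-- chain of classes in the phase `k` -/
def ZCh {σ : Type} (k : ℕ) (cl : (Fin 6 → Fin 4) → σ) :
    List (Fin 6 → Fin 4) → (Fin 6 → Fin 4) → (Fin 6 → Fin 4) → Prop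
  | [], h, h' => Zok k h ∧ Zok k h' ∧ cl h = cl h'
  | τ :: l, h, h' => ∃ g g', (Zok k h ∧ Zok k g ∧ cl h = cl g) ∧ Tie τ g g' ∧ ZCh k cl l g' h'

theorem zch_of_cmp {σ : Type} {k : ℕ} {cl : (Fin 6 → Fin 4) → σ} {E : ℝ → Fin 6 → Fin 4} :
    ∀ {l : List ℝ} {h h' : Unit × Fin 6 → Fin 4},
    Cmp (fun g g' => Zok k (fun j => g ((), j)) ∧ Zok k (fun j => g' ((), j)) ∧
        cl (fun j => g ((), j)) = cl (fun j => g' ((), j)))
      (fun s g g' => Tie (E s) (fun j => g ((), j)) (fun j => g' ((), j))) l h h' →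
    ZCh k cl (l.map E) (fun j => h ((), j)) (fun j => h' ((), j)) := by
  intro l
  induction l with
  | nil => intro h h' hc; exact hc
  | cons s l ih =>
    rintro h h' ⟨g, g', h1, h2, h3⟩
    exact ⟨_, _, h1, h2, ih h3⟩

/-- the special times of an interval -/
theorem finite_times' (hfin : {y | dist y z = 1 ∧ ty T z a b c d e f y ≠ 0}.Finite) (φ α β : ℝ)
    (hα : 0 ≤ α) (hβ : β ≤ 1) :
    {u | u ∈ Ioo α β ∧ ∃ j, tau T z a b c d e f φ u j ≠ 0}.Finite :=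
  (finite_times hfin φ).subset fun _ hu => ⟨⟨lt_of_le_of_lt hα hu.1.1, lt_of_lt_of_le hu.1.2 hβ⟩, hu.2⟩

/-- one phase -/
theorem Cz.phase (S : Cz U T z a b c d e f) (Z : Zn T z a b c d p q)
    (hfin : {y | dist y z = 1 ∧ ty T z a b c d e f y ≠ 0}.Finite) {σ : Type} {k : ℕ}
    {cl : (Fin 6 → Fin 4) → σ}
    (hcl : ∀ h h', Zok k h → Zok k h' → Tie (fun _ => 0) h h' → cl h = cl h') {α β : ℝ}
    (hα : 0 ≤ α) (hβ : β ≤ 1) (hαβ : α < β) (hp : ∀ v ∈ Ioo α β, Ph (q - p) k v)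
    {h h' : Unit × Fin 6 → Fin 4} (hh : h ∈ RC (XX T z a b e f p) α)
    (hh' : h' ∈ LC (XX T z a b e f p) β) :
    ∃ l : List ℝ, l.Pairwise (· < ·) ∧
      (∀ u, u ∈ l ↔ u ∈ Ioo α β ∧ ∃ j, tau T z a b c d e f p u j ≠ 0) ∧
      ZCh k cl (l.map (tau T z a b c d e f p)) (fun j => h ((), j)) (fun j => h' ((), j)) := by
  have w := S.sw p
  set F := (finite_times' hfin p α β hα hβ).toFinset with hF
  have hmem : ∀ u, u ∈ F ↔ u ∈ Ioo α β ∧ ∃ j, tau T z a b c d e f p u j ≠ 0 := fun u => by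
    rw [hF, Set.Finite.mem_toFinset]; exact Iff.rfl
  refine ⟨F.sort (· ≤ ·), (Finset.sortedLT_sort F).pairwise, fun u => by
    rw [Finset.mem_sort]; exact hmem u, ?_⟩
  have hz : ∀ u ∈ Ioo α β, ∀ g ∈ LC (XX T z a b e f p) u ∪ RC (XX T z a b e f p) u,
      Zok k (fun j => g ((), j)) := by
    rintro u hu g (hg | hg)
    · exact Z.zok_LC S hu.1 (fun v hv => hp v ⟨hv.1, hv.2.trans hu.2⟩) hg
    · exact Z.zok_RC S hu.2 (fun v hv => hp v ⟨hu.1.trans hv.1, hv.2⟩) hg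
  have h1 := w.sweep_finset
    (R := fun g g' => Zok k (fun j => g ((), j)) ∧ Zok k (fun j => g' ((), j)) ∧
        cl (fun j => g ((), j)) = cl (fun j => g' ((), j)))
    (fun _ _ _ h1 h2 => ⟨h1.1, h2.2.1, h1.2.2.trans h2.2.2⟩)
    (E := fun s g g' => Tie (tau T z a b c d e f p s) (fun j => g ((), j)) (fun j => g' ((), j)))
    hαβ F (fun s hs => ((hmem s).1 hs).1)
    (fun s _ h hh h' hh' => S.tie (Or.inl hh) (Or.inr hh'))
    (fun u hu hnot h hh h' hh' => by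
      have h2 := S.tie hh hh'
      have h3 : tau T z a b c d e f p u = fun _ => 0 := by
        funext j
        by_contra hne
        exact hnot ((hmem u).2 ⟨hu, j, hne⟩)
      rw [h3] at h2
      exact ⟨hz u hu _ hh, hz u hu _ hh', hcl _ _ (hz u hu _ hh) (hz u hu _ hh') h2⟩)
    h hh h' hh'
  exact zch_of_cmp h1

/-- **The class theorem with zones.**  `j0 + s = q - p`; base angle `p`. -/
theorem Cz.zpath (S : Cz U T z a b c d e f) (Z : Zn T z a b c d p q)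
    (hfin : {y | dist y z = 1 ∧ ty T z a b c d e f y ≠ 0}.Finite) {σ : Type}
    {cl : ℕ → (Fin 6 → Fin 4) → σ}
    (hcl : ∀ k h h', Zok k h → Zok k h' → Tie (fun _ => 0) h h' → cl k h = cl k h') :
    ∃ (j0 : ℕ) (s : ℝ), j0 < 3 ∧ 0 ≤ s ∧ s < 1 ∧ q = p + j0 + s ∧
      ((s = 0 ∧ 0 < j0 ∧ ∃ (l : List ℝ) (h h' : Fin 6 → Fin 4), l.Pairwise (· < ·) ∧
        (∀ u, u ∈ l ↔ u ∈ Ioo (0 : ℝ) 1 ∧ ∃ j, tau T z a b c d e f p u j ≠ 0) ∧
        Tie (tau T z a b c d e f p 0) h h' ∧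
        ZCh j0 (cl j0) (l.map (tau T z a b c d e f p)) h' (fun j => h (j + 1))) ∨
       (0 < s ∧ ∃ (l l' : List ℝ) (h h' g g' : Fin 6 → Fin 4), l.Pairwise (· < ·) ∧
        l'.Pairwise (· < ·) ∧
        (∀ u, u ∈ l ↔ u ∈ Ioo (0 : ℝ) s ∧ ∃ j, tau T z a b c d e f p u j ≠ 0) ∧
        (∀ u, u ∈ l' ↔ u ∈ Ioo s 1 ∧ ∃ j, tau T z a b c d e f p u j ≠ 0) ∧
        Tie (tau T z a b c d e f p 0) h h' ∧
        ZCh (j0 + 1) (cl (j0 + 1)) (l.map (tau T z a b c d e f p)) h' g ∧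
        Tie (tau T z a b c d e f p s) g g' ∧
        ZCh j0 (cl j0) (l'.map (tau T z a b c d e f p)) g' (fun j => h (j + 1)))) := by
  have w := S.sw p
  have hlt := Z.lt
  have hlt' := Z.lt'
  obtain ⟨j0, s, hj0, hs0, hs1, hq⟩ : ∃ (j0 : ℕ) (s : ℝ), j0 < 3 ∧ 0 ≤ s ∧ s < 1 ∧
      q = p + j0 + s := by
    refine ⟨⌊q - p⌋₊, Int.fract (q - p), ?_, Int.fract_nonneg _, Int.fract_lt_one _, ?_⟩
    · rw [Nat.floor_lt (by linarith)]
      push_cast; linarith
    · have h1 := Int.floor_add_fract (q - p)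
      have h2 : ((⌊q - p⌋₊ : ℕ) : ℝ) = ((⌊q - p⌋ : ℤ) : ℝ) := by
        rw [← natCast_floor_eq_intCast_floor (by linarith)]
      rw [h2]; linarith
  refine ⟨j0, s, hj0, hs0, hs1, hq, ?_⟩
  have hQ : q - p = j0 + s := by rw [hq]; ring
  -- the phases
  have ph2 : ∀ v ∈ Ioo s 1, Ph (q - p) j0 v := by
    intro v hv
    refine ⟨lt_of_le_of_lt hs0 hv.1, hv.2, fun i _ h2 => ?_, fun i _ h2 => ?_⟩
    · have h3 : (i : ℝ) + 1 ≤ (j0 : ℝ) := by exact_mod_cast h2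
      rw [hQ]; linarith [hv.2]
    · have h3 : (j0 : ℝ) ≤ (i : ℝ) := by exact_mod_cast h2
      rw [hQ]; linarith [hv.1]
  have ph1 : ∀ v ∈ Ioo 0 s, Ph (q - p) (j0 + 1) v := by
    intro v hv
    refine ⟨hv.1, hv.2.trans hs1, fun i _ h2 => ?_, fun i _ h2 => ?_⟩
    · have h3 : (i : ℝ) ≤ (j0 : ℝ) := by exact_mod_cast (by omega : i ≤ j0)
      rw [hQ]; linarith [hv.2]
    · have h3 : (j0 : ℝ) + 1 ≤ (i : ℝ) := by exact_mod_cast h2
      rw [hQ]; linarith [hv.1]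
  obtain ⟨g0, hg0⟩ := w.LC_ne 0
  obtain ⟨g0', hg0'⟩ := w.RC_ne 0
  have hrot : g0 ∘ rt Unit ∈ LC (XX T z a b e f p) 1 := by
    have := LC_shift (X := XX T z a b e f p) (σ := rt Unit) (fun s l u => Xl_per s l u) hg0
    rwa [zero_add] at this
  rcases hs0.eq_or_lt with hs | hs
  · left
    subst hs
    refine ⟨rfl, ?_, ?_⟩
    · rcases Nat.eq_zero_or_pos j0 with h0 | h0
      · subst h0; push_cast at hQ; linarith
      · exact h0
    · obtain ⟨l, h1, h2, h3⟩ := S.phase Z hfin (hcl j0) le_rfl le_rfl one_pos ph2 hg0' hrot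
      exact ⟨l, fun j => g0 ((), j), fun j => g0' ((), j), h1, h2, S.tie (Or.inl hg0) (Or.inr hg0'),
        h3⟩
  · right
    refine ⟨hs, ?_⟩
    obtain ⟨g1, hg1⟩ := w.LC_ne s
    obtain ⟨g1', hg1'⟩ := w.RC_ne s
    obtain ⟨l, h1, h2, h3⟩ := S.phase Z hfin (hcl (j0 + 1)) le_rfl hs1.le hs ph1 hg0' hg1
    obtain ⟨l', h1', h2', h3'⟩ := S.phase Z hfin (hcl j0) hs0 le_rfl hs1 ph2 hg1' hrot
    exact ⟨l, l', fun j => g0 ((), j), fun j => g0' ((), j), fun j => g1 ((), j),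
      fun j => g1' ((), j), h1, h1', h2, h2', S.tie (Or.inl hg0) (Or.inr hg0'), h3,
      S.tie (Or.inl hg1) (Or.inr hg1'), h3'⟩

end Vale.Agent.P032.H987
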